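import Vale.Agent.P179.R2.H452.Bound
import Vale.Agent.P179.R2.H843.P7m
import Vale.Agent.P179.R2.H725.Ind
import Vale.Agent.P179.R2.H292.Rank
import Vale.Agent.P179.R2.H443.Glue

/-!
# The bound `l(B) ≤ 4 e |Ω_J(D)|` and the equality from the congruence
-/

namespace P179H452

open Subgroup P179Y P179P P179H524 P179I P179A P179C

open P179B (inertialGroup inertialIndex)

open P179H725 (Star)

open P179H292 (omS)

open scoped Classical

universe v

section Group

variable {p : ℕ} [hp : Fact p.Prime] {G : Type*} [Group G] [Finite G]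

/-- if the inertial quotient is not trivial the exponent of `D` is at least `p ^ (a + 1)` -/
theorem pow_le_card_of_star {D T : Subgroup G} (hD : IsPGroup p D) {a : ℕ}
    (hstar : Star p a D T) (hT : ¬ ∀ n ∈ T, n ∈ centralizer (D : Set G)) :
    p ^ (a + 1) ≤ Nat.card D := by
  push Not at hT
  obtain ⟨n, hn, hnC⟩ := hT
  have h1 : ∃ d ∈ D, d ^ p ^ a ≠ 1 := by
    by_contra hcon
    push Not at hcon
    refine hnC (hstar n hn fun d hd => ?_)
    rw [hcon d hd]
    group
  obtain ⟨d, hd, hda⟩ := h1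
  obtain ⟨j, hj⟩ := IsPGroup.iff_orderOf.1 hD ⟨d, hd⟩
  rw [Subgroup.orderOf_mk] at hj
  have h2 : a + 1 ≤ j := by
    by_contra hlt
    apply hda
    rw [← orderOf_dvd_iff_pow_eq_one, hj]
    exact pow_dvd_pow p (by omega)
  have h3 : orderOf d ≤ Nat.card D := by
    have := _root_.orderOf_le_card (x := (⟨d, hd⟩ : D))
    rwa [Subgroup.orderOf_mk] at this
  refine le_trans ?_ h3
  rw [hj]
  exact Nat.pow_le_pow_right hp.out.pos h2

end Group

section

variable {p : ℕ} [hp : Fact p.Prime] {k : Type v} [Field k] [IsAlgClosed k] [CharP k p]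
  (red : integralClosure ℤ ℂ →+* k) {G : Type} [Group G] [Finite G]

include red in
/-- **(M6)** the number of simple modules is at most `4 e |Ω_J(D)|`, `p ^ J > 128 e ^ 2` -/
theorem numSimpleIn_le {B : MonoidAlgebra k G} (hB : IsBlock B) {D : Subgroup G}
    (hD : IsDefectGroup B D) (hab : ∀ a ∈ D, ∀ b ∈ D, a * b = b * a)
    {β : MonoidAlgebra k (centralizer (D : Set G))} (hβ : IsBlock β) (hβB : InducesTo β B)
    (hp2 : p ≠ 2) {a : ℕ} (hstar : Star p a D (inertialGroup D β))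
    (h8 : 8 * inertialIndex D β ≤ p ^ (a + 1)) (hDa : p ^ (a + 1) ≤ Nat.card D) {J : ℕ}
    (hJ : 128 * inertialIndex D β ^ 2 < p ^ J) :
    numSimpleIn B ≤ 4 * inertialIndex D β * Nat.card (omS hab (p ^ J)) := by
  have := Fintype.ofFinite G
  obtain ⟨hDp, -⟩ := exists_BP_of_block (p := p) B hB D hD
  obtain ⟨l, hl, hlz, hlb⟩ := exists_BP_of_subblock (p := p) hB hD hab hβ hβB
  have hT := stabT_eq_inertialGroup hβ hlb
  have he : inertialIndex D β = (centralizer (D : Set G)).relIndex (stabT D l) := by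
    rw [hT]
    rfl
  obtain ⟨m, hmc, hm1, hmp, hgen⟩ := P179Y.exists_exp1 (p := p) hp2 (Nat.card G) Nat.card_pos.ne'
  have h1 := numSimpleIn_le_Srat red hB hDp hab hl hlz (hT_of_block hB hD hDp hab hl hlz)
    hmc hm1 hmp
  rw [he] at h8 hJ ⊢
  refine h1.trans (Srat_le red hB hD hDp hab hl hlz hp2 (a + 1) ?_ h8 hDa hm1 hgen hJ)
  rw [hT]
  exact hstar

/-- `|W_p(B)| ≤ e` -/
theorem numWeightsIn_le {B : MonoidAlgebra k G} (hB : IsBlock B) {D : Subgroup G}
    (hD : IsDefectGroup B D) (hab : ∀ a ∈ D, ∀ b ∈ D, a * b = b * a)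
    {β : MonoidAlgebra k (centralizer (D : Set G))} (hβ : IsBlock β) (hβB : InducesTo β B) :
    numWeightsIn p red B ≤ inertialIndex D β := by
  have := Fintype.ofFinite G
  obtain ⟨hDp, -⟩ := exists_BP_of_block (p := p) B hB D hD
  obtain ⟨l, hl, hlz, hlb⟩ := exists_BP_of_subblock (p := p) hB hD hab hβ hβB
  have hT := stabT_eq_inertialGroup hβ hlb
  have he : inertialIndex D β = (centralizer (D : Set G)).relIndex (stabT D l) := by
    rw [hT]
    rfl
  have hab' : D ≤ centralizer (D : Set G) := by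
    intro x hx
    rw [mem_centralizer_iff]
    intro y hy
    exact hab y hy x hx
  rw [he]
  exact K6plus red hl hDp hab' (hT_of_block hB hD hDp hab hl hlz) hlz

/-- **the equality from the congruence** -/
theorem eq_of_dvd {B : MonoidAlgebra k G} (hB : IsBlock B) {D : Subgroup G}
    (hD : IsDefectGroup B D) (hab : ∀ a ∈ D, ∀ b ∈ D, a * b = b * a)
    {β : MonoidAlgebra k (centralizer (D : Set G))} (hβ : IsBlock β) (hβB : InducesTo β B)
    (hp2 : p ≠ 2) {a : ℕ} (hstar : Star p a D (inertialGroup D β)) {J : ℕ}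
    (hJ : 128 * inertialIndex D β ^ 2 < p ^ J)
    (ha : 4 * inertialIndex D β * Nat.card (omS hab (p ^ J)) < p ^ (a + 1))
    (hdvd : (p : ℤ) ^ (a + 1) ∣ (numSimpleIn B : ℤ) - numWeightsIn p red B) :
    numSimpleIn B = numWeightsIn p red B := by
  have := Fintype.ofFinite G
  obtain ⟨hDp, -⟩ := exists_BP_of_block (p := p) B hB D hD
  by_cases hT : ∀ n ∈ inertialGroup D β, n ∈ centralizer (D : Set G)
  · have h1 : inertialIndex D β = 1 := relIndex_eq_one.2 hT
    exact P179I.equality_half red hB hD hab hβ hβB (by rw [h1]; exact hp.out.two_le)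
  have hDa := pow_le_card_of_star hDp hstar hT
  have he : 0 < inertialIndex D β := Nat.pos_of_ne_zero (Subgroup.index_ne_zero_of_finite (H :=
      (centralizer (D : Set G)).subgroupOf (inertialGroup D β)))
  -- there are at least two elements in `Ω_J(D)`
  have h2 : 2 ≤ Nat.card (omS hab (p ^ J)) := by
    have hJ0 : J ≠ 0 := by
      rintro rfl
      rw [pow_zero] at hJ
      have : 1 ≤ inertialIndex D β ^ 2 := Nat.one_le_pow _ _ he
      omega
    have hpD : p ∣ Nat.card D := by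
      obtain ⟨j, hj⟩ := (IsPGroup.iff_card.1 hDp)
      have h3 : j ≠ 0 := by
        rintro rfl
        rw [hj, pow_zero] at hDa
        have : 1 < p ^ (a + 1) := Nat.one_lt_pow (by omega) hp.out.one_lt
        omega
      rw [hj]
      exact dvd_pow_self p h3
    obtain ⟨x, hx⟩ := exists_prime_orderOf_dvd_card' p hpD
    have hx1 : x.1 ∈ omS hab (p ^ J) := by
      refine ⟨x.2, ?_⟩
      have h3 : x ^ p ^ J = 1 := by
        rw [← orderOf_dvd_iff_pow_eq_one, hx]
        exact dvd_pow_self p hJ0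
      have := congrArg (fun y : D => (y : G)) h3
      exact this
    have hnt : Nontrivial (omS hab (p ^ J)) := by
      refine ⟨⟨x.1, hx1⟩, 1, fun h => ?_⟩
      have h3 : x = 1 := Subtype.ext (congrArg (fun y : omS hab (p ^ J) => y.1) h)
      rw [h3, orderOf_one] at hx
      exact hp.out.one_lt.ne hx
    exact Finite.one_lt_card
  have h8 : 8 * inertialIndex D β ≤ p ^ (a + 1) := by nlinarith
  have h3 := numSimpleIn_le red hB hD hab hβ hβB hp2 hstar h8 hDa hJ
  have h4 := numWeightsIn_le red hB hD hab hβ hβB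
  have h5 : (numSimpleIn B : ℤ) - numWeightsIn p red B = 0 := by
    refine Int.eq_zero_of_abs_lt_dvd hdvd ?_
    rw [abs_lt]
    constructor
    · have : (numWeightsIn p red B : ℤ) < p ^ (a + 1) := by exact_mod_cast (by omega)
      have h6 : (0 : ℤ) ≤ numSimpleIn B := Int.natCast_nonneg _
      linarith
    · have : (numSimpleIn B : ℤ) < p ^ (a + 1) := by exact_mod_cast (by omega)
      have h6 : (0 : ℤ) ≤ numWeightsIn p red B := Int.natCast_nonneg _
      linarith
  have h6 : (numSimpleIn B : ℤ) = numWeightsIn p red B := by linarith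
  exact_mod_cast h6

/-- **the equality from the congruence**, rank form -/
theorem eq_of_dvd_rank {B : MonoidAlgebra k G} (hB : IsBlock B) {D : Subgroup G}
    (hD : IsDefectGroup B D) (hab : ∀ a ∈ D, ∀ b ∈ D, a * b = b * a)
    {β : MonoidAlgebra k (centralizer (D : Set G))} (hβ : IsBlock β) (hβB : InducesTo β B)
    (hp2 : p ≠ 2) {a : ℕ} (hstar : Star p a D (inertialGroup D β)) {r : ℕ}
    (hr : Nat.card (omS hab p) ≤ p ^ r)
    (ha : 4 * inertialIndex D β * (128 * p * inertialIndex D β ^ 2) ^ r < p ^ (a + 1))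
    (hdvd : (p : ℤ) ^ (a + 1) ∣ (numSimpleIn B : ℤ) - numWeightsIn p red B) :
    numSimpleIn B = numWeightsIn p red B := by
  have he : 0 < inertialIndex D β := Nat.pos_of_ne_zero (Subgroup.index_ne_zero_of_finite (H :=
      (centralizer (D : Set G)).subgroupOf (inertialGroup D β)))
  -- the least `J`
  have hex : ∃ J, 128 * inertialIndex D β ^ 2 < p ^ J :=
    ⟨_, Nat.lt_pow_self hp.out.one_lt⟩
  set J := Nat.find hex with hJdef
  have hJ : 128 * inertialIndex D β ^ 2 < p ^ J := Nat.find_spec hex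
  have hJ0 : J ≠ 0 := by
    intro h
    rw [h, pow_zero] at hJ
    have : 1 ≤ inertialIndex D β ^ 2 := Nat.one_le_pow _ _ he
    omega
  have hJ1 : p ^ (J - 1) ≤ 128 * inertialIndex D β ^ 2 :=
    not_lt.1 (Nat.find_min hex (m := J - 1) (by omega))
  have hJ2 : p ^ J ≤ 128 * p * inertialIndex D β ^ 2 := by
    obtain ⟨j, hj⟩ := Nat.exists_eq_succ_of_ne_zero hJ0
    rw [hj, Nat.succ_sub_one] at hJ1
    rw [hj, pow_succ]
    calc p ^ j * p ≤ 128 * inertialIndex D β ^ 2 * p := Nat.mul_le_mul_right _ hJ1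
      _ = _ := by ring
  refine eq_of_dvd red hB hD hab hβ hβB hp2 hstar hJ (lt_of_le_of_lt ?_ ha) hdvd
  refine Nat.mul_le_mul_left _ ?_
  calc Nat.card (omS hab (p ^ J)) ≤ Nat.card (omS hab p) ^ J := P179H292.card_omS_le hab p J
    _ ≤ (p ^ r) ^ J := Nat.pow_le_pow_left hr _
    _ = (p ^ J) ^ r := by rw [← pow_mul, ← pow_mul, mul_comm]
    _ ≤ _ := Nat.pow_le_pow_left hJ2 _

/-- the arithmetic of the uniform bound -/
theorem uniform_arith {p r e : ℕ} (hp3 : 3 ≤ p) (he : e ≤ p ^ (r * r)) {n : ℕ}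
    (hn : 2 * r ^ 3 + r ^ 2 + 6 * r + 2 ≤ n) :
    4 * e * (128 * p * e ^ 2) ^ r < p ^ n := by
  have h4 : 4 < p ^ 2 := by nlinarith
  have h128 : 128 ≤ p ^ 5 := by
    calc 128 ≤ 3 ^ 5 := by norm_num
      _ ≤ p ^ 5 := Nat.pow_le_pow_left hp3 5
  have hpos : 0 < p := by omega
  calc 4 * e * (128 * p * e ^ 2) ^ r
      ≤ 4 * p ^ (r * r) * (p ^ 5 * p * (p ^ (r * r)) ^ 2) ^ r := by gcongr
    _ < p ^ 2 * p ^ (r * r) * (p ^ 5 * p * (p ^ (r * r)) ^ 2) ^ r := by gcongr
    _ = p ^ (2 * r ^ 3 + r ^ 2 + 6 * r + 2) := by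
        rw [← pow_mul, ← pow_succ, ← pow_add, ← pow_add, ← pow_mul, ← pow_add]
        congr 1
        ring
    _ ≤ p ^ n := Nat.pow_le_pow_right hpos hn

/-- **the equality, relative to `EqRel` and `DefQuo`** -/
theorem equality_of {p : ℕ} [hp : Fact p.Prime] {k : Type v} [Field k] [IsAlgClosed k] [CharP k p]
    (red : integralClosure ℤ ℂ →+* k) (hEq : P179H725.EqRel p red)
    (hQ : P179H725.DefQuo p k) {G : Type} [Group G] [Finite G] {B : MonoidAlgebra k G}
    (hB : IsBlock B) {D : Subgroup G}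
    (hD : IsDefectGroup B D) (hab : ∀ a ∈ D, ∀ b ∈ D, a * b = b * a)
    {β : MonoidAlgebra k (centralizer (D : Set G))} (hβ : IsBlock β) (hβB : InducesTo β B)
    (hp2 : p ≠ 2) {a : ℕ} (hstar : Star p a D (inertialGroup D β)) {r : ℕ}
    (hr : Nat.card (omS hab p) ≤ p ^ r)
    (ha : 4 * inertialIndex D β * (128 * p * inertialIndex D β ^ 2) ^ r < p ^ (a + 1)) :
    numSimpleIn B = numWeightsIn p red B :=
  eq_of_dvd_rank red hB hD hab hβ hβB hp2 hstar hr ha
    (P179H725.dvd_delta_of red (P179H443.krWr p k) hEq hQ a (Nat.card G) G rfl B D β hB hD hab hβ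
      hβB hstar)

/-- **the uniform form**: `|Ω_1(D)| = p ^ r` and the elements of order `p` of `D` are
`p ^ a`-th powers, `a + 1 ≥ 2 r ^ 3 + r ^ 2 + 6 r + 2` -/
theorem equality_of_uniform {p : ℕ} [hp : Fact p.Prime] {k : Type v} [Field k] [IsAlgClosed k]
    [CharP k p] (red : integralClosure ℤ ℂ →+* k) (hEq : P179H725.EqRel p red)
    (hQ : P179H725.DefQuo p k) {G : Type} [Group G] [Finite G] {B : MonoidAlgebra k G}
    (hB : IsBlock B) {D : Subgroup G}
    (hD : IsDefectGroup B D) (hab : ∀ a ∈ D, ∀ b ∈ D, a * b = b * a) (hp2 : p ≠ 2) {a r : ℕ}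
    (hr : Nat.card {x : G // x ∈ D ∧ x ^ p = 1} = p ^ r)
    (hdiv : ∀ x ∈ D, x ^ p = 1 → ∃ y ∈ D, y ^ p ^ a = x)
    (ha : 2 * r ^ 3 + r ^ 2 + 6 * r + 2 ≤ a + 1) :
    numSimpleIn B = numWeightsIn p red B := by
  have := Fintype.ofFinite G
  obtain ⟨hDp, -⟩ := exists_BP_of_block (p := p) B hB D hD
  obtain ⟨β, hβ, hβB⟩ := exists_subblock (p := p) hB hD
  obtain ⟨l, hl, hlz, hlb⟩ := exists_BP_of_subblock (p := p) hB hD hab hβ hβB
  have hT := stabT_eq_inertialGroup hβ hlb
  have hndvd : ¬ p ∣ inertialIndex D β := by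
    have h1 := hT_of_block hB hD hDp hab hl hlz
    rw [hT] at h1
    exact h1
  obtain ⟨r', hr', he⟩ := P179H292.inertialIndex_le hab β hDp hndvd
  have hom : Nat.card {x : G // x ∈ D ∧ x ^ p = 1} = Nat.card (omS hab p) := rfl
  have hrr : r' = r := by
    rw [← hom, hr] at hr'
    exact (Nat.pow_right_injective hp.out.two_le hr').symm
  subst hrr
  refine equality_of red hEq hQ hB hD hab hβ hβB hp2 (a := a)
    (P179H725.star_homocyclic hDp hab hdiv (fun n hn => hn.1) hndvd) (r := r') hr'.le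
    (uniform_arith ?_ he ha)
  have := hp.out.two_le
  omega

end

end P179H452
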