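import Vale.Agent.P179.R2.H452.Count

/-!
# Divisibility of the generalised decomposition numbers at the regular elements

The generalised decomposition numbers of a character of the block at the regular elements have all
the same valuation; they are not divisible by `p ^ j` if `e |D| < p ^ (2 j) |D_reg|`.
-/

namespace P179H452

open Finset P179P P179C P179Y Subgroup P179H524 P179I

open P179X (pp SameSec)

open scoped Classical IsMulCommutative

universe v

set_option linter.unusedSectionVars false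

section

variable {p : ℕ} [hp : Fact p.Prime] {k : Type v} [Field k] [CharP k p] {red : AA →+* k}
  {G : Type} [Group G] [Fintype G] {D : Subgroup G} {l : (G → k) → k}
  {Φ : ∀ H : Subgroup G, Irr H} {aH bH : Subgroup G → ℕ} {ε : Subgroup G → ℤ} {κ₀ : k}

include hp in
/-- the same divisibility at all regular elements -/
theorem QN_transfer [IsAlgClosed k] (h : LocR p red D l Φ aH bH ε κ₀) (hl : BP p D l)
    (hD : IsPGroup p D) (hab : D ≤ centralizer (D : Set G))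
    (he : ((centralizer (D : Set G)).relIndex (stabT D l) : k) ≠ 0)
    {u u' : G} (hu : RegT D l u) (hu1 : u ≠ 1) (hu' : RegT D l u') (hu1' : u' ≠ 1) (χ : Irr G)
    (hχ : InL red l χ.1) {j : ℕ}
    (hdj : dnA p (centralizer {u}) (Nat.card D) (Φ (centralizer {u})).1 u χ.1 ∈ QN p red j) :
    dnA p (centralizer {u'}) (Nat.card D) (Φ (centralizer {u'})).1 u' χ.1 ∈ QN p red j := by
  have hq0 : (Nat.card D : ℂ) ≠ 0 := by exact_mod_cast Nat.card_pos.ne'
  have hG0 : (Nat.card G : ℂ) ≠ 0 := by exact_mod_cast Nat.card_pos.ne'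
  obtain ⟨X, hX, hX2⟩ := P179Y.cong p red (centralizer {u}) Nat.card_pos.ne' (h.nd u hu hu1)
    (h.hb u hu hu1) (h.unit u hu hu1) u (mem_cz u) hl.smul (K5P_ofT p red hl hD hab hu) χ hχ
  obtain ⟨X', hX', hX2'⟩ := P179Y.cong p red (centralizer {u'}) Nat.card_pos.ne' (h.nd u' hu' hu1')
    (h.hb u' hu' hu1') (h.unit u' hu' hu1') u' (mem_cz u') hl.smul (K5P_ofT p red hl hD hab hu') χ hχ
  rw [← h.dn_coe hu hu1] at hX
  rw [← h.dn_coe hu' hu1'] at hX'
  set d : AA := dnA p (centralizer {u}) (Nat.card D) (Φ (centralizer {u})).1 u χ.1 with hd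
  set d' : AA := dnA p (centralizer {u'}) (Nat.card D) (Φ (centralizer {u'})).1 u' χ.1 with hd'
  have h1 : X * ((aH (centralizer {u'}) : AA) * d') = X' * ((aH (centralizer {u}) : AA) * d) := by
    apply Subtype.ext
    push_cast
    have hχ0 := χ.one_ne_zero
    apply mul_right_cancel₀ (mul_ne_zero hq0 hχ0)
    apply mul_right_cancel₀ hG0
    linear_combination (aH (centralizer {u'}) * (d' : ℂ) * Nat.card G) * hX -
      (aH (centralizer {u}) * (d : ℂ) * Nat.card G) * hX'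
  have hb : (bH (centralizer {u}) : k) ≠ 0 := by
    rw [Ne, CharP.cast_eq_zero_iff k p]; exact h.hb u hu hu1
  have hb' : (bH (centralizer {u'}) : k) ≠ 0 := by
    rw [Ne, CharP.cast_eq_zero_iff k p]; exact h.hb u' hu' hu1'
  have hκ := h.ne
  have hv : red (X * (aH (centralizer {u'}) : AA)) ≠ 0 := by
    rw [map_mul, map_natCast, hX2, h.eps u' hu' hu1']
    have h3 : (ε (centralizer {u'}) : k) ≠ 0 := by
      rcases h.sgn u' hu' hu1' with h4 | h4 <;> rw [h4] <;> simp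
    exact mul_ne_zero (mul_ne_zero hb he) (mul_ne_zero (mul_ne_zero h3 hκ) hb')
  refine mem_of_unit_mul hv ?_
  rw [mul_assoc, h1, ← mul_assoc]
  exact Ideal.mul_mem_left _ _ hdj

include hp in
/-- **the bound for the rows** -/
theorem row_bound [IsAlgClosed k] (h : LocR p red D l Φ aH bH ε κ₀) (hl : BP p D l)
    (hD : IsPGroup p D) (hab : D ≤ centralizer (D : Set G)) (χ : Irr G) :
    ∑ w : Wr D l, ‖(dnA p (centralizer {w.1}) (Nat.card D) (Φ (centralizer {w.1})).1 w.1 χ.1 : ℂ)‖ ^ 2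
      ≤ Nat.card D * (centralizer (D : Set G)).relIndex (stabT D l) := by
  set q := Nat.card D with hqdef
  set T : Subgroup G := stabT D l with hT
  set e := (centralizer (D : Set G)).relIndex T with hedef
  have hq : q ≠ 0 := Nat.card_pos.ne'
  have hpel : ∀ w : Wr D l, ∃ a : ℕ, w.1 ^ p ^ a = 1 := by
    intro w
    obtain ⟨n, hn⟩ := hD ⟨w.1, w.2.1.1⟩
    exact ⟨n, by simpa using congrArg Subtype.val hn⟩
  set M : Wr D l → Irr G → ℂ := fun w χ =>
    dn p (centralizer {w.1}) q (Φ (centralizer {w.1})).1 w.1 χ.1 with hM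
  have hgramM : ∀ w w' : Wr D l, ∑ χ, M w χ * (starRingEnd ℂ) (M w' χ) = 0 ∨
      (∑ χ, M w χ * (starRingEnd ℂ) (M w' χ) = q ∧
        ∃ g : G, g * w.1 * g⁻¹ = w'.1 ∧ ∀ z : G → k, InvOn (centralizer {w'.1}) z →
          l (fun x => z (g * x * g⁻¹)) = l z) := fun w w' =>
    P179Y.gram p red (centralizer {w.1}) (centralizer {w'.1}) hq (h.nd w.1 w.2.1 w.2.2)
      (h.nd w'.1 w'.2.1 w'.2.2) w.1 w'.1 (hpel w) (hpel w') (mem_cz w.1) (mem_cz w'.1)
  have hfus : ∀ w w' : Wr D l, ∑ χ, M w χ * (starRingEnd ℂ) (M w' χ) ≠ 0 →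
      ∃ n ∈ T, n * w.1 * n⁻¹ = w'.1 := by
    intro w w' hne
    rcases hgramM w w' with h' | ⟨-, g, hg, hz⟩
    · exact absurd h' hne
    · obtain ⟨n, hn, hn2⟩ := fusionT hl hD hab (w := w.1) (g := g) w.2.1.1
        (by rw [hg]; exact w'.2.1)
        (by
          rw [hg]
          intro z hzI
          have := hz z hzI
          unfold cj
          rw [inv_inv]
          exact this)
      exact ⟨n, hn, hn2.trans hg⟩
  have hcount : ∀ w : Wr D l, (univ.filter fun w' : Wr D l =>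
      ∑ χ, M w χ * (starRingEnd ℂ) (M w' χ) ≠ 0).card ≤ e := by
    intro w
    set C : Subgroup G := centralizer (D : Set G) with hC
    have := Fintype.ofFinite (T ⧸ C.subgroupOf T)
    have hQ : Fintype.card (T ⧸ C.subgroupOf T) = e := by
      rw [← Nat.card_eq_fintype_card]
      rfl
    rw [← hQ, ← Finset.card_univ]
    have h1 : ∀ w' : Wr D l, ∃ c : T ⧸ C.subgroupOf T,
        (∑ χ, M w χ * (starRingEnd ℂ) (M w' χ) ≠ 0 →
          ((c.out : T) : G) * w.1 * ((c.out : T) : G)⁻¹ = w'.1) := by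
      intro w'
      by_cases h : ∑ χ, M w χ * (starRingEnd ℂ) (M w' χ) ≠ 0
      · obtain ⟨n, hn, hn2⟩ := hfus w w' h
        refine ⟨QuotientGroup.mk ⟨n, hn⟩, fun _ => ?_⟩
        set t : T := (QuotientGroup.mk (⟨n, hn⟩ : T) : T ⧸ C.subgroupOf T).out with ht
        have h2 : (QuotientGroup.mk t : T ⧸ C.subgroupOf T) = QuotientGroup.mk ⟨n, hn⟩ :=
          Quotient.out_eq' _
        rw [QuotientGroup.eq] at h2
        have h3 : (t : G)⁻¹ * n ∈ C := h2
        have h4 : w.1 * ((t : G)⁻¹ * n) = ((t : G)⁻¹ * n) * w.1 :=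
          mem_centralizer_iff.1 h3 w.1 w.2.1.1
        rw [← hn2]
        calc (t : G) * w.1 * (t : G)⁻¹ = t * (w.1 * ((t : G)⁻¹ * n)) * n⁻¹ := by group
          _ = t * (((t : G)⁻¹ * n) * w.1) * n⁻¹ := by rw [h4]
          _ = _ := by group
      · exact ⟨QuotientGroup.mk 1, fun h' => absurd h' h⟩
    choose c hc using h1
    refine Finset.card_le_card_of_injOn c (fun _ _ => mem_univ _) ?_
    intro w' hw' w'' hw'' hcc
    have h2 := hc w' (mem_filter.1 (Finset.mem_coe.1 hw')).2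
    have h3 := hc w'' (mem_filter.1 (Finset.mem_coe.1 hw'')).2
    rw [hcc] at h2
    exact Subtype.ext (h2.symm.trans h3)
  have hquad := quad_boundC M q e (fun w w' => (hgramM w w').imp_right And.left) hcount
    (fun w => (starRingEnd ℂ) (M w χ))
  set R : ℝ := ∑ w : Wr D l, ‖M w χ‖ ^ 2 with hR
  have hdn : ∀ w : Wr D l, (dnA p (centralizer {w.1}) q (Φ (centralizer {w.1})).1 w.1 χ.1 : ℂ) =
      M w χ := fun w => h.dn_coe w.2.1 w.2.2 χ
  have e1 : ∑ w : Wr D l, ‖(dnA p (centralizer {w.1}) q (Φ (centralizer {w.1})).1 w.1 χ.1 : ℂ)‖ ^ 2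
      = R := by
    rw [hR]
    exact Finset.sum_congr rfl fun w _ => by rw [hdn]
  rw [e1]
  have h2 : ‖∑ w, (starRingEnd ℂ) (M w χ) * M w χ‖ ^ 2 ≤ q * e * R := by
    refine le_trans ?_ (hquad.trans_eq ?_)
    · exact Finset.single_le_sum (f := fun χ' => ‖∑ w, (starRingEnd ℂ) (M w χ) * M w χ'‖ ^ 2)
        (fun _ _ => by positivity) (mem_univ χ)
    · rw [hR]
      congr 1
      exact Finset.sum_congr rfl fun w _ => by rw [RCLike.norm_conj]
  have h3 : ∑ w, (starRingEnd ℂ) (M w χ) * M w χ = ((R : ℝ) : ℂ) := by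
    rw [hR]
    push_cast
    refine Finset.sum_congr rfl fun w _ => ?_
    rw [mul_comm, Complex.mul_conj, Complex.normSq_eq_norm_sq]
    push_cast
    rfl
  have hR0 : 0 ≤ R := Finset.sum_nonneg fun _ _ => by positivity
  rw [h3, Complex.norm_real, Real.norm_of_nonneg hR0] at h2
  rcases hR0.eq_or_lt with h4 | h4
  · rw [← h4]
    positivity
  · have h5 : R * R ≤ (q * e) * R := by nlinarith
    exact le_of_mul_le_mul_right h5 h4

include hp in
/-- **(V)** the numbers are not divisible by `p ^ j` -/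
theorem notMem_QN [IsAlgClosed k] (h : LocR p red D l Φ aH bH ε κ₀) (hl : BP p D l)
    (hD : IsPGroup p D) (hab : D ≤ centralizer (D : Set G)) (hp2 : p ≠ 2)
    (he : ((centralizer (D : Set G)).relIndex (stabT D l) : k) ≠ 0) {j : ℕ}
    (hj : (centralizer (D : Set G)).relIndex (stabT D l) * Nat.card D <
      p ^ (2 * j) * Nat.card (Wr D l))
    {u : G} (hu : RegT D l u) (hu1 : u ≠ 1) (χ : Irr G) (hχ : InL red l χ.1) :
    dnA p (centralizer {u}) (Nat.card D) (Φ (centralizer {u})).1 u χ.1 ∉ QN p red j := by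
  intro hmem
  have hall : ∀ w : Wr D l,
      dnA p (centralizer {w.1}) (Nat.card D) (Φ (centralizer {w.1})).1 w.1 χ.1 ∈ QN p red j :=
    fun w => QN_transfer h hl hD hab he hu hu1 w.2.1 w.2.2 χ hχ hmem
  have hrow := row_bound h hl hD hab χ
  set q := Nat.card D with hqdef
  have hq : q ≠ 0 := Nat.card_pos.ne'
  -- roots of unity
  set N := ordProj[p] (Nat.card G) with hN
  have hN0 : N ≠ 0 := pow_ne_zero _ hp.out.ne_zero
  have hNe : NeZero N := ⟨hN0⟩
  have huN : ∀ u ∈ D, u ^ N = 1 := fun u hu => pow_ordProj_eq_one hD hu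
  set ζ : ℂ := Complex.exp (2 * Real.pi * Complex.I / N) with hζdef
  have hζ : IsPrimitiveRoot ζ N := Complex.isPrimitiveRoot_exp N hN0
  obtain ⟨m₀, hm₀, -, hgen₀⟩ := P179P.exists_exponent (p := p) hp2 (Nat.card G) Nat.card_pos.ne'
  have hm₀N : m₀.Coprime N := Nat.Coprime.coprime_dvd_right (Nat.ordProj_dvd _ _) hm₀
  have hgen₀' : ∀ j : ℕ, j.Coprime N → ∃ i : ℕ, m₀ ^ i ≡ j [MOD N] := by
    intro j hj
    by_cases hf : (Nat.card G).factorization p = 0
    · refine ⟨0, ?_⟩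
      have : N = 1 := by rw [hN, hf, pow_zero]
      rw [this]
      exact Nat.modEq_one
    · apply hgen₀
      intro hpj
      have h1 : p ∣ Nat.gcd j N := Nat.dvd_gcd hpj (dvd_pow_self p hf)
      rw [hj] at h1
      exact hp.out.one_lt.ne' (Nat.dvd_one.1 h1)
  let act := actW D l N huN
  have hsmul : ∀ (δ : (ZMod N)ˣ) (w : Wr D l), (δ • w).1 = w.1 ^ (δ : ZMod N).val := fun _ _ => rfl
  let dv : G → AA := fun u => dnA p (centralizer {u}) q (Φ (centralizer {u})).1 u χ.1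
  have hdv : ∀ (w : Wr D l), (dv w.1 : ℂ) =
      dn p (centralizer {w.1}) q (Φ (centralizer {w.1})).1 w.1 χ.1 := fun w =>
    h.dn_coe w.2.1 w.2.2 χ
  have hP : ∀ (w : Wr D l), ∃ P : Polynomial ℤ, ∀ j : ℕ,
      dn p (centralizer {w.1}) q (Φ (centralizer {w.1})).1 (w.1 ^ j) χ.1 =
        Polynomial.aeval (ζ ^ j) P := fun w =>
    dn_poly p red _ hq (h.nd _ w.2.1 w.2.2) w.1 (huN _ w.2.1.1) hN0 (mem_cz _) χ hζ
  choose P hP using hP
  have hval : ∀ (w : Wr D l) (δ : (ZMod N)ˣ), (dv (δ • w).1 : ℂ) =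
      Polynomial.aeval (ζ ^ (δ : ZMod N).val) (P w) := by
    intro w δ
    rw [hdv, ← hP, hsmul, cz_pow (coprime_val (huN _ w.2.1.1) δ)]
  have hval1 : ∀ (w : Wr D l), (dv w.1 : ℂ) = Polynomial.aeval ζ (P w) := by
    intro w
    have := hP w 1
    rw [pow_one, pow_one] at this
    rw [hdv, this]
  have hdvne : ∀ (w : Wr D l), dv w.1 ≠ 0 := by
    intro w h0
    apply h.Ad_ne_zero hl hD hab he w.2.1 w.2.2 χ hχ
    unfold Ad
    change _ * dv w.1 = 0
    rw [h0, mul_zero]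
  set φ : ℝ := (Fintype.card (ZMod N)ˣ : ℝ) with hφ
  have hφ0 : 0 < φ := by
    rw [hφ]
    exact_mod_cast Fintype.card_pos
  -- the orbits
  have horb : ∀ w : Wr D l, φ * (p : ℝ) ^ (2 * j) ≤ ∑ δ : (ZMod N)ˣ, ‖(dv (δ • w).1 : ℂ)‖ ^ 2 := by
    intro w
    have h1 := sum_norm_ge (p := p) (red := red) hζ (P w) hm₀N hgen₀'
      (fun δ => dv (δ • w).1) (fun δ => hval w δ) (J := j) (fun δ => hall (δ • w)) (by
        rw [← hval1]
        intro h0
        exact hdvne w (Subtype.ext h0))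
    have h2 := sq_sum_le_card_mul_sum_sq (s := (univ : Finset (ZMod N)ˣ))
      (f := fun δ => ‖(dv (δ • w).1 : ℂ)‖)
    have h3 : (φ * (p : ℝ) ^ j) ^ 2 ≤ φ * ∑ δ : (ZMod N)ˣ, ‖(dv (δ • w).1 : ℂ)‖ ^ 2 := by
      refine le_trans ?_ h2
      exact pow_le_pow_left₀ (by positivity) h1 2
    have h4 : φ * (φ * (p : ℝ) ^ (2 * j)) ≤ φ * ∑ δ : (ZMod N)ˣ, ‖(dv (δ • w).1 : ℂ)‖ ^ 2 := by
      refine le_trans (le_of_eq ?_) h3
      rw [mul_comm 2 j, pow_mul]
      ring
    exact le_of_mul_le_mul_left h4 hφ0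
  have h5 : ∑ w : Wr D l, ∑ δ : (ZMod N)ˣ, ‖(dv (δ • w).1 : ℂ)‖ ^ 2 =
      φ * ∑ w : Wr D l, ‖(dv w.1 : ℂ)‖ ^ 2 := by
    rw [Finset.sum_comm]
    have h6 : ∀ δ : (ZMod N)ˣ, ∑ w : Wr D l, ‖(dv (δ • w).1 : ℂ)‖ ^ 2 =
        ∑ w : Wr D l, ‖(dv w.1 : ℂ)‖ ^ 2 := fun δ =>
      Fintype.sum_equiv (MulAction.toPerm δ) _ _ fun w => rfl
    rw [Finset.sum_congr rfl fun δ _ => h6 δ, Finset.sum_const, card_univ, nsmul_eq_mul]
  have h6 : ∑ w : Wr D l, φ * (p : ℝ) ^ (2 * j) ≤ φ * ∑ w : Wr D l, ‖(dv w.1 : ℂ)‖ ^ 2 := by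
    rw [← h5]
    exact Finset.sum_le_sum fun w _ => horb w
  rw [Finset.sum_const, card_univ, nsmul_eq_mul] at h6
  have h7 : (Fintype.card (Wr D l) : ℝ) * (p : ℝ) ^ (2 * j) ≤ ∑ w : Wr D l, ‖(dv w.1 : ℂ)‖ ^ 2 := by
    refine le_of_mul_le_mul_left ?_ hφ0
    refine le_trans (le_of_eq ?_) h6
    ring
  have h8 := h7.trans hrow
  have h9 : Fintype.card (Wr D l) * p ^ (2 * j) ≤
      q * (centralizer (D : Set G)).relIndex (stabT D l) := by exact_mod_cast h8
  rw [← Nat.card_eq_fintype_card] at h9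
  have h10 : Nat.card (Wr D l) * p ^ (2 * j) = p ^ (2 * j) * Nat.card (Wr D l) := mul_comm _ _
  have h11 : q * (centralizer (D : Set G)).relIndex (stabT D l) =
    (centralizer (D : Set G)).relIndex (stabT D l) * q := mul_comm _ _
  omega

end

end P179H452
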