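import Vale.Agent.P179.H526.FinalT
import Vale.Agent.P179.R2.H843.P7m
import Vale.Agent.P179.R2.H452.Vv

/-!
# The number of simple modules and the `m`-rational characters
-/

namespace P179H452

open Finset Subgroup P179Y P179P P179H524 P179I P179A P179C

open P179X (pp SameSec IrrB Srat)

open P179B (inertialGroup inertialIndex)

open scoped Classical

universe v

section

variable {p : ℕ} [hp : Fact p.Prime] {k : Type v} [Field k] [IsAlgClosed k] [CharP k p]
  (red : integralClosure ℤ ℂ →+* k) {G : Type} [Group G] [Fintype G]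

/-- the `m`-rational characters of the block -/
noncomputable def X1 (l : (G → k) → k) (m : ℕ) : Finset (Irr G) :=
  univ.filter fun χ => InL red l χ.1 ∧ ∀ g, χ.1 (g ^ m) = χ.1 g

omit [IsAlgClosed k] hp [CharP k p] in
theorem mem_X1 {l : (G → k) → k} {m : ℕ} {χ : Irr G} :
    χ ∈ X1 red l m ↔ InL red l χ.1 ∧ ∀ g, χ.1 (g ^ m) = χ.1 g := by
  unfold X1
  rw [mem_filter]
  exact and_iff_right (mem_univ _)

/-- **the number of simple modules is at most the number of `m`-rational characters** -/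
theorem numSimpleIn_le_X1 {B : MonoidAlgebra k G} (hB : IsBlock B) {D : Subgroup G}
    (hD : IsDefectGroup B D) (hDp : IsPGroup p D) (hab : ∀ a ∈ D, ∀ b ∈ D, a * b = b * a)
    {l : (G → k) → k} (hl : BP p D l) (hlz : ∀ z : G → k, IsCF z → l z = centralChar B (mkF z))
    {m : ℕ} (hmc : m.Coprime (Nat.card G)) (hm1 : m ≡ 1 [MOD ordCompl[p] (Nat.card G)])
    (hmp : m ≡ 1 [MOD p]) : numSimpleIn B ≤ (X1 red l m).card := by
  have hlB : ∀ χ : Irr G, InL red l χ.1 ↔ CharInBlock red χ.1 B := inL_iff red hB hlz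
  have h1 := numSimpleIn_le_Srat red hB hDp hab hl hlz (hT_of_block hB hD hDp hab hl hlz)
    hmc hm1 hmp
  refine h1.trans ?_
  have hSmem : ∀ χ ∈ Srat red m B, IsIrrChar χ ∧ CharInBlock red χ B ∧
      ∀ g, χ (g ^ m) = χ g := by
    intro χ hχ
    simp only [P179X.Srat, P179X.IrrB, mem_filter, P179X.mem_Irr] at hχ
    exact ⟨hχ.1.1, hχ.1.2, hχ.2⟩
  refine le_trans (Finset.card_le_card fun χ hχ => ?_)
    (Finset.card_image_le (s := X1 red l m) (f := fun χ : Irr G => χ.1))
  have h2 := hSmem χ hχ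
  exact Finset.mem_image.2 ⟨⟨χ, h2.1⟩, (mem_X1 red).2 ⟨(hlB _).2 h2.2.1, h2.2.2⟩, rfl⟩

end

end P179H452
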