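import Vale.Agent.P179.R2.H452.Ext3
import Vale.Agent.P179.R2.H452.Final6
import Vale.Agent.P179.R2.H452.X1
import Vale.Agent.P179.R2.H292.Fin2
import Vale.Agent.P179.R2.H666.Cnt3

/-!
# The second bound for the number of simple modules
-/

namespace P179H452

open Subgroup P179Y P179P P179H524 P179I P179A P179C

open P179B (inertialGroup inertialIndex regularElements)

open scoped Classical

universe v

section

variable {p : ℕ} [hp : Fact p.Prime] {k : Type v} [Field k] [IsAlgClosed k] [CharP k p]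
  (red : integralClosure ℤ ℂ →+* k)

/-- **the bound for the rational characters** -/
theorem X1_card_le {G : Type} [Group G] [Fintype G] {D : Subgroup G} {l : (G → k) → k}
    (hl : BP p D l) (hD : IsPGroup p D) (hab : D ≤ centralizer (D : Set G)) (hp2 : p ≠ 2)
    (hT : ¬ p ∣ (centralizer (D : Set G)).relIndex (stabT D l)) {m : ℕ}
    (hmc : m.Coprime (Nat.card G)) (hm1 : m ≡ 1 [MOD ordCompl[p] (Nat.card G)])
    (hgen : ∀ i : ℕ, i ≡ 1 [MOD p] → ∃ t : ℕ, m ^ t ≡ i [MOD ordProj[p] (Nat.card G)])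
    {j o : ℕ} (Y : Subgroup D) (hYj : ∀ y : D, y ∈ Y ↔ ∃ d : D, d ^ p ^ j = y) (w : D)
    (hreg : ∀ t ∈ stabT D l, (∃ y : D, y ∈ Y ∧ t * w * t⁻¹ * (w : G)⁻¹ = y) →
      t ∈ centralizer (D : Set G)) (hwY : w ∉ Y) (ho : ∀ i : ℕ, w ^ i ∈ Y → o ∣ i)
    (hj : (centralizer (D : Set G)).relIndex (stabT D l) * Nat.card D <
      p ^ (2 * j) * Nat.card (Wr D l)) :
    (X1 red l m).card * Nat.card Y * o ≤ Nat.card D * p := by
  obtain ⟨Φ, aH, bH, ε, κ₀, h⟩ := exists_LocR (red := red) hl hD hab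
  have he : ((centralizer (D : Set G)).relIndex (stabT D l) : k) ≠ 0 := by
    rwa [Ne, CharP.cast_eq_zero_iff k p]
  obtain ⟨n, hn⟩ := IsPGroup.iff_card.1 (hD.to_subgroup Y)
  have hTN : stabT D l ≤ normalizer (D : Set G) := stabT_le_norm D l
  have hYT : ∀ t ∈ stabT D l, ∀ y : D, y ∈ Y → ∃ y' : D, y' ∈ Y ∧ (y' : G) = t * y * t⁻¹ := by
    intro t ht y hy
    obtain ⟨d, hd⟩ := (hYj y).1 hy
    have h1 : t * (d : G) * t⁻¹ ∈ D := (mem_normalizer_iff.1 (hTN ht) d).1 d.2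
    refine ⟨⟨t * (d : G) * t⁻¹, h1⟩ ^ p ^ j, (hYj _).2 ⟨_, rfl⟩, ?_⟩
    rw [Subgroup.coe_pow, conj_pow, ← hd, Subgroup.coe_pow]
  have hW : ∀ y ∈ Y, RegT D l ((w * y : D) : G) ∧ ((w * y : D) : G) ≠ 1 := by
    intro y hy
    refine ⟨⟨(w * y).2, fun t ht hty => ?_⟩, fun h1 => hwY ?_⟩
    · refine hreg t ht ?_
      obtain ⟨y', hy', e⟩ := hYT t ht y hy
      refine ⟨y * y'⁻¹, Y.mul_mem hy (Y.inv_mem hy'), ?_⟩
      rw [Subgroup.coe_mul, Subgroup.coe_inv, e]
      have h2 : t * (w : G) * t⁻¹ * (t * (y : G) * t⁻¹) = (w : G) * y := by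
        rw [Subgroup.coe_mul] at hty
        rw [← hty]
        group
      have h3 : t * (w : G) * t⁻¹ = (w : G) * y * (t * (y : G) * t⁻¹)⁻¹ := by
        rw [← h2]
        group
      rw [h3]
      have hc : ∀ a b : G, a ∈ D → b ∈ D → a * b = b * a := fun a b ha hb =>
        (mem_centralizer_iff.1 (hab ha) b hb).symm
      have h4 : (t * (y : G) * t⁻¹) ∈ D := (mem_normalizer_iff.1 (hTN ht) y).1 y.2
      have h5 : (y : G) * (t * (y : G) * t⁻¹)⁻¹ ∈ D := D.mul_mem y.2 (D.inv_mem h4)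
      calc (w : G) * y * (t * (y : G) * t⁻¹)⁻¹ * (w : G)⁻¹ =
          (w : G) * (y * (t * (y : G) * t⁻¹)⁻¹) * (w : G)⁻¹ := by group
        _ = (y * (t * (y : G) * t⁻¹)⁻¹) * w * (w : G)⁻¹ := by rw [hc _ _ w.2 h5]
        _ = _ := by group
    · have h2 : w * y = 1 := Subtype.ext h1
      have h3 : w = y⁻¹ := eq_inv_of_mul_eq_one_left h2
      rw [h3]
      exact Y.inv_mem hy
  have hcomm : IsMulCommutative D := ⟨⟨fun a b => Subtype.ext
    (mem_centralizer_iff.1 (hab b.2) a a.2)⟩⟩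
  refine P179H666.count_reg h hl hD hab hp2 hT hmc hm1 hgen (X1 red l m)
    (fun χ hχ => ((mem_X1 red).1 hχ).2) Y w hW (fun t ht y hy => ?_) (fun t ht hh => ?_) ho
    fun χ hχ => ?_
  · obtain ⟨y', hy', e⟩ := hYT t ht y hy
    exact ⟨y', hy', e.symm⟩
  · obtain ⟨y, hy, e⟩ := hh
    exact hreg t ht ⟨y, hy, e⟩
  exact sY_ne_zero h hl hD hab hp2 he hmc hm1 hgen ((mem_X1 red).1 hχ).1 ((mem_X1 red).1 hχ).2 Y hn
    (fun y hy => (hYj y).1 hy) w hW hj

include red in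
/-- **the second bound** -/
theorem m7Stmt (hp2 : p ≠ 2) : P179H292.M7Stmt p k := by
  intro G _ _ B D β j o w hB hD hab hβ hβB hj hw ho hreg hii
  have := Fintype.ofFinite G
  have hβB' := (P179B.inducesTo_iff β B).1 hβB
  rw [P179B.numSimpleIn_eq]
  obtain ⟨hDp, -⟩ := exists_BP_of_block (p := p) B hB D hD
  obtain ⟨l, hl, hlz, hlb⟩ := exists_BP_of_subblock (p := p) hB hD hab hβ hβB'
  have hT := stabT_eq_inertialGroup hβ hlb
  have hpT := hT_of_block hB hD hDp hab hl hlz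
  have hab' : D ≤ centralizer (D : Set G) := by
    intro x hx
    rw [mem_centralizer_iff]
    intro y hy
    exact hab y hy x hx
  have he : inertialIndex D β = (centralizer (D : Set G)).relIndex (stabT D l) := by
    rw [hT]
    rfl
  have hcomm : IsMulCommutative D := ⟨⟨fun a b => Subtype.ext (hab a a.2 b b.2)⟩⟩
  let Y : Subgroup D :=
    { carrier := {y | ∃ d : D, d ^ p ^ j = y}
      one_mem' := ⟨1, one_pow _⟩
      mul_mem' := by
        rintro _ _ ⟨a, rfl⟩ ⟨b, rfl⟩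
        have hcab : Commute a b := Subtype.ext (hab a a.2 b b.2)
        exact ⟨a * b, hcab.mul_pow _⟩
      inv_mem' := by
        rintro _ ⟨a, rfl⟩
        exact ⟨a⁻¹, inv_pow _ _⟩ }
  have hYj : ∀ y : D, y ∈ Y ↔ ∃ d : D, d ^ p ^ j = y := fun y => Iff.rfl
  have hYcard : Nat.card {y : G // ∃ d ∈ D, d ^ p ^ j = y} = Nat.card Y := by
    refine Nat.card_congr
      { toFun := fun y => ⟨⟨y.1, by
          obtain ⟨d, hd, e⟩ := y.2
          rw [← e]
          exact D.pow_mem hd _⟩, by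
          obtain ⟨d, hd, e⟩ := y.2
          exact ⟨⟨d, hd⟩, Subtype.ext e⟩⟩
        invFun := fun y => ⟨(y : D), by
          obtain ⟨d, e⟩ := y.2
          exact ⟨d, d.2, congrArg Subtype.val e⟩⟩
        left_inv := fun y => rfl
        right_inv := fun y => rfl }
  have ho' : ∀ i : ℕ, (⟨w, hw⟩ : D) ^ i ∈ Y → o ∣ i := by
    rintro i ⟨d, e⟩
    exact ho i ⟨d, d.2, (congrArg Subtype.val e).symm⟩
  rw [hYcard]
  by_cases hTC : ∀ n ∈ inertialGroup D β, n ∈ centralizer (D : Set G)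
  · -- the nilpotent case
    have h1 : inertialIndex D β = 1 := relIndex_eq_one.2 hTC
    have h2 := P179I.equality_half red hB hD hab hβ hβB' (by rw [h1]; exact hp.out.two_le)
    have h3 := numWeightsIn_le red hB hD hab hβ hβB'
    rw [h1, ← h2] at h3
    have hYn : Y.Normal := by
      refine ⟨fun y hy g => ?_⟩
      have : g * y * g⁻¹ = y := by
        have : g * y = y * g := Subtype.ext (hab g g.2 y y.2)
        rw [this]
        group
      rwa [this]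
    have h4 : o ∣ Y.index := ho' _ (Subgroup.pow_index_mem Y _)
    have h5 : o ≤ Y.index := Nat.le_of_dvd (Nat.pos_of_ne_zero Subgroup.index_ne_zero_of_finite) h4
    have h6 : Nat.card Y * Y.index = Nat.card D := Subgroup.card_mul_index Y
    calc P179C.numSimpleIn B * Nat.card Y * o ≤ 1 * Nat.card Y * Y.index :=
          Nat.mul_le_mul (Nat.mul_le_mul_right _ h3) h5
      _ = Nat.card D := by rw [one_mul, h6]
      _ ≤ Nat.card D * p := Nat.le_mul_of_pos_right _ hp.out.pos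
  have hreg' : ∀ t ∈ stabT D l,
      (∃ y : D, y ∈ Y ∧ t * ((⟨w, hw⟩ : D) : G) * t⁻¹ * ((⟨w, hw⟩ : D) : G)⁻¹ = y) →
      t ∈ centralizer (D : Set G) := by
    rintro t ht ⟨y, ⟨d, hd⟩, e⟩
    rw [hT] at ht
    refine hreg t ht ⟨d, d.2, ?_⟩
    rw [e, ← hd]
    rfl
  have hTN : stabT D l ≤ normalizer (D : Set G) := stabT_le_norm D l
  have hwY : (⟨w, hw⟩ : D) ∉ Y := by
    rintro ⟨d, hd⟩
    apply hTC
    intro t ht
    rw [← hT] at ht
    refine hreg' t ht ?_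
    have hd' : (d : G) ^ p ^ j = w := congrArg Subtype.val hd
    have h1 : t * (d : G) * t⁻¹ ∈ D := (mem_normalizer_iff.1 (hTN ht) d).1 d.2
    refine ⟨(⟨t * (d : G) * t⁻¹, h1⟩ * d⁻¹) ^ p ^ j, ⟨_, rfl⟩, ?_⟩
    have hcab : Commute (⟨t * (d : G) * t⁻¹, h1⟩ : D) d⁻¹ := Subtype.ext (hab _ h1 _ (d⁻¹).2)
    rw [hcab.mul_pow, Subgroup.coe_mul, Subgroup.coe_pow, Subgroup.coe_pow]
    change t * w * t⁻¹ * w⁻¹ = (t * (d : G) * t⁻¹) ^ p ^ j * ((d : G)⁻¹) ^ p ^ j
    rw [conj_pow, inv_pow, hd']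
  have hWr : Nat.card (regularElements D β) = Nat.card (Wr D l) := by
    have h1 : ∀ u : G, u ∈ regularElements D β ↔ RegT D l u ∧ u ≠ 1 := by
      intro u
      constructor
      · rintro ⟨hu, hu2⟩
        refine ⟨⟨hu, fun n hn => hu2 n (hT ▸ hn)⟩, ?_⟩
        rintro rfl
        exact hTC fun n hn => hu2 n hn (by group)
      · rintro ⟨⟨hu, hu2⟩, -⟩
        exact ⟨hu, fun n hn => hu2 n (hT.symm ▸ hn)⟩
    exact Nat.card_congr (Equiv.subtypeEquivRight h1)
  rw [he, hWr] at hii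
  obtain ⟨m, hmc, hm1, hmp, hgen⟩ := P179Y.exists_exp1 (p := p) hp2 (Nat.card G) Nat.card_pos.ne'
  have h1 := numSimpleIn_le_X1 red hB hD hDp hab hl hlz hmc hm1 hmp
  have h2 := X1_card_le red hl hDp hab' hp2 hpT hmc hm1 hgen Y hYj ⟨w, hw⟩ hreg' hwY ho' hii
  refine le_trans ?_ h2
  exact Nat.mul_le_mul_right _ (Nat.mul_le_mul_right _ h1)

end

end P179H452
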