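import Vale.Agent.P179.R2.H452.Ext2

/-!
# Blocks with several simple modules at elements which are not regular: 1. the numbers
-/

namespace P179H452

open Finset P179P P179C P179Y Subgroup P179H524 P179I

open P179X (pp SameSec)

open scoped Classical IsMulCommutative

universe v

set_option linter.unusedSectionVars false

section

variable {p : ℕ} [hp : Fact p.Prime] {k : Type v} [Field k] [CharP k p] {red : AA →+* k}
  {G : Type} [Group G] [Fintype G] {D : Subgroup G} {l : (G → k) → k}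

/-- the local data at an element which is not regular: signed characters `σ ψ` of the block of the
centraliser `H`, a basis on the `p`-regular elements, with the Gram matrix `p ^ a2 δ - m` -/
structure NDat (p : ℕ) {k : Type v} [Field k] (red : AA →+* k) {G : Type} [Group G] [Fintype G]
    (D : Subgroup G) (l : (G → k) → k) (H : Subgroup G) {s : ℕ} (ψ : Fin s → Irr H)
    (σ : Fin s → ℤ) (m a1 a2 : ℕ) : Prop where
  card : Nat.card D = p ^ a1 * p ^ a2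
  smq : s * m + 1 = p ^ a2
  inl : ∀ i, InL red (lres H l) (ψ i).1
  dec : ∀ θ : Irr H, InL red (lres H l) θ.1 → ∃ n : Fin s → ℤ, ∀ x : H, ¬ p ∣ orderOf x →
    θ.1 x = ∑ i, (n i : ℂ) * ((σ i : ℂ) * (ψ i).1 x)
  gram : ∀ i j, (Nat.card D : ℂ) * rsum p (fun x : H => ((σ i : ℂ) * (ψ i).1 x) *
    ((σ j : ℂ) * (ψ j).1 x⁻¹)) = Nat.card H * ((if i = j then (p : ℂ) ^ a2 else 0) - m)

variable {H : Subgroup G} {s : ℕ}

/-- the dual basis, up to `q1` -/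
noncomputable def Pk (ψ : Fin s → Irr H) (σ : Fin s → ℤ) (m : ℕ) (i : Fin s) (x : H) : ℂ :=
  (σ i : ℂ) * (ψ i).1 x + (m : ℂ) * ∑ j, (σ j : ℂ) * (ψ j).1 x

/-- the dual basis, up to `q1` -/
noncomputable def PkA (ψ : Fin s → Irr H) (σ : Fin s → ℤ) (m : ℕ) (i : Fin s) (x : H) : AA :=
  (σ i : AA) * chA (ψ i) x + (m : AA) * ∑ j, (σ j : AA) * chA (ψ j) x

theorem PkA_coe (ψ : Fin s → Irr H) (σ : Fin s → ℤ) (m : ℕ) (i : Fin s) (x : H) :
    (PkA ψ σ m i x : ℂ) = Pk ψ σ m i x := by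
  unfold PkA Pk
  push_cast
  rfl

theorem PkA_cf (ψ : Fin s → Irr H) (σ : Fin s → ℤ) (m : ℕ) (i : Fin s) : IsCF (PkA ψ σ m i) := by
  intro t x
  unfold PkA
  rw [chA_isCF]
  congr 2
  exact Finset.sum_congr rfl fun j _ => by rw [chA_isCF]

theorem Pk_cf (ψ : Fin s → Irr H) (σ : Fin s → ℤ) (m : ℕ) (i : Fin s) : IsCF (Pk ψ σ m i) := by
  intro t x
  rw [← PkA_coe, ← PkA_coe, PkA_cf]

theorem rsum_add {K : Type*} [Group K] [Fintype K] (f g : K → ℂ) :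
    rsum p (fun t => f t + g t) = rsum p f + rsum p g := by
  simp only [rsum_eq, Finset.sum_add_distrib]

theorem rsum_smul {K : Type*} [Group K] [Fintype K] (c : ℂ) (f : K → ℂ) :
    rsum p (fun t => c * f t) = c * rsum p f := by
  simp only [rsum_eq, Finset.mul_sum]

theorem rsum_sum {K ι : Type*} [Group K] [Fintype K] (S : Finset ι) (f : ι → K → ℂ) :
    rsum p (fun t => ∑ i ∈ S, f i t) = ∑ i ∈ S, rsum p (f i) := by
  simp only [rsum_eq]
  exact Finset.sum_comm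

theorem NDat.dual {ψ : Fin s → Irr H} {σ : Fin s → ℤ} {m a1 a2 : ℕ}
    (h : NDat p red D l H ψ σ m a1 a2) (i j : Fin s) :
    ((p : ℂ) ^ a1) * rsum p (fun x : H => ((σ i : ℂ) * (ψ i).1 x) * Pk ψ σ m j x⁻¹) =
      Nat.card H * (if i = j then 1 else 0) := by
  have hp0 : (p : ℂ) ≠ 0 := by exact_mod_cast hp.out.ne_zero
  have hq : (p : ℂ) ^ a2 ≠ 0 := pow_ne_zero _ hp0
  have hcard : (Nat.card D : ℂ) = (p : ℂ) ^ a1 * (p : ℂ) ^ a2 := by exact_mod_cast h.card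
  have h1 : rsum p (fun x : H => ((σ i : ℂ) * (ψ i).1 x) * Pk ψ σ m j x⁻¹) =
      rsum p (fun x : H => ((σ i : ℂ) * (ψ i).1 x) * ((σ j : ℂ) * (ψ j).1 x⁻¹)) +
        (m : ℂ) * ∑ r, rsum p (fun x : H => ((σ i : ℂ) * (ψ i).1 x) *
          ((σ r : ℂ) * (ψ r).1 x⁻¹)) := by
    rw [← rsum_sum, ← rsum_smul, ← rsum_add]
    congr 1
    funext x
    unfold Pk
    rw [← Finset.mul_sum]
    ring
  have h2 := h.gram i
  have h3 : (p : ℂ) ^ a2 * (((p : ℂ) ^ a1) * rsum p (fun x : H => ((σ i : ℂ) * (ψ i).1 x) *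
      Pk ψ σ m j x⁻¹)) = (Nat.card H : ℂ) * ((if i = j then (p : ℂ) ^ a2 else 0) - m +
        m * ∑ r, ((if i = r then (p : ℂ) ^ a2 else 0) - m)) := by
    rw [mul_add (Nat.card H : ℂ), ← mul_assoc (Nat.card H : ℂ) (m : ℂ), mul_comm (Nat.card H : ℂ) (m : ℂ),
      mul_assoc (m : ℂ), Finset.mul_sum, ← h2 j, Finset.sum_congr rfl fun r _ => (h2 r).symm,
      ← Finset.mul_sum, h1, hcard]
    ring
  apply mul_left_cancel₀ hq
  rw [h3]
  have h4 : ∑ r : Fin s, ((if i = r then (p : ℂ) ^ a2 else 0) - (m : ℂ)) = (p : ℂ) ^ a2 - s * m := by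
    rw [Finset.sum_sub_distrib, Finset.sum_ite_eq, if_pos (mem_univ _), Finset.sum_const,
      Finset.card_univ, Fintype.card_fin, nsmul_eq_mul]
  have h5 : (s : ℂ) * m + 1 = (p : ℂ) ^ a2 := by exact_mod_cast h.smq
  rw [h4, ← h5]
  split_ifs <;> ring

/-- the numbers -/
noncomputable def XA (p : ℕ) (ψ : Fin s → Irr H) (σ : Fin s → ℤ) (m a1 : ℕ) (i : Fin s) (u : G)
    (χ : Irr G) : AA :=
  dnA p H (p ^ a1) (Pk ψ σ m i) u χ.1

/-- the pairing with the dual basis -/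
theorem NDat.pair {ψ : Fin s → Irr H} {σ : Fin s → ℤ} {m a1 a2 : ℕ}
    (h : NDat p red D l H ψ σ m a1 a2) (N : Irr H → Fin s → ℤ)
    (hN : ∀ θ : Irr H, InL red (lres H l) θ.1 → ∀ x : H, ¬ p ∣ orderOf x →
      θ.1 x = ∑ i, (N θ i : ℂ) * ((σ i : ℂ) * (ψ i).1 x)) (i : Fin s) (θ : Irr H) :
    ((p ^ a1 : ℕ) : ℂ) / Nat.card H * rsum p (fun t : H => θ.1 t * Pk ψ σ m i t⁻¹) =
      if InL red (lres H l) θ.1 then (N θ i : ℂ) else 0 := by
  have hH0 : (Nat.card H : ℂ) ≠ 0 := by exact_mod_cast Nat.card_pos.ne'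
  by_cases hθ : InL red (lres H l) θ.1
  · rw [if_pos hθ]
    have h1 : rsum p (fun t : H => θ.1 t * Pk ψ σ m i t⁻¹) =
        ∑ j, (N θ j : ℂ) * rsum p (fun t : H => ((σ j : ℂ) * (ψ j).1 t) * Pk ψ σ m i t⁻¹) := by
      simp only [← rsum_smul]
      rw [← rsum_sum, rsum_eq, rsum_eq]
      refine Finset.sum_congr rfl fun t ht => ?_
      rw [hN θ hθ t (mem_filter.1 ht).2, Finset.sum_mul]
      exact Finset.sum_congr rfl fun j _ => by ring
    have h2 : ∀ j, ((p ^ a1 : ℕ) : ℂ) / Nat.card H * ((N θ j : ℂ) *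
        rsum p (fun t : H => ((σ j : ℂ) * (ψ j).1 t) * Pk ψ σ m i t⁻¹)) =
        if j = i then (N θ j : ℂ) else 0 := by
      intro j
      have h3 := h.dual j i
      push_cast
      have h4 : (p : ℂ) ^ a1 / Nat.card H * ((N θ j : ℂ) *
        rsum p (fun t : H => ((σ j : ℂ) * (ψ j).1 t) * Pk ψ σ m i t⁻¹)) =
        (N θ j : ℂ) / Nat.card H * ((p : ℂ) ^ a1 *
          rsum p (fun t : H => ((σ j : ℂ) * (ψ j).1 t) * Pk ψ σ m i t⁻¹)) := by ring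
      rw [h4, h3]
      split_ifs
      · field_simp
      · ring
    rw [h1, Finset.mul_sum, Finset.sum_congr rfl fun j _ => h2 j, Finset.sum_ite_eq',
      if_pos (mem_univ _)]
  · rw [if_neg hθ]
    have h1 : rsum p (fun t : H => θ.1 t * Pk ψ σ m i t⁻¹) =
        (σ i : ℂ) * rsum p (fun t : H => θ.1 t * (ψ i).1 t⁻¹) +
          (m : ℂ) * ∑ j, (σ j : ℂ) * rsum p (fun t : H => θ.1 t * (ψ j).1 t⁻¹) := by
      simp only [← rsum_smul]
      rw [← rsum_sum, ← rsum_smul, ← rsum_add]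
      congr 1
      funext t
      unfold Pk
      rw [mul_add, Finset.mul_sum, Finset.mul_sum, Finset.mul_sum]
      congr 1
      · ring
      · exact Finset.sum_congr rfl fun j _ => by ring
    have h2 : ∀ j, rsum p (fun t : H => θ.1 t * (ψ j).1 t⁻¹) = 0 := fun j =>
      rsum_orth_of_inL p red θ (ψ j) (h.inl j) hθ
    rw [h1, h2, Finset.sum_eq_zero fun j _ => by rw [h2, mul_zero]]
    ring

theorem NDat.dn_eq {ψ : Fin s → Irr H} {σ : Fin s → ℤ} {m a1 a2 : ℕ}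
    (h : NDat p red D l H ψ σ m a1 a2) (N : Irr H → Fin s → ℤ)
    (hN : ∀ θ : Irr H, InL red (lres H l) θ.1 → ∀ x : H, ¬ p ∣ orderOf x →
      θ.1 x = ∑ i, (N θ i : ℂ) * ((σ i : ℂ) * (ψ i).1 x)) (i : Fin s) {u : G} (huH : u ∈ H)
    (χ : Irr G) (n : Irr H → ℕ)
    (hn : ∀ h : H, χ.1 h = ∑ θ : Irr H, (n θ : ℂ) * θ.1 h) (c : Irr H → ℂ)
    (hc : ∀ (θ : Irr H) (t : H), θ.1 ((⟨u, huH⟩ : H) * t) = c θ * θ.1 t) :
    dn p H (p ^ a1) (Pk ψ σ m i) u χ.1 =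
      ∑ θ : Irr H, if InL red (lres H l) θ.1 then (n θ : ℂ) * c θ * (N θ i : ℂ) else 0 := by
  have h1 : dn p H (p ^ a1) (Pk ψ σ m i) u χ.1 = ∑ θ : Irr H, (n θ : ℂ) * c θ *
      (((p ^ a1 : ℕ) : ℂ) / Nat.card H * rsum p (fun t : H => θ.1 t * Pk ψ σ m i t⁻¹)) := by
    rw [dn]
    have h2 : rsum p (fun t : H => χ.1 (u * t) * Pk ψ σ m i t⁻¹) =
        ∑ θ : Irr H, (n θ : ℂ) * c θ * rsum p (fun t : H => θ.1 t * Pk ψ σ m i t⁻¹) := by
      simp only [rsum_eq, Finset.mul_sum]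
      rw [Finset.sum_comm]
      refine Finset.sum_congr rfl fun t _ => ?_
      have h3 : χ.1 (u * t) = ∑ θ : Irr H, (n θ : ℂ) * (c θ * θ.1 t) := by
        have h4 := hn ((⟨u, huH⟩ : H) * t)
        rw [Finset.sum_congr rfl fun θ _ => by rw [hc]] at h4
        exact h4
      rw [h3, Finset.sum_mul]
      exact Finset.sum_congr rfl fun θ _ => by ring
    rw [h2, Finset.mul_sum]
    exact Finset.sum_congr rfl fun θ _ => by ring
  rw [h1]
  refine Finset.sum_congr rfl fun θ _ => ?_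
  rw [h.pair N hN i θ]
  split_ifs <;> ring

/-- the choice of the coefficients -/
theorem NDat.exists_N {ψ : Fin s → Irr H} {σ : Fin s → ℤ} {m a1 a2 : ℕ}
    (h : NDat p red D l H ψ σ m a1 a2) : ∃ N : Irr H → Fin s → ℤ,
      ∀ θ : Irr H, InL red (lres H l) θ.1 → ∀ x : H, ¬ p ∣ orderOf x →
        θ.1 x = ∑ i, (N θ i : ℂ) * ((σ i : ℂ) * (ψ i).1 x) := by
  have h1 : ∀ θ : Irr H, ∃ n : Fin s → ℤ, InL red (lres H l) θ.1 → ∀ x : H, ¬ p ∣ orderOf x →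
      θ.1 x = ∑ i, (n i : ℂ) * ((σ i : ℂ) * (ψ i).1 x) := by
    intro θ
    by_cases hθ : InL red (lres H l) θ.1
    · obtain ⟨n, hn⟩ := h.dec θ hθ
      exact ⟨n, fun _ => hn⟩
    · exact ⟨0, fun h => absurd h hθ⟩
  choose N hN using h1
  exact ⟨N, hN⟩

theorem NDat.XA_coe {ψ : Fin s → Irr H} {σ : Fin s → ℤ} {m a1 a2 : ℕ}
    (h : NDat p red D l H ψ σ m a1 a2) {u : G} (hH : ∀ x, x ∈ H ↔ x * u = u * x) (i : Fin s)
    (χ : Irr G) : (XA p ψ σ m a1 i u χ : ℂ) = dn p H (p ^ a1) (Pk ψ σ m i) u χ.1 := by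
  have huH : u ∈ H := (hH u).2 rfl
  obtain ⟨n, hn⟩ := restr_decomp χ H
  obtain ⟨c, hc⟩ := exists_scalars H huH fun x hx => (hH x).1 hx
  obtain ⟨N, hN⟩ := h.exists_N
  have h1 := h.dn_eq N hN i huH χ n hn (fun θ => (c θ : ℂ)) hc
  have h2 : dn p H (p ^ a1) (Pk ψ σ m i) u χ.1 ∈ integralClosure ℤ ℂ := by
    rw [h1]
    have h3 : (∑ θ : Irr H, if InL red (lres H l) θ.1 then (n θ : ℂ) * (c θ : ℂ) * (N θ i : ℂ) else 0) =
        ((∑ θ : Irr H, if InL red (lres H l) θ.1 then (n θ : AA) * c θ * (N θ i : AA) else 0 : AA) : ℂ) := by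
      push_cast
      refine Finset.sum_congr rfl fun θ _ => ?_
      split_ifs
      · push_cast; rfl
      · rfl
    rw [h3]
    exact Subtype.property _
  unfold XA
  rw [dnA, dif_pos h2]

theorem NDat.XA_eq {ψ : Fin s → Irr H} {σ : Fin s → ℤ} {m a1 a2 : ℕ}
    (h : NDat p red D l H ψ σ m a1 a2) (N : Irr H → Fin s → ℤ)
    (hN : ∀ θ : Irr H, InL red (lres H l) θ.1 → ∀ x : H, ¬ p ∣ orderOf x →
      θ.1 x = ∑ i, (N θ i : ℂ) * ((σ i : ℂ) * (ψ i).1 x)) {u : G}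
    (hH : ∀ x, x ∈ H ↔ x * u = u * x) (i : Fin s) (χ : Irr G) (n : Irr H → ℕ)
    (hn : ∀ h : H, χ.1 h = ∑ θ : Irr H, (n θ : ℂ) * θ.1 h) (c : Irr H → AA)
    (hc : ∀ (θ : Irr H) (t : H), θ.1 ((⟨u, (hH u).2 rfl⟩ : H) * t) = (c θ : ℂ) * θ.1 t) :
    XA p ψ σ m a1 i u χ =
      ∑ θ : Irr H, if InL red (lres H l) θ.1 then (n θ : AA) * c θ * (N θ i : AA) else 0 := by
  apply Subtype.ext
  rw [h.XA_coe hH i χ, h.dn_eq N hN i ((hH u).2 rfl) χ n hn (fun θ => (c θ : ℂ)) hc]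
  push_cast
  refine Finset.sum_congr rfl fun θ _ => ?_
  split_ifs
  · push_cast; rfl
  · rfl

end

end P179H452
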