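import Vale.Agent.P179.R2.H452.N6

/-!
# Blocks with several simple modules at elements which are not regular: 7. sums over cosets
-/

namespace P179H452

open Finset P179P P179C P179Y Subgroup P179H524 P179I

open P179X (pp SameSec)

open scoped Classical IsMulCommutative

universe v

set_option linter.unusedSectionVars false

section Sum

variable {p : ℕ} [hp : Fact p.Prime] {k : Type*} [Field k] [CharP k p] {red : AA →+* k}
  {A : Type*} [AddCommGroup A] [Fintype A]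

/-- **twisted sums over a coset** -/
theorem RI_charsum (hp2 : p ≠ 2) {a : ℕ} (hA : Fintype.card A = p ^ a) {F : A → AA} (hF : RI F)
    {j r : ℕ} (hK : ∀ i : ℕ, i ≡ 1 [MOD p] → ∀ b : A, F (i • b) - F b ∈ QN p red (j + a + a))
    (Y : AddSubgroup A) [Fintype Y] (hY : Fintype.card Y = p ^ r)
    (hYj : ∀ y ∈ Y, ∃ x : A, p ^ j • x = y) (hYp : ∀ y ∈ Y, p • y = 0) (w : A)
    (ν : AddChar A ℂ) :
    ∑ y : Y, lamA ν (-(y : A)) * F (w + y) ∈ QN p red r ∧
      ((∃ y ∈ Y, lamA ν y ≠ 1) → ∑ y : Y, lamA ν (-(y : A)) * F (w + y) ∈ QN p red (r + j)) := by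
  obtain ⟨c, hc⟩ := hF
  have hcoef := coef_inv (red := red) hA hc hK
  obtain ⟨Z, hZdef⟩ : ∃ Z : AddChar A ℂ → Prop, ∀ ψ, Z ψ ↔ ∀ y ∈ Y, lamA ψ y = lamA ν y :=
    ⟨fun ψ => ∀ y ∈ Y, lamA ψ y = lamA ν y, fun _ => Iff.rfl⟩
  have hinv : ∀ y : A, lamA ν y * lamA ν (-y) = 1 := by
    intro y
    rw [← lamA_map_add, add_neg_cancel, lamA_zero']
  have hform : ∑ y : Y, lamA ν (-(y : A)) * F (w + y) =
      (p : AA) ^ r * ∑ ψ, (if Z ψ then c ψ * lamA ψ w else 0) := by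
    have h4 : ∀ y : Y, lamA ν (-(y : A)) * F (w + y) =
        ∑ ψ, c ψ * lamA ψ w * lamA (ψ - ν) (y : A) := by
      intro y
      rw [hc, Finset.mul_sum]
      refine Finset.sum_congr rfl fun ψ _ => ?_
      have h5 : lamA (ψ - ν) (y : A) = lamA ψ (y : A) * lamA ν (-(y : A)) := by
        apply Subtype.ext
        push_cast
        rw [lamA_coe, lamA_coe, lamA_coe, AddChar.sub_apply]
      rw [lamA_map_add, h5]
      ring
    rw [Finset.sum_congr rfl fun y _ => h4 y, Finset.sum_comm, Finset.mul_sum]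
    refine Finset.sum_congr rfl fun ψ _ => ?_
    rw [← Finset.mul_sum, sum_lamA_subgroup]
    have h6 : (∀ y ∈ Y, lamA (ψ - ν) y = 1) ↔ Z ψ := by
      rw [hZdef]
      refine forall₂_congr fun y _ => ?_
      have h5 : lamA (ψ - ν) (y : A) = lamA ψ (y : A) * lamA ν (-(y : A)) := by
        apply Subtype.ext
        push_cast
        rw [lamA_coe, lamA_coe, lamA_coe, AddChar.sub_apply]
      rw [h5]
      constructor
      · intro h
        have h7 := congrArg (fun x => x * lamA ν y) h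
        simp only [one_mul] at h7
        rw [mul_assoc, mul_comm (lamA ν (-y)), hinv, mul_one] at h7
        exact h7
      · intro h
        rw [h, hinv]
    by_cases h : Z ψ
    · rw [if_pos (h6.2 h), if_pos h, hY]
      push_cast
      ring
    · rw [if_neg (fun h' => h (h6.1 h')), if_neg h]
      ring
  rw [hform]
  refine ⟨mem_QN_of_dvd (dvd_mul_right _ _), fun hν => ?_⟩
  refine mul_mem_QN (mem_QN_of_dvd dvd_rfl) ?_
  refine RI_orb (red := red) hp2 hA hcoef le_rfl Z ?_ ?_ w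
  · intro i hi ψ
    rw [hZdef, hZdef]
    refine forall₂_congr fun y hy => ?_
    rw [lamA_nsmul']
    have h1 : lamA ψ y ^ p = 1 := by rw [← lamA_nsmul, hYp y hy, lamA_zero']
    have h2 : lamA ψ y ^ i = lamA ψ y := by
      have h3 : i ≡ 1 [MOD orderOf (lamA ψ y)] := hi.of_dvd (orderOf_dvd_of_pow_eq_one h1)
      have h4 := pow_eq_pow_of_modEq (x := lamA ψ y) h3 (pow_orderOf_eq_one _)
      rwa [pow_one] at h4
    rw [h2]
  · intro ψ hψ h0
    obtain ⟨y, hy, hne⟩ := hν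
    apply hne
    rw [← (hZdef ψ).1 hψ y hy]
    obtain ⟨x, rfl⟩ := hYj y hy
    rw [← lamA_nsmul_swap, h0, lamA_zero]

end Sum

section

variable {p : ℕ} [hp : Fact p.Prime] {k : Type v} [Field k] [CharP k p] {red : AA →+* k}
  {G : Type} [Group G] [Fintype G] {D : Subgroup G} {l : (G → k) → k}
  {Φ : ∀ H : Subgroup G, Irr H} {aH bH : Subgroup G → ℕ} {ε : Subgroup G → ℤ} {κ₀ : k}
  {H : Subgroup G} {s : ℕ} {ψ : Fin s → Irr H} {σ : Fin s → ℤ} {m a1 a2 : ℕ}

/-- the values on the coset `w Y`, `w` the only element of the coset which is not regular -/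
noncomputable def Cv (p : ℕ) (D : Subgroup G) (Φ : ∀ H : Subgroup G, Irr H)
    (ε : Subgroup G → ℤ) (ψ : Fin s → Irr H) (σ : Fin s → ℤ) (m a1 : ℕ) (τ : ℤ) (w y : D)
    (χ : Irr G) : AA :=
  if y = 1 then (τ : AA) * ∑ i, XA p ψ σ m a1 i (w : G) χ else Ad p D Φ ε ((w * y : D) : G) χ

theorem charsum_abs {A : Type} [AddCommGroup A] [Fintype A] (hp2 : p ≠ 2) {a : ℕ}
    (hA : Fintype.card A = p ^ a) {F g : A → AA} (hF : RI F) {j r n : ℕ}
    (hK : ∀ i : ℕ, i ≡ 1 [MOD p] → ∀ b : A, F (i • b) - F b ∈ QN p red (j + a + a))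
    (Y : AddSubgroup A) (hY : Nat.card Y = p ^ r)
    (hYj : ∀ y ∈ Y, ∃ x : A, p ^ j • x = y) (hYp : ∀ y ∈ Y, p • y = 0) (w : A)
    (ν : AddChar A ℂ) {κ : AA} (hκ : red κ ≠ 0)
    (hg : ∀ y ∈ Y, F (w + y) - κ * g y ∈ QN p red n) :
    (r ≤ n → ∑ y : Y, lamA ν (-(y : A)) * g y ∈ QN p red r) ∧
      (r + j ≤ n → (∃ y ∈ Y, lamA ν y ≠ 1) →
        ∑ y : Y, lamA ν (-(y : A)) * g y ∈ QN p red (r + j)) := by
  have hY' : Fintype.card Y = p ^ r := by
    rw [← hY, Nat.card_eq_fintype_card]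
  have hmain := RI_charsum (red := red) hp2 hA hF hK Y hY' hYj hYp w ν
  have hsum : κ * ∑ y : Y, lamA ν (-(y : A)) * g y = ∑ y : Y, lamA ν (-(y : A)) * F (w + y) -
      ∑ y : Y, lamA ν (-(y : A)) * (F (w + y) - κ * g y) := by
    rw [← Finset.sum_sub_distrib, Finset.mul_sum]
    exact Finset.sum_congr rfl fun y _ => by ring
  have herr : ∑ y : Y, lamA ν (-(y : A)) * (F (w + y) - κ * g y) ∈ QN p red n :=
    Ideal.sum_mem _ fun y _ => Ideal.mul_mem_left _ _ (hg y y.2)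
  refine ⟨fun hn => mem_of_unit_mul hκ ?_, fun hn hν => mem_of_unit_mul hκ ?_⟩
  · rw [hsum]
    exact sub_mem hmain.1 (QN_mono hn herr)
  · rw [hsum]
    exact sub_mem (hmain.2 hν) (QN_mono hn herr)

include hp in
theorem k2_aux [IsAlgClosed k] [IsMulCommutative D] (h : LocR p red D l Φ aH bH ε κ₀)
    (hl : BP p D l) (hD : IsPGroup p D) (hab : D ≤ centralizer (D : Set G)) (hp2 : p ≠ 2)
    (hT : ¬ p ∣ (centralizer (D : Set G)).relIndex (stabT D l)) {m₁ : ℕ}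
    (hmc : m₁.Coprime (Nat.card G))
    (hm1 : m₁ ≡ 1 [MOD ordCompl[p] (Nat.card G)])
    (hgen : ∀ i : ℕ, i ≡ 1 [MOD p] → ∃ t : ℕ, m₁ ^ t ≡ i [MOD ordProj[p] (Nat.card G)])
    (hN : NDat p red D l H ψ σ m a1 a2)
    (hs : (centralizer (D : Set G)).relIndex (stabT D l ⊓ H) = s) (ha2 : 1 ≤ a2) (j : ℕ) :
    ∃ τ : ℤ, (τ = 1 ∨ τ = -1) ∧ ∀ χ : Irr G, (∀ g, χ.1 (g ^ m₁) = χ.1 g) →
      ∀ (w : D), (∀ x, x ∈ H ↔ x * (w : G) = (w : G) * x) →
      ∀ (Y : Subgroup D) (r : ℕ), Nat.card Y = p ^ r → (∀ y ∈ Y, ∃ d : D, d ^ p ^ j = y) →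
      (∀ y ∈ Y, y ^ p = 1) →
      (∀ y ∈ Y, y ≠ 1 → RegT D l ((w * y : D) : G) ∧ ((w * y : D) : G) ≠ 1) →
      ∀ ν : AddChar (Additive D) ℂ,
      (r ≤ a2 → ∑ y : Y, lamA ν (-Additive.ofMul (y : D)) *
        Cv p D Φ ε ψ σ m a1 τ w y χ ∈ QN p red r) ∧
      (r + j ≤ a2 → (∃ y ∈ Y, lamA ν (Additive.ofMul y) ≠ 1) →
        ∑ y : Y, lamA ν (-Additive.ofMul (y : D)) *
          Cv p D Φ ε ψ σ m a1 τ w y χ ∈ QN p red (r + j)) := by
  by_cases hne : ∃ b₀ : Additive D, RegT D l (b₀.toMul : G) ∧ (b₀.toMul : G) ≠ 1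
  · obtain ⟨a, ha⟩ := (IsPGroup.iff_card (p := p)).1 hD
    have hcardA : Fintype.card (Additive D) = p ^ a := by
      rw [← ha, Nat.card_eq_fintype_card, Fintype.card_congr (Additive.toMul (α := D))]
    obtain ⟨κ, τ, hκ, hτ, hf⟩ := exists_extN h hl hD hab hp2 hT hmc hm1 hgen hN hs ha2
      (a2 + (j + a + a)) (Nat.le_add_right _ _) hne
    refine ⟨τ, hτ, fun χ hχ w hw Y r hY hYj hYp hreg ν => ?_⟩
    obtain ⟨f, hfRI, hf1, hf2, hf3⟩ := hf χ hχ
    let Y' : AddSubgroup (Additive D) := Subgroup.toAddSubgroup Y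
    let e : Y' ≃ Y := ⟨fun y => ⟨(y : Additive D).toMul, y.2⟩, fun y =>
        ⟨Additive.ofMul (y : D), y.2⟩, fun _ => rfl, fun _ => rfl⟩
    have key := charsum_abs (red := red) (n := a2) hp2 hcardA (F := f)
      (g := fun b => Cv p D Φ ε ψ σ m a1 τ w b.toMul χ) hfRI (j := j)
      (fun i hi b => QN_mono (by omega) (hf3 i hi b)) Y'
      ((Nat.card_congr e).trans hY) (fun y hy => by
        obtain ⟨d, hd⟩ := hYj y.toMul hy
        exact ⟨Additive.ofMul d, by rw [← ofMul_pow, hd]; rfl⟩) (fun y hy => by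
        have h1 := hYp y.toMul hy
        have h2 : p • y = Additive.ofMul (y.toMul ^ p) := rfl
        rw [h2, h1]; rfl) (Additive.ofMul w) ν hκ (fun y hy => by
        by_cases hy1 : y.toMul = 1
        · have hy0 : y = 0 := hy1
          unfold Cv
          rw [if_pos hy1, hy0, add_zero]
          exact hf2 (Additive.ofMul w) hw
        · unfold Cv
          rw [if_neg hy1]
          exact QN_mono (by omega) (hf1 (Additive.ofMul w + y) (hreg _ hy hy1)))
    have hsum : ∑ y : Y', lamA ν (-(y : Additive D)) *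
        Cv p D Φ ε ψ σ m a1 τ w (y : Additive D).toMul χ =
        ∑ y : Y, lamA ν (-Additive.ofMul (y : D)) * Cv p D Φ ε ψ σ m a1 τ w y χ :=
      Fintype.sum_equiv e _ _ fun y => rfl
    rw [← hsum]
    refine ⟨key.1, fun hn hν => key.2 hn ?_⟩
    obtain ⟨y, hy, hy2⟩ := hν
    exact ⟨Additive.ofMul y, hy, hy2⟩
  · refine ⟨1, Or.inl rfl, fun χ hχ w hw Y r hY hYj hYp hreg ν => ?_⟩
    have hY1 : ∀ y ∈ Y, y = 1 := by
      intro y hy
      by_contra hy1
      exact hne ⟨Additive.ofMul (w * y), hreg y hy hy1⟩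
    have hYbot : Y = ⊥ := (Subgroup.eq_bot_iff_forall Y).2 hY1
    have hr : r = 0 := by
      rw [hYbot, Subgroup.card_bot] at hY
      rcases Nat.eq_zero_or_pos r with h0 | h0
      · exact h0
      · exact absurd hY.symm (Nat.one_lt_pow h0.ne' hp.out.one_lt).ne'
    refine ⟨fun _ => ?_, fun _ hν => ?_⟩
    · rw [hr]
      exact mem_QN_of_dvd (by simp)
    · obtain ⟨y, hy, hy2⟩ := hν
      exfalso
      apply hy2
      rw [hY1 y hy]
      exact lamA_zero' ν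

end

end P179H452
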