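import Vale.Agent.P179.R2.H452.CovDef

/-!
# Primitive blocks
-/

namespace P179B

open Subgroup

/-- The block `B` of the group `G` covers only one block of each normal subgroup, no normal
`p'`-subgroup `K ≠ 1` of `G` acts trivially on `B` (`x B = B` for `x ∈ K`), the abelian normal
subgroups of `G` are central, and no normal subgroup of `G` has index `p`. -/
def PrimitiveBlock (p : ℕ) {k : Type*} [Field k] {G : Type*} [Group G] (B : MonoidAlgebra k G) :
    Prop :=
  CoversOne B ∧
  (∀ K : Subgroup G, K.Normal → ¬ p ∣ Nat.card K →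
    (∀ x ∈ K, MonoidAlgebra.single x (1 : k) * B = B) → K = ⊥) ∧
  (∀ A : Subgroup G, A.Normal → (∀ x ∈ A, ∀ y ∈ A, x * y = y * x) → A ≤ center G) ∧
  ∀ N : Subgroup G, N.Normal → N.index ≠ p

end P179B
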