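import Vale.Agent.P179.R2.H452.Fh5
import Vale.Agent.P179.R2.H452.CovDef2
import Vale.Agent.P179.R2.H443.Rd2

/-!
# The reduction for classes of abelian defect groups to primitive blocks
-/

namespace P179H452

open Subgroup P179H524 P179R P179Y P179H292 P179H351 P179H443 P179H872

open P179B (inertialIndex inertialGroup hyperfocal FactorClosed WeightConjAb ProperFactor
  SpecialBlock CoversOne SolvedBelow PrimitiveBlock)

open scoped Classical

universe u

section Main

variable {p : ℕ} [hp : Fact p.Prime] {k : Type u} [Field k] [IsAlgClosed k] [hk : CharP k p]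
  (red : integralClosure ℤ ℂ →+* k)

/-- **the dichotomy**: if the blocks of the smaller groups with defect groups isomorphic to `D`
and the proper direct factors of `D` are solved, then `B` is solved, or special and primitive -/
theorem special_prim_or (hE : EqwStmt p k) {G : Type} [Group G] [Finite G]
    {B : MonoidAlgebra k G} (hB : P179B.IsBlock B) {D : Subgroup G}
    (hD : P179B.IsDefectGroup B D) (hab : ∀ x ∈ D, ∀ y ∈ D, x * y = y * x)
    {β : MonoidAlgebra k (centralizer (D : Set G))} (hβ : P179B.IsBlock β)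
    (hβB : P179B.InducesTo β B)
    (hprop : WeightConjAb p red (fun (K : Type) [Group K] => ProperFactor D K))
    (hbelow : SolvedBelow p red D) :
    P179B.numSimpleIn B = P179B.numWeightsIn p red B ∨
      (SpecialBlock p red B D β ∧ PrimitiveBlock p B) := by
  by_cases hcov : ∀ N : Subgroup G, N.Normal → ∀ e : MonoidAlgebra k N, P179C.IsBlock e →
      inc N e * B = 0 ∨ inc N e * B = B
  · by_cases hfaith : ∀ K : Subgroup G, K.Normal → ¬ p ∣ Nat.card K →
        (∀ x ∈ K, MonoidAlgebra.single x (1 : k) * B = B) → K = ⊥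
    · rcases special_or red hE hB hD hab hβ hβB hprop with h1 | h1
      · exact Or.inl h1
      · exact Or.inr ⟨h1, hcov, hfaith,
          abelian_le_center hB h1.1 hcov hfaith, no_normal_index_p hB hD h1.2.1 hcov⟩
    · push Not at hfaith
      obtain ⟨K, hK, hpK, hKB, hK1⟩ := hfaith
      obtain ⟨c, E, hcard, hc, hE', hDE, hl, hw⟩ :=
        ker_step (p := p) red hK1 hpK hB hKB hD hab
      have h1 := hbelow (G ⧸ K) c E hcard hc hE' hDE
      left
      rw [P179B.numSimpleIn_eq, P179B.numWeightsIn_eq] at h1 ⊢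
      rw [hl, hw, h1]
  · push Not at hcov
    obtain ⟨N, hN, e, he, hne, hne'⟩ := hcov
    obtain ⟨H, c, E, hcard, hc, hE', hDE, -, hl, hw⟩ :=
      fr_step (p := p) red he hB hne hne' hD hab
    have h1 := hbelow H c E hcard hc hE' hDE
    left
    rw [P179B.numSimpleIn_eq, P179B.numWeightsIn_eq] at h1 ⊢
    rw [hl, hw, h1]

/-- **the reduction** to special primitive blocks -/
theorem weightConjAb_of_prim (hE : EqwStmt p k) {Cl : ∀ (K : Type) [Group K], Prop}
    (hCl : FactorClosed Cl)
    (h : ∀ (G : Type) [Group G] [Finite G] (B : MonoidAlgebra k G) (D : Subgroup G)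
      (b : MonoidAlgebra k (centralizer (D : Set G))), P179B.IsBlock B →
      P179B.IsDefectGroup B D → (∀ x ∈ D, ∀ y ∈ D, x * y = y * x) → Cl D → P179B.IsBlock b →
      P179B.InducesTo b B → WeightConjAb p red (fun (K : Type) [Group K] => ProperFactor D K) →
      SolvedBelow p red D → SpecialBlock p red B D b → PrimitiveBlock p B →
      P179B.numSimpleIn B = P179B.numWeightsIn p red B) :
    ∀ (n m : ℕ) (G : Type) [Group G] [Finite G] (B : MonoidAlgebra k G) (D : Subgroup G),
      P179B.IsBlock B → P179B.IsDefectGroup B D → (∀ x ∈ D, ∀ y ∈ D, x * y = y * x) → Cl D →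
      Nat.card D = n → Nat.card G = m → P179B.numSimpleIn B = P179B.numWeightsIn p red B := by
  intro n
  induction n using Nat.strong_induction_on with
  | _ n ih =>
  intro m
  induction m using Nat.strong_induction_on with
  | _ m ih2 =>
  intro G _ _ B D hB hD hab hDCl hn hm
  obtain ⟨β, hβ, hβB⟩ := P179B.exists_root p hB hD
  have hprop : WeightConjAb p red (fun (K : Type) [Group K] => ProperFactor D K) := by
    intro X _ _ B' D' hB' hD' habD' hDD'
    obtain ⟨K', _, hK', ⟨f⟩⟩ := hDD'
    have hfin : Finite (D' × K') := Finite.of_equiv D f.toEquiv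
    have hfin' : Finite K' := Finite.of_injective (fun y : K' => ((1 : D'), y)) fun x y h =>
      (Prod.ext_iff.1 h).2
    refine ih (Nat.card D') ?_ (Nat.card X) X B' D' hB' hD' habD'
      (hCl.2 D' K' (hCl.1 D _ ⟨f⟩ hDCl)) rfl rfl
    rw [← hn, Nat.card_congr f.toEquiv, Nat.card_prod]
    have h1 : 1 < Nat.card K' := Finite.one_lt_card_iff_nontrivial.2 hK'
    have h2 : 0 < Nat.card D' := Nat.card_pos
    nlinarith
  have hbelow : SolvedBelow p red D := by
    intro X _ _ B' E hX hB' hE' he
    obtain ⟨e⟩ := he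
    refine ih2 (Nat.card X) (hm ▸ hX) X B' E hB' hE' (fun x hx y hy => ?_)
      (hCl.1 D E ⟨e⟩ hDCl) ?_ rfl
    · have h2 : e.symm ⟨x, hx⟩ * e.symm ⟨y, hy⟩ = e.symm ⟨y, hy⟩ * e.symm ⟨x, hx⟩ :=
        Subtype.ext (hab _ (e.symm ⟨x, hx⟩).2 _ (e.symm ⟨y, hy⟩).2)
      rw [← map_mul, ← map_mul] at h2
      exact congrArg Subtype.val (e.symm.injective h2)
    · rw [← hn]
      exact (Nat.card_congr e.toEquiv).symm
  rcases special_prim_or red hE hB hD hab hβ hβB hprop hbelow with h1 | ⟨h1, h2⟩
  · exact h1
  · exact h G B D β hB hD hab hDCl hβ hβB hprop hbelow h1 h2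

end Main

end P179H452
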