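import Vale.Agent.P179.R2.H452.Count

/-!
# The number of regular elements

If the inertial quotient acts faithfully on `D ^ (p ^ (a - 1))`, each non-central element of the
stabiliser moves all but `|D| / p ^ a` elements of `D`.
-/

namespace P179H452

open Finset P179P P179C P179Y Subgroup P179H524 P179I

open scoped Classical

universe v

/-- The number of regular elements. -/
theorem card_RegA (p : ℕ) [hp : Fact p.Prime] {G : Type*} [Group G] [Finite G]
    (P : Subgroup G) (hP : IsPGroup p P) (hab : P ≤ centralizer (P : Set G)) (N : Subgroup G)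
    (a : ℕ) (hstar : ∀ n ∈ N, (∀ d ∈ P, n * d ^ p ^ (a - 1) * n⁻¹ = d ^ p ^ (a - 1)) →
      n ∈ centralizer (P : Set G)) :
    p ^ a * Nat.card P ≤ p ^ a * Nat.card {w : G // w ∈ P ∧
      ∀ n ∈ N, n * w * n⁻¹ = w → n ∈ centralizer (P : Set G)} +
        ((centralizer (P : Set G)).relIndex N - 1) * Nat.card P := by
  set C : Subgroup G := centralizer (P : Set G) with hC
  let Q := N ⧸ C.subgroupOf N
  have := Fintype.ofFinite Q
  have := Fintype.ofFinite G
  have hcomm : IsMulCommutative P := ⟨⟨fun a b => Subtype.ext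
    (mem_centralizer_iff.1 (hab b.2) a a.2)⟩⟩
  have hQ : Fintype.card Q = C.relIndex N := by
    rw [← Nat.card_eq_fintype_card]
    rfl
  let F : Q → Finset G := fun c => univ.filter fun w =>
    w ∈ P ∧ ((c.out : N) : G) * w * ((c.out : N) : G)⁻¹ = w
  let R : Finset G := univ.filter fun w => (w ∈ P ∧ ∀ n ∈ N, n * w * n⁻¹ = w → n ∈ C)
  let PF : Finset G := univ.filter fun w => w ∈ P
  have hPF : PF.card = Nat.card P := by
    rw [Nat.card_eq_fintype_card, Fintype.card_subtype]
  have hR : R.card = Nat.card {w : G // (w ∈ P ∧ ∀ n ∈ N, n * w * n⁻¹ = w → n ∈ C)} := by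
    rw [Nat.card_eq_fintype_card, Fintype.card_subtype]
  -- covering
  have hcov : PF ⊆ R ∪ (univ.filter fun c : Q => c ≠ QuotientGroup.mk 1).biUnion F := by
    intro w hw
    have hwP : w ∈ P := (mem_filter.1 hw).2
    rw [mem_union]
    by_cases hreg : (w ∈ P ∧ ∀ n ∈ N, n * w * n⁻¹ = w → n ∈ C)
    · exact Or.inl (mem_filter.2 ⟨mem_univ _, hreg⟩)
    · right
      have h1 : ∃ n ∈ N, n * w * n⁻¹ = w ∧ n ∉ C := by
        by_contra hcon
        push Not at hcon
        exact hreg ⟨hwP, hcon⟩
      obtain ⟨n, hn, hnw, hnC⟩ := h1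
      rw [mem_biUnion]
      refine ⟨QuotientGroup.mk ⟨n, hn⟩, mem_filter.2 ⟨mem_univ _, ?_⟩, mem_filter.2
        ⟨mem_univ _, hwP, ?_⟩⟩
      · intro h
        rw [QuotientGroup.eq] at h
        have h' : (n : G)⁻¹ * 1 ∈ C := h
        rw [mul_one] at h'
        exact hnC (by simpa using inv_mem h')
      · set m : N := (QuotientGroup.mk (⟨n, hn⟩ : N) : Q).out with hm
        have h2 : (QuotientGroup.mk m : Q) = QuotientGroup.mk ⟨n, hn⟩ := Quotient.out_eq' _
        rw [QuotientGroup.eq] at h2
        have h3 : (m : G)⁻¹ * n ∈ C := h2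
        have h4 : ((m : G)⁻¹ * n) * w = w * ((m : G)⁻¹ * n) := (mem_centralizer_iff.1 h3 w hwP).symm
        have h5 : n * w = w * n := mul_inv_eq_iff_eq_mul.1 hnw
        rw [mul_inv_eq_iff_eq_mul]
        have h6 : (m : G)⁻¹ * (w * n) = w * ((m : G)⁻¹ * n) := by rw [← h4, mul_assoc, h5]
        have h7 : (m : G)⁻¹ * w = w * (m : G)⁻¹ := by
          have := congrArg (· * n⁻¹) h6
          simpa [mul_assoc] using this
        have h8 := congrArg (fun x => (m : G) * x * m) h7
        simp only [mul_assoc, mul_inv_cancel_left, inv_mul_cancel, mul_one] at h8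
        exact h8.symm
  -- the size of the pieces
  have hpiece : ∀ c : Q, c ≠ QuotientGroup.mk 1 → p ^ a * (F c).card ≤ Nat.card P := by
    intro c hc
    let S : Subgroup P := (centralizer {((c.out : N) : G)}).subgroupOf P
    have hmemS : ∀ w : P, w ∈ S ↔ ((c.out : N) : G) * w * ((c.out : N) : G)⁻¹ = w := by
      intro w
      rw [Subgroup.mem_subgroupOf, mem_centralizer_singleton_iff, mul_inv_eq_iff_eq_mul]
      exact eq_comm
    have h1 : (F c).card = Nat.card S := by
      rw [Nat.card_eq_fintype_card]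
      refine Finset.card_bij (i := fun w hw => (⟨⟨w, (mem_filter.1 hw).2.1⟩, ?_⟩ : S))
        (fun _ _ => mem_univ _) ?_ ?_ |>.trans Finset.card_univ
      · rw [hmemS]
        exact (mem_filter.1 hw).2.2
      · intro a ha b hb hab
        exact congrArg (fun x : S => ((x : P) : G)) hab
      · intro b _
        exact ⟨((b : P) : G), mem_filter.2 ⟨mem_univ _, (b : P).2, (hmemS _).1 b.2⟩, rfl⟩
    obtain ⟨n, hn⟩ := hP.index S
    have h3 : a ≤ n := by
      by_contra hlt
      apply hc
      have hna : n ≤ a - 1 := by omega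
      have h3 : (c.out : N) ∈ C.subgroupOf N := by
        rw [Subgroup.mem_subgroupOf]
        refine hstar _ (c.out : N).2 fun d hd => ?_
        have h4 : (⟨d, hd⟩ : P) ^ S.index ∈ S := by
          have : S.Normal := by
            refine ⟨fun x hx g => ?_⟩
            have h5 : g * x * g⁻¹ = x := by
              apply Subtype.ext
              have h6 := mem_centralizer_iff.1 (hab g.2) x x.2
              push_cast
              rw [← h6, mul_inv_cancel_right]
            rw [h5]
            exact hx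
          exact Subgroup.pow_index_mem S _
        rw [hn] at h4
        have h5 : (⟨d, hd⟩ : P) ^ p ^ (a - 1) ∈ S := by
          obtain ⟨j, hj⟩ := Nat.exists_eq_add_of_le hna
          rw [hj, pow_add, pow_mul]
          exact pow_mem h4 _
        have h6 := (hmemS _).1 h5
        exact h6
      have h5 : (QuotientGroup.mk (c.out : N) : Q) = c := Quotient.out_eq' c
      rw [← h5, QuotientGroup.eq, mul_one]
      exact inv_mem h3
    rw [h1, ← Subgroup.card_mul_index S, mul_comm]
    refine Nat.mul_le_mul_left _ ?_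
    rw [hn]
    exact Nat.pow_le_pow_right hp.out.pos h3
  have h1 : PF.card ≤ R.card + ∑ c ∈ univ.filter (fun c : Q => c ≠ QuotientGroup.mk 1), (F c).card :=
    (card_le_card hcov).trans ((card_union_le _ _).trans (Nat.add_le_add_left card_biUnion_le _))
  have h2 : p ^ a * ∑ c ∈ univ.filter (fun c : Q => c ≠ QuotientGroup.mk 1), (F c).card ≤
      (C.relIndex N - 1) * Nat.card P := by
    rw [Finset.mul_sum]
    refine (Finset.sum_le_card_nsmul _ _ (Nat.card P) fun c hc => hpiece c (mem_filter.1 hc).2).trans ?_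
    rw [smul_eq_mul]
    refine Nat.mul_le_mul_right _ ?_
    rw [Finset.filter_ne', Finset.card_erase_of_mem (mem_univ _), Finset.card_univ, hQ]
  rw [hPF, hR] at h1
  calc p ^ a * Nat.card P ≤ p ^ a * (Nat.card {w : G // (w ∈ P ∧ ∀ n ∈ N, n * w * n⁻¹ = w → n ∈ C)} +
          ∑ c ∈ univ.filter (fun c : Q => c ≠ QuotientGroup.mk 1), (F c).card) := Nat.mul_le_mul_left _ h1
      _ = p ^ a * Nat.card {w : G // (w ∈ P ∧ ∀ n ∈ N, n * w * n⁻¹ = w → n ∈ C)} +
          p ^ a * ∑ c ∈ univ.filter (fun c : Q => c ≠ QuotientGroup.mk 1), (F c).card :=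
          mul_add _ _ _
      _ ≤ _ := Nat.add_le_add_left h2 _

/-- enough regular elements -/
theorem card_Wr {p : ℕ} [hp : Fact p.Prime] {k : Type v} [Field k] {G : Type} [Group G]
    [Finite G] {D : Subgroup G} {l : (G → k) → k}
    (hD : IsPGroup p D) (hab : D ≤ centralizer (D : Set G)) (a : ℕ)
    (hstar : ∀ n ∈ stabT D l, (∀ d ∈ D, n * d ^ p ^ (a - 1) * n⁻¹ = d ^ p ^ (a - 1)) →
      n ∈ centralizer (D : Set G))
    (h8 : 8 * (centralizer (D : Set G)).relIndex (stabT D l) ≤ p ^ a)
    (hDa : p ^ a ≤ Nat.card D) :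
    7 * Nat.card D ≤ 8 * Nat.card (Wr D l) := by
  have h1 := card_RegA p D hD hab (stabT D l) a hstar
  set C : Subgroup G := centralizer (D : Set G) with hC
  have hreg : Nat.card {w : G // w ∈ D ∧ ∀ n ∈ stabT D l, n * w * n⁻¹ = w → n ∈ C} ≤
      Nat.card (Wr D l) + 1 := by
    have hfin : Finite (Wr D l) := inferInstanceAs (Finite {w : G // RegT D l w ∧ w ≠ 1})
    rw [← Finite.card_option]
    refine Nat.card_le_card_of_injective (fun w => if h : w.1 = 1 then (none : Option (Wr D l))
      else some ⟨w.1, w.2, h⟩) fun w w' h => ?_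
    dsimp only at h
    by_cases h2 : w.1 = 1
    · by_cases h3 : w'.1 = 1
      · exact Subtype.ext (h2.trans h3.symm)
      · rw [dif_pos h2, dif_neg h3] at h
        exact absurd h (Option.some_ne_none _).symm
    · by_cases h3 : w'.1 = 1
      · rw [dif_neg h2, dif_pos h3] at h
        exact absurd h (Option.some_ne_none _)
      · rw [dif_neg h2, dif_neg h3] at h
        exact Subtype.ext (congrArg (fun x : Wr D l => x.1) (Option.some_injective _ h))
  have he1 : 1 ≤ C.relIndex (stabT D l) := Nat.pos_of_ne_zero (by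
    have : Finite (stabT D l ⧸ C.subgroupOf (stabT D l)) := inferInstance
    exact Nat.card_pos.ne')
  have hpa : 0 < p ^ a := Nat.pos_of_ne_zero (pow_ne_zero _ hp.out.ne_zero)
  obtain ⟨e', he'⟩ : ∃ e', C.relIndex (stabT D l) = e' + 1 := ⟨C.relIndex (stabT D l) - 1, by omega⟩
  rw [he'] at h1 h8
  rw [Nat.add_sub_cancel] at h1
  refine Nat.le_of_mul_le_mul_left ?_ hpa
  have h2 := Nat.mul_le_mul_left (p ^ a) hreg
  have h3 := Nat.mul_le_mul_right (Nat.card D) h8
  nlinarith

end P179H452
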