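import Vale.Agent.P179.H526.FinalT
import Vale.Agent.P179.R2.H452.CReg

/-!
# The bound for the number of simple modules
-/

namespace P179H452

open Finset P179P P179C P179Y Subgroup P179H524 P179I P179A

open P179X (pp SameSec IrrB Srat)

open P179B (inertialGroup inertialIndex)

open scoped Classical IsMulCommutative

universe v

section Omega

variable {G : Type*} [Group G] [Finite G]

theorem card_Om_succ (p : ℕ) (D : Subgroup G) (hab : ∀ a ∈ D, ∀ b ∈ D, a * b = b * a) (J : ℕ) :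
    Nat.card {d : G // d ∈ D ∧ d ^ p ^ (J + 1) = 1} ≤
      Nat.card {d : G // d ∈ D ∧ d ^ p = 1} * Nat.card {d : G // d ∈ D ∧ d ^ p ^ J = 1} := by
  have hcomm : IsMulCommutative D := ⟨⟨fun a b => Subtype.ext (hab a a.2 b b.2)⟩⟩
  have hk : ∀ n : ℕ, Nat.card {d : G // d ∈ D ∧ d ^ n = 1} =
      Nat.card (powMonoidHom n : D →* D).ker := by
    intro n
    refine Nat.card_congr
      { toFun := fun d => ⟨⟨d.1, d.2.1⟩, MonoidHom.mem_ker.2 (Subtype.ext d.2.2)⟩
        invFun := fun d => ⟨d.1, d.1.2, by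
          have := congrArg (fun y : D => (y : G)) (MonoidHom.mem_ker.1 d.2)
          exact this⟩
        left_inv := fun d => rfl
        right_inv := fun d => rfl }
  rw [hk, hk, hk]
  let f : (powMonoidHom (p ^ (J + 1)) : D →* D).ker →* (powMonoidHom (p ^ J) : D →* D).ker :=
    { toFun := fun d => ⟨d.1 ^ p, MonoidHom.mem_ker.2 (by
        have h1 := MonoidHom.mem_ker.1 d.2
        change (d.1 ^ p) ^ p ^ J = 1
        change d.1 ^ p ^ (J + 1) = 1 at h1
        rw [← pow_mul, ← pow_succ']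
        exact h1)⟩
      map_one' := Subtype.ext (one_pow _)
      map_mul' := fun x y => Subtype.ext (mul_pow x.1 y.1 p) }
  have h1 := Subgroup.card_mul_index f.ker
  rw [Subgroup.index_ker] at h1
  rw [← h1]
  refine Nat.mul_le_mul ?_ ?_
  · refine Nat.card_le_card_of_injective (fun x => (⟨x.1.1, MonoidHom.mem_ker.2 (by
      have h2 := MonoidHom.mem_ker.1 x.2
      exact congrArg Subtype.val h2)⟩ : (powMonoidHom p : D →* D).ker)) fun x y h => ?_
    apply Subtype.ext
    apply Subtype.ext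
    exact congrArg (fun z : (powMonoidHom p : D →* D).ker => z.1) h
  · exact Nat.card_le_card_of_injective (fun x => x.1) Subtype.val_injective

theorem card_Om_le (p : ℕ) (D : Subgroup G) (hab : ∀ a ∈ D, ∀ b ∈ D, a * b = b * a) (J : ℕ) :
    Nat.card {d : G // d ∈ D ∧ d ^ p ^ J = 1} ≤ Nat.card {d : G // d ∈ D ∧ d ^ p = 1} ^ J := by
  induction J with
  | zero =>
    rw [pow_zero]
    have : Subsingleton {d : G // d ∈ D ∧ d ^ p ^ 0 = 1} := by
      refine ⟨fun a b => Subtype.ext ?_⟩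
      have h1 : a.1 = 1 := by simpa using a.2.2
      have h2 : b.1 = 1 := by simpa using b.2.2
      rw [h1, h2]
    exact Finite.card_le_one_iff_subsingleton.2 this
  | succ J ih =>
    refine (card_Om_succ p D hab J).trans ?_
    rw [pow_succ']
    exact Nat.mul_le_mul_left _ ih

end Omega

section

variable {p : ℕ} [hp : Fact p.Prime] {k : Type v} [Field k] [IsAlgClosed k] [CharP k p]
  (red : integralClosure ℤ ℂ →+* k) {G : Type} [Group G] [Fintype G]

/-- the bound for the number of `m`-rational characters, for a Brauer pair of the block -/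
theorem Srat_le {B : MonoidAlgebra k G} (hB : IsBlock B) {D : Subgroup G}
    (hD : IsDefectGroup B D) (hDp : IsPGroup p D) (hab : ∀ a ∈ D, ∀ b ∈ D, a * b = b * a)
    {l : (G → k) → k} (hl : BP p D l) (hlz : ∀ z : G → k, IsCF z → l z = centralChar B (mkF z))
    (hp2 : p ≠ 2) (a : ℕ)
    (hstar : ∀ n ∈ stabT D l, (∀ d ∈ D, n * d ^ p ^ (a - 1) * n⁻¹ = d ^ p ^ (a - 1)) →
      n ∈ centralizer (D : Set G))
    (h8 : 8 * (centralizer (D : Set G)).relIndex (stabT D l) ≤ p ^ a)
    (hDa : p ^ a ≤ Nat.card D) {m : ℕ}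
    (hm1 : m ≡ 1 [MOD ordCompl[p] (Nat.card G)])
    (hgen : ∀ i : ℕ, i ≡ 1 [MOD p] → ∃ t : ℕ, m ^ t ≡ i [MOD ordProj[p] (Nat.card G)])
    {J : ℕ} (hJ : 128 * ((centralizer (D : Set G)).relIndex (stabT D l)) ^ 2 < p ^ J) :
    (Srat red m B).card ≤ 4 * (centralizer (D : Set G)).relIndex (stabT D l) *
      Nat.card {d : G // d ∈ D ∧ d ^ p ^ J = 1} := by
  have hlB : ∀ χ : Irr G, InL red l χ.1 ↔ CharInBlock red χ.1 B := inL_iff red hB hlz
  have hab' : D ≤ centralizer (D : Set G) := by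
    intro x hx
    rw [mem_centralizer_iff]
    intro y hy
    exact hab y hy x hx
  have he : ((centralizer (D : Set G)).relIndex (stabT D l) : k) ≠ 0 := by
    rw [Ne, CharP.cast_eq_zero_iff k p]
    exact hT_of_block hB hD hDp hab hl hlz
  have hSmem : ∀ χ ∈ Srat red m B, IsIrrChar χ ∧ CharInBlock red χ B ∧
      ∀ g, χ (g ^ m) = χ g := by
    intro χ hχ
    simp only [P179X.Srat, P179X.IrrB, mem_filter, P179X.mem_Irr] at hχ
    exact ⟨hχ.1.1, hχ.1.2, hχ.2⟩
  let S : Finset (Irr G) := univ.filter fun χ => χ.1 ∈ Srat red m B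
  have hS : (Srat red m B).card ≤ S.card := by
    refine le_trans (Finset.card_le_card fun χ hχ => ?_)
      (Finset.card_image_le (s := S) (f := fun χ : Irr G => χ.1))
    exact Finset.mem_image.2 ⟨⟨χ, (hSmem χ hχ).1⟩, mem_filter.2 ⟨mem_univ _, hχ⟩, rfl⟩
  refine hS.trans ?_
  refine card_S_le (red := red) hl hDp hab' hp2 hm1 hgen S (fun χ hχ => ?_) (fun χ hχ => ?_) he hJ
    (card_Wr hDp hab' a hstar h8 hDa)
  · exact (hlB χ).2 (hSmem χ.1 (mem_filter.1 hχ).2).2.1
  · exact (hSmem χ.1 (mem_filter.1 hχ).2).2.2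

end

end P179H452
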