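import Mathlib

/-!
# The combinatorial bound

`f χ w` are complex numbers, `Δ` permutes the `w`; the mean over `Δ` of `‖f χ w‖` is at least `1`,
the vectors satisfy a Bessel inequality, and the `2 × 2` minors inside the classes of `c` vanish
when their mean over `Δ` is small.  Then there are few `χ`.
-/

namespace P179H452

open Finset

open scoped Classical

section Comb

variable {W I C Δ : Type*} [Fintype W] [Fintype I] [Fintype C] [Group Δ] [Fintype Δ]
  [MulAction Δ W]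

omit [Fintype Δ] in
theorem sum_smul_eq (g : W → ℝ) (δ : Δ) : ∑ w, g (δ • w) = ∑ w, g w :=
  Equiv.sum_comp (MulAction.toPerm δ) g

omit [Fintype W] in
theorem sum_smul_inv (g : W → ℝ) (δ : Δ) (w : W) :
    ∑ δ' : Δ, g (δ' • δ • w) = ∑ δ' : Δ, g (δ' • w) := by
  simp only [smul_smul]
  exact Equiv.sum_comp (Equiv.mulRight δ) (fun δ' => g (δ' • w))

theorem abs_phase {z : ℂ} (hz : z ≠ 0) : ‖(starRingEnd ℂ) z / (‖z‖ : ℂ)‖ = 1 := by
  rw [norm_div, RCLike.norm_conj, Complex.norm_real, norm_norm, div_self (norm_ne_zero_iff.2 hz)]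

theorem phase_mul {z : ℂ} (hz : z ≠ 0) : (starRingEnd ℂ) z / (‖z‖ : ℂ) * z = (‖z‖ : ℂ) := by
  have h0 : (‖z‖ : ℂ) ≠ 0 := by exact_mod_cast norm_ne_zero_iff.2 hz
  rw [div_mul_eq_mul_div, div_eq_iff h0, mul_comm, Complex.mul_conj, Complex.normSq_eq_norm_sq]
  push_cast
  ring

/-- **the combinatorial bound** -/
theorem comb (c : W → C) (f : I → W → ℂ) (q e P : ℝ) (hq : 0 < q) (he : 1 ≤ e)
    (hne : ∀ χ w, f χ w ≠ 0)
    (ha : ∀ t : W → ℂ, ∑ χ, ‖∑ w, t w * f χ w‖ ^ 2 ≤ q * e * ∑ w, ‖t w‖ ^ 2)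
    (hb : ∀ χ w, (Fintype.card Δ : ℝ) ≤ ∑ δ : Δ, ‖f χ (δ • w)‖)
    (hc : ∀ χ ψ w w', c w = c w' →
      ∑ δ : Δ, ‖f χ (δ • w) * f ψ (δ • w') - f χ (δ • w') * f ψ (δ • w)‖ <
        Fintype.card Δ * P → f χ w * f ψ w' = f χ w' * f ψ w)
    (hP : 128 * e ^ 2 < P) (hW : (Fintype.card W : ℝ) ≤ q)
    (hW' : 7 * q ≤ 8 * (Fintype.card W : ℝ)) :
    (Fintype.card I : ℝ) ≤ 4 * e * Fintype.card C := by
  rcases isEmpty_or_nonempty I with hI | hI
  · rw [Fintype.card_eq_zero]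
    push_cast
    positivity
  have hΔ : (0 : ℝ) < Fintype.card Δ := by exact_mod_cast Fintype.card_pos
  set M : ℝ := 8 * e with hM
  have hM0 : 0 < M := by rw [hM]; linarith
  -- the mean squares
  set n : I → W → ℝ := fun χ w => ∑ δ : Δ, ‖f χ (δ • w)‖ ^ 2 with hn
  have hninv : ∀ χ (δ : Δ) w, n χ (δ • w) = n χ w := fun χ δ w =>
    sum_smul_inv (fun w => ‖f χ w‖ ^ 2) δ w
  have hrow : ∀ χ, ∑ w, ‖f χ w‖ ^ 2 ≤ q * e := by
    intro χ
    set s := ∑ w, ‖f χ w‖ ^ 2 with hs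
    have h1 := ha (fun w => (starRingEnd ℂ) (f χ w))
    have h2 : ∑ w, ‖(starRingEnd ℂ) (f χ w)‖ ^ 2 = s := by
      simp only [RCLike.norm_conj]
      rfl
    rw [h2] at h1
    have h3 : ‖∑ w, (starRingEnd ℂ) (f χ w) * f χ w‖ ^ 2 ≤
        ∑ ψ, ‖∑ w, (starRingEnd ℂ) (f χ w) * f ψ w‖ ^ 2 :=
      Finset.single_le_sum (f := fun ψ => ‖∑ w, (starRingEnd ℂ) (f χ w) * f ψ w‖ ^ 2)
        (fun _ _ => by positivity) (mem_univ χ)
    have h4 : ∑ w, (starRingEnd ℂ) (f χ w) * f χ w = (s : ℂ) := by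
      rw [hs]
      push_cast
      refine Finset.sum_congr rfl fun w _ => ?_
      rw [mul_comm, Complex.mul_conj, Complex.normSq_eq_norm_sq]
      push_cast
      rfl
    have hs0 : 0 ≤ s := Finset.sum_nonneg fun _ _ => by positivity
    rw [h4, Complex.norm_real, Real.norm_of_nonneg hs0] at h3
    rcases hs0.eq_or_lt with h | h
    · rw [← h]; positivity
    · have h5 : s * s ≤ q * e * s := by
        calc s * s = s ^ 2 := by ring
          _ ≤ _ := h3.trans h1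
      exact le_of_mul_le_mul_right h5 h
  have hsumn : ∀ χ, ∑ w, n χ w ≤ Fintype.card Δ * (q * e) := by
    intro χ
    have h1 : ∑ w, n χ w = Fintype.card Δ * ∑ w, ‖f χ w‖ ^ 2 := by
      simp only [hn]
      rw [Finset.sum_comm]
      rw [Finset.sum_congr rfl fun δ _ => sum_smul_eq (fun w => ‖f χ w‖ ^ 2) δ,
        Finset.sum_const, nsmul_eq_mul, Finset.card_univ]
    rw [h1]
    exact mul_le_mul_of_nonneg_left (hrow χ) hΔ.le
  have hn0 : ∀ χ w, 0 ≤ n χ w := fun χ w => Finset.sum_nonneg fun _ _ => by positivity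
  -- bad elements
  set Bad : I → Finset W := fun χ => univ.filter fun w => Fintype.card Δ * M ^ 2 < n χ w with hBad
  have hBadcard : ∀ χ, ((Bad χ).card : ℝ) * M ^ 2 ≤ q * e := by
    intro χ
    have h1 : ((Bad χ).card : ℝ) * (Fintype.card Δ * M ^ 2) ≤ Fintype.card Δ * (q * e) := by
      calc ((Bad χ).card : ℝ) * (Fintype.card Δ * M ^ 2) =
            ∑ w ∈ Bad χ, (Fintype.card Δ * M ^ 2 : ℝ) := by rw [Finset.sum_const, nsmul_eq_mul]
        _ ≤ ∑ w ∈ Bad χ, n χ w := Finset.sum_le_sum fun w hw => (mem_filter.1 hw).2.le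
        _ ≤ ∑ w, n χ w := Finset.sum_le_sum_of_subset_of_nonneg (Finset.subset_univ _)
            fun w _ _ => hn0 χ w
        _ ≤ _ := hsumn χ
    nlinarith
  have hGood : ∀ χ w, w ∉ Bad χ ↔ n χ w ≤ Fintype.card Δ * M ^ 2 := by
    intro χ w
    simp only [hBad, mem_filter, mem_univ, true_and, not_lt]
  -- the minors vanish
  have hminor : ∀ χ ψ w w', c w = c w' → w ∉ Bad χ → w' ∉ Bad χ → w ∉ Bad ψ → w' ∉ Bad ψ →
      f χ w * f ψ w' = f χ w' * f ψ w := by
    intro χ ψ w w' hcc h1 h2 h3 h4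
    rw [hGood] at h1 h2 h3 h4
    refine hc χ ψ w w' hcc ?_
    have h5 : ∀ δ : Δ, ‖f χ (δ • w) * f ψ (δ • w') - f χ (δ • w') * f ψ (δ • w)‖ ≤
        (‖f χ (δ • w)‖ ^ 2 + ‖f ψ (δ • w')‖ ^ 2 + (‖f χ (δ • w')‖ ^ 2 + ‖f ψ (δ • w)‖ ^ 2)) / 2 := by
      intro δ
      refine (norm_sub_le _ _).trans ?_
      rw [norm_mul, norm_mul]
      nlinarith [sq_nonneg (‖f χ (δ • w)‖ - ‖f ψ (δ • w')‖),
        sq_nonneg (‖f χ (δ • w')‖ - ‖f ψ (δ • w)‖)]
    have h6 : ∑ δ : Δ, ‖f χ (δ • w) * f ψ (δ • w') - f χ (δ • w') * f ψ (δ • w)‖ ≤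
        (n χ w + n ψ w' + (n χ w' + n ψ w)) / 2 := by
      refine (Finset.sum_le_sum fun δ _ => h5 δ).trans_eq ?_
      rw [← Finset.sum_div, Finset.sum_add_distrib, Finset.sum_add_distrib, Finset.sum_add_distrib]
    have h7 : (n χ w + n ψ w' + (n χ w' + n ψ w)) / 2 ≤ Fintype.card Δ * (2 * M ^ 2) := by
      linarith
    refine (h6.trans h7).trans_lt ?_
    refine mul_lt_mul_of_pos_left ?_ hΔ
    calc 2 * M ^ 2 = 128 * e ^ 2 := by rw [hM]; ring
      _ < P := hP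
  -- the references
  have href : ∀ c₀ : C, ∃ χ₀ : I, ∀ χ, ((Bad χ₀).filter fun w => c w = c₀).card ≤
      ((Bad χ).filter fun w => c w = c₀).card := by
    intro c₀
    obtain ⟨χ₀, -, h⟩ := Finset.exists_min_image (univ : Finset I)
      (fun χ => ((Bad χ).filter fun w => c w = c₀).card) univ_nonempty
    exact ⟨χ₀, fun χ => h χ (mem_univ _)⟩
  choose ref href using href
  set RB : Finset W := univ.filter fun w => w ∈ Bad (ref (c w)) with hRB
  have hRBcard : ∀ χ, RB.card ≤ (Bad χ).card := by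
    intro χ
    rw [Finset.card_eq_sum_card_fiberwise (s := RB) (t := univ) (f := c) (fun _ _ => by simp),
      Finset.card_eq_sum_card_fiberwise (s := Bad χ) (t := univ) (f := c) (fun _ _ => by simp)]
    refine Finset.sum_le_sum fun c₀ _ => ?_
    refine le_trans (le_of_eq ?_) (href c₀ χ)
    congr 1
    ext w
    simp only [hRB, mem_filter, mem_univ, true_and]
    constructor
    · rintro ⟨h1, rfl⟩
      exact ⟨h1, rfl⟩
    · rintro ⟨h1, rfl⟩
      exact ⟨h1, rfl⟩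
  -- the test vectors
  set t : C → W → ℂ := fun c₀ w => if c w = c₀ ∧ w ∉ Bad (ref c₀) then
    (starRingEnd ℂ) (f (ref c₀) w) / (‖f (ref c₀) w‖ : ℂ) else 0 with ht
  have htn : ∀ c₀ w, ‖t c₀ w‖ ^ 2 ≤ if c w = c₀ then 1 else 0 := by
    intro c₀ w
    simp only [ht]
    by_cases h : c w = c₀ ∧ w ∉ Bad (ref c₀)
    · rw [if_pos h, abs_phase (hne _ _), if_pos h.1, one_pow]
    · rw [if_neg h, norm_zero]
      split_ifs <;> norm_num
  set S : I → C → ℂ := fun χ c₀ => ∑ w, t c₀ w * f χ w with hS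
  -- small sets
  have hsmall : ∀ χ (X : Finset W), (X.card : ℝ) * M ^ 2 ≤ q * e →
      ∑ w ∈ X, ‖f χ w‖ ≤ q / 8 := by
    intro χ X hX
    have h1 : (∑ w ∈ X, ‖f χ w‖) ^ 2 ≤ X.card * ∑ w ∈ X, ‖f χ w‖ ^ 2 := sq_sum_le_card_mul_sum_sq
    have h2 : ∑ w ∈ X, ‖f χ w‖ ^ 2 ≤ q * e :=
      (Finset.sum_le_sum_of_subset_of_nonneg (Finset.subset_univ _)
        fun w _ _ => by positivity).trans (hrow χ)
    have h3 : (∑ w ∈ X, ‖f χ w‖) ^ 2 * M ^ 2 ≤ (q * e) ^ 2 := by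
      have h0 : (0 : ℝ) ≤ X.card := by positivity
      have hqe : 0 ≤ q * e := by positivity
      calc (∑ w ∈ X, ‖f χ w‖) ^ 2 * M ^ 2 ≤ (X.card * (q * e)) * M ^ 2 :=
            mul_le_mul_of_nonneg_right (h1.trans (mul_le_mul_of_nonneg_left h2 h0)) (by positivity)
        _ = (X.card * M ^ 2) * (q * e) := by ring
        _ ≤ (q * e) * (q * e) := mul_le_mul_of_nonneg_right hX hqe
        _ = _ := by ring
    have h4 : (∑ w ∈ X, ‖f χ w‖) * M ≤ q * e := by
      rw [← mul_pow] at h3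
      exact le_of_sq_le_sq h3 (by positivity)
    have h5 : (∑ w ∈ X, ‖f χ w‖) * (8 * e) ≤ (q / 8) * (8 * e) := by
      calc (∑ w ∈ X, ‖f χ w‖) * (8 * e) ≤ q * e := h4
        _ = _ := by ring
    exact le_of_mul_le_mul_right h5 (by linarith)
  -- lower bound for one class
  have hlow : ∀ χ c₀, ∑ w ∈ univ.filter (fun w => c w = c₀ ∧ w ∉ Bad χ ∧ w ∉ RB), ‖f χ w‖ -
      ∑ w ∈ (Bad χ).filter (fun w => c w = c₀), ‖f χ w‖ ≤ ‖S χ c₀‖ := by
    intro χ c₀
    set G : Finset W := univ.filter (fun w => c w = c₀ ∧ w ∉ Bad χ ∧ w ∉ RB) with hG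
    set Bc : Finset W := (Bad χ).filter (fun w => c w = c₀) with hBc
    have hdisj : Disjoint G Bc := by
      rw [Finset.disjoint_left]
      intro w h1 h2
      exact (mem_filter.1 h1).2.2.1 (mem_filter.1 h2).1
    have h1 : S χ c₀ = ∑ w ∈ G, t c₀ w * f χ w + ∑ w ∈ Bc, t c₀ w * f χ w := by
      rw [← Finset.sum_union hdisj]
      simp only [hS]
      symm
      refine Finset.sum_subset (Finset.subset_univ _) fun w _ hw => ?_
      have h2 : t c₀ w = 0 := by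
        simp only [ht]
        rw [if_neg]
        rintro ⟨h3, h4⟩
        apply hw
        rw [mem_union]
        by_cases h5 : w ∈ Bad χ
        · exact Or.inr (mem_filter.2 ⟨h5, h3⟩)
        · left
          rw [hG, mem_filter]
          refine ⟨mem_univ _, h3, h5, ?_⟩
          rw [hRB, mem_filter]
          rintro ⟨-, h6⟩
          rw [h3] at h6
          exact h4 h6
      rw [h2, zero_mul]
    have h2 : ‖∑ w ∈ G, t c₀ w * f χ w‖ = ∑ w ∈ G, ‖f χ w‖ := by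
      rcases G.eq_empty_or_nonempty with h | ⟨w₀, hw₀⟩
      · rw [h]; simp
      set g := f (ref c₀) with hg
      have hmemG : ∀ w ∈ G, c w = c₀ ∧ w ∉ Bad χ ∧ w ∉ Bad (ref c₀) := by
        intro w hw
        obtain ⟨-, h3, h4, h5⟩ := mem_filter.1 hw
        refine ⟨h3, h4, fun h6 => h5 ?_⟩
        rw [hRB, mem_filter]
        refine ⟨mem_univ _, ?_⟩
        rw [h3]
        exact h6
      obtain ⟨hw1, hw2, hw3⟩ := hmemG w₀ hw₀
      set ρ : ℂ := f χ w₀ / g w₀ with hρ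
      have hgne : g w₀ ≠ 0 := hne _ _
      have h3 : ∀ w ∈ G, f χ w = ρ * g w := by
        intro w hw
        obtain ⟨h4, h5, h6⟩ := hmemG w hw
        have h7 := hminor χ (ref c₀) w w₀ (h4.trans hw1.symm) h5 hw2 h6 hw3
        rw [hρ, div_mul_eq_mul_div, eq_div_iff hgne]
        exact h7
      have h4 : ∑ w ∈ G, t c₀ w * f χ w = ρ * ((∑ w ∈ G, ‖g w‖ : ℝ) : ℂ) := by
        rw [Complex.ofReal_sum, Finset.mul_sum]
        refine Finset.sum_congr rfl fun w hw => ?_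
        obtain ⟨h5, h6, h7⟩ := hmemG w hw
        have h8 : t c₀ w = (starRingEnd ℂ) (g w) / (‖g w‖ : ℂ) := by
          simp only [ht]
          rw [if_pos ⟨h5, h7⟩]
        rw [h8, h3 w hw]
        calc (starRingEnd ℂ) (g w) / (‖g w‖ : ℂ) * (ρ * g w) =
            ρ * ((starRingEnd ℂ) (g w) / (‖g w‖ : ℂ) * g w) := by ring
          _ = _ := by rw [phase_mul (hne _ _)]
      rw [h4, norm_mul, Complex.norm_real, Real.norm_of_nonneg
        (Finset.sum_nonneg fun _ _ => norm_nonneg _), Finset.mul_sum]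
      refine Finset.sum_congr rfl fun w hw => ?_
      rw [h3 w hw, norm_mul]
    have h3 : ‖∑ w ∈ Bc, t c₀ w * f χ w‖ ≤ ∑ w ∈ Bc, ‖f χ w‖ := by
      refine (norm_sum_le _ _).trans (Finset.sum_le_sum fun w _ => ?_)
      rw [norm_mul]
      have h4 : ‖t c₀ w‖ ≤ 1 := by
        have h5 := htn c₀ w
        have h6 : ‖t c₀ w‖ ^ 2 ≤ 1 := h5.trans (by split_ifs <;> norm_num)
        exact (sq_le_one_iff₀ (norm_nonneg _)).1 h6
      calc ‖t c₀ w‖ * ‖f χ w‖ ≤ 1 * ‖f χ w‖ :=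
            mul_le_mul_of_nonneg_right h4 (norm_nonneg _)
        _ = _ := one_mul _
    have h4 : ‖∑ w ∈ G, t c₀ w * f χ w‖ - ‖∑ w ∈ Bc, t c₀ w * f χ w‖ ≤ ‖S χ c₀‖ := by
      rw [h1]
      have h5 := norm_add_le (∑ w ∈ G, t c₀ w * f χ w + ∑ w ∈ Bc, t c₀ w * f χ w)
        (-∑ w ∈ Bc, t c₀ w * f χ w)
      rw [add_neg_cancel_right, norm_neg] at h5
      linarith
    rw [h2] at h4
    linarith
  -- sum over the classes
  have hfib : ∀ (X : Finset W) (g : W → ℝ), ∑ c₀, ∑ w ∈ X.filter (fun w => c w = c₀), g w =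
      ∑ w ∈ X, g w := fun X g => Finset.sum_fiberwise X c g
  have htot : ∀ χ, q / 2 ≤ ∑ c₀, ‖S χ c₀‖ := by
    intro χ
    have h1 : ∑ c₀, (∑ w ∈ univ.filter (fun w => c w = c₀ ∧ w ∉ Bad χ ∧ w ∉ RB), ‖f χ w‖ -
      ∑ w ∈ (Bad χ).filter (fun w => c w = c₀), ‖f χ w‖) ≤ ∑ c₀, ‖S χ c₀‖ :=
      Finset.sum_le_sum fun c₀ _ => hlow χ c₀
    rw [Finset.sum_sub_distrib, hfib] at h1
    have h2 : ∑ c₀, ∑ w ∈ univ.filter (fun w => c w = c₀ ∧ w ∉ Bad χ ∧ w ∉ RB), ‖f χ w‖ =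
        ∑ w ∈ univ.filter (fun w => w ∉ Bad χ ∧ w ∉ RB), ‖f χ w‖ := by
      rw [← hfib]
      refine Finset.sum_congr rfl fun c₀ _ => ?_
      congr 1
      ext w
      simp only [mem_filter, mem_univ, true_and]
      tauto
    rw [h2] at h1
    set Gd : Finset W := univ.filter (fun w => w ∉ Bad χ) with hGd
    have h3 : ∑ w ∈ Gd, ‖f χ w‖ ≤
        ∑ w ∈ univ.filter (fun w => w ∉ Bad χ ∧ w ∉ RB), ‖f χ w‖ + ∑ w ∈ RB, ‖f χ w‖ := by
      have h4 : Gd ⊆ univ.filter (fun w => w ∉ Bad χ ∧ w ∉ RB) ∪ RB := by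
        intro w hw
        rw [mem_union, mem_filter]
        by_cases h5 : w ∈ RB
        · exact Or.inr h5
        · exact Or.inl ⟨mem_univ _, (mem_filter.1 hw).2, h5⟩
      refine (Finset.sum_le_sum_of_subset_of_nonneg h4 fun _ _ _ => norm_nonneg _).trans ?_
      have h6 := Finset.sum_union_inter (s₁ := univ.filter (fun w => w ∉ Bad χ ∧ w ∉ RB))
        (s₂ := RB) (f := fun w => ‖f χ w‖)
      have h7 : 0 ≤ ∑ w ∈ univ.filter (fun w => w ∉ Bad χ ∧ w ∉ RB) ∩ RB, ‖f χ w‖ :=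
        Finset.sum_nonneg fun _ _ => norm_nonneg _
      linarith
    -- the good elements
    have h4 : (Gd.card : ℝ) ≤ ∑ w ∈ Gd, ‖f χ w‖ := by
      have h5 : ∀ δ : Δ, ∑ w ∈ Gd, ‖f χ (δ • w)‖ = ∑ w ∈ Gd, ‖f χ w‖ := by
        intro δ
        have hGdm : ∀ w, w ∈ Gd ↔ n χ w ≤ Fintype.card Δ * M ^ 2 := by
          intro w
          rw [hGd, mem_filter, hGood]
          simp
        refine Finset.sum_bij (fun w _ => δ • w) ?_ ?_ ?_ ?_
        · intro w hw
          rw [hGdm] at hw ⊢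
          rwa [hninv]
        · intro a _ b _ hab
          exact smul_left_cancel δ hab
        · intro w hw
          refine ⟨δ⁻¹ • w, ?_, smul_inv_smul δ w⟩
          rw [hGdm] at hw ⊢
          rwa [hninv]
        · intro w _
          rfl
      have h6 : (Fintype.card Δ : ℝ) * ∑ w ∈ Gd, ‖f χ w‖ =
          ∑ w ∈ Gd, ∑ δ : Δ, ‖f χ (δ • w)‖ := by
        rw [Finset.sum_comm, Finset.sum_congr rfl fun δ _ => h5 δ, Finset.sum_const, nsmul_eq_mul,
          Finset.card_univ]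
      have h7 : (Gd.card : ℝ) * Fintype.card Δ ≤ ∑ w ∈ Gd, ∑ δ : Δ, ‖f χ (δ • w)‖ := by
        rw [← nsmul_eq_mul, ← Finset.sum_const]
        exact Finset.sum_le_sum fun w _ => hb χ w
      rw [← h6] at h7
      refine le_of_mul_le_mul_left ?_ hΔ
      linarith
    have h5 : (Gd.card : ℝ) + (Bad χ).card = Fintype.card W := by
      have h6 : Gd.card + (Bad χ).card = Fintype.card W := by
        rw [← Finset.card_compl_add_card (Bad χ)]
        congr 2
        ext w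
        simp [hGd]
      exact_mod_cast h6
    have h6 := hsmall χ (Bad χ) (hBadcard χ)
    have h7 := hsmall χ RB ((mul_le_mul_of_nonneg_right (by exact_mod_cast hRBcard χ)
      (by positivity)).trans (hBadcard χ))
    have h8 : ((Bad χ).card : ℝ) ≤ q / 64 := by
      have h9 := hBadcard χ
      have h10 : ((Bad χ).card : ℝ) * (64 * e ^ 2) ≤ (q / 64) * (64 * e ^ 2) := by
        calc ((Bad χ).card : ℝ) * (64 * e ^ 2) = (Bad χ).card * M ^ 2 := by rw [hM]; ring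
          _ ≤ q * e := h9
          _ ≤ q * e ^ 2 := by
            refine mul_le_mul_of_nonneg_left ?_ hq.le
            nlinarith
          _ = _ := by ring
      exact le_of_mul_le_mul_right h10 (by positivity)
    linarith
  -- conclusion
  have hfin : (Fintype.card I : ℝ) * (q ^ 2 / 4) ≤ Fintype.card C * (q * e * q) := by
    have h1 : ∀ χ, q ^ 2 / 4 ≤ Fintype.card C * ∑ c₀, ‖S χ c₀‖ ^ 2 := by
      intro χ
      have h2 : (∑ c₀, ‖S χ c₀‖) ^ 2 ≤ (univ : Finset C).card * ∑ c₀, ‖S χ c₀‖ ^ 2 :=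
        sq_sum_le_card_mul_sum_sq
      rw [Finset.card_univ] at h2
      have h3 := htot χ
      have h4 : (q / 2) ^ 2 ≤ (∑ c₀, ‖S χ c₀‖) ^ 2 := pow_le_pow_left₀ (by positivity) h3 2
      calc q ^ 2 / 4 = (q / 2) ^ 2 := by ring
        _ ≤ _ := h4.trans h2
    calc (Fintype.card I : ℝ) * (q ^ 2 / 4) = ∑ χ : I, q ^ 2 / 4 := by
          rw [Finset.sum_const, nsmul_eq_mul, Finset.card_univ]
      _ ≤ ∑ χ : I, Fintype.card C * ∑ c₀, ‖S χ c₀‖ ^ 2 := Finset.sum_le_sum fun χ _ => h1 χ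
      _ = Fintype.card C * ∑ c₀, ∑ χ : I, ‖S χ c₀‖ ^ 2 := by
          rw [← Finset.mul_sum, Finset.sum_comm]
      _ ≤ Fintype.card C * ∑ c₀, q * e * ∑ w, ‖t c₀ w‖ ^ 2 := by
          refine mul_le_mul_of_nonneg_left (Finset.sum_le_sum fun c₀ _ => ha (t c₀)) (by positivity)
      _ ≤ Fintype.card C * ∑ c₀, q * e * ∑ w, (if c w = c₀ then (1 : ℝ) else 0) := by
          refine mul_le_mul_of_nonneg_left (Finset.sum_le_sum fun c₀ _ =>
            mul_le_mul_of_nonneg_left (Finset.sum_le_sum fun w _ => htn c₀ w) (by positivity))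
            (by positivity)
      _ = Fintype.card C * (q * e * Fintype.card W) := by
          rw [← Finset.mul_sum, Finset.sum_comm]
          congr 2
          simp
      _ ≤ _ := by
          refine mul_le_mul_of_nonneg_left (mul_le_mul_of_nonneg_left hW (by positivity))
            (by positivity)
  have hq2 : 0 < q ^ 2 := by positivity
  have h1 : (Fintype.card I : ℝ) * q ^ 2 ≤ 4 * e * Fintype.card C * q ^ 2 := by
    calc (Fintype.card I : ℝ) * q ^ 2 = 4 * ((Fintype.card I : ℝ) * (q ^ 2 / 4)) := by ring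
      _ ≤ 4 * (Fintype.card C * (q * e * q)) := by linarith
      _ = _ := by ring
  exact le_of_mul_le_mul_right h1 hq2

end Comb

end P179H452
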