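import Vale.Agent.P179.H905.I14
import Vale.Agent.P179.H143.LemW

/-!
# Rational integral combinations of the characters of a finite abelian `p`-group

If `F` is an integral combination of the characters of `A` and `F (i b) = F b` modulo a high power
of `p` for `i` congruent to `1` modulo `p`, then `F` is constant modulo `p ^ J` on the cosets of
`p ^ J A`.
-/

namespace P179H452

open Finset P179P P179I P179C

open scoped Classical

section Coeff

variable {A : Type*} [AddCommGroup A] [Fintype A]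

theorem lamA_zero' (ψ : AddChar A ℂ) : lamA ψ (0 : A) = 1 := Subtype.ext (by
  rw [lamA_coe, AddChar.map_zero_eq_one]; rfl)

theorem lamA_nsmul (ψ : AddChar A ℂ) (i : ℕ) (b : A) : lamA ψ (i • b) = lamA ψ b ^ i := by
  apply Subtype.ext
  push_cast
  rw [lamA_coe, lamA_coe, AddChar.map_nsmul_eq_pow]

theorem lamA_nsmul' (ψ : AddChar A ℂ) (i : ℕ) (b : A) : lamA (i • ψ) b = lamA ψ b ^ i := by
  apply Subtype.ext
  push_cast
  rw [lamA_coe, lamA_coe, AddChar.nsmul_apply]

theorem lamA_nsmul_swap (ψ : AddChar A ℂ) (i : ℕ) (b : A) : lamA (i • ψ) b = lamA ψ (i • b) := by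
  rw [lamA_nsmul, lamA_nsmul']

/-- the coefficients -/
theorem coeff_eq {F : A → AA} {c : AddChar A ℂ → AA} (hc : ∀ b, F b = ∑ ψ, c ψ * lamA ψ b)
    (ψ : AddChar A ℂ) : ∑ b, F b * lamA ψ (-b) = (Fintype.card A : AA) * c ψ := by
  have h1 : ∀ b, F b * lamA ψ (-b) = ∑ φ, c φ * (lamA φ b * lamA ψ (-b)) := by
    intro b
    rw [hc, Finset.sum_mul]
    exact Finset.sum_congr rfl fun φ _ => by ring
  rw [Finset.sum_congr rfl fun b _ => h1 b, Finset.sum_comm]
  have h2 : ∀ φ : AddChar A ℂ, ∑ b, c φ * (lamA φ b * lamA ψ (-b)) =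
      if φ = ψ then (Fintype.card A : AA) * c φ else 0 := by
    intro φ
    rw [← Finset.mul_sum]
    have h3 : ∑ b : A, lamA φ b * lamA ψ (-b) = if φ = ψ then (Fintype.card A : AA) else 0 := by
      apply Subtype.ext
      push_cast
      have h4 : ∀ b : A, (lamA φ b : ℂ) * (lamA ψ (-b) : ℂ) = (φ - ψ) b := by
        intro b
        rw [lamA_coe, lamA_coe, AddChar.sub_apply]
      rw [Finset.sum_congr rfl fun b _ => h4 b, AddChar.sum_eq_ite]
      by_cases h : φ = ψ
      · rw [if_pos (by rw [h, sub_self]), if_pos h]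
        simp
      · rw [if_neg (fun h' => h (sub_eq_zero.1 h')), if_neg h]
        rfl
    rw [h3]
    split_ifs
    · ring
    · ring
  rw [Finset.sum_congr rfl fun φ _ => h2 φ]
  simp

end Coeff

section Cong

variable {p : ℕ} [hp : Fact p.Prime] {k : Type*} [Field k] [CharP k p] {red : AA →+* k}
  {A : Type*} [AddCommGroup A] [Fintype A]

omit hp in
theorem geom_root {ξ : AA} {n : ℕ} (h : ξ ^ n = 1) :
    ∑ t ∈ range n, ξ ^ t = if ξ = 1 then (n : AA) else 0 := by
  split_ifs with h1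
  · rw [h1]; simp
  · have h2 := mul_neg_geom_sum ξ n
    rw [h, sub_self] at h2
    rcases mul_eq_zero.1 h2 with h3 | h3
    · exact absurd (sub_eq_zero.1 h3).symm h1
    · exact h3

theorem order_lte (hp2 : p ≠ 2) {J s : ℕ} (h : p ^ s ∣ (1 + p) ^ p ^ J - 1) : s ≤ J + 1 := by
  have h1 : padicValNat p ((1 + p) ^ p ^ J - 1) = J + 1 := by
    have h2 := padicValNat.pow_sub_pow (p := p) (x := 1 + p) (y := 1) (hp.out.odd_of_ne_two hp2)
      (by have := hp.out.pos; omega) (by simp) (by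
        intro h3
        have h4 : p ∣ 1 := (Nat.dvd_add_left (dvd_refl p)).1 h3
        exact hp.out.one_lt.ne' (Nat.dvd_one.1 h4)) (n := p ^ J) (pow_ne_zero _ hp.out.ne_zero)
    rw [one_pow] at h2
    rw [h2]
    simp
    ring
  rw [← h1]
  refine (padicValNat_dvd_iff_le ?_).1 h
  have h3 : 1 < (1 + p) ^ p ^ J := by
    refine Nat.one_lt_pow (pow_ne_zero _ hp.out.ne_zero) ?_
    have := hp.out.pos
    omega
  omega

omit [CharP k p] in
/-- **the congruence** -/
theorem RI_cong (hp2 : p ≠ 2) {a : ℕ} (hA : Fintype.card A = p ^ a) {F : A → AA} (hF : RI F)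
    {K J : ℕ} (hK : ∀ i : ℕ, i ≡ 1 [MOD p] → ∀ b : A, F (i • b) - F b ∈ QN p red (K + a))
    (hKJ : J ≤ K) (b x : A) : F (b + p ^ J • x) - F b ∈ QN p red J := by
  obtain ⟨c, hc⟩ := hF
  rcases Nat.eq_zero_or_pos J with rfl | hJ
  · exact mem_QN_of_dvd (by simp)
  obtain ⟨J, rfl⟩ : ∃ J', J = J' + 1 := ⟨J - 1, by omega⟩
  have hexp : ∀ b : A, p ^ a • b = 0 := by
    intro b
    rw [← hA]
    exact card_nsmul_eq_zero
  have hcop : ∀ {i : ℕ}, i ≡ 1 [MOD p] → (Nat.card A).Coprime i := by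
    intro i hi
    rw [Nat.card_eq_fintype_card, hA]
    refine Nat.Coprime.pow_left _ ((Nat.Prime.coprime_iff_not_dvd hp.out).2 fun h => ?_)
    have h1 : (0 : ℕ) ≡ 1 [MOD p] := ((Nat.modEq_zero_iff_dvd.2 h).symm).trans hi
    have h2 : p ∣ 1 - 0 := (Nat.modEq_iff_dvd' (by omega)).1 h1
    exact hp.out.one_lt.ne' (Nat.dvd_one.1 h2)
  -- the coefficients
  have hcoef : ∀ i : ℕ, i ≡ 1 [MOD p] → ∀ ψ, c (i • ψ) - c ψ ∈ QN p red K := by
    intro i hi ψ
    refine mem_QN_of_mul (a := a) ?_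
    have h1 := coeff_eq hc (i • ψ)
    have h2 := coeff_eq hc ψ
    rw [← Equiv.sum_comp (nsmulCoprime (hcop hi))] at h2
    rw [hA] at h1 h2
    push_cast at h1 h2
    have h3 : (p : AA) ^ a * (c (i • ψ) - c ψ) =
        -∑ b, (F (i • b) - F b) * lamA ψ (-(i • b)) := by
      rw [mul_sub, ← h1, ← h2, ← Finset.sum_sub_distrib, ← Finset.sum_neg_distrib]
      refine Finset.sum_congr rfl fun b _ => ?_
      rw [lamA_nsmul_swap, smul_neg]
      change F b * lamA ψ (-(i • b)) - F (i • b) * lamA ψ (-(i • b)) = _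
      ring
    rw [h3]
    exact neg_mem (Ideal.sum_mem _ fun b _ => Ideal.mul_mem_right _ _ (hK i hi b))
  -- the formula
  set g : A → AddChar A ℂ → AA := fun b ψ =>
    if lamA ψ (p • b) = 1 then c ψ * lamA ψ b else 0 with hg
  have hform : ∀ b, F b - ∑ ψ, g b ψ ∈ QN p red K := by
    intro b
    refine mem_QN_of_mul (a := a) ?_
    have h1 : ∑ t ∈ range (p ^ a), F ((1 + p * t) • b) = (p : AA) ^ a * ∑ ψ, g b ψ := by
      have h2 : ∀ t, F ((1 + p * t) • b) = ∑ ψ, c ψ * lamA ψ b * lamA ψ (p • b) ^ t := by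
        intro t
        rw [hc]
        refine Finset.sum_congr rfl fun ψ _ => ?_
        rw [add_smul, one_smul, lamA_map_add, mul_comm p t, mul_smul, lamA_nsmul]
        ring
      rw [Finset.sum_congr rfl fun t _ => h2 t, Finset.sum_comm, Finset.mul_sum]
      refine Finset.sum_congr rfl fun ψ _ => ?_
      rw [← Finset.mul_sum, geom_root (by rw [← lamA_nsmul, hexp, lamA_zero'])]
      simp only [hg]
      split_ifs
      · push_cast; ring
      · ring
    have h2 : (p : AA) ^ a * (F b - ∑ ψ, g b ψ) =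
        -∑ t ∈ range (p ^ a), (F ((1 + p * t) • b) - F b) := by
      rw [Finset.sum_sub_distrib, h1, Finset.sum_const, card_range, nsmul_eq_mul]
      push_cast
      ring
    rw [h2]
    refine neg_mem (Ideal.sum_mem _ fun t _ => hK _ ?_ b)
    have : 1 + p * t ≡ 1 + 0 [MOD p] := (Nat.ModEq.refl 1).add
      ((Nat.modEq_zero_iff_dvd.2 (dvd_mul_right p t)))
    exact this
  -- the permutation
  set b' := b + p ^ (J + 1) • x with hb'
  have hcop1 : (Nat.card (AddChar A ℂ)).Coprime (1 + p) := by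
    have h1 : Nat.card (AddChar A ℂ) = Nat.card A := by
      rw [Nat.card_eq_fintype_card, Nat.card_eq_fintype_card, AddChar.card_eq]
    rw [h1]
    refine hcop ?_
    exact (Nat.ModEq.refl 1).add (Nat.modEq_zero_iff_dvd.2 dvd_rfl)
  let σ : Equiv.Perm (AddChar A ℂ) := nsmulCoprime hcop1
  have hσ : ∀ ψ, σ ψ = (1 + p) • ψ := fun _ => rfl
  have hσpow : ∀ (t : ℕ) ψ, (σ ^ t) ψ = (1 + p) ^ t • ψ := by
    intro t
    induction t with
    | zero => intro ψ; simp
    | succ t ih =>
      intro ψ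
      rw [pow_succ', Equiv.Perm.mul_apply, ih, hσ, pow_succ', mul_smul]
  have hψexp : ∀ ψ : AddChar A ℂ, p ^ a • ψ = 0 := by
    intro ψ
    have h1 : Fintype.card (AddChar A ℂ) = p ^ a := by rw [AddChar.card_eq, hA]
    rw [← h1]
    exact card_nsmul_eq_zero
  have hσ1 : σ ^ p ^ a = 1 := by
    ext ψ : 1
    rw [hσpow, Equiv.Perm.one_apply]
    have h1 : (1 + p) ^ p ^ a ≡ 1 [MOD p ^ a] := by
      have h2 : (1 + p) ^ p ^ a ≡ 1 ^ p ^ a [MOD p ^ (a + 1)] := by
        have h3 : (p : ℤ) ^ (a + 1) ∣ (1 + p : ℤ) ^ p ^ a - 1 ^ p ^ a :=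
          dvd_sub_pow_of_dvd_sub (R := ℤ) (p := p) (by simp) a
        have h4 := (Int.modEq_iff_dvd.2 h3).symm
        exact_mod_cast h4
      rw [one_pow] at h2
      exact h2.of_dvd (pow_dvd_pow p (Nat.le_succ a))
    obtain ⟨d, hd⟩ : ∃ d, (1 + p) ^ p ^ a = 1 + d * p ^ a := by
      have h2 : 1 ≤ (1 + p) ^ p ^ a := Nat.one_le_pow _ _ (by omega)
      obtain ⟨d, hd⟩ := (Nat.modEq_iff_dvd' h2).1 h1.symm
      refine ⟨d, ?_⟩
      rw [mul_comm d, ← hd]
      omega
    rw [hd, add_smul, one_smul, mul_smul, hψexp, nsmul_zero, add_zero]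
  set D : AddChar A ℂ → AA := fun ψ => g b' ψ - g b ψ with hD
  -- the difference
  have hdiff : ∑ ψ, D ψ ∈ QN p red (J + 1) := by
    set I := QN p red K with hI
    have key := perm_sum_dvd (R := AA ⧸ I) p σ a hσ1 (fun ψ => Ideal.Quotient.mk I (D ψ)) (by
      intro ψ
      rw [Ideal.Quotient.eq]
      have h1 : ∀ b, g b (σ ψ) - g b ψ ∈ I := by
        intro b
        simp only [hg]
        have h2 : lamA (σ ψ) (p • b) = lamA ψ (p • b) ^ (1 + p) := by
          rw [hσ, lamA_nsmul']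
        have h3 : lamA (σ ψ) (p • b) = 1 ↔ lamA ψ (p • b) = 1 := by
          rw [h2]
          constructor
          · intro h
            -- order is a power of `p` and divides `1 + p`
            have h4 : lamA ψ (p • b) ^ p ^ a = 1 := by rw [← lamA_nsmul, hexp, lamA_zero']
            have h5 : lamA ψ (p • b) ^ Nat.gcd (1 + p) (p ^ a) = 1 := by
              rw [← orderOf_dvd_iff_pow_eq_one] at h h4 ⊢
              exact Nat.dvd_gcd h h4
            have h6 : Nat.gcd (1 + p) (p ^ a) = 1 := by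
              rw [Nat.gcd_comm]
              refine Nat.Coprime.pow_left _ ?_
              rw [Nat.coprime_add_self_right]
              exact Nat.coprime_one_right p
            rwa [h6, pow_one] at h5
          · intro h
            rw [h, one_pow]
        by_cases h4 : lamA ψ (p • b) = 1
        · rw [if_pos h4, if_pos (h3.2 h4)]
          have h5 : lamA (σ ψ) b = lamA ψ b := by
            rw [hσ, lamA_nsmul', pow_add, pow_one, ← lamA_nsmul ψ p, h4, mul_one]
          rw [h5, ← sub_mul]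
          refine Ideal.mul_mem_right _ _ ?_
          rw [hσ]
          refine hcoef _ ?_ ψ
          exact (Nat.ModEq.refl 1).add (Nat.modEq_zero_iff_dvd.2 dvd_rfl)
        · rw [if_neg h4, if_neg (fun h => h4 (h3.1 h)), sub_self]
          exact zero_mem _
      simp only [hD]
      have h6 : g b' (σ ψ) - g b (σ ψ) - (g b' ψ - g b ψ) =
          (g b' (σ ψ) - g b' ψ) - (g b (σ ψ) - g b ψ) := by ring
      rw [h6]
      exact sub_mem (h1 b') (h1 b)) J (by
      intro ψ hψ
      rw [hσpow] at hψ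
      -- the order of `ψ` divides `p ^ (J + 1)`
      have h1 : p ^ (J + 1) • ψ = 0 := by
        obtain ⟨s, -, hs⟩ := (Nat.dvd_prime_pow hp.out).1 (addOrderOf_dvd_of_nsmul_eq_zero (hψexp ψ))
        have h2 : 1 ≤ (1 + p) ^ p ^ J := Nat.one_le_pow _ _ (by omega)
        have h3 : ((1 + p) ^ p ^ J - 1) • ψ = 0 := by
          have h4 : ((1 + p) ^ p ^ J - 1 + 1) • ψ = ψ := by
            rw [Nat.sub_add_cancel h2]; exact hψ
          rw [add_smul, one_smul] at h4
          exact add_eq_right.1 h4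
        have h4 := addOrderOf_dvd_of_nsmul_eq_zero h3
        rw [hs] at h4
        have h5 := order_lte hp2 h4
        refine addOrderOf_dvd_iff_nsmul_eq_zero.1 ?_
        rw [hs]
        exact pow_dvd_pow p h5
      have h2 : lamA ψ (p ^ (J + 1) • x) = 1 := by
        rw [← lamA_nsmul_swap, h1, lamA_zero]
      have h3 : lamA ψ b' = lamA ψ b := by
        rw [hb', lamA_map_add, h2, mul_one]
      have h4 : lamA ψ (p • b') = lamA ψ (p • b) := by
        rw [lamA_nsmul, lamA_nsmul, h3]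
      have h5 : D ψ = 0 := by
        simp only [hD, hg]
        rw [h3, h4, sub_self]
      change Ideal.Quotient.mk I (D ψ) = 0
      rw [h5, map_zero])
    rw [← map_sum] at key
    obtain ⟨y, hy⟩ := key
    obtain ⟨y, rfl⟩ := Ideal.Quotient.mk_surjective y
    have h1 : (p : AA ⧸ I) ^ (J + 1) = Ideal.Quotient.mk I ((p : AA) ^ (J + 1)) := by
      rw [map_pow, map_natCast]
    rw [h1, ← map_mul, Ideal.Quotient.eq] at hy
    have h2 : (p : AA) ^ (J + 1) * y ∈ QN p red (J + 1) := mem_QN_of_dvd (dvd_mul_right _ _)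
    have h3 := add_mem (QN_mono hKJ hy) h2
    rwa [sub_add_cancel] at h3
  have h1 : F b' - F b = (F b' - ∑ ψ, g b' ψ) - (F b - ∑ ψ, g b ψ) + ∑ ψ, D ψ := by
    simp only [hD]
    rw [Finset.sum_sub_distrib]
    ring
  rw [h1]
  exact add_mem (sub_mem (QN_mono hKJ (hform b')) (QN_mono hKJ (hform b))) hdiff

end Cong

end P179H452
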