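import Vale.Agent.P179.H905.J7
import Vale.Agent.P179.R2.H452.Rat

/-!
# The minors of the generalised decomposition numbers

For characters `χ` with `χ (g ^ m) = χ g`, `m` a generator of `1 + p ℤ`, the function
`d ↦ χ (d j ^ n)` on `D` is constant modulo `p ^ J` on the cosets of `D ^ (p ^ J)`; so are the
generalised decomposition numbers up to a factor which does not depend on `χ`.
-/

namespace P179H452

open Finset P179P P179C P179Y Subgroup P179H524 P179I

open P179X (pp SameSec)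

open scoped Classical IsMulCommutative

universe v

set_option linter.unusedSectionVars false

section

variable {p : ℕ} [hp : Fact p.Prime] {k : Type v} [Field k] [CharP k p] {red : AA →+* k}
  {G : Type} [Group G] [Fintype G] {D : Subgroup G} {l : (G → k) → k}
  {Φ : ∀ H : Subgroup G, Irr H} {aH bH : Subgroup G → ℕ} {ε : Subgroup G → ℤ} {κ₀ : k}

theorem pow_ordProj_eq_one (hD : IsPGroup p D) {u : G} (hu : u ∈ D) :
    u ^ ordProj[p] (Nat.card G) = 1 := by
  have hG0 : Nat.card G ≠ 0 := Nat.card_pos.ne'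
  obtain ⟨a, ha⟩ := hD ⟨u, hu⟩
  have ha' : u ^ p ^ a = 1 := by simpa using congrArg Subtype.val ha
  obtain ⟨i, -, hi⟩ := (Nat.dvd_prime_pow hp.out).1 (orderOf_dvd_of_pow_eq_one ha')
  rw [← orderOf_dvd_iff_pow_eq_one, hi]
  have h1 : p ^ i ∣ Nat.card G := by rw [← hi]; exact orderOf_dvd_natCard u
  exact pow_dvd_pow p ((hp.out.pow_dvd_iff_le_factorization hG0).1 h1)

theorem coprime_of_modEq_one {i : ℕ} (hi : i ≡ 1 [MOD p]) : p.Coprime i := by
  rw [Nat.Prime.coprime_iff_not_dvd hp.out]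
  intro h
  have h1 : (0 : ℕ) ≡ 1 [MOD p] := ((Nat.modEq_zero_iff_dvd.2 h).symm).trans hi
  have h2 : p ∣ 1 - 0 := (Nat.modEq_iff_dvd' (by omega)).1 h1
  exact hp.out.one_lt.ne' (Nat.dvd_one.1 h2)

theorem coprime_orderOf (hD : IsPGroup p D) {u : G} (hu : u ∈ D) {i : ℕ} (hi : p.Coprime i) :
    (orderOf u).Coprime i := by
  obtain ⟨a, ha⟩ := hD ⟨u, hu⟩
  have ha' : u ^ p ^ a = 1 := by simpa using congrArg Subtype.val ha
  exact Nat.Coprime.coprime_dvd_left (orderOf_dvd_of_pow_eq_one ha') (Nat.Coprime.pow_left a hi)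

/-- values at `h d` and at `h d ^ i`, `h` a `p`-regular element commuting with `d` -/
theorem val_pow (hD : IsPGroup p D) {m : ℕ} (hm1 : m ≡ 1 [MOD ordCompl[p] (Nat.card G)])
    (hgen : ∀ i : ℕ, i ≡ 1 [MOD p] → ∃ t : ℕ, m ^ t ≡ i [MOD ordProj[p] (Nat.card G)])
    {χ : Irr G} (hχm : ∀ g, χ.1 (g ^ m) = χ.1 g) {d : G} (hd : d ∈ D) {i : ℕ}
    (hi : i ≡ 1 [MOD p]) {h : G} (hh : h * d = d * h) (hreg : ¬ p ∣ orderOf h) :
    χ.1 (h * d ^ i) = χ.1 (h * d) := by
  obtain ⟨t, ht⟩ := hgen i hi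
  have hpow : ∀ t : ℕ, ∀ g, χ.1 (g ^ m ^ t) = χ.1 g := by
    intro t
    induction t with
    | zero => intro g; simp
    | succ t ih =>
      intro g
      rw [pow_succ, pow_mul, hχm, ih]
  have hmt : m ^ t ≡ 1 [MOD ordCompl[p] (Nat.card G)] := by
    have := hm1.pow t
    rwa [one_pow] at this
  have h1 : h ^ m ^ t = h := pow_eq_of_modEq_of_dvd hmt hreg
  have h2 : d ^ m ^ t = d ^ i := by
    rw [pow_eq_pow_iff_modEq]
    exact ht.of_dvd (orderOf_dvd_of_pow_eq_one (pow_ordProj_eq_one hD hd))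
  rw [← hpow t (h * d), (show Commute h d from hh).mul_pow, h1, h2]

/-- **the rationality of long words** -/
theorem Psi_rat (hD : IsPGroup p D) {m : ℕ} (hm1 : m ≡ 1 [MOD ordCompl[p] (Nat.card G)])
    (hgen : ∀ i : ℕ, i ≡ 1 [MOD p] → ∃ t : ℕ, m ^ t ≡ i [MOD ordProj[p] (Nat.card G)])
    (j : G → AA) (hj : ∀ d ∈ D, ∀ g, j (d * g * d⁻¹) = j g)
    {χ : Irr G} (hχm : ∀ g, χ.1 (g ^ m) = χ.1 g) {d : G} (hd : d ∈ D) {i : ℕ}
    (hi : i ≡ 1 [MOD p]) (N M : ℕ) (hM : N + (Nat.card G).factorization p ≤ M) :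
    Psi j (p ^ M) χ (d ^ i) - Psi j (p ^ M) χ d ∈ QN p red N := by
  set H : Subgroup G := centralizer {d} with hH
  have hHm : ∀ x, x ∈ H ↔ x * d = d * x := mem_cz d
  have hcop := coprime_orderOf hD hd (coprime_of_modEq_one hi)
  have hHi : ∀ x, x ∈ H ↔ x * d ^ i = d ^ i * x := by
    intro x
    rw [hH, ← cz_pow hcop]
    exact mem_cz _ x
  obtain ⟨a, ha⟩ := hD ⟨d, hd⟩
  have hda : d ^ p ^ a = 1 := by simpa using congrArg Subtype.val ha
  have hdia : (d ^ i) ^ p ^ a = 1 := by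
    rw [← pow_mul, mul_comm, pow_mul, hda, one_pow]
  have hPsi : ∀ u : G, Psi j (p ^ M) χ u =
      ∑ w : Fin (p ^ M) → G, (∏ i, j (w i)) * chA χ (wprod w * u) := by
    intro u
    unfold Psi
    refine Finset.sum_congr rfl fun w _ => ?_
    congr 1
    exact Subtype.ext (χ.mul_comm _ _)
  have h1 := cut_mem p red d hda j (chA χ) (hj d hd) (chA_isCF χ) H hHm M
  have h2 := cut_mem p red (d ^ i) hdia j (chA χ) (hj _ (pow_mem hd i)) (chA_isCF χ) H hHi M
  rw [← hPsi] at h1 h2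
  set s : ℕ := (Nat.card G).factorization p with hs
  obtain ⟨M', rfl⟩ : ∃ M', M = M' + s := ⟨M - s, by omega⟩
  have h3 := lemW_core p (fun h : H => j h)
    (fun h : H => chA χ (h * d ^ i) - chA χ (h * d)) (1 : H) 0 (by simp) (by simp) (by
      intro g x
      have e1 : ∀ u : G, (∀ x ∈ H, x * u = u * x) →
          chA χ (((g * x * g⁻¹ : H) : G) * u) = chA χ ((x : G) * u) := by
        intro u hu
        have e2 : ((g * x * g⁻¹ : H) : G) * u = (g : G) * ((x : G) * u) * (g : G)⁻¹ := by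
          have e3 := hu _ (inv_mem g.2)
          push_cast
          calc (g : G) * x * (g : G)⁻¹ * u = (g : G) * x * ((g : G)⁻¹ * u) := by group
            _ = (g : G) * x * (u * (g : G)⁻¹) := by rw [e3]
            _ = _ := by group
        rw [e2]
        exact chA_isCF χ (g : G) ((x : G) * u)
      beta_reduce
      rw [e1 d (fun x hx => (hHm x).1 hx), e1 (d ^ i) (fun x hx => (hHi x).1 hx)]) s
    (fun x => by
      have e1 : (Nat.card H).factorization p ≤ s := by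
        rw [hs]
        exact (Nat.factorization_le_iff_dvd Nat.card_pos.ne' Nat.card_pos.ne').2
          (Subgroup.card_subgroup_dvd_card H) p
      obtain ⟨t, ht⟩ : ∃ t, s = (Nat.card H).factorization p + t := ⟨_, (Nat.add_sub_of_le e1).symm⟩
      intro h4
      rw [ht, pow_add, pow_mul] at h4
      exact not_dvd_orderOf_pow p x (h4.trans (orderOf_pow_dvd _)))
    (by
      intro β _ hβ
      rw [mul_one, sub_eq_zero]
      apply Subtype.ext
      have hβ' : ¬ p ∣ orderOf (β : G) := by rwa [Subgroup.orderOf_coe]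
      exact val_pow hD hm1 hgen hχm hd hi ((hHm _).1 β.2) hβ') M'
  have h4 : TT (fun h : H => j h) (p ^ (M' + s)) (fun h : H => chA χ (h * d ^ i)) -
      TT (fun h : H => j h) (p ^ (M' + s)) (fun h : H => chA χ (h * d)) ∈ QN p red (M' + 1) := by
    refine mem_QN_of_dvd ?_
    have e : TT (fun h : H => j h) (p ^ (M' + s)) (fun h : H => chA χ (h * d ^ i)) -
        TT (fun h : H => j h) (p ^ (M' + s)) (fun h : H => chA χ (h * d)) =
        ∑ w : Fin (p ^ (M' + s)) → H, (∏ j' , j (w j')) *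
          (chA χ (((wprod w * 1 : H) : G) * d ^ i) - chA χ (((wprod w * 1 : H) : G) * d)) := by
      unfold TT
      rw [← Finset.sum_sub_distrib]
      exact Finset.sum_congr rfl fun w _ => by rw [mul_one]; ring
    rw [e]
    exact h3
  have h5 : Psi j (p ^ (M' + s)) χ (d ^ i) - Psi j (p ^ (M' + s)) χ d =
      (Psi j (p ^ (M' + s)) χ (d ^ i) -
        TT (fun h : H => j h) (p ^ (M' + s)) (fun h : H => chA χ (h * d ^ i))) -
      (Psi j (p ^ (M' + s)) χ d -
        TT (fun h : H => j h) (p ^ (M' + s)) (fun h : H => chA χ (h * d))) +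
      (TT (fun h : H => j h) (p ^ (M' + s)) (fun h : H => chA χ (h * d ^ i)) -
        TT (fun h : H => j h) (p ^ (M' + s)) (fun h : H => chA χ (h * d))) := by ring
  rw [h5]
  refine add_mem (sub_mem ?_ ?_) ?_
  · exact QN_mono (by omega) h2
  · exact QN_mono (by omega) h1
  · exact QN_mono (by omega) h4

include hp in
theorem red_cc_ne (h : LocR p red D l Φ aH bH ε κ₀) (hl : BP p D l) (hD : IsPGroup p D)
    (hab : D ≤ centralizer (D : Set G)) (j : G → AA) (hj : ∀ d ∈ D, ∀ g, j (d * g * d⁻¹) = j g)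
    (hne : l (WW D (fun g => red (j g))) ≠ 0)
    (hsep : ∀ n ∈ normalizer (D : Set G), n ∉ stabT D l →
      l (cj n (WW D (fun g => red (j g)))) = 0) (m : ℕ) {u : G} (hu : RegT D l u) (hu1 : u ≠ 1) :
    red (cc p Φ j m (centralizer {u})) ≠ 0 := by
  have hb : (bH (centralizer {u}) : k) ≠ 0 := by
    rw [Ne, CharP.cast_eq_zero_iff k p]
    exact h.hb _ hu hu1
  have h2 := value_S hl hD hab j hj hsep hu (h.nd _ hu hu1) (h.unit _ hu hu1)
  rw [h.eps _ hu hu1] at h2
  rw [cc, red_TT]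
  refine pow_ne_zero _ ?_
  intro h0
  rw [h0, mul_zero] at h2
  have h3 : (ε (centralizer {u}) : k) ≠ 0 := by
    rcases h.sgn _ hu hu1 with h4 | h4 <;> rw [h4] <;> simp
  exact mul_ne_zero (mul_ne_zero (mul_ne_zero h3 h.ne) hb) hne h2.symm

include hp in
/-- **the minors** -/
theorem minor_mem [IsAlgClosed k] (h : LocR p red D l Φ aH bH ε κ₀) (hl : BP p D l)
    (hD : IsPGroup p D) (hab : D ≤ centralizer (D : Set G)) (hp2 : p ≠ 2) {m : ℕ}
    (hm1 : m ≡ 1 [MOD ordCompl[p] (Nat.card G)])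
    (hgen : ∀ i : ℕ, i ≡ 1 [MOD p] → ∃ t : ℕ, m ^ t ≡ i [MOD ordProj[p] (Nat.card G)])
    {χ ψ : Irr G} (hχm : ∀ g, χ.1 (g ^ m) = χ.1 g) (hψm : ∀ g, ψ.1 (g ^ m) = ψ.1 g)
    {u : G} (hu : RegT D l u) (hu1 : u ≠ 1) {J : ℕ} {x : G} (hx : x ∈ D)
    (hu' : RegT D l (u * x ^ p ^ J)) (hu1' : u * x ^ p ^ J ≠ 1) :
    dnA p (centralizer {u}) (Nat.card D) (Φ (centralizer {u})).1 u χ.1 *
        dnA p (centralizer {u * x ^ p ^ J}) (Nat.card D) (Φ (centralizer {u * x ^ p ^ J})).1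
          (u * x ^ p ^ J) ψ.1 -
      dnA p (centralizer {u * x ^ p ^ J}) (Nat.card D) (Φ (centralizer {u * x ^ p ^ J})).1
          (u * x ^ p ^ J) χ.1 *
        dnA p (centralizer {u}) (Nat.card D) (Φ (centralizer {u})).1 u ψ.1 ∈ QN p red J := by
  obtain ⟨j, hj1, hj2, hj3, hj4, -⟩ := h.exists_jj hl hD hab
  obtain ⟨M, hM⟩ := hj4 J
  obtain ⟨a, ha⟩ := (IsPGroup.iff_card (p := p)).1 hD
  set M' := M + (J + a) + (Nat.card G).factorization p with hM'
  have hcomm : IsMulCommutative D := ⟨⟨fun a b => Subtype.ext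
    (mem_centralizer_iff.1 (hab b.2) a a.2)⟩⟩
  have hcardA : Fintype.card (Additive D) = p ^ a := by
    rw [← ha, Nat.card_eq_fintype_card, Fintype.card_congr (Additive.toMul (α := D))]
  -- the congruence for the long words
  have hF : ∀ {χ : Irr G}, (∀ g, χ.1 (g ^ m) = χ.1 g) →
      Psi j (p ^ M') χ (u * x ^ p ^ J) - Psi j (p ^ M') χ u ∈ QN p red J := by
    intro χ hχm
    have h1 := RI_cong (p := p) (red := red) hp2 hcardA (RI_Psi (D := D) j hj1 (p ^ M') χ) (K := J)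
      (J := J) (by
        intro i hi b
        have h2 := Psi_rat (red := red) hD hm1 hgen j hj1 hχm b.toMul.2 hi (J + a) M' (by omega)
        exact h2) le_rfl (Additive.ofMul ⟨u, hu.1⟩) (Additive.ofMul ⟨x, hx⟩)
    exact h1
  have hc := hM M' (by omega)
  have e1 := hc u hu hu1
  have e2 := hc _ hu' hu1'
  set v := u * x ^ p ^ J with hv
  set cu := cc p Φ j M' (centralizer {u}) with hcu
  set cv := cc p Φ j M' (centralizer {v}) with hcv
  set du : Irr G → AA := fun χ => dnA p (centralizer {u}) (Nat.card D) (Φ (centralizer {u})).1 u χ.1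
    with hdu
  set dv : Irr G → AA := fun χ => dnA p (centralizer {v}) (Nat.card D) (Φ (centralizer {v})).1 v χ.1
    with hdv
  have hcu0 : red cu ≠ 0 := red_cc_ne h hl hD hab j hj1 hj2 hj3 M' hu hu1
  have hcv0 : red cv ≠ 0 := red_cc_ne h hl hD hab j hj1 hj2 hj3 M' hu' hu1'
  refine mem_of_unit_mul (v := cu * cv) (by rw [map_mul]; exact mul_ne_zero hcu0 hcv0) ?_
  change cu * cv * (du χ * dv ψ - dv χ * du ψ) ∈ QN p red J
  rw [← Ideal.Quotient.eq_zero_iff_mem]
  have f1 := Ideal.Quotient.eq.2 (e1 χ)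
  have f2 := Ideal.Quotient.eq.2 (e1 ψ)
  have f3 := Ideal.Quotient.eq.2 (e2 χ)
  have f4 := Ideal.Quotient.eq.2 (e2 ψ)
  have f5 := Ideal.Quotient.eq.2 (hF hχm)
  have f6 := Ideal.Quotient.eq.2 (hF hψm)
  change Ideal.Quotient.mk (QN p red J) (Psi j (p ^ M') χ u) =
    Ideal.Quotient.mk _ (cu * du χ) at f1
  change Ideal.Quotient.mk (QN p red J) (Psi j (p ^ M') ψ u) =
    Ideal.Quotient.mk _ (cu * du ψ) at f2
  change Ideal.Quotient.mk (QN p red J) (Psi j (p ^ M') χ v) =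
    Ideal.Quotient.mk _ (cv * dv χ) at f3
  change Ideal.Quotient.mk (QN p red J) (Psi j (p ^ M') ψ v) =
    Ideal.Quotient.mk _ (cv * dv ψ) at f4
  have e3 : cu * cv * (du χ * dv ψ - dv χ * du ψ) =
      (cu * du χ) * (cv * dv ψ) - (cv * dv χ) * (cu * du ψ) := by ring
  rw [e3, map_sub, map_mul _ (cu * du χ), map_mul _ (cv * dv χ), ← f1, ← f2, ← f3, ← f4, f5, f6]
  ring

end

end P179H452
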