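import Vale.Agent.P179.H234.AG
import Vale.Agent.P179.H905.I10

/-!
# Norms of elements of a cyclotomic ring
-/

namespace P179H452

open Finset P179P P179I Polynomial

open scoped Classical

/-- AM-GM -/
theorem am_gm {Δ : Type*} [Fintype Δ] [Nonempty Δ] (y : Δ → ℝ) (hy : ∀ δ, 0 ≤ y δ) {P : ℝ}
    (hP : 0 ≤ P) (h : P ^ Fintype.card Δ ≤ ∏ δ, y δ) : Fintype.card Δ * P ≤ ∑ δ, y δ := by
  have hn : (0 : ℝ) < Fintype.card Δ := by exact_mod_cast Fintype.card_pos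
  have h1 := Real.geom_mean_le_arith_mean univ (fun _ : Δ => (1 : ℝ)) y (fun _ _ => zero_le_one)
    (by simpa using hn) (fun δ _ => hy δ)
  simp only [Real.rpow_one, one_mul, Finset.sum_const, card_univ, nsmul_eq_mul, mul_one] at h1
  have h2 : P ≤ (∏ δ, y δ) ^ ((Fintype.card Δ : ℝ))⁻¹ := by
    calc P = (P ^ Fintype.card Δ) ^ ((Fintype.card Δ : ℝ))⁻¹ :=
          (Real.pow_rpow_inv_natCast hP Fintype.card_ne_zero).symm
      _ ≤ _ := Real.rpow_le_rpow (pow_nonneg hP _) h (by positivity)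
  have h3 := h2.trans h1
  rw [le_div_iff₀ hn] at h3
  linarith

section Norm

variable {N : ℕ} {ζ : ℂ}

theorem aeval_zero_of_pow (hN : 0 < N) (hζ : IsPrimitiveRoot ζ N) (P : ℤ[X]) {j : ℕ}
    (hj : j.Coprime N) (h : aeval (ζ ^ j) P = 0) : aeval ζ P = 0 := by
  have h1 := hζ.minpoly_eq_pow_coprime hj
  have hint : IsIntegral ℤ (ζ ^ j) := (hζ.isIntegral hN).pow j
  have h2 := minpoly.isIntegrallyClosed_dvd hint h
  rw [← h1] at h2
  obtain ⟨Q, rfl⟩ := h2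
  rw [map_mul, minpoly.aeval, zero_mul]

theorem norm_int [NeZero N] (hζ : IsPrimitiveRoot ζ N) (P : ℤ[X]) {m₀ : ℕ}
    (hm : m₀.Coprime N) (hgen : ∀ j : ℕ, j.Coprime N → ∃ i : ℕ, m₀ ^ i ≡ j [MOD N]) :
    ∃ z : ℤ, ∏ δ : (ZMod N)ˣ, aeval (ζ ^ (δ : ZMod N).val) P = z := by
  set R : ℤ[X] := ∏ δ : (ZMod N)ˣ, P.comp (X ^ (δ : ZMod N).val) with hR
  have hRx : ∀ x : ℂ, aeval x R = ∏ δ : (ZMod N)ˣ, aeval (x ^ (δ : ZMod N).val) P := by
    intro x
    rw [hR, map_prod]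
    refine Finset.prod_congr rfl fun δ _ => ?_
    rw [aeval_comp, map_pow, aeval_X]
  obtain ⟨z, hz⟩ := P179H234.exists_int_of_gen (Nat.pos_of_ne_zero (NeZero.ne N)) hζ R hm hgen (by
    rw [hRx, hRx]
    refine Fintype.prod_equiv (Equiv.mulLeft (ZMod.unitOfCoprime m₀ hm)) _ _ fun δ => ?_
    have e : (ζ ^ m₀) ^ (δ : ZMod N).val =
        ζ ^ ((Equiv.mulLeft (ZMod.unitOfCoprime m₀ hm) δ : (ZMod N)ˣ) : ZMod N).val := by
      rw [← pow_mul]
      refine pow_eq_pow_of_modEq ?_ hζ.pow_eq_one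
      rw [← ZMod.natCast_eq_natCast_iff]
      push_cast
      rw [ZMod.natCast_zmod_val, ZMod.natCast_zmod_val, Equiv.coe_mulLeft, Units.val_mul,
        ZMod.coe_unitOfCoprime]
    rw [e])
  exact ⟨z, by rw [← hRx, hz]⟩

variable {p : ℕ} [hp : Fact p.Prime] {k : Type*} [Field k] [CharP k p] {red : AA →+* k}

omit hp [CharP k p] in
theorem prod_mem_QN {ι : Type*} (s : Finset ι) (x : ι → AA) {J : ℕ}
    (hx : ∀ i ∈ s, x i ∈ QN p red J) : ∏ i ∈ s, x i ∈ QN p red (J * s.card) := by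
  induction s using Finset.induction_on with
  | empty => exact mem_QN_of_dvd (by simp)
  | insert i s hi ih =>
    rw [Finset.prod_insert hi, Finset.card_insert_of_notMem hi]
    have h1 := mul_mem_QN (hx i (mem_insert_self _ _)) (ih fun j hj => hx j (mem_insert_of_mem hj))
    have e : J * (s.card + 1) = J + J * s.card := by ring
    rw [e]
    exact h1

/-- the conjugates of a nonzero element divisible by `p ^ J` are large on average -/
theorem sum_norm_ge [NeZero N] (hζ : IsPrimitiveRoot ζ N) (P : ℤ[X]) {m₀ : ℕ}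
    (hm : m₀.Coprime N) (hgen : ∀ j : ℕ, j.Coprime N → ∃ i : ℕ, m₀ ^ i ≡ j [MOD N])
    (Y : (ZMod N)ˣ → AA) (hY : ∀ δ, (Y δ : ℂ) = aeval (ζ ^ (δ : ZMod N).val) P) {J : ℕ}
    (hQ : ∀ δ, Y δ ∈ QN p red J) (h1 : aeval ζ P ≠ 0) :
    (Fintype.card (ZMod N)ˣ : ℝ) * (p : ℝ) ^ J ≤ ∑ δ, ‖(Y δ : ℂ)‖ := by
  have hN := Nat.pos_of_ne_zero (NeZero.ne N)
  obtain ⟨z, hz⟩ := norm_int hζ P hm hgen
  have hne : ∀ δ : (ZMod N)ˣ, aeval (ζ ^ (δ : ZMod N).val) P ≠ 0 := fun δ h =>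
    h1 (aeval_zero_of_pow hN hζ P (ZMod.val_coe_unit_coprime δ) h)
  have hz0 : z ≠ 0 := by
    intro h0
    rw [h0, Int.cast_zero] at hz
    rw [Finset.prod_eq_zero_iff] at hz
    obtain ⟨δ, -, h⟩ := hz
    exact hne δ h
  have h2 : (∏ δ, Y δ) = (z : AA) := by
    apply Subtype.ext
    push_cast
    rw [← hz]
    exact Finset.prod_congr rfl fun δ _ => hY δ
  have h3 := prod_mem_QN (p := p) (red := red) univ Y (fun δ _ => hQ δ)
  rw [h2, card_univ] at h3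
  have h4 := int_of_mem h3
  have h5 : (p : ℤ) ^ (J * Fintype.card (ZMod N)ˣ) ≤ |z| :=
    Int.le_of_dvd (abs_pos.2 hz0) ((dvd_abs _ _).2 h4)
  refine am_gm (fun δ => ‖(Y δ : ℂ)‖) (fun _ => norm_nonneg _) (by positivity) ?_
  have h6 : ∏ δ, ‖(Y δ : ℂ)‖ = |(z : ℝ)| := by
    rw [← norm_prod, Finset.prod_congr rfl fun δ _ => hY δ, hz, Complex.norm_intCast]
  rw [h6, ← pow_mul]
  exact_mod_cast h5

end Norm

end P179H452
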