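import Vale.Agent.P179.H905.J7
import Vale.Agent.P179.R2.H452.Minor
import Vale.Agent.P179.R2.H452.Norm
import Vale.Agent.P179.R2.H452.Comb

/-!
# The number of `m`-rational characters
-/

namespace P179H452

open Finset P179P P179C P179Y Subgroup P179H524 P179I

open P179X (pp SameSec)

open scoped Classical IsMulCommutative

universe v

set_option linter.unusedSectionVars false

section Bessel

variable {W I : Type*} [Fintype W] [Fintype I]

theorem sum_norm_expand (M : W → I → ℂ) (t : W → ℂ) :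
    ((∑ χ, ‖∑ w, t w * M w χ‖ ^ 2 : ℝ) : ℂ) =
      ∑ w, ∑ w', t w * (starRingEnd ℂ) (t w') * ∑ χ, M w χ * (starRingEnd ℂ) (M w' χ) := by
  push_cast
  have h1 : ∀ χ, ((‖∑ w, t w * M w χ‖ : ℂ)) ^ 2 =
      ∑ w, ∑ w', t w * (starRingEnd ℂ) (t w') * (M w χ * (starRingEnd ℂ) (M w' χ)) := by
    intro χ
    have h2 : ((‖∑ w, t w * M w χ‖ : ℂ)) ^ 2 =
        (∑ w, t w * M w χ) * (starRingEnd ℂ) (∑ w, t w * M w χ) := by
      rw [Complex.mul_conj, Complex.normSq_eq_norm_sq]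
      push_cast
      rfl
    rw [h2, map_sum, Finset.sum_mul_sum]
    refine Finset.sum_congr rfl fun w _ => Finset.sum_congr rfl fun w' _ => ?_
    rw [map_mul]
    ring
  rw [Finset.sum_congr rfl fun χ _ => h1 χ, Finset.sum_comm]
  refine Finset.sum_congr rfl fun w _ => ?_
  rw [Finset.sum_comm]
  refine Finset.sum_congr rfl fun w' _ => ?_
  rw [← Finset.mul_sum]

/-- Bessel's inequality with complex coefficients -/
theorem quad_boundC (M : W → I → ℂ) (q e : ℕ)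
    (hgram : ∀ w w' : W, ∑ χ, M w χ * (starRingEnd ℂ) (M w' χ) = 0 ∨
      ∑ χ, M w χ * (starRingEnd ℂ) (M w' χ) = q)
    (hcount : ∀ w : W, (univ.filter fun w' : W =>
      ∑ χ, M w χ * (starRingEnd ℂ) (M w' χ) ≠ 0).card ≤ e) (t : W → ℂ) :
    ∑ χ, ‖∑ w, t w * M w χ‖ ^ 2 ≤ q * e * ∑ w, ‖t w‖ ^ 2 := by
  refine le_trans ?_ (quad_bound M q e hgram hcount (fun w => ‖t w‖))
  have h1 := sum_norm_expand M t
  have h2 := sum_norm_expand M (fun w => ((‖t w‖ : ℝ) : ℂ))
  have h0 : 0 ≤ ∑ χ, ‖∑ w, t w * M w χ‖ ^ 2 := Finset.sum_nonneg fun _ _ => by positivity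
  have h0' : 0 ≤ ∑ χ, ‖∑ w, ((‖t w‖ : ℝ) : ℂ) * M w χ‖ ^ 2 :=
    Finset.sum_nonneg fun _ _ => by positivity
  have h3 : ‖((∑ χ, ‖∑ w, t w * M w χ‖ ^ 2 : ℝ) : ℂ)‖ ≤
      ‖((∑ χ, ‖∑ w, ((‖t w‖ : ℝ) : ℂ) * M w χ‖ ^ 2 : ℝ) : ℂ)‖ := by
    rw [h1, h2]
    have h4 : ∀ w w', ∃ r : ℝ, 0 ≤ r ∧ ∑ χ, M w χ * (starRingEnd ℂ) (M w' χ) = (r : ℂ) := by
      intro w w'
      rcases hgram w w' with h | h
      · exact ⟨0, le_rfl, by rw [h]; simp⟩
      · exact ⟨q, by positivity, by rw [h]; simp⟩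
    choose r hr0 hr using h4
    have h5 : (∑ w, ∑ w', ((‖t w‖ : ℝ) : ℂ) * (starRingEnd ℂ) ((‖t w'‖ : ℝ) : ℂ) *
        ∑ χ, M w χ * (starRingEnd ℂ) (M w' χ)) = ((∑ w, ∑ w', ‖t w‖ * ‖t w'‖ * r w w' : ℝ) : ℂ) := by
      push_cast
      refine Finset.sum_congr rfl fun w _ => Finset.sum_congr rfl fun w' _ => ?_
      rw [hr, Complex.conj_ofReal]
    rw [h5, Complex.norm_real, Real.norm_of_nonneg (Finset.sum_nonneg fun w _ =>
      Finset.sum_nonneg fun w' _ => mul_nonneg (by positivity) (hr0 w w'))]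
    refine (norm_sum_le _ _).trans (Finset.sum_le_sum fun w _ => ?_)
    refine (norm_sum_le _ _).trans (Finset.sum_le_sum fun w' _ => ?_)
    rw [hr, norm_mul, norm_mul, RCLike.norm_conj, Complex.norm_real,
      Real.norm_of_nonneg (hr0 w w')]
  rw [Complex.norm_real, Complex.norm_real, Real.norm_of_nonneg h0, Real.norm_of_nonneg h0'] at h3
  exact h3

end Bessel

section

variable {p : ℕ} [hp : Fact p.Prime] {k : Type v} [Field k] [CharP k p] {red : AA →+* k}
  {G : Type} [Group G] [Fintype G] {D : Subgroup G} {l : (G → k) → k}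

/-- the regular elements different from `1` -/
def Wr (D : Subgroup G) (l : (G → k) → k) : Type := {w : G // RegT D l w ∧ w ≠ 1}

noncomputable instance : Fintype (Wr D l) := Fintype.ofFinite {w : G // RegT D l w ∧ w ≠ 1}

theorem coprime_val {N : ℕ} [NeZero N] {u : G} (hu : u ^ N = 1) (δ : (ZMod N)ˣ) :
    (orderOf u).Coprime (δ : ZMod N).val :=
  Nat.Coprime.coprime_dvd_left (orderOf_dvd_of_pow_eq_one hu)
    (ZMod.val_coe_unit_coprime δ).symm

theorem ne_one_of_coprime {u : G} {i : ℕ} (h : (orderOf u).Coprime i) (hu : u ≠ 1) :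
    u ^ i ≠ 1 := by
  intro h1
  apply hu
  obtain ⟨e, he⟩ := exists_pow_eq_self_of_coprime h.symm
  rw [← he, h1, one_pow]

/-- the action of `(ZMod N)ˣ` by powers -/
@[instance_reducible] noncomputable def actW (D : Subgroup G) (l : (G → k) → k) (N : ℕ) [NeZero N]
    (hN : ∀ u ∈ D, u ^ N = 1) : MulAction (ZMod N)ˣ (Wr D l) where
  smul δ w := ⟨w.1 ^ (δ : ZMod N).val,
    RegT.pow' w.2.1 (coprime_val (hN _ w.2.1.1) δ),
    ne_one_of_coprime (coprime_val (hN _ w.2.1.1) δ) w.2.2⟩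
  one_smul w := by
    apply Subtype.ext
    change w.1 ^ ((1 : (ZMod N)ˣ) : ZMod N).val = w.1
    conv_rhs => rw [← pow_one w.1]
    refine pow_eq_pow_of_modEq ?_ (hN _ w.2.1.1)
    rw [← ZMod.natCast_eq_natCast_iff]
    simp
  mul_smul δ δ' w := by
    apply Subtype.ext
    change w.1 ^ ((δ * δ' : (ZMod N)ˣ) : ZMod N).val =
      (w.1 ^ (δ' : ZMod N).val) ^ (δ : ZMod N).val
    rw [← pow_mul]
    refine pow_eq_pow_of_modEq ?_ (hN _ w.2.1.1)
    rw [← ZMod.natCast_eq_natCast_iff]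
    push_cast
    rw [ZMod.natCast_zmod_val, ZMod.natCast_zmod_val, ZMod.natCast_zmod_val, mul_comm]

include hp in
/-- **the number of `m`-rational characters** -/
theorem card_S_le [IsAlgClosed k] (hl : BP p D l) (hD : IsPGroup p D)
    (hab : D ≤ centralizer (D : Set G)) (hp2 : p ≠ 2) {m : ℕ}
    (hm1 : m ≡ 1 [MOD ordCompl[p] (Nat.card G)])
    (hgen : ∀ i : ℕ, i ≡ 1 [MOD p] → ∃ t : ℕ, m ^ t ≡ i [MOD ordProj[p] (Nat.card G)])
    (S : Finset (Irr G)) (hSl : ∀ χ ∈ S, InL red l χ.1) (hSm : ∀ χ ∈ S, ∀ g, χ.1 (g ^ m) = χ.1 g)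
    {J : ℕ} (he : ((centralizer (D : Set G)).relIndex (stabT D l) : k) ≠ 0)
    (hJ : 128 * ((centralizer (D : Set G)).relIndex (stabT D l)) ^ 2 < p ^ J)
    (h7 : 7 * Nat.card D ≤ 8 * Nat.card (Wr D l)) :
    S.card ≤ 4 * (centralizer (D : Set G)).relIndex (stabT D l) *
      Nat.card {d : G // d ∈ D ∧ d ^ p ^ J = 1} := by
  obtain ⟨Φ, aH, bH, ε, κ₀, h⟩ := exists_LocR (red := red) hl hD hab
  set q := Nat.card D with hqdef
  set T : Subgroup G := stabT D l with hT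
  set e := (centralizer (D : Set G)).relIndex T with hedef
  have hq : q ≠ 0 := Nat.card_pos.ne'
  have he1 : 1 ≤ e := Nat.pos_of_ne_zero (by
    have : Finite (T ⧸ (centralizer (D : Set G)).subgroupOf T) := inferInstance
    exact Nat.card_pos.ne')
  have hcomm : IsMulCommutative D := ⟨⟨fun a b => Subtype.ext
    (mem_centralizer_iff.1 (hab b.2) a a.2)⟩⟩
  -- roots of unity
  set N := ordProj[p] (Nat.card G) with hN
  have hN0 : N ≠ 0 := pow_ne_zero _ hp.out.ne_zero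
  have hNe : NeZero N := ⟨hN0⟩
  have huN : ∀ u ∈ D, u ^ N = 1 := fun u hu => pow_ordProj_eq_one hD hu
  set ζ : ℂ := Complex.exp (2 * Real.pi * Complex.I / N) with hζdef
  have hζ : IsPrimitiveRoot ζ N := Complex.isPrimitiveRoot_exp N hN0
  obtain ⟨m₀, hm₀, -, hgen₀⟩ := P179P.exists_exponent (p := p) hp2 (Nat.card G) Nat.card_pos.ne'
  have hm₀N : m₀.Coprime N := Nat.Coprime.coprime_dvd_right (Nat.ordProj_dvd _ _) hm₀
  have hgen₀' : ∀ j : ℕ, j.Coprime N → ∃ i : ℕ, m₀ ^ i ≡ j [MOD N] := by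
    intro j hj
    by_cases hf : (Nat.card G).factorization p = 0
    · refine ⟨0, ?_⟩
      have : N = 1 := by rw [hN, hf, pow_zero]
      rw [this]
      exact Nat.modEq_one
    · apply hgen₀
      intro hpj
      have h1 : p ∣ Nat.gcd j N := Nat.dvd_gcd hpj (dvd_pow_self p hf)
      rw [hj] at h1
      exact hp.out.one_lt.ne' (Nat.dvd_one.1 h1)
  let act := actW D l N huN
  have hsmul : ∀ (δ : (ZMod N)ˣ) (w : Wr D l), (δ • w).1 = w.1 ^ (δ : ZMod N).val := fun _ _ => rfl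
  -- the numbers
  let dv : Irr G → G → AA := fun χ u =>
    dnA p (centralizer {u}) q (Φ (centralizer {u})).1 u χ.1
  have hdv : ∀ χ (w : Wr D l), (dv χ w.1 : ℂ) =
      dn p (centralizer {w.1}) q (Φ (centralizer {w.1})).1 w.1 χ.1 := fun χ w =>
    h.dn_coe w.2.1 w.2.2 χ
  have hP : ∀ (χ : Irr G) (w : Wr D l), ∃ P : Polynomial ℤ, ∀ j : ℕ,
      dn p (centralizer {w.1}) q (Φ (centralizer {w.1})).1 (w.1 ^ j) χ.1 =
        Polynomial.aeval (ζ ^ j) P := fun χ w =>
    dn_poly p red _ hq (h.nd _ w.2.1 w.2.2) w.1 (huN _ w.2.1.1) hN0 (mem_cz _) χ hζ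
  choose P hP using hP
  have hval : ∀ χ (w : Wr D l) (δ : (ZMod N)ˣ), (dv χ (δ • w).1 : ℂ) =
      Polynomial.aeval (ζ ^ (δ : ZMod N).val) (P χ w) := by
    intro χ w δ
    rw [hdv, ← hP, hsmul, cz_pow (coprime_val (huN _ w.2.1.1) δ)]
  have hval1 : ∀ χ (w : Wr D l), (dv χ w.1 : ℂ) = Polynomial.aeval ζ (P χ w) := by
    intro χ w
    have := hP χ w 1
    rw [pow_one, pow_one] at this
    rw [hdv, this]
  -- the classes
  set Q : Subgroup D := (powMonoidHom (p ^ J) : D →* D).range with hQ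
  let I := {χ // χ ∈ S}
  let f : I → Wr D l → ℂ := fun χ w => (dv χ.1 w.1 : ℂ)
  have : Fintype (D ⧸ Q) := Fintype.ofFinite _
  let c : Wr D l → D ⧸ Q := fun w => QuotientGroup.mk ⟨w.1, w.2.1.1⟩
  have hcW : ∀ w w' : Wr D l, c w = c w' → ∃ x ∈ D, w'.1 = w.1 * x ^ p ^ J := by
    intro w w' hcc
    have h1 := QuotientGroup.eq.1 hcc
    obtain ⟨x, hx⟩ := h1
    refine ⟨x, x.2, ?_⟩
    have h2 := congrArg (fun y : D => (y : G)) hx
    change ((x : G)) ^ p ^ J = (w.1)⁻¹ * w'.1 at h2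
    rw [h2]
    group
  have hcsmul : ∀ (w w' : Wr D l), c w = c w' → ∀ δ : (ZMod N)ˣ, c (δ • w) = c (δ • w') := by
    intro w w' hcc δ
    have h1 : ∀ w : Wr D l, c (δ • w) = (c w) ^ (δ : ZMod N).val := fun w => rfl
    rw [h1, h1, hcc]
  -- the minors
  have hminor : ∀ (χ ψ : I) (w w' : Wr D l), c w = c w' →
      dv χ.1 w.1 * dv ψ.1 w'.1 - dv χ.1 w'.1 * dv ψ.1 w.1 ∈ QN p red J := by
    intro χ ψ w w' hcc
    obtain ⟨x, hx, hw'⟩ := hcW w w' hcc
    have h1 := minor_mem h hl hD hab hp2 hm1 hgen (hSm _ χ.2) (hSm _ ψ.2) w.2.1 w.2.2 (J := J) hx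
      (by rw [← hw']; exact w'.2.1) (by rw [← hw']; exact w'.2.2)
    rw [← hw'] at h1
    exact h1
  have hdvne : ∀ (χ : I) (w : Wr D l), dv χ.1 w.1 ≠ 0 := by
    intro χ w h0
    apply h.Ad_ne_zero hl hD hab he w.2.1 w.2.2 χ.1 (hSl _ χ.2)
    unfold Ad
    change _ * dv χ.1 w.1 = 0
    rw [h0, mul_zero]
  have hcoe0 : ∀ x : AA, (x : ℂ) = 0 → x = 0 := fun x hx => Subtype.ext hx
  -- the Gram matrix
  have hpel : ∀ w : Wr D l, ∃ a : ℕ, w.1 ^ p ^ a = 1 := by
    intro w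
    obtain ⟨n, hn⟩ := hD ⟨w.1, w.2.1.1⟩
    exact ⟨n, by simpa using congrArg Subtype.val hn⟩
  set M : Wr D l → Irr G → ℂ := fun w χ =>
    dn p (centralizer {w.1}) q (Φ (centralizer {w.1})).1 w.1 χ.1 with hM
  have hgramM : ∀ w w' : Wr D l, ∑ χ, M w χ * (starRingEnd ℂ) (M w' χ) = 0 ∨
      (∑ χ, M w χ * (starRingEnd ℂ) (M w' χ) = q ∧
        ∃ g : G, g * w.1 * g⁻¹ = w'.1 ∧ ∀ z : G → k, InvOn (centralizer {w'.1}) z →
          l (fun x => z (g * x * g⁻¹)) = l z) := fun w w' =>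
    P179Y.gram p red (centralizer {w.1}) (centralizer {w'.1}) hq (h.nd w.1 w.2.1 w.2.2)
      (h.nd w'.1 w'.2.1 w'.2.2) w.1 w'.1 (hpel w) (hpel w') (mem_cz w.1) (mem_cz w'.1)
  have hfus : ∀ w w' : Wr D l, ∑ χ, M w χ * (starRingEnd ℂ) (M w' χ) ≠ 0 →
      ∃ n ∈ T, n * w.1 * n⁻¹ = w'.1 := by
    intro w w' hne
    rcases hgramM w w' with h' | ⟨-, g, hg, hz⟩
    · exact absurd h' hne
    · obtain ⟨n, hn, hn2⟩ := fusionT hl hD hab (w := w.1) (g := g) w.2.1.1
        (by rw [hg]; exact w'.2.1)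
        (by
          rw [hg]
          intro z hzI
          have := hz z hzI
          unfold cj
          rw [inv_inv]
          exact this)
      exact ⟨n, hn, hn2.trans hg⟩
  have hcount : ∀ w : Wr D l, (univ.filter fun w' : Wr D l =>
      ∑ χ, M w χ * (starRingEnd ℂ) (M w' χ) ≠ 0).card ≤ e := by
    intro w
    set C : Subgroup G := centralizer (D : Set G) with hC
    have := Fintype.ofFinite (T ⧸ C.subgroupOf T)
    have hQ : Fintype.card (T ⧸ C.subgroupOf T) = e := by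
      rw [← Nat.card_eq_fintype_card]
      rfl
    rw [← hQ, ← Finset.card_univ]
    have h1 : ∀ w' : Wr D l, ∃ c : T ⧸ C.subgroupOf T,
        (∑ χ, M w χ * (starRingEnd ℂ) (M w' χ) ≠ 0 →
          ((c.out : T) : G) * w.1 * ((c.out : T) : G)⁻¹ = w'.1) := by
      intro w'
      by_cases h : ∑ χ, M w χ * (starRingEnd ℂ) (M w' χ) ≠ 0
      · obtain ⟨n, hn, hn2⟩ := hfus w w' h
        refine ⟨QuotientGroup.mk ⟨n, hn⟩, fun _ => ?_⟩
        set t : T := (QuotientGroup.mk (⟨n, hn⟩ : T) : T ⧸ C.subgroupOf T).out with ht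
        have h2 : (QuotientGroup.mk t : T ⧸ C.subgroupOf T) = QuotientGroup.mk ⟨n, hn⟩ :=
          Quotient.out_eq' _
        rw [QuotientGroup.eq] at h2
        have h3 : (t : G)⁻¹ * n ∈ C := h2
        have h4 : w.1 * ((t : G)⁻¹ * n) = ((t : G)⁻¹ * n) * w.1 :=
          mem_centralizer_iff.1 h3 w.1 w.2.1.1
        rw [← hn2]
        calc (t : G) * w.1 * (t : G)⁻¹ = t * (w.1 * ((t : G)⁻¹ * n)) * n⁻¹ := by group
          _ = t * (((t : G)⁻¹ * n) * w.1) * n⁻¹ := by rw [h4]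
          _ = _ := by group
      · exact ⟨QuotientGroup.mk 1, fun h' => absurd h' h⟩
    choose c hc using h1
    refine Finset.card_le_card_of_injOn c (fun _ _ => mem_univ _) ?_
    intro w' hw' w'' hw'' hcc
    have h2 := hc w' (mem_filter.1 (Finset.mem_coe.1 hw')).2
    have h3 := hc w'' (mem_filter.1 (Finset.mem_coe.1 hw'')).2
    rw [hcc] at h2
    exact Subtype.ext (h2.symm.trans h3)
  have hquad := quad_boundC M q e (fun w w' => (hgramM w w').imp_right And.left) hcount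
  -- the sizes
  have hcardW : Nat.card (Wr D l) = Fintype.card (Wr D l) := Nat.card_eq_fintype_card
  have hWle : Nat.card (Wr D l) ≤ q := by
    rw [hqdef]
    exact Nat.card_le_card_of_injective (fun w : Wr D l => (⟨w.1, w.2.1.1⟩ : D)) fun w w' h =>
      Subtype.ext (congrArg (fun x : D => (x : G)) h)
  rw [hcardW] at hWle h7
  have key := comb (W := Wr D l) (I := I) (C := D ⧸ Q) (Δ := (ZMod N)ˣ) c f (q : ℝ) (e : ℝ)
    ((p : ℝ) ^ J) (by exact_mod_cast Nat.pos_of_ne_zero hq) (by exact_mod_cast he1)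
    (fun χ w h0 => hdvne χ w (hcoe0 _ h0)) (by
      intro t
      refine le_trans ?_ (hquad t)
      have h1 : ∀ χ : I, ‖∑ w, t w * f χ w‖ ^ 2 = ‖∑ w, t w * M w χ.1‖ ^ 2 := by
        intro χ
        congr 2
        refine Finset.sum_congr rfl fun w _ => ?_
        congr 1
        exact hdv χ.1 w
      rw [Finset.sum_congr rfl fun χ _ => h1 χ]
      rw [Finset.sum_coe_sort S (fun χ => ‖∑ w, t w * M w χ‖ ^ 2)]
      exact Finset.sum_le_sum_of_subset_of_nonneg (Finset.subset_univ _)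
        fun ψ _ _ => by positivity) (by
      intro χ w
      have h1 := sum_norm_ge (p := p) (red := red) hζ (P χ.1 w) hm₀N hgen₀'
        (fun δ => dv χ.1 (δ • w).1) (fun δ => hval χ.1 w δ) (J := 0)
        (fun δ => mem_QN_of_dvd (by simp)) (by
          rw [← hval1]
          intro h0
          exact hdvne χ w (hcoe0 _ h0))
      simpa using h1) (by
      intro χ ψ w w' hcc hlt
      by_contra hne
      have h1 := sum_norm_ge (p := p) (red := red) hζ
        (P χ.1 w * P ψ.1 w' - P χ.1 w' * P ψ.1 w) hm₀N hgen₀'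
        (fun δ => dv χ.1 (δ • w).1 * dv ψ.1 (δ • w').1 - dv χ.1 (δ • w').1 * dv ψ.1 (δ • w).1)
        (fun δ => by
          push_cast
          rw [hval, hval, hval, hval, map_sub, map_mul, map_mul]) (J := J)
        (fun δ => hminor χ ψ _ _ (hcsmul w w' hcc δ)) (by
          rw [map_sub, map_mul, map_mul, ← hval1, ← hval1, ← hval1, ← hval1]
          exact sub_ne_zero.2 hne)
      refine absurd hlt (not_lt.2 ?_)
      refine h1.trans_eq ?_
      refine Finset.sum_congr rfl fun δ _ => ?_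
      congr 1) (by exact_mod_cast hJ)
      (by exact_mod_cast hWle) (by exact_mod_cast h7)
  -- the number of classes
  have hcl : Fintype.card (D ⧸ Q) = Nat.card {d : G // d ∈ D ∧ d ^ p ^ J = 1} := by
    rw [← Nat.card_eq_fintype_card]
    change Q.index = _
    have h1 : Nat.card Q * Q.index = Nat.card D := Subgroup.card_mul_index Q
    have h2 : Nat.card (powMonoidHom (p ^ J) : D →* D).ker *
        (powMonoidHom (p ^ J) : D →* D).ker.index = Nat.card D := Subgroup.card_mul_index _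
    rw [Subgroup.index_ker] at h2
    have h3 : Q.index = Nat.card (powMonoidHom (p ^ J) : D →* D).ker := by
      have h4 : 0 < Nat.card Q := Nat.card_pos
      refine Nat.eq_of_mul_eq_mul_left h4 ?_
      rw [h1, ← h2, mul_comm]
    rw [h3]
    refine Nat.card_congr
      { toFun := fun d => ⟨d.1, d.1.2, by
          have := congrArg (fun y : D => (y : G)) (MonoidHom.mem_ker.1 d.2)
          exact this⟩
        invFun := fun d => ⟨⟨d.1, d.2.1⟩, MonoidHom.mem_ker.2 (Subtype.ext d.2.2)⟩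
        left_inv := fun d => rfl
        right_inv := fun d => rfl }
  have hI : Fintype.card I = S.card := Fintype.card_coe _
  rw [hI, hcl] at key
  exact_mod_cast key

end

end P179H452
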