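import Vale.Agent.P179.R2.H443.LDefsR

/-!
# Blocks covering only one block of each normal subgroup
-/

namespace P179B

open Subgroup

/-- The block `B` covers only one block of each normal subgroup: `e B = 0` or `e B = B` for the
blocks `e` of the normal subgroups `N`. -/
def CoversOne {k : Type*} [Field k] {G : Type*} [Group G] (B : MonoidAlgebra k G) : Prop :=
  ∀ N : Subgroup G, N.Normal → ∀ e : MonoidAlgebra k N, IsBlock e →
    MonoidAlgebra.mapDomain N.subtype e * B = 0 ∨ MonoidAlgebra.mapDomain N.subtype e * B = B

/-- The equality holds for the blocks of the groups of order less than `|G|` with defect groups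
isomorphic to `D`. -/
def SolvedBelow (p : ℕ) {k : Type*} [Field k] (red : integralClosure ℤ ℂ →+* k) {G : Type}
    [Group G] (D : Subgroup G) : Prop :=
  ∀ (X : Type) [Group X] [Finite X] (B : MonoidAlgebra k X) (E : Subgroup X),
    Nat.card X < Nat.card G → IsBlock B → IsDefectGroup B E → Nonempty (D ≃* E) →
    numSimpleIn B = numWeightsIn p red B

end P179B
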