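import Vale.Agent.P179.R2.H452.CovDef2

/-!
# Groups which are not central products
-/

namespace P179B

open Subgroup

/-- The group `G` is not a product of two commuting proper subgroups. -/
def NotCentralProduct (G : Type*) [Group G] : Prop :=
  ∀ X Y : Subgroup G, (∀ x ∈ X, ∀ y ∈ Y, x * y = y * x) →
    (∀ g : G, ∃ x ∈ X, ∃ y ∈ Y, g = x * y) → X = ⊤ ∨ Y = ⊤

end P179B
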