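import Vale.Agent.P179.R2.H443.SpDef
import Vale.Agent.P179.R2.H452.CovDef3

/-!
# The reduction for abelian defect groups: the remaining blocks
-/

namespace P179B

open Subgroup

/-- `l(B) = |W_p(B)|` for the blocks `B` with `ReducedBlock` and `PrimitiveBlock` of the finite groups
`G` with `NotCentralProduct` and an abelian defect group `D` in the class `Cl` such that the equality
holds for all blocks whose defect groups are isomorphic to direct factors `≠ D` of `D` and for the
blocks of the groups of order less than `|G|` with defect groups isomorphic to `D` (`SolvedBelow`). -/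
def WeightConjAbMinimal (p : ℕ) {k : Type*} [Field k] (red : integralClosure ℤ ℂ →+* k)
    (Cl : ∀ (K : Type) [Group K], Prop) : Prop :=
  ∀ (G : Type) [Group G] [Finite G] (B : MonoidAlgebra k G) (D : Subgroup G)
    (b : MonoidAlgebra k (centralizer (D : Set G))), IsBlock B → IsDefectGroup B D →
    (∀ x ∈ D, ∀ y ∈ D, x * y = y * x) → Cl D → IsBlock b → InducesTo b B →
    WeightConjAb p red (fun (K : Type) [Group K] => ProperFactor D K) → SolvedBelow p red D →
    ReducedBlock p red B D b → PrimitiveBlock p B → NotCentralProduct G →
    numSimpleIn B = numWeightsIn p red B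

end P179B
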