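import Vale.Agent.P179.R2.H452.N5

/-!
# A stable homomorphism from an abelian group to the field
-/

namespace P179H452

open Finset P179P P179C P179Y Subgroup P179H524 P179I

open scoped Classical IsMulCommutative

set_option linter.unusedSectionVars false

/-- a homomorphism to the group of order `p` -/
theorem exists_hom_of_notMem {p : ℕ} [hp : Fact p.Prime] {A : Type*} [CommGroup A] [Finite A]
    (hA : IsPGroup p A) (B : Subgroup A) {x : A} (hx : x ∉ B) :
    ∃ φ : A →* Multiplicative (ZMod p), (∀ b ∈ B, φ b = 1) ∧ ∃ y, φ y ≠ 1 := by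
  have hAB : IsPGroup p (A ⧸ B) := hA.to_quotient B
  obtain ⟨n, hn⟩ := IsPGroup.iff_card.1 hAB
  have hn0 : n ≠ 0 := by
    rintro rfl
    rw [pow_zero, Nat.card_eq_one_iff_unique] at hn
    apply hx
    rw [← QuotientGroup.eq_one_iff]
    exact hn.1.elim _ _
  obtain ⟨n, rfl⟩ : ∃ n', n = n' + 1 := ⟨n - 1, by omega⟩
  obtain ⟨K, hK⟩ := Sylow.exists_subgroup_card_pow_prime (G := A ⧸ B) p (n := n) (by
    rw [hn]
    exact pow_dvd_pow p (Nat.le_succ n))
  have hidx : K.index = p := by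
    have h1 := K.card_mul_index
    rw [hK, hn, pow_succ] at h1
    exact Nat.eq_of_mul_eq_mul_left (pow_pos hp.out.pos n) h1
  have hcard : Nat.card ((A ⧸ B) ⧸ K) = p := hidx
  have hcyc : IsCyclic ((A ⧸ B) ⧸ K) := isCyclic_of_prime_card hcard
  let e : Multiplicative (ZMod (Nat.card ((A ⧸ B) ⧸ K))) ≃* ((A ⧸ B) ⧸ K) := zmodCyclicMulEquiv hcyc
  rw [hcard] at e
  refine ⟨e.symm.toMonoidHom.comp ((QuotientGroup.mk' K).comp (QuotientGroup.mk' B)), ?_, ?_⟩
  · intro b hb
    change e.symm (((b : A ⧸ B) : A ⧸ B) : (A ⧸ B) ⧸ K) = 1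
    rw [(QuotientGroup.eq_one_iff b).2 hb]
    change e.symm 1 = 1
    exact map_one _
  · by_contra hcon
    push Not at hcon
    have h1 : ∀ z : (A ⧸ B) ⧸ K, z = 1 := by
      intro z
      obtain ⟨z', rfl⟩ := QuotientGroup.mk_surjective z
      obtain ⟨y, rfl⟩ := QuotientGroup.mk_surjective z'
      have h2 := hcon y
      change e.symm (((y : A ⧸ B) : (A ⧸ B) ⧸ K)) = 1 at h2
      exact e.symm.injective (h2.trans (map_one e.symm).symm)
    have h2 : Subsingleton ((A ⧸ B) ⧸ K) := ⟨fun a b => (h1 a).trans (h1 b).symm⟩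
    have h3 : Nat.card ((A ⧸ B) ⧸ K) = 1 := Nat.card_of_subsingleton 1
    rw [hcard] at h3
    exact hp.out.one_lt.ne' h3

theorem out_mem' {G : Type*} [Group G] {C T : Subgroup G} (hCT : C ≤ T) (c : G) :
    (c : G ⧸ C).out ∈ T ↔ c ∈ T := by
  obtain ⟨h, hh⟩ := QuotientGroup.mk_out_eq_mul C c
  rw [hh]
  exact ⟨fun h1 => by simpa using mul_mem h1 (inv_mem (hCT h.2)),
    fun h1 => mul_mem h1 (hCT h.2)⟩

/-- **a stable homomorphism** -/
theorem exists_delta {p : ℕ} [hp : Fact p.Prime] {k : Type*} [Field k] [CharP k p] {G : Type*}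
    [Group G] [Fintype G] {D Q T : Subgroup G} (hD : IsPGroup p D)
    (hab : D ≤ centralizer (D : Set G)) (hTN : T ≤ normalizer (D : Set G))
    (hCT : centralizer (D : Set G) ≤ T)
    (he : ¬ p ∣ (centralizer (D : Set G)).relIndex T) (hQT : ∀ t ∈ T, ∀ q ∈ Q, t * q * t⁻¹ ∈ Q)
    {x : G} (hx : x ∈ D) (hxQ : x ∉ Q) (hxT : ∀ t ∈ T, t * x * t⁻¹ = x) :
    ∃ δ : G → k, (∀ u ∈ D, ∀ v ∈ D, δ (u * v) = δ u + δ v) ∧
      (∀ t ∈ T, ∀ v ∈ D, δ (t * v * t⁻¹) = δ v) ∧ (∀ q ∈ Q, q ∈ D → δ q = 0) ∧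
      ∃ x' ∈ D, (∀ t ∈ T, t * x' * t⁻¹ = x') ∧ δ x' ≠ 0 := by
  have hcomm : ∀ a b : D, a * b = b * a := fun a b =>
    Subtype.ext ((mem_centralizer_iff.1 (hab a.2) b b.2).symm)
  have : IsMulCommutative D := ⟨⟨hcomm⟩⟩
  set C := centralizer (D : Set G) with hC
  have hmemD : ∀ t ∈ T, ∀ v ∈ D, t * v * t⁻¹ ∈ D := fun t ht v hv =>
    (mem_normalizer_iff.1 (hTN ht) v).1 hv
  have hcC : ∀ c ∈ C, ∀ v ∈ D, c * v * c⁻¹ = v := by
    intro c hc v hv
    rw [← mem_centralizer_iff.1 hc v hv]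
    group
  -- conjugation
  let cjD : G → D → D := fun t v => if ht : t ∈ T then ⟨t * v * t⁻¹, hmemD t ht v v.2⟩ else 1
  have hcj : ∀ t ∈ T, ∀ v : D, ((cjD t v : D) : G) = t * v * t⁻¹ := by
    intro t ht v
    simp only [cjD, dif_pos ht]
  have hcjm : ∀ t, ∀ u v : D, cjD t (u * v) = cjD t u * cjD t v := by
    intro t u v
    by_cases ht : t ∈ T
    · apply Subtype.ext
      rw [Subgroup.coe_mul, hcj t ht, hcj t ht, hcj t ht, Subgroup.coe_mul]
      group
    · simp only [cjD, dif_neg ht, mul_one]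
  -- the norm
  let N : D → D := fun v => ∏ c : G ⧸ C, cjD c.out v
  have hNm : ∀ u v, N (u * v) = N u * N v := by
    intro u v
    simp only [N]
    rw [← Finset.prod_mul_distrib]
    exact Finset.prod_congr rfl fun c _ => hcjm _ u v
  have hdep : ∀ g : G, ∀ v : D, cjD (g : G ⧸ C).out v = cjD g v := by
    intro g v
    obtain ⟨h, hh⟩ := QuotientGroup.mk_out_eq_mul C g
    by_cases hg : g ∈ T
    · have hgo : (g : G ⧸ C).out ∈ T := (out_mem' hCT g).2 hg
      apply Subtype.ext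
      rw [hcj _ hgo, hcj _ hg, hh]
      have h1 := hcC h h.2 v v.2
      calc g * (h : G) * v * (g * h)⁻¹ = g * ((h : G) * v * (h : G)⁻¹) * g⁻¹ := by group
        _ = _ := by rw [h1]
    · have hgo : (g : G ⧸ C).out ∉ T := fun h => hg ((out_mem' hCT g).1 h)
      simp only [cjD, dif_neg hg, dif_neg hgo]
  have hcjcj : ∀ t ∈ T, ∀ g, ∀ v : D, cjD t (cjD g v) = cjD (t * g) v := by
    intro t ht g v
    by_cases hg : g ∈ T
    · apply Subtype.ext
      rw [hcj t ht, hcj g hg, hcj _ (mul_mem ht hg)]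
      group
    · have h1 : t * g ∉ T := fun h => hg (by simpa using mul_mem (inv_mem ht) h)
      have h2 : cjD g v = 1 := by simp only [cjD, dif_neg hg]
      have h3 : cjD (t * g) v = 1 := by simp only [cjD, dif_neg h1]
      rw [h2, h3]
      apply Subtype.ext
      rw [hcj t ht]
      simp
  have hNfix : ∀ t ∈ T, ∀ v, cjD t (N v) = N v := by
    intro t ht v
    have h1 : cjD t (N v) = ∏ c : G ⧸ C, cjD t (cjD c.out v) := by
      let f : D →* D := { toFun := cjD t
                          map_one' := by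
                            apply Subtype.ext
                            rw [hcj t ht]; simp
                          map_mul' := hcjm t }
      exact map_prod f _ _
    rw [h1]
    have h2 : ∀ c : G ⧸ C, cjD t (cjD c.out v) = cjD (t • c : G ⧸ C).out v := by
      intro c
      rw [hcjcj t ht]
      have h3 : (t • c : G ⧸ C) = ((t * c.out : G) : G ⧸ C) := by
        conv_lhs => rw [← QuotientGroup.out_eq' c]
        rfl
      rw [h3, hdep]
    rw [Finset.prod_congr rfl fun c _ => h2 c]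
    exact Equiv.prod_comp (MulAction.toPerm t : Equiv.Perm (G ⧸ C)) fun c => cjD c.out v
  have hNt : ∀ t ∈ T, ∀ v, N (cjD t v) = N v := by
    intro t ht v
    -- right multiplication by `t` normalises `C`
    have htN := hTN ht
    have hmap : ∀ g : G, ∀ c : C, ((g * (c : G) * t : G) : G ⧸ C) = ((g * t : G) : G ⧸ C) := by
      intro g c
      rw [QuotientGroup.eq]
      have h1 : (g * (c : G) * t)⁻¹ * (g * t) = t⁻¹ * (c : G)⁻¹ * t⁻¹⁻¹ := by group
      rw [h1]
      exact (conj_mem_cent (inv_mem htN) _).2 (inv_mem c.2)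
    let R : G → G ⧸ C → G ⧸ C := fun s c => ((c.out * s : G) : G ⧸ C)
    have hR : ∀ s, s ∈ T → ∀ g : G, R s (g : G ⧸ C) = ((g * s : G) : G ⧸ C) := by
      intro s hs g
      obtain ⟨h, hh⟩ := QuotientGroup.mk_out_eq_mul C g
      simp only [R]
      rw [hh, QuotientGroup.eq]
      have h1 : (g * (h : G) * s)⁻¹ * (g * s) = s⁻¹ * (h : G)⁻¹ * s⁻¹⁻¹ := by group
      rw [h1]
      exact (conj_mem_cent (inv_mem (hTN hs)) _).2 (inv_mem h.2)
    let E : Equiv.Perm (G ⧸ C) :=
      { toFun := R t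
        invFun := R t⁻¹
        left_inv := by
          intro c
          obtain ⟨g, rfl⟩ := QuotientGroup.mk_surjective c
          rw [hR t ht, hR _ (inv_mem ht)]
          congr 1
          group
        right_inv := by
          intro c
          obtain ⟨g, rfl⟩ := QuotientGroup.mk_surjective c
          rw [hR _ (inv_mem ht), hR t ht]
          congr 1
          group }
    simp only [N]
    rw [← Equiv.prod_comp E fun c => cjD c.out v]
    refine Finset.prod_congr rfl fun c _ => ?_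
    obtain ⟨g, rfl⟩ := QuotientGroup.mk_surjective c
    have h1 : E (g : G ⧸ C) = ((g * t : G) : G ⧸ C) := hR t ht g
    rw [h1, hdep, hdep]
    by_cases hg : g ∈ T
    · exact hcjcj g hg t v
    · have h1 : g * t ∉ T := fun h => hg (by simpa using mul_mem h (inv_mem ht))
      simp only [cjD, dif_neg hg, dif_neg h1]
  -- the fixed points
  let F : Subgroup D :=
    { carrier := {v | ∀ t ∈ T, t * (v : G) * t⁻¹ = v}
      one_mem' := by intro t _; simp
      mul_mem' := by
        intro a b ha hb t ht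
        rw [Subgroup.coe_mul]
        calc t * ((a : G) * b) * t⁻¹ = (t * (a : G) * t⁻¹) * (t * b * t⁻¹) := by group
          _ = _ := by rw [ha t ht, hb t ht]
      inv_mem' := by
        intro a ha t ht
        rw [Subgroup.coe_inv]
        calc t * (a : G)⁻¹ * t⁻¹ = (t * (a : G) * t⁻¹)⁻¹ := by group
          _ = _ := by rw [ha t ht] }
  have hNF : ∀ v, N v ∈ F := by
    intro v t ht
    have h1 := hNfix t ht v
    rw [← hcj t ht, h1]
  have hNpow : ∀ v : D, v ∈ F → N v = v ^ (C.relIndex T) := by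
    intro v hv
    simp only [N]
    have h1 : ∀ c : G ⧸ C, cjD c.out v = if c.out ∈ T then v else 1 := by
      intro c
      by_cases hc : c.out ∈ T
      · rw [if_pos hc]
        apply Subtype.ext
        rw [hcj _ hc]
        exact hv _ hc
      · rw [if_neg hc]
        simp only [cjD, dif_neg hc]
    rw [Finset.prod_congr rfl fun c _ => h1 c, ← Finset.prod_filter, Finset.prod_const,
      card_cosets C T hCT]
  -- the homomorphism on the fixed points
  let Q' : Subgroup F := (Q.subgroupOf D).subgroupOf F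
  have hxF : (⟨x, hx⟩ : D) ∈ F := hxT
  have hFp : IsPGroup p F := hD.to_subgroup F
  obtain ⟨φ, hφ1, y, hφ2⟩ := exists_hom_of_notMem (p := p) hFp Q' (x := ⟨⟨x, hx⟩, hxF⟩) (fun h => by
    apply hxQ
    simpa [Q', Subgroup.mem_subgroupOf] using h)
  let ι : ZMod p →+* k := ZMod.castHom (dvd_refl p) k
  let δ₀ : F → k := fun v => ι (φ v).toAdd
  have hδ₀ : ∀ u v, δ₀ (u * v) = δ₀ u + δ₀ v := by
    intro u v
    simp only [δ₀]
    rw [map_mul, toAdd_mul, map_add]
  have hδpow : ∀ (u : F) (n : ℕ), δ₀ (u ^ n) = n * δ₀ u := by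
    intro u n
    simp only [δ₀]
    rw [map_pow, toAdd_pow, map_nsmul, nsmul_eq_mul]
  have hek : ((C.relIndex T : ℕ) : k) ≠ 0 := by
    rwa [Ne, CharP.cast_eq_zero_iff k p]
  let NF : D → F := fun v => ⟨N v, hNF v⟩
  let δ : G → k := fun v => if hv : v ∈ D then δ₀ (NF ⟨v, hv⟩) else 0
  have hδD : ∀ v (hv : v ∈ D), δ v = δ₀ (NF ⟨v, hv⟩) := fun v hv => by
    simp only [δ, dif_pos hv]
  refine ⟨δ, ?_, ?_, ?_, (y : D), (y : D).2, ?_, ?_⟩
  · intro u hu v hv
    rw [hδD u hu, hδD v hv, hδD _ (mul_mem hu hv), ← hδ₀]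
    congr 1
    apply Subtype.ext
    exact hNm ⟨u, hu⟩ ⟨v, hv⟩
  · intro t ht v hv
    rw [hδD v hv, hδD _ (hmemD t ht v hv)]
    congr 1
    apply Subtype.ext
    have h1 : (⟨t * v * t⁻¹, hmemD t ht v hv⟩ : D) = cjD t ⟨v, hv⟩ := by
      apply Subtype.ext
      rw [hcj t ht]
    change N _ = N _
    rw [h1]
    exact hNt t ht ⟨v, hv⟩
  · intro q hq hqD
    rw [hδD q hqD]
    have h1 : NF ⟨q, hqD⟩ ∈ Q' := by
      rw [Subgroup.mem_subgroupOf, Subgroup.mem_subgroupOf]
      change ((N ⟨q, hqD⟩ : D) : G) ∈ Q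
      have h2 : N ⟨q, hqD⟩ ∈ Q.subgroupOf D := by
        simp only [N]
        refine Subgroup.prod_mem _ fun c _ => ?_
        rw [Subgroup.mem_subgroupOf]
        by_cases hc : c.out ∈ T
        · rw [hcj _ hc]
          exact hQT _ hc q hq
        · simp only [cjD, dif_neg hc]
          exact Q.one_mem
      exact Subgroup.mem_subgroupOf.1 h2
    simp only [δ₀]
    rw [hφ1 _ h1, toAdd_one, map_zero]
  · exact y.2
  · rw [hδD _ (y : D).2]
    have h1 : NF ⟨((y : D) : G), (y : D).2⟩ = y ^ (C.relIndex T) := by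
      apply Subtype.ext
      rw [Subgroup.coe_pow]
      exact hNpow (y : D) y.2
    rw [h1, hδpow]
    refine mul_ne_zero hek ?_
    simp only [δ₀]
    intro h
    have h2 : (φ y).toAdd = 0 := (map_eq_zero ι).1 h
    exact hφ2 h2

/-- a stable homomorphism, `Q` centralised by `T` -/
theorem exists_delta' {p : ℕ} [hp : Fact p.Prime] {k : Type*} [Field k] [CharP k p] {G : Type*}
    [Group G] [Finite G] {D T Q : Subgroup G} (hD : IsPGroup p D)
    (hab : D ≤ centralizer (D : Set G)) (hTN : T ≤ normalizer (D : Set G))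
    (hpT : ¬ p ∣ (centralizer (D : Set G)).relIndex T) (hCT : centralizer (D : Set G) ≤ T)
    (hQT : T ≤ centralizer (Q : Set G)) {x : G} (hx : x ∈ D) (hxT : ∀ t ∈ T, t * x * t⁻¹ = x)
    (hxQ : x ∉ Q) :
    ∃ del : G → k, (∀ u ∈ D, ∀ v ∈ D, del (u * v) = del u + del v) ∧
      (∀ t ∈ T, ∀ u ∈ D, del (t * u * t⁻¹) = del u) ∧ (∀ q ∈ Q, q ∈ D → del q = 0) ∧
      ∃ y ∈ D, (∀ t ∈ T, t * y * t⁻¹ = y) ∧ del y ≠ 0 := by
  have := Fintype.ofFinite G
  refine exists_delta hD hab hTN hCT hpT (fun t ht q hq => ?_) hx hxQ hxT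
  have h1 := mem_centralizer_iff.1 (hQT ht) q hq
  have h2 : t * q * t⁻¹ = q := by
    rw [← h1]; group
  rwa [h2]

end P179H452
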