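import Vale.Agent.P179.R2.H452.Rat

/-!
# Means over the cosets of `p ^ j A`
-/

namespace P179H452

open Finset P179P P179I P179C

open scoped Classical

section Mean

variable {p : ℕ} [hp : Fact p.Prime] {k : Type*} [Field k] [CharP k p] {red : AA →+* k}
  {A : Type*} [AddCommGroup A] [Fintype A]

omit [AddCommGroup A] in
theorem coprime_card {a : ℕ} (hA : Fintype.card A = p ^ a) {i : ℕ} (hi : i ≡ 1 [MOD p]) :
    (Nat.card A).Coprime i := by
  rw [Nat.card_eq_fintype_card, hA]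
  refine Nat.Coprime.pow_left _ ((Nat.Prime.coprime_iff_not_dvd hp.out).2 fun h => ?_)
  have h1 : (0 : ℕ) ≡ 1 [MOD p] := ((Nat.modEq_zero_iff_dvd.2 h).symm).trans hi
  have h2 : p ∣ 1 - 0 := (Nat.modEq_iff_dvd' (by omega)).1 h1
  exact hp.out.one_lt.ne' (Nat.dvd_one.1 h2)

omit [CharP k p] in
/-- the invariance of the coefficients -/
theorem coef_inv {a : ℕ} (hA : Fintype.card A = p ^ a) {F : A → AA} {c : AddChar A ℂ → AA}
    (hc : ∀ b, F b = ∑ ψ, c ψ * lamA ψ b) {K : ℕ}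
    (hK : ∀ i : ℕ, i ≡ 1 [MOD p] → ∀ b : A, F (i • b) - F b ∈ QN p red (K + a)) :
    ∀ i : ℕ, i ≡ 1 [MOD p] → ∀ ψ, c (i • ψ) - c ψ ∈ QN p red K := by
  intro i hi ψ
  refine mem_QN_of_mul (a := a) ?_
  have h1 := coeff_eq hc (i • ψ)
  have h2 := coeff_eq hc ψ
  rw [← Equiv.sum_comp (nsmulCoprime (coprime_card hA hi))] at h2
  rw [hA] at h1 h2
  push_cast at h1 h2
  have h3 : (p : AA) ^ a * (c (i • ψ) - c ψ) =
      -∑ b, (F (i • b) - F b) * lamA ψ (-(i • b)) := by
    rw [mul_sub, ← h1, ← h2, ← Finset.sum_sub_distrib, ← Finset.sum_neg_distrib]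
    refine Finset.sum_congr rfl fun b _ => ?_
    rw [lamA_nsmul_swap, smul_neg]
    change F b * lamA ψ (-(i • b)) - F (i • b) * lamA ψ (-(i • b)) = _
    ring
  rw [h3]
  exact neg_mem (Ideal.sum_mem _ fun b _ => Ideal.mul_mem_right _ _ (hK i hi b))

omit [CharP k p] in
/-- **the orbit lemma**: the contribution of the characters of order larger than `p ^ j` -/
theorem RI_orb (hp2 : p ≠ 2) {a : ℕ} (hA : Fintype.card A = p ^ a) {c : AddChar A ℂ → AA}
    {K j : ℕ} (hcoef : ∀ i : ℕ, i ≡ 1 [MOD p] → ∀ ψ, c (i • ψ) - c ψ ∈ QN p red (K + a))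
    (hjK : j ≤ K) (Z : AddChar A ℂ → Prop)
    (hZ : ∀ i : ℕ, i ≡ 1 [MOD p] → ∀ ψ, Z (i • ψ) ↔ Z ψ) (hZj : ∀ ψ, Z ψ → p ^ j • ψ ≠ 0)
    (b : A) : ∑ ψ, (if Z ψ then c ψ * lamA ψ b else 0) ∈ QN p red j := by
  rcases Nat.eq_zero_or_pos j with rfl | hj
  · exact mem_QN_of_dvd (by simp)
  obtain ⟨J, rfl⟩ : ∃ J', j = J' + 1 := ⟨j - 1, by omega⟩
  have hexp : ∀ b : A, p ^ a • b = 0 := by
    intro b
    rw [← hA]
    exact card_nsmul_eq_zero
  -- the permutations
  have hcopψ : ∀ {i : ℕ}, i ≡ 1 [MOD p] → (Nat.card (AddChar A ℂ)).Coprime i := by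
    intro i hi
    have h1 : Nat.card (AddChar A ℂ) = Nat.card A := by
      rw [Nat.card_eq_fintype_card, Nat.card_eq_fintype_card, AddChar.card_eq]
    rw [h1]
    exact coprime_card hA hi
  have hψexp : ∀ ψ : AddChar A ℂ, p ^ a • ψ = 0 := by
    intro ψ
    have h1 : Fintype.card (AddChar A ℂ) = p ^ a := by rw [AddChar.card_eq, hA]
    rw [← h1]
    exact card_nsmul_eq_zero
  -- the truncated function
  set F : A → AA := fun b => ∑ ψ, (if Z ψ then c ψ * lamA ψ b else 0) with hF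
  have hK : ∀ i : ℕ, i ≡ 1 [MOD p] → ∀ b : A, F (i • b) - F b ∈ QN p red (K + a) := by
    intro i hi b
    have h1 : F b = ∑ ψ, (if Z ψ then c (i • ψ) * lamA (i • ψ) b else 0) := by
      simp only [hF]
      rw [← Equiv.sum_comp (nsmulCoprime (hcopψ hi))]
      refine Finset.sum_congr rfl fun ψ _ => ?_
      change (if Z (i • ψ) then c (i • ψ) * lamA (i • ψ) b else 0) = _
      simp only [hZ i hi]
    have h2 : F (i • b) = ∑ ψ, (if Z ψ then c ψ * lamA (i • ψ) b else 0) := by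
      simp only [hF]
      refine Finset.sum_congr rfl fun ψ _ => ?_
      rw [lamA_nsmul_swap]
    rw [h1, h2, ← Finset.sum_sub_distrib]
    refine Ideal.sum_mem _ fun ψ _ => ?_
    split_ifs
    · rw [← sub_mul]
      refine Ideal.mul_mem_right _ _ ?_
      rw [← neg_sub]
      exact neg_mem (hcoef i hi ψ)
    · rw [sub_self]
      exact zero_mem _
  -- the formula
  set g : A → AddChar A ℂ → AA := fun b ψ =>
    if lamA ψ (p • b) = 1 then (if Z ψ then c ψ * lamA ψ b else 0) else 0 with hg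
  have hform : ∀ b, F b - ∑ ψ, g b ψ ∈ QN p red K := by
    intro b
    refine mem_QN_of_mul (a := a) ?_
    have h1 : ∑ t ∈ range (p ^ a), F ((1 + p * t) • b) = (p : AA) ^ a * ∑ ψ, g b ψ := by
      have h2 : ∀ t, F ((1 + p * t) • b) = ∑ ψ, (if Z ψ then
          c ψ * lamA ψ b else 0) * lamA ψ (p • b) ^ t := by
        intro t
        simp only [hF]
        refine Finset.sum_congr rfl fun ψ _ => ?_
        split_ifs
        · rw [add_smul, one_smul, lamA_map_add, mul_comm p t, mul_smul, lamA_nsmul]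
          ring
        · rw [zero_mul]
      rw [Finset.sum_congr rfl fun t _ => h2 t, Finset.sum_comm, Finset.mul_sum]
      refine Finset.sum_congr rfl fun ψ _ => ?_
      rw [← Finset.mul_sum, geom_root (by rw [← lamA_nsmul, hexp, lamA_zero'])]
      simp only [hg]
      split_ifs <;> push_cast <;> ring
    have h2 : (p : AA) ^ a * (F b - ∑ ψ, g b ψ) =
        -∑ t ∈ range (p ^ a), (F ((1 + p * t) • b) - F b) := by
      rw [Finset.sum_sub_distrib, h1, Finset.sum_const, card_range, nsmul_eq_mul]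
      push_cast
      ring
    rw [h2]
    refine neg_mem (Ideal.sum_mem _ fun t _ => hK _ ?_ b)
    exact (Nat.ModEq.refl 1).add (Nat.modEq_zero_iff_dvd.2 (dvd_mul_right p t))
  -- the permutation
  have hp1 : 1 + p ≡ 1 [MOD p] :=
    (Nat.ModEq.refl 1).add (Nat.modEq_zero_iff_dvd.2 dvd_rfl)
  let σ : Equiv.Perm (AddChar A ℂ) := nsmulCoprime (hcopψ hp1)
  have hσ : ∀ ψ, σ ψ = (1 + p) • ψ := fun _ => rfl
  have hσpow : ∀ (t : ℕ) ψ, (σ ^ t) ψ = (1 + p) ^ t • ψ := by
    intro t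
    induction t with
    | zero => intro ψ; simp
    | succ t ih =>
      intro ψ
      rw [pow_succ', Equiv.Perm.mul_apply, ih, hσ, pow_succ', mul_smul]
  have hσ1 : σ ^ p ^ a = 1 := by
    ext ψ : 1
    rw [hσpow, Equiv.Perm.one_apply]
    have h1 : (1 + p) ^ p ^ a ≡ 1 [MOD p ^ a] := by
      have h2 : (1 + p) ^ p ^ a ≡ 1 ^ p ^ a [MOD p ^ (a + 1)] := by
        have h3 : (p : ℤ) ^ (a + 1) ∣ (1 + p : ℤ) ^ p ^ a - 1 ^ p ^ a :=
          dvd_sub_pow_of_dvd_sub (R := ℤ) (p := p) (by simp) a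
        have h4 := (Int.modEq_iff_dvd.2 h3).symm
        exact_mod_cast h4
      rw [one_pow] at h2
      exact h2.of_dvd (pow_dvd_pow p (Nat.le_succ a))
    obtain ⟨d, hd⟩ : ∃ d, (1 + p) ^ p ^ a = 1 + d * p ^ a := by
      have h2 : 1 ≤ (1 + p) ^ p ^ a := Nat.one_le_pow _ _ (by omega)
      obtain ⟨d, hd⟩ := (Nat.modEq_iff_dvd' h2).1 h1.symm
      refine ⟨d, ?_⟩
      rw [mul_comm d, ← hd]
      omega
    rw [hd, add_smul, one_smul, mul_smul, hψexp, nsmul_zero, add_zero]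
  -- the sum over the orbits
  have hsum : ∑ ψ, g b ψ ∈ QN p red (J + 1) := by
    set I := QN p red K with hI
    have key := perm_sum_dvd (R := AA ⧸ I) p σ a hσ1 (fun ψ => Ideal.Quotient.mk I (g b ψ)) (by
      intro ψ
      rw [Ideal.Quotient.eq]
      simp only [hg]
      have h2 : lamA (σ ψ) (p • b) = lamA ψ (p • b) ^ (1 + p) := by
        rw [hσ, lamA_nsmul']
      have h3 : lamA (σ ψ) (p • b) = 1 ↔ lamA ψ (p • b) = 1 := by
        rw [h2]
        constructor
        · intro h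
          -- order is a power of `p` and divides `1 + p`
          have h4 : lamA ψ (p • b) ^ p ^ a = 1 := by rw [← lamA_nsmul, hexp, lamA_zero']
          have h5 : lamA ψ (p • b) ^ Nat.gcd (1 + p) (p ^ a) = 1 := by
            rw [← orderOf_dvd_iff_pow_eq_one] at h h4 ⊢
            exact Nat.dvd_gcd h h4
          have h6 : Nat.gcd (1 + p) (p ^ a) = 1 := by
            rw [Nat.gcd_comm]
            refine Nat.Coprime.pow_left _ ?_
            rw [Nat.coprime_add_self_right]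
            exact Nat.coprime_one_right p
          rwa [h6, pow_one] at h5
        · intro h
          rw [h, one_pow]
      by_cases h4 : lamA ψ (p • b) = 1
      · rw [if_pos h4, if_pos (h3.2 h4)]
        have h5 : lamA (σ ψ) b = lamA ψ b := by
          rw [hσ, lamA_nsmul', pow_add, pow_one, ← lamA_nsmul ψ p, h4, mul_one]
        rw [h5, hσ]
        simp only [hZ _ hp1]
        split_ifs
        · rw [← sub_mul]
          exact Ideal.mul_mem_right _ _ (QN_mono (Nat.le_add_right _ _) (hcoef _ hp1 ψ))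
        · rw [sub_self]
          exact zero_mem _
      · rw [if_neg h4, if_neg (fun h => h4 (h3.1 h)), sub_self]
        exact zero_mem _) J (by
      intro ψ hψ
      rw [hσpow] at hψ
      -- the order of `ψ` divides `p ^ (J + 1)`
      have h1 : p ^ (J + 1) • ψ = 0 := by
        obtain ⟨s, -, hs⟩ := (Nat.dvd_prime_pow hp.out).1 (addOrderOf_dvd_of_nsmul_eq_zero (hψexp ψ))
        have h2 : 1 ≤ (1 + p) ^ p ^ J := Nat.one_le_pow _ _ (by omega)
        have h3 : ((1 + p) ^ p ^ J - 1) • ψ = 0 := by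
          have h4 : ((1 + p) ^ p ^ J - 1 + 1) • ψ = ψ := by
            rw [Nat.sub_add_cancel h2]; exact hψ
          rw [add_smul, one_smul] at h4
          exact add_eq_right.1 h4
        have h4 := addOrderOf_dvd_of_nsmul_eq_zero h3
        rw [hs] at h4
        have h5 := order_lte hp2 h4
        refine addOrderOf_dvd_iff_nsmul_eq_zero.1 ?_
        rw [hs]
        exact pow_dvd_pow p h5
      have h5 : g b ψ = 0 := by
        simp only [hg]
        rw [if_neg (fun h => hZj ψ h h1)]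
        split_ifs <;> rfl
      change Ideal.Quotient.mk I (g b ψ) = 0
      rw [h5, map_zero])
    rw [← map_sum] at key
    obtain ⟨y, hy⟩ := key
    obtain ⟨y, rfl⟩ := Ideal.Quotient.mk_surjective y
    have h1 : (p : AA ⧸ I) ^ (J + 1) = Ideal.Quotient.mk I ((p : AA) ^ (J + 1)) := by
      rw [map_pow, map_natCast]
    rw [h1, ← map_mul, Ideal.Quotient.eq] at hy
    have h2 : (p : AA) ^ (J + 1) * y ∈ QN p red (J + 1) := mem_QN_of_dvd (dvd_mul_right _ _)
    have h3 := add_mem (QN_mono hjK hy) h2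
    rwa [sub_add_cancel] at h3
  have h1 : F b = (F b - ∑ ψ, g b ψ) + ∑ ψ, g b ψ := by ring
  change F b ∈ _
  rw [h1]
  exact add_mem (QN_mono hjK (hform b)) hsum

omit hp in
theorem sum_lamA_subgroup (Y : AddSubgroup A) [Fintype Y] (ψ : AddChar A ℂ) :
    ∑ y : Y, lamA ψ (y : A) = if ∀ y ∈ Y, lamA ψ y = 1 then (Fintype.card Y : AA) else 0 := by
  let φ : AddChar Y ℂ := ψ.compAddMonoidHom Y.subtype
  have h1 : ∀ y : Y, lamA ψ (y : A) = lamA φ y := fun y => rfl
  rw [Finset.sum_congr rfl fun y _ => h1 y]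
  have h2 : (φ = 0) ↔ ∀ y ∈ Y, lamA ψ y = 1 := by
    constructor
    · intro h y hy
      have h3 : lamA ψ y = lamA φ ⟨y, hy⟩ := rfl
      rw [h3, h, lamA_zero]
    · intro h
      ext y
      have h3 : lamA φ y = 1 := h y y.2
      have h4 := congrArg (fun x : AA => (x : ℂ)) h3
      exact h4
  apply Subtype.ext
  have h3 : ((∑ y : Y, lamA φ y : AA) : ℂ) = ∑ y : Y, φ y := by
    push_cast
    rfl
  rw [h3, AddChar.sum_eq_ite]
  by_cases h : φ = 0
  · rw [if_pos h, if_pos (h2.1 h)]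
    push_cast
    rfl
  · rw [if_neg h, if_neg (fun h' => h (h2.2 h'))]
    rfl

omit [CharP k p] in
/-- **the mean over a coset**: `|Y| F(w) - ∑ F(w + y)` is divisible by `p ^ j |Y|` for
`Y ≤ p ^ j A` -/
theorem RI_mean (hp2 : p ≠ 2) {a : ℕ} (hA : Fintype.card A = p ^ a) {F : A → AA} (hF : RI F)
    {K j : ℕ} (hK : ∀ i : ℕ, i ≡ 1 [MOD p] → ∀ b : A, F (i • b) - F b ∈ QN p red (K + a + a))
    (hjK : j ≤ K) (Y : AddSubgroup A) [Fintype Y] {n : ℕ} (hY : Fintype.card Y = p ^ n)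
    (hYj : ∀ y ∈ Y, ∃ x : A, p ^ j • x = y) (w : A) :
    (p : AA) ^ n * F w - ∑ y : Y, F (w + y) ∈ QN p red (n + j) := by
  obtain ⟨c, hc⟩ := hF
  have hcoef := coef_inv (red := red) hA hc hK
  obtain ⟨Z, hZdef⟩ : ∃ Z : AddChar A ℂ → Prop, ∀ ψ, Z ψ ↔ ¬ ∀ y ∈ Y, lamA ψ y = 1 :=
    ⟨fun ψ => ¬ ∀ y ∈ Y, lamA ψ y = 1, fun _ => Iff.rfl⟩
  have hZ : ∀ i : ℕ, i ≡ 1 [MOD p] → ∀ ψ, Z (i • ψ) ↔ Z ψ := by
    intro i hi ψ
    simp only [hZdef]
    rw [not_iff_not]
    have hcop := coprime_card hA hi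
    constructor
    · intro h y hy
      obtain ⟨m, hm⟩ := exists_nsmul_eq_self_of_coprime (x := y) (n := i)
        ((hcop.coprime_dvd_left (addOrderOf_dvd_natCard y)).symm)
      rw [← hm, lamA_nsmul, ← lamA_nsmul_swap, h y hy, one_pow]
    · intro h y hy
      rw [lamA_nsmul', h y hy, one_pow]
  have h1 := RI_orb (red := red) hp2 hA hcoef hjK Z hZ (by
    intro ψ hψ h0
    apply (hZdef ψ).1 hψ
    intro y hy
    obtain ⟨x, rfl⟩ := hYj y hy
    rw [← lamA_nsmul_swap, h0, lamA_zero]) w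
  have h2 : (p : AA) ^ n * F w - ∑ y : Y, F (w + y) =
      (p : AA) ^ n * ∑ ψ, (if Z ψ then c ψ * lamA ψ w else 0) := by
    have h3 : ∑ y : Y, F (w + y) = ∑ ψ, c ψ * lamA ψ w *
        (if ∀ y ∈ Y, lamA ψ y = 1 then (Fintype.card Y : AA) else 0) := by
      have h4 : ∀ y : Y, F (w + y) = ∑ ψ, c ψ * lamA ψ w * lamA ψ (y : A) := by
        intro y
        rw [hc]
        exact Finset.sum_congr rfl fun ψ _ => by rw [lamA_map_add]; ring
      rw [Finset.sum_congr rfl fun y _ => h4 y, Finset.sum_comm]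
      refine Finset.sum_congr rfl fun ψ _ => ?_
      rw [← Finset.mul_sum, sum_lamA_subgroup]
    rw [h3, hc, Finset.mul_sum, Finset.mul_sum, ← Finset.sum_sub_distrib]
    refine Finset.sum_congr rfl fun ψ _ => ?_
    by_cases h : ∀ y ∈ Y, lamA ψ y = 1
    · rw [if_pos h, if_neg (fun h' : Z ψ => (hZdef ψ).1 h' h), hY]
      push_cast
      ring
    · rw [if_neg h, if_pos ((hZdef ψ).2 h)]
      ring
  rw [h2]
  exact mul_mem_QN (mem_QN_of_dvd dvd_rfl) h1

end Mean

end P179H452
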