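import Vale.Agent.P179.R2.H452.MDef
import Vale.Agent.P179.R2.H452.Orb
import Vale.Agent.P179.H143.Adams

/-!
# Extension of the generalised decomposition numbers of a rational character

For a character `χ` with `χ (g ^ m) = χ g`, `m` a generator of `1 + p ℤ`, the generalised
decomposition numbers at the regular elements are, up to a constant unit and modulo a high power of
`p`, the values of an integral combination `f` of the characters of `D` with `f (b ^ i) = f b` for
`i` congruent to `1` modulo `p`.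
-/

namespace P179H452

open Finset P179P P179C P179Y Subgroup P179H524 P179I

open P179X (pp SameSec)

open scoped Classical IsMulCommutative

universe v

set_option linter.unusedSectionVars false

section Abs

variable {k : Type*} [Field k] {p : ℕ} [hp : Fact p.Prime] [CharP k p] {red : AA →+* k}
  {A : Type*} [AddCommGroup A] [Fintype A] {X : Type*} [Fintype X]

theorem sub_mem_pow {R : Type*} [CommRing R] {I : Ideal R} {x y : R} (h : x - y ∈ I) (n : ℕ) :
    x ^ n - y ^ n ∈ I := by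
  rw [← Ideal.Quotient.eq] at h ⊢
  rw [map_pow, map_pow, h]

theorem ext_abs (hp2 : p ≠ 2) {N : ℕ} (W : A → Prop)
    (F Aχ : X → A → AA) (C : A → AA) (mm : X → AA) (hF : ∀ χ, RI (F χ))
    (h1 : ∀ χ, ∀ b, W b → F χ b - C b * Aχ χ b ∈ QN p red N)
    (h2 : ∀ b, W b → (∑ χ, F χ b * mm χ) - C b ^ 2 ∈ QN p red N)
    (γ : k) (hγ : γ ≠ 0) (h3 : ∀ b, W b → red (C b) = γ)
    (hP : ∀ i : ℕ, i ≡ 1 [MOD p] → ∀ b, (∑ χ, F χ (i • b) * mm χ) - (∑ χ, F χ b * mm χ) ∈
      QN p red N) (hne : ∃ b₀, W b₀) (χ : X)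
    (hχ : ∀ i : ℕ, i ≡ 1 [MOD p] → ∀ b, F χ (i • b) - F χ b ∈ QN p red N) :
    ∃ (f : A → AA) (κ : AA), RI f ∧ red κ ≠ 0 ∧ (∀ b, W b → f b - κ * Aχ χ b ∈ QN p red N) ∧
      ∀ i : ℕ, i ≡ 1 [MOD p] → ∀ b, f (i • b) - f b ∈ QN p red N := by
  obtain ⟨b₀, hb₀⟩ := hne
  -- the exponent
  have hM : ∀ b : A, ∃ M : ℕ, W b → ∀ m ≥ M, C b ^ p ^ m - C b₀ ^ p ^ m ∈ QN p red N := by
    intro b
    by_cases hb : W b
    · obtain ⟨M, hM⟩ := exists_pow_sub_mem (p := p) (red := red) (C b) (C b₀)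
        (by rw [h3 b hb, h3 b₀ hb₀]) N
      exact ⟨M, fun _ => hM⟩
    · exact ⟨0, fun h => absurd h hb⟩
  choose M hM using hM
  set M₀ := ∑ b, M b with hM₀
  set κ := C b₀ ^ p ^ M₀ with hκ
  have hκ' : ∀ b, W b → C b ^ p ^ M₀ - κ ∈ QN p red N := fun b hb =>
    hM b hb M₀ (Finset.single_le_sum (fun _ _ => Nat.zero_le _) (mem_univ b))
  have hodd : Odd (p ^ M₀) := (hp.out.odd_of_ne_two hp2).pow
  obtain ⟨h, hh⟩ := hodd
  set P : A → AA := fun b => ∑ χ, F χ b * mm χ with hPdef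
  have hPRI : RI P := by
    refine RI.sum univ fun χ _ => ?_
    exact (hF χ).mul (RI.const _)
  set f : A → AA := fun b => F χ b * P b ^ h with hf
  have hfRI : RI f := (hF χ).mul (hPRI.pow h)
  refine ⟨f, κ, hfRI, ?_, ?_, ?_⟩
  · rw [hκ, map_pow, h3 b₀ hb₀]
    exact pow_ne_zero _ hγ
  · intro b hb
    rw [← Ideal.Quotient.eq]
    have e1 := Ideal.Quotient.eq.2 (h1 χ b hb)
    have e2 := Ideal.Quotient.eq.2 (h2 b hb)
    have e3 := Ideal.Quotient.eq.2 (hκ' b hb)
    have e4 : Ideal.Quotient.mk (QN p red N) (P b) = Ideal.Quotient.mk (QN p red N) (C b ^ 2) := e2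
    simp only [hf, map_mul, map_pow] at e1 e3 e4 ⊢
    rw [e1, e4, ← e3, hh]
    ring
  · intro i hi b
    have e1 := hχ i hi b
    have e2 := sub_mem_pow (hP i hi b) h
    have e3 : f (i • b) - f b = (F χ (i • b) - F χ b) * P (i • b) ^ h +
        F χ b * (P (i • b) ^ h - P b ^ h) := by
      simp only [hf]
      ring
    rw [e3]
    exact add_mem (Ideal.mul_mem_right _ _ e1) (Ideal.mul_mem_left _ _ e2)

end Abs

section Twist

variable {G : Type} [Group G] [Fintype G]

/-- the character `g ↦ χ (g ^ m')` -/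
noncomputable def tw {m' : ℕ} (hm' : m'.Coprime (Nat.card G)) (χ : Irr G) : Irr G :=
  ⟨fun g => χ.1 (g ^ m'), P179C.irr_pow χ.2 hm'⟩

theorem tw_bijective {m' : ℕ} (hm' : m'.Coprime (Nat.card G)) :
    Function.Bijective (tw hm' : Irr G → Irr G) := by
  rw [← Finite.injective_iff_bijective]
  intro χ ψ h
  apply Subtype.ext
  funext x
  obtain ⟨g, rfl⟩ := (powCoprime (G := G) (Nat.Coprime.symm hm')).surjective x
  exact congrFun (congrArg (fun χ : Irr G => χ.1) h) g

variable {p : ℕ} [hp : Fact p.Prime] {k : Type v} [Field k] [CharP k p] {red : AA →+* k}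
  {D : Subgroup G}

/-- **the values of the long words at a power** -/
theorem Psi_tw (hD : IsPGroup p D) {m' : ℕ} (hm' : m'.Coprime (Nat.card G))
    (hm1 : m' ≡ 1 [MOD ordCompl[p] (Nat.card G)]) {i : ℕ} (hi : i ≡ 1 [MOD p])
    (hmi : m' ≡ i [MOD ordProj[p] (Nat.card G)])
    (j : G → AA) (hj : ∀ d ∈ D, ∀ g, j (d * g * d⁻¹) = j g)
    (χ : Irr G) {d : G} (hd : d ∈ D) (N M : ℕ) (hM : N + (Nat.card G).factorization p ≤ M) :
    Psi j (p ^ M) χ (d ^ i) - Psi j (p ^ M) (tw hm' χ) d ∈ QN p red N := by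
  set H : Subgroup G := centralizer {d} with hH
  have hHm : ∀ x, x ∈ H ↔ x * d = d * x := mem_cz d
  have hcop := coprime_orderOf hD hd (coprime_of_modEq_one hi)
  have hHi : ∀ x, x ∈ H ↔ x * d ^ i = d ^ i * x := by
    intro x
    rw [hH, ← cz_pow hcop]
    exact mem_cz _ x
  obtain ⟨a, ha⟩ := hD ⟨d, hd⟩
  have hda : d ^ p ^ a = 1 := by simpa using congrArg Subtype.val ha
  have hdia : (d ^ i) ^ p ^ a = 1 := by
    rw [← pow_mul, mul_comm, pow_mul, hda, one_pow]
  have hPsi : ∀ (χ : Irr G) (u : G), Psi j (p ^ M) χ u =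
      ∑ w : Fin (p ^ M) → G, (∏ i, j (w i)) * chA χ (wprod w * u) := by
    intro χ u
    unfold Psi
    refine Finset.sum_congr rfl fun w _ => ?_
    congr 1
    exact Subtype.ext (χ.mul_comm _ _)
  have h1 := cut_mem p red d hda j (chA (tw hm' χ)) (hj d hd) (chA_isCF (tw hm' χ)) H hHm M
  have h2 := cut_mem p red (d ^ i) hdia j (chA χ) (hj _ (pow_mem hd i)) (chA_isCF χ) H hHi M
  rw [← hPsi] at h1 h2
  set s : ℕ := (Nat.card G).factorization p with hs
  obtain ⟨M', rfl⟩ : ∃ M', M = M' + s := ⟨M - s, by omega⟩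
  have h3 := lemW_core p (fun h : H => j h)
    (fun h : H => chA χ (h * d ^ i) - chA (tw hm' χ) (h * d)) (1 : H) 0 (by simp) (by simp) (by
      intro g x
      have e1 : ∀ (χ : Irr G) (u : G), (∀ x ∈ H, x * u = u * x) →
          chA χ (((g * x * g⁻¹ : H) : G) * u) = chA χ ((x : G) * u) := by
        intro χ u hu
        have e2 : ((g * x * g⁻¹ : H) : G) * u = (g : G) * ((x : G) * u) * (g : G)⁻¹ := by
          have e3 := hu _ (inv_mem g.2)
          push_cast
          calc (g : G) * x * (g : G)⁻¹ * u = (g : G) * x * ((g : G)⁻¹ * u) := by group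
            _ = (g : G) * x * (u * (g : G)⁻¹) := by rw [e3]
            _ = _ := by group
        rw [e2]
        exact chA_isCF χ (g : G) ((x : G) * u)
      beta_reduce
      rw [e1 _ d (fun x hx => (hHm x).1 hx), e1 _ (d ^ i) (fun x hx => (hHi x).1 hx)]) s
    (fun x => by
      have e1 : (Nat.card H).factorization p ≤ s := by
        rw [hs]
        exact (Nat.factorization_le_iff_dvd Nat.card_pos.ne' Nat.card_pos.ne').2
          (Subgroup.card_subgroup_dvd_card H) p
      obtain ⟨t, ht⟩ : ∃ t, s = (Nat.card H).factorization p + t := ⟨_, (Nat.add_sub_of_le e1).symm⟩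
      intro h4
      rw [ht, pow_add, pow_mul] at h4
      exact not_dvd_orderOf_pow p x (h4.trans (orderOf_pow_dvd _)))
    (by
      intro β _ hβ
      rw [mul_one, sub_eq_zero]
      apply Subtype.ext
      have hβ' : ¬ p ∣ orderOf (β : G) := by rwa [Subgroup.orderOf_coe]
      change χ.1 ((β : G) * d ^ i) = χ.1 (((β : G) * d) ^ m')
      have e1 : (β : G) ^ m' = β := pow_eq_of_modEq_of_dvd hm1 hβ'
      have e2 : d ^ m' = d ^ i := by
        rw [pow_eq_pow_iff_modEq]
        exact hmi.of_dvd (orderOf_dvd_of_pow_eq_one (pow_ordProj_eq_one hD hd))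
      have e3 : Commute (β : G) d := (hHm _).1 β.2
      rw [e3.mul_pow, e1, e2]) M'
  have h4 : TT (fun h : H => j h) (p ^ (M' + s)) (fun h : H => chA χ (h * d ^ i)) -
      TT (fun h : H => j h) (p ^ (M' + s)) (fun h : H => chA (tw hm' χ) (h * d)) ∈
        QN p red (M' + 1) := by
    refine mem_QN_of_dvd ?_
    have e : TT (fun h : H => j h) (p ^ (M' + s)) (fun h : H => chA χ (h * d ^ i)) -
        TT (fun h : H => j h) (p ^ (M' + s)) (fun h : H => chA (tw hm' χ) (h * d)) =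
        ∑ w : Fin (p ^ (M' + s)) → H, (∏ j' , j (w j')) *
          (chA χ (((wprod w * 1 : H) : G) * d ^ i) -
            chA (tw hm' χ) (((wprod w * 1 : H) : G) * d)) := by
      unfold TT
      rw [← Finset.sum_sub_distrib]
      exact Finset.sum_congr rfl fun w _ => by rw [mul_one]; ring
    rw [e]
    exact h3
  have h5 : Psi j (p ^ (M' + s)) χ (d ^ i) - Psi j (p ^ (M' + s)) (tw hm' χ) d =
      (Psi j (p ^ (M' + s)) χ (d ^ i) -
        TT (fun h : H => j h) (p ^ (M' + s)) (fun h : H => chA χ (h * d ^ i))) -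
      (Psi j (p ^ (M' + s)) (tw hm' χ) d -
        TT (fun h : H => j h) (p ^ (M' + s)) (fun h : H => chA (tw hm' χ) (h * d))) +
      (TT (fun h : H => j h) (p ^ (M' + s)) (fun h : H => chA χ (h * d ^ i)) -
        TT (fun h : H => j h) (p ^ (M' + s)) (fun h : H => chA (tw hm' χ) (h * d))) := by ring
  rw [h5]
  refine add_mem (sub_mem ?_ ?_) ?_
  · exact QN_mono (by omega) h2
  · exact QN_mono (by omega) h1
  · exact QN_mono (by omega) h4

theorem AvT_tw {T : Subgroup G} (hT : T ≤ normalizer (D : Set G)) (hD : IsPGroup p D) {m' : ℕ}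
    (hm' : m'.Coprime (Nat.card G))
    (hm1 : m' ≡ 1 [MOD ordCompl[p] (Nat.card G)]) {i : ℕ} (hi : i ≡ 1 [MOD p])
    (hmi : m' ≡ i [MOD ordProj[p] (Nat.card G)])
    (j : G → AA) (hj : ∀ d ∈ D, ∀ g, j (d * g * d⁻¹) = j g)
    (χ : Irr G) {d : G} (hd : d ∈ D) (N M : ℕ) (hM : N + (Nat.card G).factorization p ≤ M) :
    AvT D T (Psi j (p ^ M) χ) (d ^ i) - AvT D T (Psi j (p ^ M) (tw hm' χ)) d ∈ QN p red N := by
  unfold AvT
  rw [← Finset.sum_sub_distrib]
  refine Ideal.sum_mem _ fun c _ => ?_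
  by_cases hc : c.out ∈ T
  · rw [if_pos hc, if_pos hc]
    have e : c.out⁻¹ * d ^ i * c.out = (c.out⁻¹ * d * c.out) ^ i := by
      have := (conj_pow (i := i) (a := c.out⁻¹) (b := d)).symm
      rw [inv_inv] at this
      exact this
    rw [e]
    refine Psi_tw hD hm' hm1 hi hmi j hj χ ?_ N M hM
    have h1 := (mem_normalizer_iff.1 (inv_mem (hT hc)) d).1 hd
    rwa [inv_inv] at h1
  · rw [if_neg hc, if_neg hc, sub_self]
    exact zero_mem _

end Twist

end P179H452
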