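import Vale.Agent.P179.R2.H452.Vv

/-!
# Sums over cosets: definitions
-/

namespace P179H452

open Finset P179P P179C P179Y Subgroup P179H524 P179I

open scoped Classical IsMulCommutative

universe v

/-- the sum of the generalised decomposition numbers over the coset `w Y` -/
noncomputable def sY (p : ℕ) [Fact p.Prime] {G : Type} [Group G] [Fintype G] (D : Subgroup G)
    (Φ : ∀ H : Subgroup G, Irr H) (ε : Subgroup G → ℤ) (Y : Subgroup D) (w : D) (χ : Irr G) : AA :=
  ∑ y : Y, Ad p D Φ ε ((w * (y : D) : D) : G) χ

end P179H452
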