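import Vale.Agent.P179.R2.H452.Ext2
import Vale.Agent.P179.R2.H452.Orb
import Vale.Agent.P179.R2.H452.MDef

/-!
# The sums over regular cosets do not vanish
-/

namespace P179H452

open Finset P179P P179C P179Y Subgroup P179H524 P179I

open P179X (pp SameSec)

open scoped Classical IsMulCommutative

universe v

set_option linter.unusedSectionVars false

section

variable {p : ℕ} [hp : Fact p.Prime] {k : Type v} [Field k] [CharP k p] {red : AA →+* k}
  {G : Type} [Group G] [Fintype G] {D : Subgroup G} {l : (G → k) → k}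
  {Φ : ∀ H : Subgroup G, Irr H} {aH bH : Subgroup G → ℕ} {ε : Subgroup G → ℤ} {κ₀ : k}

omit [CharP k p] in
theorem mean_abs {A : Type} [AddCommGroup A] [Fintype A] (hp2 : p ≠ 2) {a : ℕ}
    (hA : Fintype.card A = p ^ a) {F g : A → AA} (hF : RI F) {j n : ℕ}
    (hK : ∀ i : ℕ, i ≡ 1 [MOD p] → ∀ b : A, F (i • b) - F b ∈ QN p red (j + n + a + a))
    (Y : AddSubgroup A) (hY : Nat.card Y = p ^ n)
    (hYj : ∀ y ∈ Y, ∃ x : A, p ^ j • x = y) (w : A) {κ : AA} (hκ : red κ ≠ 0)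
    (hg : ∀ y ∈ Y, F (w + y) - κ * g (w + y) ∈ QN p red (j + n + a + a))
    (h0 : ∑ y : Y, g (w + y) = 0) : g w ∈ QN p red j := by
  have hY' : Fintype.card Y = p ^ n := by
    rw [← hY, Nat.card_eq_fintype_card]
  have hmean := RI_mean (red := red) hp2 hA hF (K := j + n) (j := j) hK (by omega) Y hY' hYj w
  have hsum : ∑ y : Y, F (w + y) ∈ QN p red (n + j) := by
    have h1 : ∑ y : Y, F (w + y) =
        ∑ y : Y, (F (w + y) - κ * g (w + y)) + κ * ∑ y : Y, g (w + y) := by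
      rw [Finset.sum_sub_distrib, Finset.mul_sum]
      ring
    rw [h1, h0, mul_zero, add_zero]
    refine Ideal.sum_mem _ fun y _ => ?_
    exact QN_mono (by omega) (hg _ y.2)
  have h1 : (p : AA) ^ n * F w ∈ QN p red (j + n) := by
    have h2 := add_mem hmean hsum
    rw [sub_add_cancel] at h2
    rwa [add_comm j n]
  have h2 : F w ∈ QN p red j := mem_QN_of_mul h1
  have h3 := hg 0 Y.zero_mem
  rw [add_zero] at h3
  have h4 : κ * g w ∈ QN p red j := by
    have h5 := sub_mem h2 (QN_mono (show j ≤ j + n + a + a by omega) h3)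
    rwa [sub_sub_cancel] at h5
  exact mem_of_unit_mul hκ h4

include hp in
theorem sY_ne_zero_aux [IsAlgClosed k] [IsMulCommutative D] (h : LocR p red D l Φ aH bH ε κ₀)
    (hl : BP p D l) (hD : IsPGroup p D) (hab : D ≤ centralizer (D : Set G)) (hp2 : p ≠ 2)
    (he : ((centralizer (D : Set G)).relIndex (stabT D l) : k) ≠ 0) {m : ℕ}
    (hmc : m.Coprime (Nat.card G)) (hm1 : m ≡ 1 [MOD ordCompl[p] (Nat.card G)])
    (hgen : ∀ i : ℕ, i ≡ 1 [MOD p] → ∃ t : ℕ, m ^ t ≡ i [MOD ordProj[p] (Nat.card G)])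
    {χ : Irr G} (hχm : ∀ g, χ.1 (g ^ m) = χ.1 g) (Y : Subgroup D) {n j : ℕ}
    (hY : Nat.card Y = p ^ n) (hYj : ∀ y ∈ Y, ∃ d : D, d ^ p ^ j = y) (w : D)
    (hW : ∀ y ∈ Y, RegT D l ((w * y : D) : G) ∧ ((w * y : D) : G) ≠ 1)
    (g : D → AA) (hg : ∀ d, g d = Ad p D Φ ε (d : G) χ)
    (hs : ∑ y : Y, g (w * y) = 0) : g w ∈ QN p red j := by
  obtain ⟨a, ha⟩ := (IsPGroup.iff_card (p := p)).1 hD
  have hw : RegT D l (w : G) ∧ (w : G) ≠ 1 := by
    have := hW 1 Y.one_mem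
    rwa [mul_one] at this
  have hcardA : Fintype.card (Additive D) = p ^ a := by
    rw [← ha, Nat.card_eq_fintype_card, Fintype.card_congr (Additive.toMul (α := D))]
  obtain ⟨f, κ, hf, hκ, hfe, hfi⟩ := exists_ext h hl hD hab hp2 he ha hmc hm1 hgen hχm
    (j + n + a + a) ⟨Additive.ofMul w, hw⟩
  let Y' : AddSubgroup (Additive D) := Subgroup.toAddSubgroup Y
  let e : Y' ≃ Y := ⟨fun y => ⟨(y : Additive D).toMul, y.2⟩, fun y =>
      ⟨Additive.ofMul (y : D), y.2⟩, fun _ => rfl, fun _ => rfl⟩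
  refine mean_abs (red := red) hp2 hcardA (F := f) (g := fun b => g b.toMul) hf hfi Y'
    ((Nat.card_congr e).trans hY) (fun y hy => ?_) (Additive.ofMul w) hκ (fun y hy => ?_) ?_
  · obtain ⟨d, hd⟩ := hYj y.toMul hy
    exact ⟨Additive.ofMul d, by rw [← ofMul_pow, hd]; rfl⟩
  · have := hfe (Additive.ofMul w + y) (hW _ hy)
    rwa [← hg] at this
  · rw [← hs]
    exact Fintype.sum_equiv e _ _ fun y => rfl

include hp in
/-- **(c)** the sum of the generalised decomposition numbers of a rational character over a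
regular coset of a group of `p ^ j`-th powers does not vanish -/
theorem sY_ne_zero [IsAlgClosed k] (h : LocR p red D l Φ aH bH ε κ₀)
    (hl : BP p D l) (hD : IsPGroup p D) (hab : D ≤ centralizer (D : Set G)) (hp2 : p ≠ 2)
    (he : ((centralizer (D : Set G)).relIndex (stabT D l) : k) ≠ 0) {m : ℕ}
    (hmc : m.Coprime (Nat.card G)) (hm1 : m ≡ 1 [MOD ordCompl[p] (Nat.card G)])
    (hgen : ∀ i : ℕ, i ≡ 1 [MOD p] → ∃ t : ℕ, m ^ t ≡ i [MOD ordProj[p] (Nat.card G)])
    {χ : Irr G} (hχ : InL red l χ.1) (hχm : ∀ g, χ.1 (g ^ m) = χ.1 g) (Y : Subgroup D) {n j : ℕ}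
    (hY : Nat.card Y = p ^ n) (hYj : ∀ y ∈ Y, ∃ d : D, d ^ p ^ j = y) (w : D)
    (hW : ∀ y ∈ Y, RegT D l ((w * y : D) : G) ∧ ((w * y : D) : G) ≠ 1)
    (hj : (centralizer (D : Set G)).relIndex (stabT D l) * Nat.card D <
      p ^ (2 * j) * Nat.card (Wr D l)) :
    sY p D Φ ε Y w χ ≠ 0 := by
  have hcomm : ∀ a b : D, a * b = b * a := fun a b =>
    Subtype.ext ((mem_centralizer_iff.1 (hab a.2) b b.2).symm)
  have : IsMulCommutative D := ⟨⟨hcomm⟩⟩
  intro hs
  have hw : RegT D l (w : G) ∧ (w : G) ≠ 1 := by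
    have := hW 1 Y.one_mem
    rwa [mul_one] at this
  have h5 : Ad p D Φ ε (w : G) χ ∈ QN p red j :=
    sY_ne_zero_aux h hl hD hab hp2 he hmc hm1 hgen hχm Y hY hYj w hW
      (fun d => Ad p D Φ ε (d : G) χ) (fun _ => rfl) hs
  refine notMem_QN h hl hD hab hp2 he hj hw.1 hw.2 χ hχ ?_
  have h6 : dnA p (centralizer {(w : G)}) (Nat.card D) (Φ (centralizer {(w : G)})).1 (w : G) χ.1 =
      (ε (centralizer {(w : G)}) : AA) * Ad p D Φ ε (w : G) χ := by
    unfold Ad
    have h4 := congrArg (fun n : ℤ => (n : AA)) (h.sq hw.1 hw.2)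
    push_cast at h4
    linear_combination (-(dnA p (centralizer {(w : G)}) (Nat.card D)
      (Φ (centralizer {(w : G)})).1 (w : G) χ.1)) * h4
  rw [h6]
  exact Ideal.mul_mem_left _ _ h5

end

end P179H452
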