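import Vale.Agent.P179.R2.H443.F5

/-!
# Idempotents which are orthogonal to their conjugates outside a subgroup
-/

namespace P179H452

open Subgroup Finset P179H524 P179C P179A P179P P179Y P179H872 P179H12

open scoped Classical

universe u

section Orth

variable {k : Type u} [Field k] {X : Type} [Group X] [Fintype X]

theorem fg_mkF_zero : mkF (0 : X → k) = 0 := by
  ext x
  rw [coeff_mkF]
  rfl

theorem fg_mkF_cj (g : X) (e : X → k) : mkF (cj g e) = conjBy g (mkF e) := by
  ext x
  rw [coeff_mkF]
  unfold conjBy cj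
  rw [MonoidAlgebra.coeff_mul_single_apply, MonoidAlgebra.coeff_single_mul_apply, coeff_mkF]
  simp [mul_assoc]

theorem fg_trG_eq (M : Subgroup X) (g : X → k) : trG M g = ∑ c : X ⧸ M, cj c.out g := by
  funext x
  rw [Finset.sum_apply]
  rfl

theorem fg_out {M : Subgroup X} {c d : X ⧸ M} (hcd : c ≠ d) : c.out⁻¹ * d.out ∉ M := by
  intro h
  apply hcd
  rw [← QuotientGroup.out_eq' c, ← QuotientGroup.out_eq' d]
  exact QuotientGroup.eq.2 h

/-- the sum of the conjugates is idempotent -/
theorem fg_idem {M : Subgroup X} {g : X → k} (hgg : conv g g = g)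
    (horth : ∀ n, n ∉ M → conv g (cj n g) = 0) :
    mkF (trG M g) * mkF (trG M g) = mkF (trG M g) := by
  have horth' : ∀ c d : X, c⁻¹ * d ∉ M → conv (cj c g) (cj d g) = 0 := by
    intro c d hcd
    have h1 : cj d g = cj c (cj (c⁻¹ * d) g) := by
      rw [← cj_mul]
      congr 1
      group
    rw [h1, ← cj_conv, horth _ hcd]
    rfl
  rw [fg_trG_eq, mkF_sum, Finset.sum_mul_sum]
  refine Finset.sum_congr rfl fun c _ => ?_
  rw [Finset.sum_eq_single c]
  · rw [← mkF_conv, ← cj_conv, hgg]
  · intro d _ hd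
    rw [← mkF_conv, horth' _ _ (fg_out (Ne.symm hd)), fg_mkF_zero]
  · intro h
    exact absurd (Finset.mem_univ _) h

/-- the sum of the conjugates contains `g` -/
theorem fg_mul {M : Subgroup X} {g : X → k} (hinv : ∀ t ∈ M, ∀ x, g (t * x * t⁻¹) = g x)
    (hgg : conv g g = g) (horth : ∀ n, n ∉ M → conv g (cj n g) = 0) :
    mkF g * mkF (trG M g) = mkF g := by
  rw [fg_trG_eq, mkF_sum, Finset.mul_sum, Finset.sum_eq_single ((1 : X) : X ⧸ M)]
  · have h1 : cj ((1 : X) : X ⧸ M).out g = g := by
      obtain ⟨t, ht⟩ := QuotientGroup.mk_out_eq_mul M 1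
      rw [ht, one_mul]
      funext x
      unfold cj
      have h2 := hinv (t : X)⁻¹ (inv_mem t.2) x
      rwa [inv_inv] at h2
    rw [h1, ← mkF_conv, hgg]
  · intro c _ hc
    rw [← mkF_conv, horth, fg_mkF_zero]
    intro h
    apply hc
    rw [← QuotientGroup.out_eq' c]
    exact (QuotientGroup.eq.2 (by simpa using inv_mem h))
  · intro h
    exact absurd (Finset.mem_univ _) h

/-- a block containing `g` is the sum of the conjugates of `g` -/
theorem block_eq_trG {M : Subgroup X} {g : X → k}
    (hinv : ∀ t ∈ M, ∀ x, g (t * x * t⁻¹) = g x)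
    (hgg : conv g g = g) (horth : ∀ n, n ∉ M → conv g (cj n g) = 0) (hg0 : mkF g ≠ 0)
    {b : MonoidAlgebra k X} (hb : IsBlock b) (hbg : mkF g * b = mkF g) :
    mkF (trG M g) = b := by
  have hcf : IsCF (trG M g) := isCF_trG M hinv
  have h1 : mkF (trG M g) * b = mkF (trG M g) := by
    rw [fg_trG_eq, mkF_sum, Finset.sum_mul]
    refine Finset.sum_congr rfl fun c _ => ?_
    rw [fg_mkF_cj]
    have h2 : conjBy c.out (mkF g) * b = conjBy c.out (mkF g * b) := by
      rw [conjBy_mul, conjBy_central _ hb.1]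
    rw [h2, hbg]
  rcases hb.2.2.2 _ (mkF_mem hcf) (fg_idem hgg horth) h1 with h | h
  · exfalso
    apply hg0
    rw [← fg_mul hinv hgg horth, h, mul_zero]
  · exact h

/-- the simple modules of a block containing `g` -/
theorem numSimple_orth (p : ℕ) [hp : Fact p.Prime] [IsAlgClosed k] [CharP k p] {M : Subgroup X}
    {g : X → k} (hinv : ∀ t ∈ M, ∀ x, g (t * x * t⁻¹) = g x) (hsupp : ∀ x, x ∉ M → g x = 0)
    (hgg : conv g g = g) (horth : ∀ n, n ∉ M → conv g (cj n g) = 0) (hg0 : mkF g ≠ 0)
    {b : MonoidAlgebra k X} (hb : IsBlock b) (hbg : mkF g * b = mkF g) :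
    numSimpleIn b = numSimpleIn (mkF fun t : M => g t) := by
  have hcov := block_eq_trG hinv hgg horth hg0 hb hbg
  set cT : MonoidAlgebra k M := mkF fun t : M => g t with hcT
  have hcTc : cT ∈ Subalgebra.center k (MonoidAlgebra k M) := mkF_mem fun t x => hinv t t.2 x
  have hincT : inc M cT = mkF g := P179H12.inc_mkF M g hsupp
  have hcT2 : cT * cT = cT := by
    apply inc_injective M
    rw [map_mul, hincT, ← mkF_conv, hgg]
  refine fong_reynolds p hcTc hcT2 hb.1 hb.2.1 (fun n hn => ?_) ?_
  · rw [hincT]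
    have h1 : mkF g * MonoidAlgebra.single n 1 * mkF g =
        mkF g * conjBy n (mkF g) * MonoidAlgebra.single n 1 := by
      unfold conjBy
      simp only [mul_assoc]
      rw [MonoidAlgebra.single_mul_single, inv_mul_cancel, one_mul, ← MonoidAlgebra.one_def,
        mul_one]
    rw [h1, ← fg_mkF_cj, ← mkF_conv, horth n hn, fg_mkF_zero, zero_mul]
  · rw [finsum_eq_sum_of_fintype, hincT, ← hcov, fg_trG_eq, mkF_sum]
    exact Finset.sum_congr rfl fun c _ => fg_mkF_cj _ _

/-- `e z e` lies in the group algebra of `M` -/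
theorem fg_supp {M : Subgroup X} {e : X → k} (hsupp : ∀ x, x ∉ M → e x = 0)
    (horth : ∀ n, n ∉ M → conv e (cj n e) = 0) (z : MonoidAlgebra k X) {y : X} (hy : y ∉ M) :
    (mkF e * z * mkF e).coeff y = 0 := by
  let L : MonoidAlgebra k X →ₗ[k] k :=
    { toFun := fun w => (mkF e * w * mkF e).coeff y
      map_add' := fun a b => by
        rw [mul_add, add_mul]
        rfl
      map_smul' := fun r a => by
        rw [mul_smul_comm, smul_mul_assoc]
        rfl }
  change L z = 0
  rw [lmap_sum L z]
  refine Finset.sum_eq_zero fun n _ => ?_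
  have h0 : L (MonoidAlgebra.single n 1) = 0 := by
    change (mkF e * MonoidAlgebra.single n 1 * mkF e).coeff y = 0
    by_cases hn : n ∈ M
    · have h1 : mkF e * MonoidAlgebra.single n 1 * mkF e =
          inc M ((mkF fun t : M => e t) * MonoidAlgebra.single ⟨n, hn⟩ 1 *
            mkF fun t : M => e t) := by
        rw [map_mul, map_mul, P179H12.inc_mkF M e hsupp, inc_single]
      rw [h1]
      have h2 : (mkF fun t : M => e t) * MonoidAlgebra.single (⟨n, hn⟩ : M) (1 : k) *
            (mkF fun t : M => e t) = mkF fun t : M =>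
          ((mkF fun t : M => e t) * MonoidAlgebra.single (⟨n, hn⟩ : M) (1 : k) *
            (mkF fun t : M => e t)).coeff t := (mkF_coeff _).symm
      generalize (mkF fun t : M => e t) * MonoidAlgebra.single (⟨n, hn⟩ : M) (1 : k) *
            (mkF fun t : M => e t) = w at h2 ⊢
      have h3 : inc M w = mkF (bF M w) := by
        have h4 := P179H12.inc_mkF M (bF M w) fun x hx => by
          unfold bF
          exact ext_of_not_mem M _ hx
        rw [mkF_bF] at h4
        exact h4
      rw [h3, coeff_mkF]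
      unfold bF
      exact ext_of_not_mem M _ hy
    · have h1 : mkF e * MonoidAlgebra.single n 1 * mkF e =
          mkF e * conjBy n (mkF e) * MonoidAlgebra.single n 1 := by
        unfold conjBy
        simp only [mul_assoc]
        rw [MonoidAlgebra.single_mul_single, inv_mul_cancel, one_mul, ← MonoidAlgebra.one_def,
          mul_one]
      rw [h1, ← fg_mkF_cj, ← mkF_conv, horth n hn, fg_mkF_zero, zero_mul]
      rfl
  rw [h0, mul_zero]

end Orth

end P179H452
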