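import Vale.Agent.P179.R2.H452.Fg1
import Vale.Agent.P179.R2.H872.Cos9
import Vale.Agent.P179.R2.H967.Sur1

/-!
# The defect groups in the Fong-Reynolds correspondence
-/

namespace P179H452

open Subgroup Finset P179H524 P179C P179A P179P P179Y P179H872 P179H12

open scoped Classical

universe u

section Tr

variable {k : Type u} [Field k] {G : Type} [Group G] [Fintype G] {H : Subgroup G}

/-- restriction of a product with a function supported in `H` -/
theorem fg_restr (z : G → k) {f : G → k} (hf : ∀ x, x ∉ H → f x = 0) :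
    (fun h : H => conv z f h) = conv (fun h : H => z h) (fun h : H => f h) := by
  funext h
  unfold conv
  refine (sum_sub H _ fun x hx => ?_).trans (Finset.sum_congr rfl fun x _ => rfl)
  rw [hf, mul_zero]
  intro h1
  apply hx
  have h2 := mul_mem h.2 (inv_mem h1)
  have e1 : (h : G) * (x⁻¹ * h)⁻¹ = x := by group
  rwa [e1] at h2

/-- transitivity of the relative trace -/
theorem isRelTrace_trG {D : Subgroup G} (hDH : D ≤ H) {c : MonoidAlgebra k H}
    (hc : IsRelTrace c (D.subgroupOf H)) : IsRelTrace (mkF (trG H (bF H c))) D := by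
  obtain ⟨a, ha, hca⟩ := hc
  have hA : ∀ d ∈ D, ∀ x, bF H a (d * x * d⁻¹) = bF H a x := by
    intro d hd x
    have hdH := hDH hd
    by_cases hx : x ∈ H
    · have h1 : d * x * d⁻¹ ∈ H := mul_mem (mul_mem hdH hx) (inv_mem hdH)
      unfold bF
      rw [ext_of_mem H _ hx, ext_of_mem H _ h1]
      have h2 := ha ⟨d, hdH⟩⁻¹ (inv_mem (mem_subgroupOf.2 hd))
      have h3 := congrArg (fun w : MonoidAlgebra k H => w.coeff ⟨x, hx⟩) h2
      simp only [H905.coeff_conjBy] at h3
      rw [← h3]
      congr 1
      apply Subtype.ext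
      simp
    · have h1 : d * x * d⁻¹ ∉ H := by
        intro h
        apply hx
        have h2 := mul_mem (mul_mem (inv_mem hdH) h) hdH
        have e1 : d⁻¹ * (d * x * d⁻¹) * d = x := by group
        rwa [e1] at h2
      unfold bF
      rw [ext_of_not_mem H _ hx, ext_of_not_mem H _ h1]
  refine ⟨mkF (bF H a), fun d hd => ?_, ?_⟩
  · rw [← fg_mkF_cj]
    congr 1
    funext x
    unfold cj
    have h2 := hA d⁻¹ (inv_mem hd) x
    rwa [inv_inv] at h2
  · have hf1 := Fintype.ofFinite (G ⧸ D)
    have hf2 := Fintype.ofFinite (H ⧸ D.subgroupOf H)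
    rw [finsum_eq_sum_of_fintype]
    ext x
    rw [coeff_mkF, MonoidAlgebra.coeff_sum, Finsupp.finsetSum_apply]
    have h1 : ∀ s : G ⧸ D, (conjBy s.out (mkF (bF H a))).coeff x =
        bF H a (s.out⁻¹ * x * s.out) := by
      intro s
      rw [H905.coeff_conjBy, coeff_mkF]
    simp only [h1]
    have h2 : ∑ s : G ⧸ D, bF H a (s.out⁻¹ * x * s.out) =
        ∑ q : (G ⧸ H) × (H ⧸ D.subgroupOf H),
          bF H a ((((quotientEquivProdOfLE hDH).symm q).out)⁻¹ * x *
            ((quotientEquivProdOfLE hDH).symm q).out) :=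
      (Equiv.sum_comp (quotientEquivProdOfLE hDH).symm
        fun s : G ⧸ D => bF H a (s.out⁻¹ * x * s.out)).symm
    rw [h2, Fintype.sum_prod_type]
    unfold trG
    refine Finset.sum_congr rfl fun s _ => ?_
    have h3 : ∀ t : H ⧸ D.subgroupOf H,
        bF H a ((((quotientEquivProdOfLE hDH).symm (s, t)).out)⁻¹ * x *
            ((quotientEquivProdOfLE hDH).symm (s, t)).out) =
        bF H a ((t.out : G)⁻¹ * (s.out⁻¹ * x * s.out) * t.out) := by
      intro t
      have h4 : (quotientEquivProdOfLE hDH).symm (s, t) = ((s.out * (t.out : G) : G) : G ⧸ D) := by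
        conv_lhs => rw [← QuotientGroup.out_eq' t]
        rfl
      rw [h4, apply_out hA]
      congr 1
      group
    rw [Finset.sum_congr rfl fun t _ => h3 t]
    set y : G := s.out⁻¹ * x * s.out with hy
    by_cases hyH : y ∈ H
    · unfold bF
      rw [ext_of_mem H _ hyH, hca, finsum_eq_sum_of_fintype, MonoidAlgebra.coeff_sum,
        Finsupp.finsetSum_apply]
      refine Finset.sum_congr rfl fun t _ => ?_
      rw [H905.coeff_conjBy, ext_of_mem H _ (mul_mem (mul_mem (inv_mem t.out.2) hyH) t.out.2)]
      rfl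
    · unfold bF
      rw [ext_of_not_mem H _ hyH]
      symm
      refine Finset.sum_eq_zero fun t _ => ?_
      rw [ext_of_not_mem H]
      intro h
      apply hyH
      have h5 := mul_mem (mul_mem t.out.2 h) (inv_mem t.out.2)
      have e1 : (t.out : G) * ((t.out : G)⁻¹ * y * t.out) * (t.out : G)⁻¹ = y := by group
      rwa [e1] at h5

end Tr

end P179H452
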