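import Vale.Agent.P179.R2.H452.Fg2
import Vale.Agent.P179.R2.H12.Wat1

/-!
# The Fong-Reynolds correspondence: central characters and defect groups
-/

namespace P179H452

open Subgroup Finset P179H524 P179C P179A P179P P179Y P179H872 P179H12 P179H967

open scoped Classical

universe u

section Fr

variable {p : ℕ} [hp : Fact p.Prime] {k : Type u} [Field k] [IsAlgClosed k] [CharP k p]
  {G : Type} [Group G] [Fintype G] {H : Subgroup G} {c : MonoidAlgebra k H}
  {B : MonoidAlgebra k G}

omit [IsAlgClosed k] in
theorem fg_bF_supp {x : G} (hx : x ∉ H) : bF H c x = 0 := ext_of_not_mem H _ hx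

omit [IsAlgClosed k] [CharP k p] hp in
theorem fg_bF_ne (hc : IsBlock c) : mkF (bF H c) ≠ 0 := by
  intro h
  apply hc.2.2.1
  have h1 := P179H12.inc_mkF H (bF H c) fun x hx => ext_of_not_mem H _ hx
  rw [mkF_bF, h] at h1
  exact inc_injective H (by rw [h1, map_zero])

/-- the functional of a block of `H` on the class functions of `G` -/
theorem fg_centralChar (hc : IsBlock c)
    (horth : ∀ n, n ∉ H → conv (bF H c) (cj n (bF H c)) = 0) (hB : IsBlock B)
    (hcB : mkF (bF H c) * B = mkF (bF H c)) {z : G → k} (hz : IsCF z) :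
    centralChar c (mkF fun h : H => z h) = centralChar B (mkF z) := by
  obtain ⟨μ, hμ, hμz⟩ := exists_hom_of_block hc
  set f : G → k := bF H c with hf
  have hfs : ∀ x, x ∉ H → f x = 0 := fun x hx => ext_of_not_mem H _ hx
  have hff : conv f f = f := conv_bF_self hc
  have hfi : InvOn H f := invOn_bF hc.1
  have hμf : μ (fun h : H => f h) = 1 := by
    rw [hμz _ (isCF_of_invOn hfi), hf, mkF_bF, centralChar_self c hc]
  have hcfz : ∀ w : G → k, IsCF w → IsCF fun h : H => w h := fun w hw t x => hw t x
  -- products of class functions with `f`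
  have hcomm : ∀ w : G → k, IsCF w → conv w f = conv f w := by
    intro w hw
    have h1 : mkF (conv w f) = mkF (conv f w) := by
      rw [mkF_conv, mkF_conv]
      exact (Subalgebra.mem_center_iff.1 (mkF_mem hw) (mkF f)).symm
    funext x
    rw [← coeff_mkF (conv w f), h1, coeff_mkF]
  have hsup : ∀ w : G → k, IsCF w → ∀ x, x ∉ H → conv w f x = 0 := by
    intro w hw x hx
    have h1 : mkF f * mkF w * mkF f = mkF (conv w f) := by
      rw [mul_assoc, ← mkF_conv w f, hcomm w hw, mkF_conv f w, ← mul_assoc, ← mkF_conv f f, hff,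
        ← mkF_conv f w]
    have h2 := fg_supp hfs horth (mkF w) hx
    rwa [h1, coeff_mkF] at h2
  have hres : ∀ w : G → k, IsCF w → μ (fun h : H => w h) = μ fun h : H => conv w f h := by
    intro w hw
    rw [fg_restr w hfs, hμ.mul _ _ (hcfz w hw) (isCF_of_invOn hfi), hμf, mul_one]
  have hci : ∀ w : G → k, IsCF w → IsCF fun h : H => conv w f h := by
    intro w hw
    rw [fg_restr w hfs]
    have h1 := mul_mem (mkF_mem (hcfz w hw)) (mkF_mem (isCF_of_invOn hfi))
    rw [← mkF_conv, P179C.mem_center_iff] at h1
    intro t x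
    have h2 := h1 t x
    simpa only [coeff_mkF] using h2
  have hl : IsHomCF (fun w : G → k => μ fun h : H => w h) :=
    { add := fun a b => hμ.add _ _
      smul := fun r a => hμ.smul _ _
      one := by
        refine Eq.trans ?_ hμ.one
        congr 1
        funext h
        by_cases h1 : h = 1
        · subst h1
          simp
        · have h2 : (h : G) ≠ 1 := fun h' => h1 (Subtype.ext h')
          simp [h1, h2]
      mul := fun a b ha hb => by
        have hab : IsCF (conv a b) := by
          have h1 := mul_mem (mkF_mem ha) (mkF_mem hb)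
          rw [← mkF_conv, P179C.mem_center_iff] at h1
          intro t x
          have h2 := h1 t x
          simpa only [coeff_mkF] using h2
        have h1 : conv (conv a b) f = conv (conv a f) (conv b f) := by
          have h2 : conv (conv a f) (conv b f) = conv a (conv (conv f b) f) := by
            rw [conv_assoc', conv_assoc']
          rw [h2, ← hcomm b hb, conv_assoc' a b f, conv_assoc' b f f, hff]
        change μ _ = μ _ * μ _
        rw [hres _ hab, hres _ ha, hres _ hb, h1, fg_restr (conv a f) (hsup b hb),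
          hμ.mul _ _ (hci a ha) (hci b hb)] }
  obtain ⟨B', hB', hlB'⟩ := homBlockStmt (k := k) (G := G) hl.toAlgHom
  have hl' : ∀ w : G → k, IsCF w → (μ fun h : H => w h) = centralChar B' (mkF w) := by
    intro w hw
    have h1 := hlB' ⟨mkF w, mkF_mem hw⟩
    rw [hl.toAlgHom_mkF hw] at h1
    exact h1
  have hBB : B' = B := by
    by_contra hcon
    have hBcf : IsCF (fun g => B.coeff g) := (P179C.mem_center_iff _).1 hB.1
    have h1 := hl' _ hBcf
    rw [mkF_coeff, charBlockStmt B' B hB' hB, if_neg hcon, hres _ hBcf] at h1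
    have h2 : conv (fun g => B.coeff g) f = f := by
      rw [hcomm _ hBcf]
      have h3 : mkF (conv f fun g => B.coeff g) = mkF f := by
        rw [mkF_conv, mkF_coeff, hcB]
      funext x
      rw [← coeff_mkF (conv f fun g => B.coeff g), h3, coeff_mkF]
    rw [h2, hμf] at h1
    exact one_ne_zero h1
  rw [← hμz _ (hcfz z hz), hl' z hz, hBB]

include hp in
variable (p) in
/-- the defect groups -/
theorem isDefectGroup_fr (hc : IsBlock c)
    (horth : ∀ n, n ∉ H → conv (bF H c) (cj n (bF H c)) = 0) (hB : IsBlock B)
    (hcB : mkF (bF H c) * B = mkF (bF H c)) {E : Subgroup H} (hE : IsDefectGroup c E) :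
    IsDefectGroup B (E.map H.subtype) := by
  have hDH : E.map H.subtype ≤ H := map_subtype_le E
  have hDE : (E.map H.subtype).subgroupOf H = E := by
    ext x
    rw [mem_subgroupOf]
    constructor
    · rintro ⟨y, hy, hyx⟩
      have : y = x := Subtype.ext hyx
      exact this ▸ hy
    · intro hx
      exact ⟨x, hx, rfl⟩
  obtain ⟨hEp, l, hl, hlz⟩ := exists_BP_of_block (p := p) c hc E hE
  have hinv : ∀ t ∈ H, ∀ x, bF H c (t * x * t⁻¹) = bF H c x := (invOn_bF hc.1).1
  have hcov := block_eq_trG hinv (conv_bF_self hc) horth (fg_bF_ne hc) hB hcB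
  have h1 : IsRelTrace B (E.map H.subtype) := by
    rw [← hcov]
    exact isRelTrace_trG hDH (by rw [hDE]; exact hE.1)
  obtain ⟨D2, hD2, hD2m⟩ := exists_minimal_le_of_wellFoundedLT (IsRelTrace B) _ h1
  have hBcf : IsCF (fun g => B.coeff g) := (P179C.mem_center_iff _).1 hB.1
  have h2 : l (fun h : H => B.coeff h) = 1 := by
    rw [hlz _ fun t x => hBcf t x, fg_centralChar hc horth hB hcB hBcf, mkF_coeff,
      centralChar_self B hB]
  obtain ⟨x, hx, hxB⟩ : ∃ x ∈ centralizer ((E.map H.subtype : Subgroup G) : Set G),
      B.coeff x ≠ 0 := by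
    by_contra hcon
    push Not at hcon
    have h3 : l (fun h : H => B.coeff h) = 0 := by
      refine hl.supp _ fun y hy => hcon _ ?_
      rw [mem_centralizer_iff] at hy ⊢
      rintro _ ⟨z, hz, rfl⟩
      exact congrArg Subtype.val (hy z hz)
    rw [h2] at h3
    exact one_ne_zero h3
  obtain ⟨g, hg⟩ := suppIn_of_isDefectGroup (p := p) hD2m x hxB (E.map H.subtype) (hEp.map _) (by
    intro y hy
    rw [mem_centralizer_singleton_iff]
    exact mem_centralizer_iff.1 hx y hy)
  have hcard : Nat.card (E.map H.subtype : Subgroup G) ≤ Nat.card D2 := by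
    refine Nat.card_le_card_of_injective
      (fun y : (E.map H.subtype : Subgroup G) => (⟨_, hg y y.2⟩ : D2)) fun y y' h => ?_
    have h3 := congrArg Subtype.val h
    exact Subtype.ext (mul_left_cancel (mul_right_cancel h3))
  have h4 : D2 = E.map H.subtype := Subgroup.eq_of_le_of_card_ge hD2 hcard
  rw [← h4]
  exact hD2m

end Fr

end P179H452
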