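import Vale.Agent.P179.R2.H452.Fg3

/-!
# The Brauer correspondent of a block with abelian defect group
-/

namespace P179H452

open Subgroup Finset P179H524 P179C P179A P179P P179Y P179H872 P179H12 P179H967

open scoped Classical

universe u

section Corr

variable {p : ℕ} [hp : Fact p.Prime] {k : Type u} [Field k] [IsAlgClosed k] [CharP k p]
  (red : integralClosure ℤ ℂ →+* k) {G : Type} [Group G] [Fintype G] {D : Subgroup G}
  {B : MonoidAlgebra k G}

omit [IsAlgClosed k] [CharP k p] hp [Fintype G] in
theorem fg_cutC_norm {z : G → k} {n : G} (hn : n ∈ normalizer (D : Set G))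
    (hz : ∀ x, z (n * x * n⁻¹) = z x) (x : G) :
    cutC D z (n * x * n⁻¹) = cutC D z x := by
  unfold cutC
  by_cases hx : x ∈ centralizer (D : Set G)
  · rw [if_pos hx, if_pos (P179B.conj_mem_centralizer_of_mem_normalizer hn hx), hz]
  · rw [if_neg hx, if_neg]
    intro h
    apply hx
    have h1 := P179B.conj_mem_centralizer_of_mem_normalizer (inv_mem hn) h
    have e1 : n⁻¹ * (n * x * n⁻¹) * n⁻¹⁻¹ = x := by group
    rwa [e1] at h1

omit [IsAlgClosed k] [CharP k p] hp [Fintype G] in
theorem fg_isCF_conv [Fintype G] {a b : G → k} (ha : IsCF a) (hb : IsCF b) :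
    IsCF (conv a b) := by
  have h1 := mul_mem (mkF_mem ha) (mkF_mem hb)
  rw [← mkF_conv, P179C.mem_center_iff] at h1
  intro t x
  have h2 := h1 t x
  simpa only [coeff_mkF] using h2

/-- **the Brauer correspondent** of the block `B` with the abelian defect group `D` is the
image of `B` under the Brauer homomorphism -/
theorem exists_corr_cut (hB : IsBlock B) (hD : IsDefectGroup B D)
    (hab : ∀ a ∈ D, ∀ b ∈ D, a * b = b * a) :
    IsBlock (mkF fun n : normalizer (D : Set G) => cutC D (fun g => B.coeff g) n) ∧
      numWeightsIn p red B =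
        numSimpleIn (mkF fun n : normalizer (D : Set G) => cutC D (fun g => B.coeff g) n) := by
  obtain ⟨b, hb, hbB, huniq, hn, -⟩ := P179H450.W1_corr p red hB hD hab
  obtain ⟨hDp, l, hl, hlz⟩ := exists_BP_of_block (p := p) B hB D hD
  have hCN : centralizer (D : Set G) ≤ normalizer (D : Set G) := cent_le_norm D
  have hBcf : IsCF (fun g => B.coeff g) := (P179C.mem_center_iff _).1 hB.1
  have hBB : conv (fun g => B.coeff g) (fun g => B.coeff g) = fun g => B.coeff g := by
    funext g
    rw [← coeff_mul_eq_conv, hB.2.1]
  set F : G → k := cutC D (fun g => B.coeff g) with hF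
  have hcs : ∀ z : G → k, ∀ x, x ∉ normalizer (D : Set G) → cutC D z x = 0 := by
    intro z x hx
    exact if_neg fun h => hx (hCN h)
  have hci : ∀ z : G → k, IsCF z → IsCF fun n : normalizer (D : Set G) => cutC D z n := by
    intro z hz t x
    exact fg_cutC_norm t.2 (hz t) x
  set b0 : MonoidAlgebra k (normalizer (D : Set G)) :=
    mkF fun n : normalizer (D : Set G) => F n with hb0
  have hb0c : b0 ∈ Subalgebra.center k (MonoidAlgebra k (normalizer (D : Set G))) :=
    mkF_mem (hci _ hBcf)
  have hcc : ∀ a b : G → k, IsCF a → IsCF b →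
      (fun n : normalizer (D : Set G) => cutC D (conv a b) n) =
        conv (fun n : normalizer (D : Set G) => cutC D a n)
          fun n : normalizer (D : Set G) => cutC D b n := by
    intro a b ha hb
    rw [cutC_conv p hDp (fun d _ => ha d) (fun d _ => hb d)]
    exact fg_restr _ (hcs b)
  have hb00 : b0 * b0 = b0 := by
    rw [hb0, ← mkF_conv, hF, ← hcc _ _ hBcf hBcf, hBB]
  have hDn : (D.subgroupOf (normalizer (D : Set G))).Normal := normal_in_normalizer
  -- blocks below the image
  have key : ∀ b' : MonoidAlgebra k (normalizer (D : Set G)), IsBlock b' → b' * b0 ≠ 0 →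
      b' = b := by
    intro b' hb' hne
    obtain ⟨h1, -⟩ := centralChar_of_mul_ne hb' hb0c hb00 hne
    obtain ⟨E, hE⟩ := P179H725.exists_defect hb'
    obtain ⟨hEp, l', hl', hlz'⟩ := exists_BP_of_block (p := p) b' hb' E hE
    have hDE : D.subgroupOf (normalizer (D : Set G)) ≤ E :=
      P179H725.le_defect (p := p) hb' hE _ hDp.comap_subtype
    have hcong : ∀ z : G → k, l' (fun n : normalizer (D : Set G) => z n) =
        l' fun n : normalizer (D : Set G) => cutC D z n := by
      intro z
      refine hl'.congr fun x hx => ?_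
      refine (if_pos ?_).symm
      rw [mem_centralizer_iff] at hx ⊢
      intro d hd
      have h2 := hx ⟨d, le_normalizer hd⟩ (hDE (mem_subgroupOf.2 hd))
      exact congrArg Subtype.val h2
    have hcf : ∀ z : G → k, IsCF z → IsCF fun n : normalizer (D : Set G) => z n :=
      fun z hz t x => hz t x
    have hhom : IsHomCF (fun w : G → k => l' fun n : normalizer (D : Set G) => w n) :=
      { add := fun a b => hl'.add _ _
        smul := fun r a => hl'.smul _ _
        one := by
          refine Eq.trans ?_ hl'.one
          congr 1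
          funext h
          by_cases h1 : h = 1
          · subst h1
            simp
          · have h2 : (h : G) ≠ 1 := fun h' => h1 (Subtype.ext h')
            simp [h1, h2]
        mul := fun a b ha hb => by
          change l' _ = l' _ * l' _
          rw [hcong, hcong a, hcong b, hcc a b ha hb,
            (hl'.isHomCF' hEp).mul _ _ (hci a ha) (hci b hb)] }
    obtain ⟨B', hB', hlB'⟩ := homBlockStmt (k := k) (G := G) hhom.toAlgHom
    have hl2 : ∀ w : G → k, IsCF w →
        (l' fun n : normalizer (D : Set G) => w n) = centralChar B' (mkF w) := by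
      intro w hw
      have h2 := hlB' ⟨mkF w, mkF_mem hw⟩
      rw [hhom.toAlgHom_mkF hw] at h2
      exact h2
    have hBB' : B' = B := by
      by_contra hcon
      have h2 := hl2 _ hBcf
      rw [mkF_coeff, charBlockStmt B' B hB' hB, if_neg hcon, hcong,
        hlz' _ (hci _ hBcf)] at h2
      have h3 : centralChar b' b0 = 0 := h2
      rw [h1] at h3
      exact one_ne_zero h3
    refine huniq b' hb' fun z hz => ?_
    have hzcf : IsCF (fun g => z.coeff g) := (P179C.mem_center_iff _).1 hz
    rw [P179H450.trunc_eq_mkF, ← hlz' _ (hcf _ hzcf), hl2 _ hzcf, mkF_coeff, hBB']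
  -- the image is not zero
  have hb0ne : b0 ≠ 0 := by
    intro h
    have h1 : F = 0 := by
      funext x
      by_cases hx : x ∈ normalizer (D : Set G)
      · have h2 := congrArg
          (fun w : MonoidAlgebra k (normalizer (D : Set G)) => w.coeff ⟨x, hx⟩) h
        simp only [hb0, coeff_mkF] at h2
        exact h2
      · exact hcs _ x hx
    have h2 : l F = 1 := by
      rw [hF, hl.cut, hlz _ hBcf, mkF_coeff, centralChar_self B hB]
    rw [h1, hl.zero] at h2
    exact zero_ne_one h2
  have hbb0 : b * b0 = b := by
    obtain ⟨e, he, hne⟩ := exists_block_mul (p := p) hb0ne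
    have h1 := key e he hne
    subst h1
    exact (centralChar_of_mul_ne he hb0c hb00 hne).2
  have hfin : b0 = b := by
    by_contra hcon
    obtain ⟨e, he, hne⟩ := exists_block_mul (p := p) (sub_ne_zero.2 hcon)
    have h1 : e ≠ b := by
      rintro rfl
      apply hne
      rw [mul_sub, hbb0, he.2.1, sub_self]
    apply h1
    refine key e he ?_
    rw [mul_sub, block_mul_eq_zero he hb h1, sub_zero] at hne
    exact hne
  rw [hfin]
  exact ⟨hb, hn.symm⟩

end Corr

end P179H452
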