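import Vale.Agent.P179.R2.H452.Fg4
import Vale.Agent.P179.R2.H292.Ext

/-!
# The Fong-Reynolds correspondence: weights
-/

namespace P179H452

open Subgroup Finset P179H524 P179C P179A P179P P179Y P179H872 P179H12 P179H967

open scoped Classical

universe u

section Weights

variable {p : ℕ} [hp : Fact p.Prime] {k : Type u} [Field k] [IsAlgClosed k] [CharP k p]
  (red : integralClosure ℤ ℂ →+* k) {G : Type} [Group G] [Fintype G] {H : Subgroup G}
  {c : MonoidAlgebra k H} {B : MonoidAlgebra k G}

omit [IsAlgClosed k] [CharP k p] hp [Fintype G] in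
theorem fg_cutC_cj {D : Subgroup G} {n : G} (hn : n ∈ normalizer (D : Set G)) (z : G → k) :
    cj n (cutC D z) = cutC D (cj n z) := by
  funext g
  unfold cj cutC
  by_cases h : g ∈ centralizer (D : Set G)
  · have h1 := P179B.conj_mem_centralizer_of_mem_normalizer (inv_mem hn) h
    rw [inv_inv] at h1
    rw [if_pos h, if_pos h1]
  · have h1 : n⁻¹ * g * n ∉ centralizer (D : Set G) := by
      intro h'
      apply h
      have h2 := P179B.conj_mem_centralizer_of_mem_normalizer hn h'
      have e1 : n * (n⁻¹ * g * n) * n⁻¹ = g := by group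
      rwa [e1] at h2
    rw [if_neg h, if_neg h1]

/-- the number of weights in the Fong-Reynolds correspondence -/
theorem numWeights_fr (hc : IsBlock c)
    (horth : ∀ n, n ∉ H → conv (bF H c) (cj n (bF H c)) = 0) (hB : IsBlock B)
    (hcB : mkF (bF H c) * B = mkF (bF H c)) {E : Subgroup H} (hE : IsDefectGroup c E)
    (hab : ∀ a ∈ E, ∀ b ∈ E, a * b = b * a) :
    numWeightsIn p red B = numWeightsIn p red c := by
  have hDB := isDefectGroup_fr p hc horth hB hcB hE
  have hDH : E.map H.subtype ≤ H := map_subtype_le E
  have habD : ∀ a ∈ E.map H.subtype, ∀ b ∈ E.map H.subtype, a * b = b * a := by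
    rintro _ ⟨a, ha, rfl⟩ _ ⟨b, hb, rfl⟩
    exact congrArg Subtype.val (hab a ha b hb)
  have hEp : IsPGroup p E := (exists_BP_of_block (p := p) c hc E hE).1
  have hDp : IsPGroup p (E.map H.subtype : Subgroup G) := hEp.map _
  obtain ⟨hb0, hw⟩ := exists_corr_cut red hB hDB habD
  obtain ⟨hb1, hw1⟩ := exists_corr_cut red hc hE hab
  rw [hw, hw1]
  have hcen := P179H292.mem_cent_map H E
  have hnor := P179H292.mem_norm_map H E
  set D : Subgroup G := E.map H.subtype with hD
  set f : G → k := bF H c with hf
  have hfs : ∀ x, x ∉ H → f x = 0 := fun x hx => ext_of_not_mem H _ hx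
  have hff : conv f f = f := conv_bF_self hc
  have hfi : InvOn H f := invOn_bF hc.1
  have hfD : ∀ d ∈ D, ∀ x, f (d * x * d⁻¹) = f x := fun d hd => hfi.1 d (hDH hd)
  have hBcf : IsCF (fun g => B.coeff g) := (P179C.mem_center_iff _).1 hB.1
  have hCN : centralizer (D : Set G) ≤ normalizer (D : Set G) := cent_le_norm D
  have hcs : ∀ z : G → k, ∀ x, x ∉ normalizer (D : Set G) → cutC D z x = 0 := by
    intro z x hx
    exact if_neg fun h => hx (hCN h)
  have hcoe : ∀ n : H, cutC D f n = cutC E (fun h => c.coeff h) n := by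
    intro n
    unfold cutC
    by_cases h : n ∈ centralizer (E : Set H)
    · rw [if_pos h, if_pos ((hcen n).1 h), hf]
      exact ext_coe H _ n
    · rw [if_neg h, if_neg fun h' => h ((hcen n).2 h')]
  let φ : normalizer (E : Set H) ≃* H.subgroupOf (normalizer (D : Set G)) :=
    { toFun := fun x => ⟨⟨(x : H), (hnor _).1 x.2⟩, (x : H).2⟩
      invFun := fun x => ⟨⟨((x : normalizer (D : Set G)) : G), x.2⟩,
        (hnor _).2 (x : normalizer (D : Set G)).2⟩
      left_inv := fun x => rfl
      right_inv := fun x => rfl
      map_mul' := fun x y => rfl }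
  have hcc : ∀ a b : G → k, (∀ d ∈ D, ∀ x, a (d * x * d⁻¹) = a x) →
      (∀ d ∈ D, ∀ x, b (d * x * d⁻¹) = b x) →
      conv (fun n : normalizer (D : Set G) => cutC D a n)
          (fun n : normalizer (D : Set G) => cutC D b n) =
      (fun n : normalizer (D : Set G) => cutC D (conv a b) n) := by
    intro a b ha hb
    rw [cutC_conv p hDp ha hb]
    exact (fg_restr _ (hcs b)).symm
  have key := numSimple_orth p (M := H.subgroupOf (normalizer (D : Set G)))
    (g := fun n : normalizer (D : Set G) => cutC D f n)
    (fun t ht x => fg_cutC_norm t.2 (hfi.1 t (mem_subgroupOf.1 ht)) x)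
    (fun x hx => by
      change cutC D f x = 0
      unfold cutC
      by_cases h : (x : G) ∈ centralizer (D : Set G)
      · rw [if_pos h]
        exact hfs _ fun h' => hx (mem_subgroupOf.2 h')
      · rw [if_neg h])
    (by rw [hcc f f hfD hfD, hff])
    (fun n hn => by
      have h1 : (cj n fun n : normalizer (D : Set G) => cutC D f n) =
          fun m : normalizer (D : Set G) => cutC D (cj (n : G) f) m := by
        funext m
        rw [← fg_cutC_cj n.2]
        rfl
      rw [h1, hcc f (cj (n : G) f) hfD, horth n fun h => hn (mem_subgroupOf.2 h)]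
      · funext m
        change cutC D 0 (m : G) = 0
        unfold cutC
        split_ifs <;> rfl
      · intro d hd x
        unfold cj
        have h2 : (n : G)⁻¹ * d * n ∈ D := by
          have h3 := (mem_normalizer_iff.1 (inv_mem n.2) d).1 hd
          rwa [inv_inv] at h3
        rw [← hfD _ h2 ((n : G)⁻¹ * x * n)]
        congr 1
        group)
    (fun h => by
      apply hb1.2.2.1
      ext x
      have h1 := congrArg (fun w : MonoidAlgebra k (normalizer (D : Set G)) =>
        w.coeff ⟨((x : H) : G), (hnor _).1 x.2⟩) h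
      simp only [coeff_mkF] at h1 ⊢
      rw [← hcoe]
      exact h1)
    hb0
    (by
      rw [← mkF_conv, hcc f _ hfD fun d _ => hBcf d]
      have h1 : conv f (fun g => B.coeff g) = f := by
        have h3 : mkF (conv f fun g => B.coeff g) = mkF f := by
          rw [mkF_conv, mkF_coeff, hcB]
        funext x
        rw [← coeff_mkF (conv f fun g => B.coeff g), h3, coeff_mkF]
      rw [h1])
  rw [key]
  symm
  refine P179H443.numSimpleIn_equiv (p := p) φ _ _ fun x => ?_
  rw [coeff_mkF, coeff_mkF]
  exact hcoe (x : H)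

end Weights

end P179H452
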