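import Vale.Agent.P179.R2.H452.Fg5

/-!
# The Fong-Reynolds correspondence for a block of a normal subgroup
-/

namespace P179H452

open Subgroup Finset P179H524 P179C P179A P179P P179Y P179H872 P179H12 P179H967

open scoped Classical

universe u

/-- the stabiliser of a function -/
def stF {G : Type} [Group G] {k : Type u} (e : G → k) : Subgroup G where
  carrier := {g | cj g e = e}
  mul_mem' := by
    intro a b ha hb
    change cj (a * b) e = e
    rw [cj_mul, show cj b e = e from hb, show cj a e = e from ha]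
  one_mem' := cj_one e
  inv_mem' := by
    intro a ha
    change cj a⁻¹ e = e
    have h1 : cj a e = e := ha
    conv_lhs => rw [← h1]
    rw [← cj_mul, inv_mul_cancel, cj_one]

section Ex

variable {p : ℕ} [hp : Fact p.Prime] {k : Type u} [Field k] [IsAlgClosed k] [CharP k p]
  {G : Type} [Group G] [Fintype G] {N : Subgroup G} {e : MonoidAlgebra k N}
  {B : MonoidAlgebra k G}

omit [IsAlgClosed k] [CharP k p] hp in
theorem fg_inc_eq (H : Subgroup G) (b : MonoidAlgebra k H) : inc H b = mkF (bF H b) := by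
  have h1 := P179H12.inc_mkF H (bF H b) fun x hx => ext_of_not_mem H _ hx
  rwa [mkF_bF] at h1

include hp in
/-- the Fong-Reynolds correspondent of a block -/
theorem exists_fr_block [hN : N.Normal] (he : IsBlock e) (hB : IsBlock B)
    (hne : inc N e * B ≠ 0) :
    ∃ c : MonoidAlgebra k (stF (bF N e)), IsBlock c ∧
      (∀ n, n ∉ stF (bF N e) → conv (bF (stF (bF N e)) c) (cj n (bF (stF (bF N e)) c)) = 0) ∧
      mkF (bF (stF (bF N e)) c) * B = mkF (bF (stF (bF N e)) c) := by
  have hei : InvOn N (bF N e) := invOn_bF he.1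
  have hee : conv (bF N e) (bF N e) = bF N e := conv_bF_self he
  have hNH : N ≤ stF (bF N e) := by
    intro n hn
    change cj n (bF N e) = bF N e
    funext x
    unfold cj
    have h1 := hei.1 n⁻¹ (inv_mem hn) x
    rwa [inv_inv] at h1
  have horth : ∀ n, n ∉ stF (bF N e) → conv (bF N e) (cj n (bF N e)) = 0 := by
    intro n hn
    have hn' : n ∈ normalizer (N : Set G) := by
      rw [normalizer_eq_top]
      exact mem_top n
    obtain ⟨b', hb', hbe⟩ := isBlock_cj hn' he
    rw [← hbe, ← bF_mul, block_mul_eq_zero he hb', bF_zero]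
    rintro rfl
    exact hn hbe.symm
  have hes : ∀ x, x ∉ stF (bF N e) → bF N e x = 0 := fun x hx => hei.2 x fun h => hx (hNH h)
  have heH : ∀ t ∈ stF (bF N e), ∀ x, bF N e (t * x * t⁻¹) = bF N e x := by
    intro t ht x
    have h1 : cj t⁻¹ (bF N e) = bF N e := (stF (bF N e)).inv_mem ht
    have h2 := congrFun h1 x
    unfold cj at h2
    rwa [inv_inv] at h2
  rw [fg_inc_eq] at hne
  set e' : G → k := bF N e with he'
  set H : Subgroup G := stF e' with hH
  have hBcf : IsCF (fun g => B.coeff g) := (P179C.mem_center_iff _).1 hB.1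
  have hBc := Subalgebra.mem_center_iff.1 hB.1
  -- the product
  set w : G → k := conv (fun g => B.coeff g) e' with hw
  have hwm : mkF w = B * mkF e' := by rw [hw, mkF_conv, mkF_coeff]
  have hws : ∀ x, x ∉ H → w x = 0 := by
    intro x hx
    have h1 := fg_supp hes horth B hx
    have h2 : mkF e' * B * mkF e' = mkF w := by
      rw [hBc, mul_assoc, ← mkF_conv e' e', hee, hwm]
    rwa [h2, coeff_mkF] at h1
  have hwi : ∀ t ∈ H, ∀ x, w (t * x * t⁻¹) = w x := by
    intro t ht x
    exact P179I.conv_inv (fun g => hBcf t g) (heH t ht) x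
  set y : MonoidAlgebra k H := mkF fun t : H => w t with hy
  have hyc : y ∈ Subalgebra.center k (MonoidAlgebra k H) := mkF_mem fun t x => hwi t t.2 x
  have hyi : inc H y = mkF w := P179H12.inc_mkF H w hws
  have hww : mkF w * mkF w = mkF w := by
    rw [hwm, mul_assoc, ← mul_assoc (mkF e') B, hBc (mkF e'), mul_assoc B (mkF e'), ← mkF_conv,
      hee, ← mul_assoc, hB.2.1]
  have hyy : y * y = y := by
    apply inc_injective H
    rw [map_mul, hyi, hww]
  have hy0 : y ≠ 0 := by
    intro h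
    apply hne
    rw [hBc, ← hwm, ← hyi, h, map_zero]
  obtain ⟨c, hc, hcy⟩ := exists_block_mul (p := p) hy0
  obtain ⟨-, hcy'⟩ := centralChar_of_mul_ne hc hyc hyy hcy
  have h1 : mkF (bF H c) * (B * mkF e') = mkF (bF H c) := by
    rw [← fg_inc_eq, ← hwm, ← hyi, ← map_mul, hcy']
  have h2 : mkF (bF H c) * B = mkF (bF H c) := by
    conv_lhs => rw [← h1]
    rw [mul_assoc, mul_assoc B, hBc (mkF e'), ← mul_assoc B B, hB.2.1, h1]
  have h3 : mkF (bF H c) * mkF e' = mkF (bF H c) := by
    conv_lhs => rw [← h1]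
    rw [mul_assoc, mul_assoc B, ← mkF_conv, hee, h1]
  have h4 : mkF e' * mkF (bF H c) = mkF (bF H c) := by
    have h5 : inc H (mkF fun t : H => e' t) = mkF e' := P179H12.inc_mkF H e' hes
    rw [← h5, ← fg_inc_eq, ← map_mul, Subalgebra.mem_center_iff.1 hc.1, map_mul, h5,
      fg_inc_eq, h3]
  have h3' : conv (bF H c) e' = bF H c := by
    funext x
    rw [← coeff_mkF (conv (bF H c) e'), mkF_conv, h3, coeff_mkF]
  have h4' : conv e' (bF H c) = bF H c := by
    funext x
    rw [← coeff_mkF (conv e' (bF H c)), mkF_conv, h4, coeff_mkF]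
  refine ⟨c, hc, fun n hn => ?_, h2⟩
  have h5 : conv (bF H c) (cj n (bF H c)) =
      conv (bF H c) (conv (conv e' (cj n e')) (cj n (bF H c))) := by
    rw [conv_assoc' e', ← cj_conv, h4', ← conv_assoc', h3']
  rw [h5, horth n hn]
  have h6 : mkF (conv (bF H c) (conv (0 : G → k) (cj n (bF H c)))) = 0 := by
    rw [mkF_conv, mkF_conv, fg_mkF_zero, zero_mul, mul_zero]
  funext x
  rw [← coeff_mkF (conv (bF H c) (conv (0 : G → k) (cj n (bF H c)))), h6]
  rfl

end Ex

section Main

variable {p : ℕ} [hp : Fact p.Prime] {k : Type u} [Field k] [IsAlgClosed k] [CharP k p]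
  (red : integralClosure ℤ ℂ →+* k) {G : Type} [Group G] [Finite G]

/-- **the Fong-Reynolds correspondence** for a block with abelian defect groups -/
theorem exists_fr {N : Subgroup G} [hN : N.Normal] {e : MonoidAlgebra k N}
    (he : IsBlock e) {B : MonoidAlgebra k G} (hB : IsBlock B) (hne : inc N e * B ≠ 0)
    {D : Subgroup G} (hD : IsDefectGroup B D) (hab : ∀ a ∈ D, ∀ b ∈ D, a * b = b * a) :
    ∃ (H : Subgroup G) (c : MonoidAlgebra k H) (E : Subgroup H),
      (∀ g, g ∈ H ↔ conjBy g (inc N e) = inc N e) ∧ IsBlock c ∧ IsDefectGroup c E ∧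
      (∃ g : G, ∀ x, x ∈ E.map H.subtype ↔ g⁻¹ * x * g ∈ D) ∧
      numSimpleIn B = numSimpleIn c ∧ numWeightsIn p red B = numWeightsIn p red c := by
  have := Fintype.ofFinite G
  obtain ⟨c, hc, horth, hcB⟩ := exists_fr_block (p := p) he hB hne
  obtain ⟨E, hE⟩ := P179H725.exists_defect hc
  have hEB := isDefectGroup_fr p hc horth hB hcB hE
  obtain ⟨hDp, l, hl, hlz⟩ := exists_BP_of_block (p := p) B hB D hD
  obtain ⟨hEp, l2, hl2, hl2z⟩ := exists_BP_of_block (p := p) B hB _ hEB
  have hT := hT_of_block hB hD hDp hab hl hlz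
  obtain ⟨g, hg, -⟩ := FDc hl hDp hab hT hl2 hEp fun z hz => by rw [hl2z z hz, hlz z hz]
  have habE : ∀ a ∈ E, ∀ b ∈ E, a * b = b * a := by
    intro a ha b hb
    have h1 := hab _ ((hg a).1 ⟨a, ha, rfl⟩) _ ((hg b).1 ⟨b, hb, rfl⟩)
    apply Subtype.ext
    change (a : G) * b = b * a
    have h2 : g⁻¹ * ((a : G) * b) * g = g⁻¹ * (b * a) * g := by
      calc g⁻¹ * ((a : G) * b) * g = g⁻¹ * a * g * (g⁻¹ * b * g) := by group
        _ = g⁻¹ * b * g * (g⁻¹ * a * g) := h1
        _ = g⁻¹ * (b * a) * g := by group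
    exact mul_left_cancel (mul_right_cancel h2)
  refine ⟨stF (bF N e), c, E, fun x => ?_, hc, hE, ⟨g, hg⟩, ?_,
    numWeights_fr red hc horth hB hcB hE habE⟩
  · rw [fg_inc_eq, ← fg_mkF_cj]
    change cj x (bF N e) = bF N e ↔ _
    constructor
    · intro h
      rw [h]
    · intro h
      funext y
      rw [← coeff_mkF (cj x (bF N e)), h, coeff_mkF]
  · have h1 := numSimple_orth p (invOn_bF hc.1).1 (fun x hx => ext_of_not_mem _ _ hx)
      (conv_bF_self hc) horth (fg_bF_ne hc) hB hcB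
    rw [h1, mkF_bF]

/-- **the Fong-Reynolds step** -/
theorem fr_step {N : Subgroup G} [hN : N.Normal] {e : MonoidAlgebra k N}
    (he : IsBlock e) {B : MonoidAlgebra k G} (hB : IsBlock B) (hne : inc N e * B ≠ 0)
    (hne' : inc N e * B ≠ B)
    {D : Subgroup G} (hD : IsDefectGroup B D) (hab : ∀ a ∈ D, ∀ b ∈ D, a * b = b * a) :
    ∃ (H : Subgroup G) (c : MonoidAlgebra k H) (E : Subgroup H),
      Nat.card H < Nat.card G ∧ IsBlock c ∧ IsDefectGroup c E ∧ Nonempty (D ≃* E) ∧
      (∀ a ∈ E, ∀ b ∈ E, a * b = b * a) ∧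
      numSimpleIn B = numSimpleIn c ∧ numWeightsIn p red B = numWeightsIn p red c := by
  obtain ⟨H, c, E, hH, hc, hE, ⟨g, hg⟩, h1, h2⟩ := exists_fr (p := p) red he hB hne hD hab
  have hHt : H ≠ ⊤ := by
    rintro rfl
    have h3 : inc N e ∈ Subalgebra.center k (MonoidAlgebra k G) := by
      have := Fintype.ofFinite G
      have h4 : ∀ g : G, conjBy g (inc N e) = inc N e := fun g => (hH g).1 (mem_top g)
      rw [P179C.mem_center_iff]
      intro t x
      have h5 := congrArg (fun w : MonoidAlgebra k G => w.coeff x) (h4 t⁻¹)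
      simp only [H905.coeff_conjBy, inv_inv] at h5
      exact h5
    have h4 : inc N e * inc N e = inc N e := by rw [← map_mul, he.2.1]
    have h5 := Subalgebra.mem_center_iff.1 hB.1 (inc N e)
    rcases hB.2.2.2 (inc N e * B) (mul_mem h3 hB.1)
      (by rw [mul_assoc, ← mul_assoc B, ← h5, mul_assoc (inc N e) B B, hB.2.1, ← mul_assoc, h4])
      (by rw [mul_assoc, hB.2.1]) with h | h
    · exact hne h
    · exact hne' h
  have hcard : Nat.card H < Nat.card G := by
    refine lt_of_le_of_ne (Nat.card_le_card_of_injective _ H.subtype_injective) fun h => hHt ?_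
    exact Subgroup.eq_top_of_card_eq H h
  have hφ : Nonempty (D ≃* E) := by
    have hmem : ∀ x : D, g * x * g⁻¹ ∈ E.map H.subtype := by
      intro x
      rw [hg]
      have e1 : g⁻¹ * (g * (x : G) * g⁻¹) * g = x := by group
      rw [e1]
      exact x.2
    have hmem' : ∀ x : D, ∃ h : g * (x : G) * g⁻¹ ∈ H, (⟨g * x * g⁻¹, h⟩ : H) ∈ E := by
      intro x
      obtain ⟨y, hy, hyx⟩ := hmem x
      have h3 : (y : G) = g * x * g⁻¹ := hyx
      refine ⟨h3 ▸ y.2, ?_⟩
      have h4 : (⟨g * x * g⁻¹, h3 ▸ y.2⟩ : H) = y := Subtype.ext h3.symm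
      rw [h4]
      exact hy
    refine ⟨{
      toFun := fun x => ⟨⟨g * x * g⁻¹, (hmem' x).1⟩, (hmem' x).2⟩
      invFun := fun y => ⟨g⁻¹ * ((y : H) : G) * g, (hg _).1 ⟨y, y.2, rfl⟩⟩
      left_inv := fun x => Subtype.ext (by
        change g⁻¹ * (g * (x : G) * g⁻¹) * g = x
        group)
      right_inv := fun y => Subtype.ext (Subtype.ext (by
        change g * (g⁻¹ * ((y : H) : G) * g) * g⁻¹ = ((y : H) : G)
        group))
      map_mul' := fun x y => Subtype.ext (Subtype.ext (by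
        change g * ((x : G) * y) * g⁻¹ = g * x * g⁻¹ * (g * y * g⁻¹)
        group)) }⟩
  obtain ⟨φ⟩ := hφ
  refine ⟨H, c, E, hcard, hc, hE, ⟨φ⟩, fun a ha b hb => ?_, h1, h2⟩
  have h3 := hab _ (φ.symm ⟨a, ha⟩).2 _ (φ.symm ⟨b, hb⟩).2
  have h4 : φ.symm ⟨a, ha⟩ * φ.symm ⟨b, hb⟩ = φ.symm ⟨b, hb⟩ * φ.symm ⟨a, ha⟩ := Subtype.ext h3
  rw [← map_mul, ← map_mul] at h4
  exact congrArg Subtype.val (φ.symm.injective h4)

end Main

end P179H452
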