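import Vale.Agent.P179.R2.H452.Fg6

/-!
# A block whose defect groups lie in a normal subgroup of index `p`
-/

namespace P179H452

open Subgroup Finset P179H524 P179C P179A P179P P179Y P179H872 P179H12 P179H967

open scoped Classical

universe u

section Idx

variable {p : ℕ} [hp : Fact p.Prime] {k : Type u} [Field k] [IsAlgClosed k] [CharP k p]
  {G : Type} [Group G]

omit hp in
/-- the `p`-regular elements lie in the normal subgroups of index `p` -/
theorem fg_mem_of_regular [Finite G] (hp : p.Prime) {N : Subgroup G} [N.Normal]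
    (hN : N.index = p) {x : G} (hx : ¬ p ∣ orderOf x) : x ∈ N := by
  rw [← QuotientGroup.eq_one_iff]
  have h1 : orderOf (x : G ⧸ N) ∣ orderOf x := orderOf_map_dvd (QuotientGroup.mk' N) x
  have h2 : orderOf (x : G ⧸ N) ∣ p := by
    rw [← hN]
    exact orderOf_dvd_natCard _
  rcases (Nat.dvd_prime hp).1 h2 with h | h
  · exact orderOf_eq_one_iff.1 h
  · exact absurd (h ▸ h1) hx

/-- the defect groups of a block which covers only one block of a normal subgroup of index `p`
do not lie in this subgroup -/
theorem no_defect_le [Finite G] {N : Subgroup G} [hNn : N.Normal] (hN : N.index = p)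
    {B : MonoidAlgebra k G} (hB : IsBlock B) {D : Subgroup G} (hD : IsDefectGroup B D)
    {e : MonoidAlgebra k N} (he : IsBlock e) (heB : inc N e * B = B) : ¬ D ≤ N := by
  intro hDN
  have := Fintype.ofFinite G
  have hBcf : IsCF (fun g => B.coeff g) := (P179C.mem_center_iff _).1 hB.1
  have hBs : ∀ x, x ∉ N → B.coeff x = 0 := by
    intro x hx
    refine osima p B hB.1 hB.2.1 ?_
    by_contra h
    exact hx (fg_mem_of_regular hp.out hN h)
  have hnorm : ∀ g : G, g ∈ normalizer (N : Set G) := by
    intro g
    rw [normalizer_eq_top]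
    exact mem_top g
  -- the block `e` is stable
  have hst : ∀ g : G, cj g (bF N e) = bF N e := by
    intro g
    obtain ⟨b', hb', hbe⟩ := isBlock_cj (hnorm g) he
    by_cases h : e = b'
    · rw [← hbe, ← h]
    · exfalso
      have h1 : mkF (bF N e) * mkF (bF N b') = 0 := by
        rw [← mkF_conv, ← bF_mul, block_mul_eq_zero he hb' h, bF_zero, fg_mkF_zero]
      have h2 : mkF (bF N b') * B = B := by
        rw [hbe, fg_mkF_cj]
        have h3 : conjBy g (mkF (bF N e)) * B = conjBy g (mkF (bF N e) * B) := by
          rw [conjBy_mul, conjBy_central _ hB.1]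
        rw [h3, ← fg_inc_eq, heB, conjBy_central _ hB.1]
      apply hB.2.2.1
      rw [← heB, fg_inc_eq, ← h2, ← mul_assoc, h1, zero_mul]
  -- `B = e`
  have hBe : (fun g => B.coeff g) = bF N e := by
    set b0 : MonoidAlgebra k N := mkF fun t : N => B.coeff t with hb0
    have hb0i : inc N b0 = B := by
      rw [hb0, P179H12.inc_mkF N _ hBs, mkF_coeff]
    have h1 : b0 ∈ Subalgebra.center k (MonoidAlgebra k N) := mkF_mem fun t x => hBcf t x
    have h2 : b0 * b0 = b0 := by
      apply inc_injective N
      rw [map_mul, hb0i, hB.2.1]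
    have h3 : e * b0 = b0 := by
      apply inc_injective N
      rw [map_mul, hb0i, heB]
    have h4 : b0 * e = b0 := by
      rw [Subalgebra.mem_center_iff.1 he.1, h3]
    rcases he.2.2.2 b0 h1 h2 h4 with h | h
    · exfalso
      apply hB.2.2.1
      rw [← hb0i, h, map_zero]
    · rw [← h]
      funext x
      by_cases hx : x ∈ N
      · unfold bF
        rw [ext_of_mem N _ hx, hb0, coeff_mkF]
      · unfold bF
        rw [ext_of_not_mem N _ hx, hBs x hx]
  -- the functional
  obtain ⟨μ, hμ, hμz⟩ := exists_hom_of_block he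
  have hm : MulH N (fun z : G → k => μ fun h : N => z h) :=
    { add := fun a b => hμ.add _ _
      smul := fun r a => hμ.smul _ _
      one := by
        refine Eq.trans ?_ hμ.one
        congr 1
        funext h
        by_cases h1 : h = 1
        · subst h1
          simp
        · have h2 : (h : G) ≠ 1 := fun h' => h1 (Subtype.ext h')
          simp [h1, h2]
      mul := fun a b ha hb => by
        change μ _ = μ _ * μ _
        rw [fg_restr a hb.2, hμ.mul _ _ (isCF_of_invOn ha) (isCF_of_invOn hb)] }
  have hlow : Low N (fun z : G → k => μ fun h : N => z h) e :=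
    fun z hz => hμz _ (isCF_of_invOn hz)
  have hone := hlow.one he
  -- the relative trace
  obtain ⟨a, ha, hBa⟩ := hD.1
  have haD : ∀ d ∈ D, ∀ x : G, a.coeff (d * x * d⁻¹) = a.coeff x := by
    intro d hd x
    have h1 := congrArg (fun w : MonoidAlgebra k G => w.coeff x) (ha d⁻¹ (inv_mem hd))
    simp only [H905.coeff_conjBy, inv_inv] at h1
    exact h1
  set z : N → k := trG (D.subgroupOf N) (fun y : N => a.coeff y) with hz
  have hzcf : IsCF z := isCF_trG _ fun d hd x => haD d (mem_subgroupOf.1 hd) x
  have hZ : InvOn N (ext N z) := invOn_ext0 hzcf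
  have hBZ : (fun g => B.coeff g) = ∑ s : G ⧸ N, cj s.out (ext N z) := by
    funext x
    rw [Finset.sum_apply]
    by_cases hx : x ∈ N
    · have hf1 := Fintype.ofFinite (G ⧸ D)
      rw [hBa, finsum_eq_sum_of_fintype, MonoidAlgebra.coeff_sum, Finsupp.finsetSum_apply]
      simp only [H905.coeff_conjBy]
      have h2 : ∑ s : G ⧸ D, a.coeff (s.out⁻¹ * x * s.out) =
          ∑ q : (G ⧸ N) × (N ⧸ D.subgroupOf N),
            a.coeff ((((quotientEquivProdOfLE hDN).symm q).out)⁻¹ * x *
              ((quotientEquivProdOfLE hDN).symm q).out) :=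
        (Equiv.sum_comp (quotientEquivProdOfLE hDN).symm
          fun s : G ⧸ D => a.coeff (s.out⁻¹ * x * s.out)).symm
      rw [h2, Fintype.sum_prod_type]
      refine Finset.sum_congr rfl fun s _ => ?_
      have hy : s.out⁻¹ * x * s.out ∈ N := by
        have h3 := hNn.conj_mem x hx s.out⁻¹
        rwa [inv_inv] at h3
      change _ = ext N z (s.out⁻¹ * x * s.out)
      rw [ext_of_mem N _ hy, hz]
      unfold trG
      refine Finset.sum_congr rfl fun t _ => ?_
      have h4 : (quotientEquivProdOfLE hDN).symm (s, t) =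
          ((s.out * (t.out : G) : G) : G ⧸ D) := by
        conv_lhs => rw [← QuotientGroup.out_eq' t]
        rfl
      rw [h4, apply_out (a := fun g => a.coeff g) haD]
      change a.coeff _ = a.coeff ((t.out : G)⁻¹ * (s.out⁻¹ * x * s.out) * (t.out : G))
      congr 1
      group
    · change B.coeff x = _
      rw [hBs x hx]
      symm
      refine Finset.sum_eq_zero fun s _ => ?_
      change ext N z (s.out⁻¹ * x * s.out) = 0
      refine ext_of_not_mem N _ fun h => hx ?_
      have h3 := hNn.conj_mem _ h s.out
      have e1 : s.out * (s.out⁻¹ * x * s.out) * s.out⁻¹ = x := by group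
      rwa [e1] at h3
  rw [← hBe, hBZ, hm.sum] at hone
  have h5 : ∀ s : G ⧸ N, (μ fun h : N => cj s.out (ext N z) h) = μ fun h : N => ext N z h :=
    fun s => ((mem_stH_iff hm he hlow (hnorm _)).2 (hst s.out)).2 _ hZ
  simp only [h5] at hone
  rw [Finset.sum_const, Finset.card_univ, ← Nat.card_eq_fintype_card] at hone
  change N.index • _ = (1 : k) at hone
  rw [hN, nsmul_eq_mul, CharP.cast_eq_zero, zero_mul] at hone
  exact zero_ne_one hone

end Idx

end P179H452
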