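import Vale.Agent.P179.R2.H452.Fg7
import Vale.Agent.P179.R2.H292.LDefsD

/-!
# Normal subgroups of index `p` and blocks covering only one block of each normal subgroup
-/

namespace P179H452

open Subgroup Finset P179H524 P179C P179A P179P P179Y P179H872 P179H12 P179H967

open scoped Classical

universe u

section Cov

variable {p : ℕ} [hp : Fact p.Prime] {k : Type u} [Field k] [IsAlgClosed k] [CharP k p]
  {G : Type} [Group G] [Finite G] {B : MonoidAlgebra k G}

include hp in
/-- a block of a subgroup which does not kill `B` -/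
theorem exists_block_inc_mul (N : Subgroup G) (hB : B ≠ 0) :
    ∃ e : MonoidAlgebra k N, IsBlock e ∧ inc N e * B ≠ 0 := by
  have := P179R.finite_blocks p (k := k) (G := N)
  have := Fintype.ofFinite {B : MonoidAlgebra k N // IsBlock B}
  by_contra hcon
  push Not at hcon
  apply hB
  have h1 : inc N (∑ e : {B : MonoidAlgebra k N // IsBlock B}, e.1) = 1 := by
    rw [sum_blocks, map_one]
  rw [← one_mul B, ← h1, map_sum, Finset.sum_mul]
  exact Finset.sum_eq_zero fun e _ => hcon e.1 e.2

omit hp [Finite G] in
/-- the commutator subgroup lies in the normal subgroups of prime index -/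
theorem commutator_le_of_index (hp : p.Prime) {N : Subgroup G} [hN : N.Normal]
    (hNp : N.index = p) : commutator G ≤ N := by
  have : Fact p.Prime := ⟨hp⟩
  have h1 : IsCyclic (G ⧸ N) := isCyclic_of_prime_card (p := p) hNp
  have h2 : ∀ a b : G ⧸ N, a * b = b * a := by
    intro a b
    obtain ⟨g, hg⟩ := h1.exists_generator
    obtain ⟨m, rfl⟩ := mem_zpowers_iff.1 (hg a)
    obtain ⟨n, rfl⟩ := mem_zpowers_iff.1 (hg b)
    rw [← zpow_add, ← zpow_add, add_comm]
  rw [commutator_def, commutator_le]
  intro a _ b _
  rw [← QuotientGroup.eq_one_iff]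
  change ((a * b * a⁻¹ * b⁻¹ : G) : G ⧸ N) = 1
  rw [QuotientGroup.mk_mul, QuotientGroup.mk_mul, QuotientGroup.mk_mul, QuotientGroup.mk_inv,
    QuotientGroup.mk_inv, h2 (a : G ⧸ N) b]
  group

/-- if the block `B` covers only one block of each normal subgroup, and the defect group `D` is
contained in the commutator subgroup, then `G` has no normal subgroup of index `p` -/
theorem no_normal_index_of_le (hB : IsBlock B) {D : Subgroup G} (hD : IsDefectGroup B D)
    (hDG : D ≤ commutator G)
    (hcov : ∀ N : Subgroup G, N.Normal → ∀ e : MonoidAlgebra k N, IsBlock e →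
      inc N e * B = 0 ∨ inc N e * B = B) (N : Subgroup G) (hN : N.Normal) : N.index ≠ p := by
  intro hNp
  obtain ⟨e, he, hne⟩ := exists_block_inc_mul (p := p) N hB.2.2.1
  exact no_defect_le hNp hB hD he ((hcov N hN e he).resolve_left hne)
    (hDG.trans (commutator_le_of_index hp.out hNp))

/-- **`O^p(G) = G`** -/
theorem no_normal_index_p (hB : IsBlock B) {D : Subgroup G} (hD : IsDefectGroup B D)
    {b : MonoidAlgebra k (centralizer (D : Set G))} (hyp : P179B.hyperfocal D b = D)
    (hcov : ∀ N : Subgroup G, N.Normal → ∀ e : MonoidAlgebra k N, IsBlock e →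
      inc N e * B = 0 ∨ inc N e * B = B) (N : Subgroup G) (hN : N.Normal) : N.index ≠ p := by
  refine no_normal_index_of_le hB hD ?_ hcov N hN
  rw [← hyp]
  unfold P179B.hyperfocal
  rw [closure_le]
  rintro _ ⟨n, _, d, _, rfl⟩
  exact commutator_mem_commutator (mem_top n) (mem_top d)

end Cov

end P179H452
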