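import Vale.Agent.P179.R2.H452.Fg8

/-!
# Surjective homomorphisms whose kernel acts trivially on an idempotent
-/

namespace P179H452

open Subgroup Finset P179H524 P179C P179A P179P P179R P179Y P179H443

open scoped Classical

universe u

section Ker

variable {k : Type u} [Field k] {X Y : Type} [Group X] [Group Y] [Fintype X]

/-- the number of simple modules, if the kernel acts trivially -/
theorem numSimple_ker [Finite X] (φ : X →* Y) (hφ : Function.Surjective φ)
    {e : MonoidAlgebra k X} (he : ∀ l ∈ φ.ker, MonoidAlgebra.single l (1 : k) * e = e) :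
    numSimpleIn e = numSimpleIn (mapA k φ e) := by
  symm
  unfold numSimpleIn
  have hin : ∀ a : IrrRep k Y, InBlock (inflS k φ hφ a) e ↔ InBlock a (mapA k φ e) := by
    intro a
    unfold InBlock
    rw [← asAlgebraHom_mapA]
    rfl
  have hsurj : ∀ b : IrrRep k X, InBlock b e → ∃ a : IrrRep k Y, inflS k φ hφ a = b := by
    intro b hb
    obtain ⟨⟨n, ρ⟩, hρ⟩ := b
    have hb' : ρ.asAlgebraHom e = 1 := hb
    have h1 : ∀ r ∈ φ.ker, ρ r = 1 := by
      intro r hr
      have h2 := congrArg ρ.asAlgebraHom (he r hr)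
      rw [map_mul, hb', mul_one, Representation.asAlgebraHom_single, one_smul] at h2
      exact h2
    let ρ' : Representation k Y (Fin n → k) :=
      (QuotientGroup.lift φ.ker ρ h1).comp
        (QuotientGroup.quotientKerEquivOfSurjective φ hφ).symm.toMonoidHom
    have h2 : ρ'.comp φ = ρ := by
      refine MonoidHom.ext fun g => ?_
      change QuotientGroup.lift φ.ker ρ h1
        ((QuotientGroup.quotientKerEquivOfSurjective φ hφ).symm (φ g)) = ρ g
      have h3 : φ g = QuotientGroup.quotientKerEquivOfSurjective φ hφ (g : X ⧸ φ.ker) := rfl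
      rw [h3, MulEquiv.symm_apply_apply]
      rfl
    have h3 : ρ'.IsIrreducible := by
      rw [← isIrreducible_comp_iff ρ' φ hφ, h2]
      exact hρ
    refine ⟨⟨⟨n, ρ'⟩, h3⟩, ?_⟩
    unfold inflS
    congr 1
    exact Sigma.ext rfl (heq_of_eq h2)
  have hE : ∀ (K : Type) [Group K] (P : IrrRep k K → Prop),
      Equivalence (fun a b : {a : IrrRep k K // P a} => IrrRep.Iso a.1 b.1) := fun K _ P =>
    ⟨fun a => (isoEqv k K).refl _, fun h => (isoEqv k K).symm h,
      fun h h' => (isoEqv k K).trans h h'⟩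
  let F : (Quot fun a b : {a : IrrRep k Y // InBlock a (mapA k φ e)} => IrrRep.Iso a.1 b.1) →
      (Quot fun a b : {a : IrrRep k X // InBlock a e} => IrrRep.Iso a.1 b.1) :=
    Quot.map (fun a => ⟨inflS k φ hφ a.1, (hin a.1).2 a.2⟩)
      fun a b h => (inflS_iso_iff φ hφ a.1 b.1).mpr h
  refine Nat.card_congr (Equiv.ofBijective F ⟨?_, ?_⟩)
  · rintro ⟨a⟩ ⟨b⟩ h
    exact Quot.sound ((inflS_iso_iff φ hφ a.1 b.1).mp (((hE X _).quot_mk_eq_iff _ _).1 h))
  · rintro ⟨b, hb⟩
    obtain ⟨a, rfl⟩ := hsurj b hb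
    exact ⟨Quot.mk _ ⟨a, (hin a).1 hb⟩, rfl⟩

/-- the coefficients of the image -/
theorem coeff_mapA_ker (φ : X →* Y) {e : MonoidAlgebra k X}
    (he : ∀ l ∈ φ.ker, MonoidAlgebra.single l (1 : k) * e = e) (x : X) :
    (mapA k φ e).coeff (φ x) = (Nat.card φ.ker : k) * e.coeff x := by
  have hinv : ∀ l ∈ φ.ker, ∀ y, e.coeff (l * y) = e.coeff y := by
    intro l hl y
    have h1 := congrArg (fun w : MonoidAlgebra k X => w.coeff y) (he l⁻¹ (inv_mem hl))
    simp only [MonoidAlgebra.coeff_single_mul_apply, inv_inv, one_mul] at h1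
    exact h1
  have h1 : mapA k φ e = ∑ y : X, MonoidAlgebra.single (φ y) (e.coeff y) := by
    conv_lhs => rw [← mkF_coeff e]
    unfold mkF
    rw [map_sum]
    exact Finset.sum_congr rfl fun y _ => mapA_single φ y _
  rw [h1, MonoidAlgebra.coeff_sum, Finsupp.finsetSum_apply]
  have h2 : ∀ y : X, (MonoidAlgebra.single (φ y) (e.coeff y) : MonoidAlgebra k Y).coeff (φ x) =
      if φ y = φ x then e.coeff x else 0 := by
    intro y
    rw [MonoidAlgebra.coeff_single, Finsupp.single_apply]
    by_cases h : φ y = φ x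
    · rw [if_pos h, if_pos h]
      have h3 : y * x⁻¹ ∈ φ.ker := by
        rw [MonoidHom.mem_ker, map_mul, map_inv, h, mul_inv_cancel]
      have h4 := hinv _ h3 x
      rw [inv_mul_cancel_right] at h4
      exact h4
    · rw [if_neg h, if_neg h]
  rw [Finset.sum_congr rfl fun y _ => h2 y, ← Finset.sum_filter, Finset.sum_const, nsmul_eq_mul]
  congr 2
  rw [← Fintype.card_coe, ← Nat.card_eq_fintype_card]
  let E : φ.ker ≃ {y : X // y ∈ Finset.univ.filter fun y : X => φ y = φ x} :=
    { toFun := fun l => ⟨(l : X) * x, by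
        rw [Finset.mem_filter]
        refine ⟨Finset.mem_univ _, ?_⟩
        rw [map_mul, (MonoidHom.mem_ker).1 l.2, one_mul]⟩
      invFun := fun y => ⟨(y : X) * x⁻¹, by
        have h3 := (Finset.mem_filter.1 y.2).2
        rw [MonoidHom.mem_ker, map_mul, map_inv, h3, mul_inv_cancel]⟩
      left_inv := fun l => Subtype.ext (mul_inv_cancel_right (l : X) x)
      right_inv := fun y => Subtype.ext (inv_mul_cancel_right (y : X) x) }
  exact (Nat.card_congr E).symm

/-- invariant elements are determined by their images -/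
theorem eq_of_mapA (φ : X →* Y) (h0 : (Nat.card φ.ker : k) ≠ 0) {e e' : MonoidAlgebra k X}
    (he : ∀ l ∈ φ.ker, MonoidAlgebra.single l (1 : k) * e = e)
    (he' : ∀ l ∈ φ.ker, MonoidAlgebra.single l (1 : k) * e' = e')
    (h : mapA k φ e = mapA k φ e') : e = e' := by
  ext x
  have h1 := congrArg (fun w : MonoidAlgebra k Y => w.coeff (φ x)) h
  simp only [coeff_mapA_ker φ he, coeff_mapA_ker φ he'] at h1
  exact mul_left_cancel₀ h0 h1

/-- the image of a block -/
theorem isBlock_mapA (φ : X →* Y) (hφ : Function.Surjective φ)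
    (h0 : (Nat.card φ.ker : k) ≠ 0) {B : MonoidAlgebra k X} (hB : IsBlock B)
    (hKB : ∀ l ∈ φ.ker, MonoidAlgebra.single l (1 : k) * B = B) : IsBlock (mapA k φ B) := by
  have := Fintype.ofSurjective φ hφ
  refine ⟨?_, by rw [← map_mul, hB.2.1], ?_, fun e he hee heB => ?_⟩
  · rw [P179C.mem_center_iff]
    intro t y
    obtain ⟨t, rfl⟩ := hφ t
    obtain ⟨y, rfl⟩ := hφ y
    change (mapA k φ B).coeff (φ t * φ y * (φ t)⁻¹) = (mapA k φ B).coeff (φ y)
    rw [← map_inv, ← map_mul, ← map_mul, coeff_mapA_ker φ hKB, coeff_mapA_ker φ hKB]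
    exact congrArg _ ((P179C.mem_center_iff _).1 hB.1 t y)
  · intro h
    apply hB.2.2.1
    ext x
    have h1 := congrArg (fun w : MonoidAlgebra k Y => w.coeff (φ x)) h
    simp only [coeff_mapA_ker φ hKB] at h1
    exact (mul_eq_zero.1 h1).resolve_left h0
  · set w : MonoidAlgebra k X := mkF fun x => (Nat.card φ.ker : k)⁻¹ * e.coeff (φ x) with hw
    have hwi : ∀ l ∈ φ.ker, MonoidAlgebra.single l (1 : k) * w = w := by
      intro l hl
      ext x
      rw [MonoidAlgebra.coeff_single_mul_apply, one_mul, hw, coeff_mkF, coeff_mkF, map_mul,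
        map_inv, (MonoidHom.mem_ker).1 hl, inv_one, one_mul]
    have hwe : mapA k φ w = e := by
      ext y
      obtain ⟨x, rfl⟩ := hφ y
      rw [coeff_mapA_ker φ hwi, hw, coeff_mkF, mul_inv_cancel_left₀ h0]
    have hwc : w ∈ Subalgebra.center k (MonoidAlgebra k X) := by
      refine mkF_mem fun t x => ?_
      congr 1
      have h1 := (P179C.mem_center_iff _).1 he (φ t) (φ x)
      have e1 : φ (t * x * t⁻¹) = φ t * φ x * (φ t)⁻¹ := by rw [map_mul, map_mul, map_inv]
      rw [e1]
      exact h1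
    have hww : w * w = w := by
      refine eq_of_mapA φ h0 (fun l hl => by rw [← mul_assoc, hwi l hl]) hwi ?_
      rw [map_mul, hwe, hee]
    have hwB : w * B = w := by
      refine eq_of_mapA φ h0 (fun l hl => by rw [← mul_assoc, hwi l hl]) hwi ?_
      rw [map_mul, hwe, heB]
    rcases hB.2.2.2 w hwc hww hwB with h | h
    · left
      rw [← hwe, h, map_zero]
    · right
      rw [← hwe, h]

end Ker

end P179H452
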