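import Vale.Agent.P179.R2.H452.Fh1
import Vale.Agent.P179.R2.H450.DQ3

/-!
# The quotient by a normal `p'`-subgroup acting trivially on a block: defect groups
-/

namespace P179H452

open Subgroup Finset P179H524 P179C P179A P179P P179R P179Y P179H443 P179H450

open scoped Classical

universe u

section Mono

variable {k : Type u} [Field k] {G : Type} [Group G] [Finite G]

omit [Finite G] in
theorem conjBy_sum' {ι : Type*} (g : G) (s : Finset ι) (f : ι → MonoidAlgebra k G) :
    conjBy g (∑ i ∈ s, f i) = ∑ i ∈ s, conjBy g (f i) := by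
  unfold conjBy
  rw [Finset.mul_sum, Finset.sum_mul]

/-- relative traces from larger subgroups -/
theorem isRelTrace_mono {D M : Subgroup G} (hDM : D ≤ M) {z : MonoidAlgebra k G}
    (h : IsRelTrace z D) : IsRelTrace z M := by
  have := Fintype.ofFinite G
  obtain ⟨a, ha, hz⟩ := h
  have hf1 := Fintype.ofFinite (G ⧸ D)
  have hf2 := Fintype.ofFinite (G ⧸ M)
  have hf3 := Fintype.ofFinite (M ⧸ D.subgroupOf M)
  have hd : ∀ (g : G) (d : G), d ∈ D → conjBy (g * d) a = conjBy g a := by
    intro g d hd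
    rw [P179H450.conjBy_comp, ha d hd]
  refine ⟨∑ t : M ⧸ D.subgroupOf M, conjBy (t.out : G) a, fun m hm => ?_, ?_⟩
  · rw [conjBy_sum']
    refine Fintype.sum_equiv (MulAction.toPerm (⟨m, hm⟩ : M)) _ _ fun t => ?_
    induction t using QuotientGroup.induction_on with
    | H c =>
    change conjBy m (conjBy ((c : M ⧸ D.subgroupOf M).out : G) a) =
      conjBy ((((⟨m, hm⟩ * c : M) : M ⧸ D.subgroupOf M).out : M) : G) a
    obtain ⟨d, hd1⟩ := QuotientGroup.mk_out_eq_mul (D.subgroupOf M) c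
    obtain ⟨d', hd2⟩ := QuotientGroup.mk_out_eq_mul (D.subgroupOf M) (⟨m, hm⟩ * c)
    rw [hd1, hd2, ← P179H450.conjBy_comp]
    have e1 : m * ((c * (d : M) : M) : G) = m * c * ((d : M) : G) := by
      change m * ((c : G) * ((d : M) : G)) = _
      group
    have e2 : (((⟨m, hm⟩ * c) * (d' : M) : M) : G) = m * c * ((d' : M) : G) := rfl
    rw [e1, e2, hd _ _ (mem_subgroupOf.1 d.2), hd _ _ (mem_subgroupOf.1 d'.2)]
  · rw [hz, finsum_eq_sum_of_fintype, finsum_eq_sum_of_fintype]
    have h2 : ∑ s : G ⧸ D, conjBy s.out a =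
        ∑ q : (G ⧸ M) × (M ⧸ D.subgroupOf M),
          conjBy ((quotientEquivProdOfLE hDM).symm q).out a :=
      (Equiv.sum_comp (quotientEquivProdOfLE hDM).symm
        fun s : G ⧸ D => conjBy s.out a).symm
    rw [h2, Fintype.sum_prod_type]
    refine Finset.sum_congr rfl fun s _ => ?_
    rw [conjBy_sum']
    refine Finset.sum_congr rfl fun t _ => ?_
    have h4 : (quotientEquivProdOfLE hDM).symm (s, t) = ((s.out * (t.out : G) : G) : G ⧸ D) := by
      conv_lhs => rw [← QuotientGroup.out_eq' t]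
      rfl
    obtain ⟨d, hd1⟩ := QuotientGroup.mk_out_eq_mul D (s.out * (t.out : G))
    rw [h4, hd1, hd _ _ d.2, P179H450.conjBy_comp]

end Mono

section Quo

variable {p : ℕ} [hp : Fact p.Prime] {k : Type u} [Field k] [IsAlgClosed k] [CharP k p]
  {G : Type} [Group G] [Finite G] (K : Subgroup G) [hK : K.Normal]

theorem ker_mk' : (QuotientGroup.mk' K).ker = K := QuotientGroup.ker_mk' K

include hp in
theorem card_ne_zero_of_not_dvd (hpK : ¬ p ∣ Nat.card K) :
    (Nat.card (QuotientGroup.mk' K).ker : k) ≠ 0 := by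
  rw [QuotientGroup.ker_mk', Ne, CharP.cast_eq_zero_iff k p]
  exact hpK

/-- the defect groups of the image -/
theorem isDefectGroup_ker (hpK : ¬ p ∣ Nat.card K) {B : MonoidAlgebra k G} (hB : IsBlock B)
    (hKB : ∀ l ∈ K, MonoidAlgebra.single l (1 : k) * B = B) {D : Subgroup G}
    (hD : IsDefectGroup B D) : IsDefectGroup (quo K B) (D.map (QuotientGroup.mk' K)) := by
  have := Fintype.ofFinite G
  have hKB' : ∀ l ∈ (QuotientGroup.mk' K).ker, MonoidAlgebra.single l (1 : k) * B = B := by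
    intro l hl
    rw [QuotientGroup.ker_mk'] at hl
    exact hKB l hl
  have h0 := card_ne_zero_of_not_dvd (p := p) (k := k) K hpK
  have hB' : IsBlock (quo K B) :=
    isBlock_mapA (QuotientGroup.mk' K) (QuotientGroup.mk'_surjective K) h0 hB hKB'
  have hcoe : ∀ x : G, (quo K B).coeff (x : G ⧸ K) =
      (Nat.card (QuotientGroup.mk' K).ker : k) * B.coeff x := fun x =>
    coeff_mapA_ker (QuotientGroup.mk' K) hKB' x
  -- the upper bound
  have h1 : IsRelTrace (quo K B) (D.map (QuotientGroup.mk' K)) := by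
    have h2 := isRelTrace_quo (D := D ⊔ K) (R := K) le_sup_right
      (isRelTrace_mono le_sup_left hD.1) hB'.1 hB'.2.1
    have h3 : (D ⊔ K).map (QuotientGroup.mk' K) = D.map (QuotientGroup.mk' K) := by
      rw [Subgroup.map_sup, QuotientGroup.map_mk'_self, sup_bot_eq]
    rwa [h3] at h2
  obtain ⟨D2, hD2, hD2m⟩ := exists_minimal_le_of_wellFoundedLT (IsRelTrace (quo K B)) _ h1
  obtain ⟨hDp, l, hl, hlz⟩ := exists_BP_of_block (p := p) B hB D hD
  have hBcf : IsCF (fun g => B.coeff g) := (P179C.mem_center_iff _).1 hB.1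
  obtain ⟨x, hx, hxB⟩ : ∃ x ∈ centralizer (D : Set G), B.coeff x ≠ 0 := by
    by_contra hcon
    push Not at hcon
    have h3 : l (fun g => B.coeff g) = 0 := hl.supp _ hcon
    rw [hlz _ hBcf, mkF_coeff, centralChar_self B hB] at h3
    exact one_ne_zero h3
  have hxB' : (quo K B).coeff (x : G ⧸ K) ≠ 0 := by
    rw [hcoe]
    exact mul_ne_zero h0 hxB
  obtain ⟨g, hg⟩ := suppIn_of_isDefectGroup (p := p) hD2m (x : G ⧸ K) hxB'
    (D.map (QuotientGroup.mk' K)) (hDp.map _) (by
      rintro _ ⟨d, hd, rfl⟩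
      rw [mem_centralizer_singleton_iff]
      have h2 := mem_centralizer_iff.1 hx d hd
      change ((d : G) : G ⧸ K) * (x : G ⧸ K) = (x : G ⧸ K) * (d : G ⧸ K)
      rw [← QuotientGroup.mk_mul, ← QuotientGroup.mk_mul, h2])
  have hcard : Nat.card (D.map (QuotientGroup.mk' K) : Subgroup (G ⧸ K)) ≤ Nat.card D2 := by
    refine Nat.card_le_card_of_injective
      (fun y : (D.map (QuotientGroup.mk' K) : Subgroup (G ⧸ K)) => (⟨_, hg y y.2⟩ : D2))
      fun y y' h => ?_
    have h3 := congrArg Subtype.val h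
    exact Subtype.ext (mul_left_cancel (mul_right_cancel h3))
  have h4 : D2 = D.map (QuotientGroup.mk' K) := Subgroup.eq_of_le_of_card_ge hD2 hcard
  rw [← h4]
  exact hD2m

end Quo

end P179H452
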