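import Vale.Agent.P179.R2.H452.Fh2

/-!
# The quotient by a normal `p'`-subgroup acting trivially on a block: weights
-/

namespace P179H452

open Subgroup Finset P179H524 P179C P179A P179P P179R P179Y P179H443 P179H450

open scoped Classical

universe u

section Grp

variable {p : ℕ} [hp : Fact p.Prime] {G : Type} [Group G] [Finite G] {K : Subgroup G}
  [hK : K.Normal] {D : Subgroup G}

omit hK in
theorem eq_one_of_inf (hpK : ¬ p ∣ Nat.card K) (hD : IsPGroup p D) {x : G} (hx : x ∈ K)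
    (hxD : x ∈ D) : x = 1 := by
  obtain ⟨n, hn⟩ := hD ⟨x, hxD⟩
  have h1 : x ^ p ^ n = 1 := congrArg Subtype.val hn
  have h2 : orderOf x ∣ p ^ n := orderOf_dvd_of_pow_eq_one h1
  have h3 : orderOf x ∣ Nat.card K := by
    have h4 := orderOf_dvd_natCard (⟨x, hx⟩ : K)
    rwa [← orderOf_injective K.subtype K.subtype_injective] at h4
  have h5 : Nat.Coprime (p ^ n) (Nat.card K) :=
    Nat.Coprime.pow_left n ((Nat.Prime.coprime_iff_not_dvd hp.out).2 hpK)
  exact orderOf_eq_one_iff.1 (Nat.eq_one_of_dvd_coprimes h5 h2 h3)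

omit [Finite G] in
theorem mk_mem_cent {x : G} (hx : x ∈ centralizer (D : Set G)) :
    (x : G ⧸ K) ∈ centralizer ((D.map (QuotientGroup.mk' K) : Subgroup (G ⧸ K)) : Set (G ⧸ K)) := by
  rw [mem_centralizer_iff]
  rintro _ ⟨d, hd, rfl⟩
  have h2 := mem_centralizer_iff.1 hx d hd
  change ((d : G) : G ⧸ K) * (x : G ⧸ K) = (x : G ⧸ K) * (d : G ⧸ K)
  rw [← QuotientGroup.mk_mul, ← QuotientGroup.mk_mul, h2]

theorem mem_cent_of_mk (hpK : ¬ p ∣ Nat.card K) (hD : IsPGroup p D) {n : G}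
    (hn : n ∈ normalizer (D : Set G)) (h : (n : G ⧸ K) ∈
      centralizer ((D.map (QuotientGroup.mk' K) : Subgroup (G ⧸ K)) : Set (G ⧸ K))) :
    n ∈ centralizer (D : Set G) := by
  rw [mem_centralizer_iff]
  intro d hd
  have h1 := mem_centralizer_iff.1 h ((d : G) : G ⧸ K) ⟨d, hd, rfl⟩
  have h2 : ((n * d * n⁻¹ * d⁻¹ : G) : G ⧸ K) = 1 := by
    rw [QuotientGroup.mk_mul, QuotientGroup.mk_mul, QuotientGroup.mk_mul, QuotientGroup.mk_inv,
      QuotientGroup.mk_inv, ← h1]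
    group
  rw [QuotientGroup.eq_one_iff] at h2
  have h3 : n * d * n⁻¹ * d⁻¹ = 1 :=
    eq_one_of_inf hpK hD h2 (mul_mem ((mem_normalizer_iff.1 hn d).1 hd) (inv_mem hd))
  have h4 : n * d * n⁻¹ = d := by
    rw [← mul_inv_eq_one]
    exact h3
  calc d * n = n * d * n⁻¹ * n := by rw [h4]
    _ = n * d := by group

/-- `p`-subgroups of `D K` -/
theorem card_le_of_pgroup (hpK : ¬ p ∣ Nat.card K) {Q : Subgroup G} (hQ : IsPGroup p Q)
    (hQM : Q ≤ D ⊔ K) : Nat.card Q ≤ Nat.card D := by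
  have h1 : ∀ q : Q, ∃ d : D, ((d : G) : G ⧸ K) = ((q : G) : G ⧸ K) := by
    intro q
    have h2 : ((q : G) : G ⧸ K) ∈ (D ⊔ K).map (QuotientGroup.mk' K) := ⟨q, hQM q.2, rfl⟩
    rw [Subgroup.map_sup, QuotientGroup.map_mk'_self, sup_bot_eq] at h2
    obtain ⟨d, hd, h3⟩ := h2
    exact ⟨⟨d, hd⟩, h3⟩
  choose f hf using h1
  refine Nat.card_le_card_of_injective f fun q q' h => ?_
  have h2 : ((q : G) : G ⧸ K) = ((q' : G) : G ⧸ K) := by rw [← hf, ← hf, h]
  have h3 := QuotientGroup.eq.1 h2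
  have h4 := eq_one_of_inf hpK hQ h3 (mul_mem (inv_mem q.2) q'.2)
  exact Subtype.ext (inv_mul_eq_one.1 h4)

/-- the normaliser covers the normaliser of the image -/
theorem exists_norm_lift (hpK : ¬ p ∣ Nat.card K) (hD : IsPGroup p D) {y : G}
    (hy : (y : G ⧸ K) ∈
      normalizer ((D.map (QuotientGroup.mk' K) : Subgroup (G ⧸ K)) : Set (G ⧸ K))) :
    ∃ n ∈ normalizer (D : Set G), (n : G ⧸ K) = (y : G ⧸ K) := by
  have hmapM : ∀ x : G, (x : G ⧸ K) ∈ D.map (QuotientGroup.mk' K) ↔ x ∈ D ⊔ K := by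
    intro x
    constructor
    · rintro ⟨d, hd, hdx⟩
      have h1 : ((d : G) : G ⧸ K) = (x : G ⧸ K) := hdx
      have h2 := QuotientGroup.eq.1 h1
      have h3 := mul_mem (mem_sup_left (T := K) hd) (mem_sup_right (S := D) h2)
      rwa [mul_inv_cancel_left] at h3
    · intro hx
      have h2 : ((x : G) : G ⧸ K) ∈ (D ⊔ K).map (QuotientGroup.mk' K) := ⟨x, hx, rfl⟩
      rwa [Subgroup.map_sup, QuotientGroup.map_mk'_self, sup_bot_eq] at h2
  have hyM : ∀ d ∈ D, y * d * y⁻¹ ∈ D ⊔ K := by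
    intro d hd
    rw [← hmapM, QuotientGroup.mk_mul, QuotientGroup.mk_mul, QuotientGroup.mk_inv]
    exact (mem_normalizer_iff.1 hy _).1 ⟨d, hd, rfl⟩
  set M : Subgroup G := D ⊔ K with hM
  set E : Subgroup G := D.map (MulAut.conj y).toMonoidHom with hE
  have hEM : E ≤ M := by
    rintro _ ⟨d, hd, rfl⟩
    exact hyM d hd
  have hDM : D ≤ M := le_sup_left
  have hcE : Nat.card E = Nat.card D :=
    (Nat.card_congr (D.equivMapOfInjective _ (MulAut.conj y).injective).toEquiv).symm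
  have hsyl : ∀ Q : Subgroup G, IsPGroup p Q → Q ≤ M → Nat.card Q = Nat.card D →
      ∃ P : Sylow p M, (P : Subgroup M) = Q.subgroupOf M := by
    intro Q hQ hQM hcQ
    obtain ⟨P, hP⟩ := (hQ.comap_subtype : IsPGroup p (Q.subgroupOf M)).exists_le_sylow
    refine ⟨P, (Subgroup.eq_of_le_of_card_ge hP ?_).symm⟩
    have h1 := card_le_of_pgroup (D := D) hpK (P.2.map M.subtype) (by
      rw [← hM]
      exact map_subtype_le _)
    have h2 : Nat.card ((P : Subgroup M).map M.subtype : Subgroup G) =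
        Nat.card (P : Subgroup M) :=
      (Nat.card_congr ((P : Subgroup M).equivMapOfInjective _ M.subtype_injective).toEquiv).symm
    have h3 : Nat.card (Q.subgroupOf M) = Nat.card Q :=
      Nat.card_congr (subgroupOfEquivOfLe hQM).toEquiv
    have h4 : Nat.card (P : Subgroup M) ≤ Nat.card (Q.subgroupOf M) := by
      rw [h3, hcQ, ← h2]
      exact h1
    exact h4
  obtain ⟨P1, hP1⟩ := hsyl D hD hDM rfl
  obtain ⟨P2, hP2⟩ := hsyl E (hD.map _) hEM hcE
  obtain ⟨m, hm⟩ := MulAction.exists_smul_eq M P1 P2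
  have h1 : (m : G)⁻¹ * y ∈ normalizer (D : Set G) := by
    apply mem_norm_of_conj_le
    intro d hd
    have h3 : (⟨d, hDM hd⟩ : M) ∈ (P1 : Subgroup M) := by
      rw [hP1]
      exact mem_subgroupOf.2 hd
    have h4 : m * ⟨d, hDM hd⟩ * m⁻¹ ∈ ((m • P1 : Sylow p M) : Subgroup M) :=
      ⟨⟨d, hDM hd⟩, h3, rfl⟩
    rw [hm, hP2, mem_subgroupOf] at h4
    obtain ⟨d', hd', h5⟩ := h4
    have h6 : y * d' * y⁻¹ = (m : G) * d * (m : G)⁻¹ := h5
    have h7 : ((m : G)⁻¹ * y)⁻¹ * d * ((m : G)⁻¹ * y) = d' := by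
      have e1 : ((m : G)⁻¹ * y)⁻¹ * d * ((m : G)⁻¹ * y) =
          y⁻¹ * ((m : G) * d * (m : G)⁻¹) * y := by group
      rw [e1, ← h6]
      group
    rw [h7]
    exact hd'
  obtain ⟨d, hd, hdm⟩ := (hmapM m).2 m.2
  have hdm' : ((d : G) : G ⧸ K) = ((m : G) : G ⧸ K) := hdm
  refine ⟨d * ((m : G)⁻¹ * y), mul_mem (le_normalizer hd) h1, ?_⟩
  rw [QuotientGroup.mk_mul, QuotientGroup.mk_mul, QuotientGroup.mk_inv, hdm',
    mul_inv_cancel_left]

end Grp

end P179H452
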