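import Vale.Agent.P179.R2.H452.Fh3

/-!
# The quotient by a normal `p'`-subgroup acting trivially on a block: the step
-/

namespace P179H452

open Subgroup Finset P179H524 P179C P179A P179P P179R P179Y P179H443 P179H450

open scoped Classical

universe u

section Main

variable {p : ℕ} [hp : Fact p.Prime] {k : Type u} [Field k] [IsAlgClosed k] [CharP k p]
  (red : integralClosure ℤ ℂ →+* k) {G : Type} [Group G] [Finite G] {K : Subgroup G}
  [hK : K.Normal] {D : Subgroup G} {B : MonoidAlgebra k G}

/-- the weights of the image -/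
theorem numWeights_ker (hpK : ¬ p ∣ Nat.card K) (hB : IsBlock B)
    (hKB : ∀ l ∈ K, MonoidAlgebra.single l (1 : k) * B = B) (hD : IsDefectGroup B D)
    (hab : ∀ a ∈ D, ∀ b ∈ D, a * b = b * a) :
    numWeightsIn p red B = numWeightsIn p red (quo K B) := by
  have := Fintype.ofFinite G
  have := Fintype.ofFinite (G ⧸ K)
  have hKB' : ∀ l ∈ (QuotientGroup.mk' K).ker, MonoidAlgebra.single l (1 : k) * B = B := by
    intro l hl
    rw [QuotientGroup.ker_mk'] at hl
    exact hKB l hl
  have h0 := card_ne_zero_of_not_dvd (p := p) (k := k) K hpK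
  have hB' : IsBlock (quo K B) :=
    isBlock_mapA (QuotientGroup.mk' K) (QuotientGroup.mk'_surjective K) h0 hB hKB'
  have hcoe : ∀ x : G, (quo K B).coeff (x : G ⧸ K) =
      (Nat.card (QuotientGroup.mk' K).ker : k) * B.coeff x := fun x =>
    coeff_mapA_ker (QuotientGroup.mk' K) hKB' x
  have hinv : ∀ l ∈ K, ∀ y, B.coeff (l * y) = B.coeff y := by
    intro l hl y
    have h1 := congrArg (fun w : MonoidAlgebra k G => w.coeff y) (hKB l⁻¹ (inv_mem hl))
    simp only [MonoidAlgebra.coeff_single_mul_apply, inv_inv, one_mul] at h1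
    exact h1
  have hD' := isDefectGroup_ker K hpK hB hKB hD
  have hDp : IsPGroup p D := (exists_BP_of_block (p := p) B hB D hD).1
  obtain ⟨hb0, hw⟩ := exists_corr_cut red hB hD hab
  obtain ⟨hb1, hw1⟩ := exists_corr_cut red hB' hD' (by
    rintro _ ⟨a, ha, rfl⟩ _ ⟨b, hb, rfl⟩
    rw [← map_mul, ← map_mul, hab a ha b hb])
  rw [hw, hw1]
  set D' : Subgroup (G ⧸ K) := D.map (QuotientGroup.mk' K) with hD'def
  have hnorm : ∀ n ∈ normalizer (D : Set G), (n : G ⧸ K) ∈ normalizer (D' : Set (G ⧸ K)) := by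
    intro n hn
    apply mem_norm_of_conj_le
    rintro _ ⟨d, hd, rfl⟩
    refine ⟨n⁻¹ * d * n, ?_, rfl⟩
    have h1 := (mem_normalizer_iff.1 (inv_mem hn) d).1 hd
    rwa [inv_inv] at h1
  let ψ : normalizer (D : Set G) →* normalizer (D' : Set (G ⧸ K)) :=
    { toFun := fun n => ⟨((n : G) : G ⧸ K), hnorm n n.2⟩
      map_one' := rfl
      map_mul' := fun x y => rfl }
  have hψ : Function.Surjective ψ := by
    rintro ⟨y, hy⟩
    obtain ⟨y, rfl⟩ := QuotientGroup.mk_surjective y
    obtain ⟨n, hn, hny⟩ := exists_norm_lift hpK hDp hy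
    exact ⟨⟨n, hn⟩, Subtype.ext hny⟩
  have hker : ∀ n : normalizer (D : Set G), n ∈ ψ.ker ↔ (n : G) ∈ K := by
    intro n
    rw [MonoidHom.mem_ker, ← QuotientGroup.eq_one_iff]
    constructor
    · intro h
      exact congrArg Subtype.val h
    · intro h
      exact Subtype.ext h
  have hkerC : ∀ x ∈ K, x ∈ normalizer (D : Set G) → x ∈ centralizer (D : Set G) := by
    intro x hx hxN
    refine mem_cent_of_mk hpK hDp hxN ?_
    rw [(QuotientGroup.eq_one_iff x).2 hx]
    exact one_mem _
  have hinv0 : ∀ l ∈ ψ.ker, MonoidAlgebra.single l (1 : k) *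
      (mkF fun n : normalizer (D : Set G) => cutC D (fun g => B.coeff g) n) =
      mkF fun n : normalizer (D : Set G) => cutC D (fun g => B.coeff g) n := by
    intro l hl
    have hlK := (hker l).1 hl
    have hlC := hkerC _ hlK l.2
    ext n
    rw [MonoidAlgebra.coeff_single_mul_apply, one_mul, coeff_mkF, coeff_mkF]
    change cutC D (fun g => B.coeff g) ((l : G)⁻¹ * (n : G)) = _
    unfold cutC
    by_cases h : (n : G) ∈ centralizer (D : Set G)
    · rw [if_pos h, if_pos (mul_mem (inv_mem hlC) h)]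
      exact hinv _ (inv_mem hlK) _
    · rw [if_neg h, if_neg]
      intro h1
      apply h
      have h2 := mul_mem hlC h1
      rwa [mul_inv_cancel_left] at h2
  -- the order of the kernel
  have hcard : (Nat.card ψ.ker : k) = (Nat.card (QuotientGroup.mk' K).ker : k) := by
    rw [QuotientGroup.ker_mk']
    let act : MulAction D K :=
      { smul := fun d x => ⟨(d : G) * x * (d : G)⁻¹, hK.conj_mem _ x.2 d⟩
        one_smul := fun x => Subtype.ext (by
          change ((1 : D) : G) * x * ((1 : D) : G)⁻¹ = x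
          simp)
        mul_smul := fun d d' x => Subtype.ext (by
          change ((d * d' : D) : G) * x * ((d * d' : D) : G)⁻¹ =
            (d : G) * ((d' : G) * x * (d' : G)⁻¹) * (d : G)⁻¹
          simp [mul_assoc]) }
    have h1 := hDp.card_modEq_card_fixedPoints K
    have h2 : Nat.card (MulAction.fixedPoints D K) = Nat.card ψ.ker := by
      refine Nat.card_congr
        { toFun := fun x => ⟨⟨((x : K) : G), ?_⟩, ?_⟩
          invFun := fun y => ⟨⟨((y : normalizer (D : Set G)) : G), (hker _).1 y.2⟩, ?_⟩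
          left_inv := fun x => rfl
          right_inv := fun y => rfl }
      · refine cent_le_norm D ?_
        rw [mem_centralizer_iff]
        intro d hd
        have h3 : (⟨d, hd⟩ : D) • (x : K) = x := x.2 ⟨d, hd⟩
        have h4 : d * ((x : K) : G) * d⁻¹ = (x : K) := congrArg Subtype.val h3
        calc d * ((x : K) : G) = d * ((x : K) : G) * d⁻¹ * d := by group
          _ = ((x : K) : G) * d := by rw [h4]
      · exact (hker _).2 (x : K).2
      · intro d
        apply Subtype.ext
        change (d : G) * ((y : normalizer (D : Set G)) : G) * (d : G)⁻¹ = _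
        have h3 := hkerC _ ((hker _).1 y.2) (y : normalizer (D : Set G)).2
        rw [mem_centralizer_iff.1 h3 d d.2, mul_inv_cancel_right]
    rw [← h2]
    exact ((CharP.natCast_eq_natCast k p).2 h1).symm
  rw [numSimple_ker ψ hψ hinv0]
  congr 1
  ext y
  obtain ⟨n, rfl⟩ := hψ y
  rw [coeff_mapA_ker ψ hinv0, coeff_mkF, coeff_mkF, hcard]
  change _ = cutC D' (fun g => (quo K B).coeff g) ((n : G) : G ⧸ K)
  unfold cutC
  by_cases h : (n : G) ∈ centralizer (D : Set G)
  · rw [if_pos h, if_pos (mk_mem_cent h)]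
    exact (hcoe _).symm
  · rw [if_neg h, if_neg fun h' => h (mem_cent_of_mk hpK hDp n.2 h'), mul_zero]

/-- **the step**: the quotient by a normal `p'`-subgroup acting trivially on `B` -/
theorem ker_step (hK1 : K ≠ ⊥) (hpK : ¬ p ∣ Nat.card K) (hB : IsBlock B)
    (hKB : ∀ l ∈ K, MonoidAlgebra.single l (1 : k) * B = B) (hD : IsDefectGroup B D)
    (hab : ∀ a ∈ D, ∀ b ∈ D, a * b = b * a) :
    ∃ (c : MonoidAlgebra k (G ⧸ K)) (E : Subgroup (G ⧸ K)),
      Nat.card (G ⧸ K) < Nat.card G ∧ IsBlock c ∧ IsDefectGroup c E ∧ Nonempty (D ≃* E) ∧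
      numSimpleIn B = numSimpleIn c ∧ numWeightsIn p red B = numWeightsIn p red c := by
  have := Fintype.ofFinite G
  have hKB' : ∀ l ∈ (QuotientGroup.mk' K).ker, MonoidAlgebra.single l (1 : k) * B = B := by
    intro l hl
    rw [QuotientGroup.ker_mk'] at hl
    exact hKB l hl
  have h0 := card_ne_zero_of_not_dvd (p := p) (k := k) K hpK
  have hDp : IsPGroup p D := (exists_BP_of_block (p := p) B hB D hD).1
  refine ⟨quo K B, D.map (QuotientGroup.mk' K), ?_,
    isBlock_mapA (QuotientGroup.mk' K) (QuotientGroup.mk'_surjective K) h0 hB hKB',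
    isDefectGroup_ker K hpK hB hKB hD, ?_,
    numSimple_ker (QuotientGroup.mk' K) (QuotientGroup.mk'_surjective K) hKB',
    numWeights_ker red hpK hB hKB hD hab⟩
  · have h1 := K.card_eq_card_quotient_mul_card_subgroup
    have h2 : 1 < Nat.card K := by
      have h3 : Nat.card K ≠ 1 := fun h => hK1 (Subgroup.card_eq_one.1 h)
      have h4 : 0 < Nat.card K := Nat.card_pos
      omega
    have h3 : 0 < Nat.card (G ⧸ K) := Nat.card_pos
    rw [h1]
    nlinarith
  · refine ⟨MulEquiv.ofBijective ((QuotientGroup.mk' K).subgroupMap D) ⟨?_,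
      MonoidHom.subgroupMap_surjective _ _⟩⟩
    rw [injective_iff_map_eq_one]
    intro x hx
    have h1 : ((x : G) : G ⧸ K) = 1 := congrArg Subtype.val hx
    exact Subtype.ext (eq_one_of_inf hpK hDp ((QuotientGroup.eq_one_iff _).1 h1) x.2)

end Main

end P179H452
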