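import Vale.Agent.P179.R2.H452.Fh4

/-!
# Abelian normal subgroups
-/

namespace P179H452

open Subgroup Finset P179H524 P179C P179A P179P P179R P179Y P179H872 P179H967

open scoped Classical

universe u

section Ab

variable {p : ℕ} [hp : Fact p.Prime] {k : Type u} [Field k] [IsAlgClosed k] [CharP k p]

/-- the blocks of an abelian `p'`-group are linear -/
theorem exists_lin {A : Type} [Group A] [Finite A] (hA : ∀ a b : A, a * b = b * a)
    (hpA : ¬ p ∣ Nat.card A) {e : MonoidAlgebra k A} (he : IsBlock e) (a : A) :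
    ∃ r : k, MonoidAlgebra.single a (1 : k) * e = r • e := by
  have := Fintype.ofFinite A
  have hcen : ∀ z : MonoidAlgebra k A, z ∈ Subalgebra.center k (MonoidAlgebra k A) := by
    intro z
    rw [P179C.mem_center_iff]
    intro t x
    rw [hA t x, mul_inv_cancel_right]
  obtain ⟨L, hL⟩ := blockHomStmt e he
  let lam : A → k := fun x => L ⟨MonoidAlgebra.single x 1, hcen _⟩
  have hmul : ∀ x y, lam (x * y) = lam x * lam y := by
    intro x y
    change L _ = L _ * L _
    rw [← map_mul]
    congr 1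
    apply Subtype.ext
    change _ = MonoidAlgebra.single x (1 : k) * MonoidAlgebra.single y 1
    rw [MonoidAlgebra.single_mul_single, one_mul]
  have hone : lam 1 = 1 := by
    have h1 : (⟨MonoidAlgebra.single 1 1, hcen _⟩ :
        Subalgebra.center k (MonoidAlgebra k A)) = 1 := Subtype.ext MonoidAlgebra.one_def.symm
    change L ⟨MonoidAlgebra.single 1 1, hcen _⟩ = 1
    rw [h1, map_one]
  have h0 : (Nat.card A : k) ≠ 0 := by
    rw [Ne, CharP.cast_eq_zero_iff k p]
    exact hpA
  set E : MonoidAlgebra k A := mkF fun x => (Nat.card A : k)⁻¹ * lam x⁻¹ with hE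
  have hsing : ∀ x, MonoidAlgebra.single x (1 : k) * E = lam x • E := by
    intro x
    ext y
    rw [MonoidAlgebra.coeff_single_mul_apply, one_mul, hE, coeff_mkF, mul_inv_rev, inv_inv,
      hmul]
    change _ = lam x * (mkF fun x => (Nat.card A : k)⁻¹ * lam x⁻¹).coeff y
    rw [coeff_mkF]
    ring
  have hzE : ∀ z : MonoidAlgebra k A, z * E = (L ⟨z, hcen z⟩) • E := by
    intro z
    have h1 : z = ∑ x, z.coeff x • MonoidAlgebra.single x (1 : k) := by
      conv_lhs => rw [← mkF_coeff z]
      unfold mkF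
      refine Finset.sum_congr rfl fun x _ => ?_
      rw [MonoidAlgebra.smul_single, smul_eq_mul, mul_one]
    have h2 : (⟨z, hcen z⟩ : Subalgebra.center k (MonoidAlgebra k A)) =
        ∑ x, z.coeff x • ⟨MonoidAlgebra.single x (1 : k), hcen _⟩ := by
      apply Subtype.ext
      rw [AddSubmonoidClass.coe_finsetSum]
      exact h1
    rw [h2, map_sum, Finset.sum_smul]
    conv_lhs => rw [h1]
    rw [Finset.sum_mul]
    refine Finset.sum_congr rfl fun x _ => ?_
    rw [smul_mul_assoc, hsing, map_smul, smul_smul]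
    rfl
  have hLE : L ⟨E, hcen E⟩ = 1 := by
    have h1 : (⟨E, hcen E⟩ : Subalgebra.center k (MonoidAlgebra k A)) =
        ∑ x, ((Nat.card A : k)⁻¹ * lam x⁻¹) • ⟨MonoidAlgebra.single x (1 : k), hcen _⟩ := by
      apply Subtype.ext
      rw [AddSubmonoidClass.coe_finsetSum, hE]
      unfold mkF
      refine Finset.sum_congr rfl fun x _ => ?_
      change _ = ((Nat.card A : k)⁻¹ * lam x⁻¹) • MonoidAlgebra.single x (1 : k)
      rw [MonoidAlgebra.smul_single, smul_eq_mul, mul_one]
    rw [h1, map_sum]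
    have h2 : ∀ x : A, L (((Nat.card A : k)⁻¹ * lam x⁻¹) •
        (⟨MonoidAlgebra.single x (1 : k), hcen _⟩ :
          Subalgebra.center k (MonoidAlgebra k A))) = (Nat.card A : k)⁻¹ := by
      intro x
      rw [map_smul, smul_eq_mul]
      change (Nat.card A : k)⁻¹ * lam x⁻¹ * lam x = _
      rw [mul_assoc, ← hmul, inv_mul_cancel, hone, mul_one]
    rw [Finset.sum_congr rfl fun x _ => h2 x, Finset.sum_const, Finset.card_univ,
      ← Nat.card_eq_fintype_card, nsmul_eq_mul, mul_inv_cancel₀ h0]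
  have hEE : E * E = E := by
    rw [hzE, hLE, one_smul]
  have heE : e * E = E := by
    rw [hzE]
    have h1 : L ⟨e, hcen e⟩ = 1 := by
      rw [hL]
      exact centralChar_self e he
    rw [h1, one_smul]
  have hE0 : E ≠ 0 := by
    intro h
    have h1 : (⟨E, hcen E⟩ : Subalgebra.center k (MonoidAlgebra k A)) = 0 := Subtype.ext h
    rw [h1, map_zero] at hLE
    exact zero_ne_one hLE
  have hEe : E = e := by
    rcases he.2.2.2 E (hcen E) hEE (by
      rw [← Subalgebra.mem_center_iff.1 (hcen E) e, heE]) with h | h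
    · exact absurd h hE0
    · exact h
  refine ⟨lam a, ?_⟩
  rw [← hEe]
  exact hsing a

/-- the abelian normal subgroups are central -/
theorem abelian_le_center {G : Type} [Group G] [Finite G] {B : MonoidAlgebra k G}
    (hB : IsBlock B) (hOp : ∀ M : Subgroup G, M.Normal → IsPGroup p M → M = ⊥)
    (hcov : ∀ N : Subgroup G, N.Normal → ∀ e : MonoidAlgebra k N, IsBlock e →
      inc N e * B = 0 ∨ inc N e * B = B)
    (hfaith : ∀ K : Subgroup G, K.Normal → ¬ p ∣ Nat.card K →
      (∀ l ∈ K, MonoidAlgebra.single l (1 : k) * B = B) → K = ⊥)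
    (A : Subgroup G) (hA : A.Normal) (hAb : ∀ x ∈ A, ∀ y ∈ A, x * y = y * x) :
    A ≤ center G := by
  -- `A` is a `p'`-group
  have hpA : ¬ p ∣ Nat.card A := by
    intro hdvd
    obtain ⟨x, hx⟩ := exists_prime_orderOf_dvd_card' (G := A) p hdvd
    let M : Subgroup G :=
      { carrier := {y | y ∈ A ∧ y ^ p = 1}
        mul_mem' := by
          rintro y z ⟨hy, hy1⟩ ⟨hz, hz1⟩
          refine ⟨mul_mem hy hz, ?_⟩
          have h1 : Commute y z := hAb y hy z hz
          rw [h1.mul_pow, hy1, hz1, one_mul]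
        one_mem' := ⟨one_mem A, one_pow p⟩
        inv_mem' := by
          rintro y ⟨hy, hy1⟩
          refine ⟨inv_mem hy, ?_⟩
          rw [inv_pow, hy1, inv_one] }
    have hMn : M.Normal := ⟨fun y hy g => ⟨hA.conj_mem y hy.1 g, by
      rw [conj_pow, hy.2, mul_one, mul_inv_cancel]⟩⟩
    have hMp : IsPGroup p M := fun y => ⟨1, Subtype.ext (by
      rw [pow_one]
      exact y.2.2)⟩
    have h1 := hOp M hMn hMp
    have h2 : (x : G) ∈ M := ⟨x.2, by
      have h3 := pow_orderOf_eq_one x
      rw [hx] at h3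
      exact congrArg Subtype.val h3⟩
    rw [h1, mem_bot] at h2
    have h3 : x = 1 := Subtype.ext h2
    rw [h3, orderOf_one] at hx
    exact hp.out.one_lt.ne hx
  obtain ⟨e, he, hne⟩ := exists_block_inc_mul (p := p) A hB.2.2.1
  have heB := (hcov A hA e he).resolve_left hne
  have hlin : ∀ a ∈ A, ∃ r : k, MonoidAlgebra.single a (1 : k) * B = r • B := by
    intro a ha
    obtain ⟨r, hr⟩ := exists_lin (p := p) (A := A)
      (fun x y => Subtype.ext (hAb x x.2 y y.2)) hpA he ⟨a, ha⟩
    refine ⟨r, ?_⟩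
    have h1 := congrArg (inc A) hr
    rw [map_mul, inc_single, map_smul] at h1
    conv_lhs => rw [← heB]
    rw [← mul_assoc, h1, smul_mul_assoc, heB]
  have hBc := Subalgebra.mem_center_iff.1 hB.1
  have hs : ∀ x y : G, MonoidAlgebra.single (x * y) (1 : k) =
      MonoidAlgebra.single x 1 * MonoidAlgebra.single y 1 := by
    intro x y
    rw [MonoidAlgebra.single_mul_single, one_mul]
  have hconj : ∀ (g x : G) (r : k), MonoidAlgebra.single x (1 : k) * B = r • B →
      MonoidAlgebra.single (g * x * g⁻¹) (1 : k) * B = r • B := by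
    intro g x r hx
    rw [hs, hs, mul_assoc, hBc, ← mul_assoc, mul_assoc (MonoidAlgebra.single g 1), hx,
      mul_smul_comm, smul_mul_assoc, hBc, mul_assoc, ← hs, mul_inv_cancel,
      ← MonoidAlgebra.one_def, mul_one]
  -- the kernel
  let K : Subgroup G :=
    { carrier := {y | y ∈ A ∧ MonoidAlgebra.single y (1 : k) * B = B}
      mul_mem' := by
        rintro y z ⟨hy, hy1⟩ ⟨hz, hz1⟩
        refine ⟨mul_mem hy hz, ?_⟩
        rw [hs, mul_assoc, hz1, hy1]
      one_mem' := ⟨one_mem A, by rw [← MonoidAlgebra.one_def, one_mul]⟩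
      inv_mem' := by
        rintro y ⟨hy, hy1⟩
        refine ⟨inv_mem hy, ?_⟩
        conv_lhs => rw [← hy1]
        rw [← mul_assoc, ← hs, inv_mul_cancel, ← MonoidAlgebra.one_def, one_mul] }
  have hKn : K.Normal := ⟨fun y hy g => ⟨hA.conj_mem y hy.1 g, by
    have h1 := hconj g y 1 (by rw [one_smul]; exact hy.2)
    rwa [one_smul] at h1⟩⟩
  have hKA : K ≤ A := fun y hy => hy.1
  have hK := hfaith K hKn (fun h => hpA (h.trans (card_dvd_of_le hKA))) fun y hy => hy.2
  intro a ha
  rw [Subgroup.mem_center_iff]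
  intro g
  obtain ⟨r, hr⟩ := hlin a ha
  have h1 : g * a * g⁻¹ * a⁻¹ ∈ K := by
    refine ⟨mul_mem (hA.conj_mem a ha g) (inv_mem ha), ?_⟩
    have h2 : B = r • (B * MonoidAlgebra.single a⁻¹ (1 : k)) := by
      rw [← smul_mul_assoc, ← hr, hBc, mul_assoc, ← hs, mul_inv_cancel,
        ← MonoidAlgebra.one_def, mul_one]
    rw [hs (g * a * g⁻¹), mul_assoc, hBc (MonoidAlgebra.single a⁻¹ 1), ← mul_assoc,
      hconj g a r hr, smul_mul_assoc]
    exact h2.symm
  rw [hK, mem_bot] at h1
  have h2 : g * a * g⁻¹ = a := mul_inv_eq_one.1 h1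
  calc g * a = g * a * g⁻¹ * g := by group
    _ = a * g := by rw [h2]

end Ab

end P179H452
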