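import Vale.Agent.P179.R2.H452.Fp6
import Vale.Agent.P179.R2.H452.Fh6
import Vale.Agent.P179.R2.H452.CovDef3

/-!
# The reduction to blocks of groups which are not central products
-/

namespace P179H452

open Subgroup P179H524 P179R P179Y P179H292 P179H351 P179H443 P179H872

open P179B (inertialIndex inertialGroup hyperfocal FactorClosed WeightConjAb ProperFactor
  SpecialBlock CoversOne SolvedBelow PrimitiveBlock NotCentralProduct)

open scoped Classical

universe u

section Main

variable {p : ℕ} [hp : Fact p.Prime] {k : Type u} [Field k] [IsAlgClosed k] [hk : CharP k p]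
  (red : integralClosure ℤ ℂ →+* k)

include hp hk in
/-- the defect groups of a block are conjugate -/
theorem defect_conj' {G : Type} [Group G] [Finite G] {B : MonoidAlgebra k G}
    (hB : P179C.IsBlock B) {D M : Subgroup G} (hD : P179C.IsDefectGroup B D)
    (hM : P179C.IsDefectGroup B M) (hab : ∀ a ∈ D, ∀ b ∈ D, a * b = b * a) :
    ∃ g : G, ∀ x, x ∈ M ↔ g⁻¹ * x * g ∈ D := by
  have := Fintype.ofFinite G
  obtain ⟨hDp, l, hl, hlz⟩ := exists_BP_of_block (p := p) B hB D hD
  obtain ⟨hEp, l2, hl2, hl2z⟩ := exists_BP_of_block (p := p) B hB M hM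
  have hT := hT_of_block hB hD hDp hab hl hlz
  obtain ⟨g, hg, -⟩ := FDc hl hDp hab hT hl2 hEp fun z hz => by rw [hl2z z hz, hlz z hz]
  exact ⟨g, hg⟩

/-- **the step**: central products -/
theorem central_product_step {G : Type} [Group G] [Finite G]
    {B : MonoidAlgebra k G} (hB : P179B.IsBlock B) {D : Subgroup G}
    (hD : P179B.IsDefectGroup B D) (hab : ∀ x ∈ D, ∀ y ∈ D, x * y = y * x)
    (hOp : ∀ M : Subgroup G, M.Normal → IsPGroup p M → M = ⊥) (hcov : CoversOne B)
    (hprop : WeightConjAb p red (fun (K : Type) [Group K] => ProperFactor D K))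
    (hbelow : SolvedBelow p red D) {X Y : Subgroup G}
    (hc : ∀ x ∈ X, ∀ y ∈ Y, x * y = y * x) (hg : ∀ g : G, ∃ x ∈ X, ∃ y ∈ Y, g = x * y)
    (hX : X ≠ ⊤) (hY : Y ≠ ⊤) :
    P179B.numSimpleIn B = P179B.numWeightsIn p red B := by
  have := Fintype.ofFinite G
  have hXn : X.Normal := by
    refine ⟨fun x hx g => ?_⟩
    obtain ⟨a, ha, b, hb, rfl⟩ := hg g
    have h1 := hc x hx b hb
    have e1 : a * b * x * (a * b)⁻¹ = a * x * a⁻¹ := by
      calc a * b * x * (a * b)⁻¹ = a * (b * x) * b⁻¹ * a⁻¹ := by group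
        _ = _ := by rw [← h1]; group
    rw [e1]
    exact mul_mem (mul_mem ha hx) (inv_mem ha)
  have hYn : Y.Normal := by
    refine ⟨fun x hx g => ?_⟩
    obtain ⟨a, ha, b, hb, rfl⟩ := hg g
    have h1 := hc a ha (b * x * b⁻¹) (mul_mem (mul_mem hb hx) (inv_mem hb))
    have e1 : a * b * x * (a * b)⁻¹ = b * x * b⁻¹ := by
      calc a * b * x * (a * b)⁻¹ = a * (b * x * b⁻¹) * a⁻¹ := by group
        _ = _ := by rw [h1]; group
    rw [e1]
    exact mul_mem (mul_mem hb hx) (inv_mem hb)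
  have hcen : ∀ z : G, z ∈ X → z ∈ Y → ∀ g : G, g * z = z * g := by
    intro z hz hz' g
    obtain ⟨x, hx, y, hy, rfl⟩ := hg g
    rw [← mul_assoc, ← hc x hx z hz', mul_assoc, mul_assoc, hc z hz y hy]
  have hZ : ¬ p ∣ Nat.card (X ⊓ Y : Subgroup G) := by
    intro hdvd
    obtain ⟨x, hx⟩ := exists_prime_orderOf_dvd_card' (G := (X ⊓ Y : Subgroup G)) p hdvd
    have hxo : orderOf (x : G) = p := by
      rw [← hx]
      exact (orderOf_injective (X ⊓ Y).subtype (X ⊓ Y).subtype_injective x)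
    have h1 : (zpowers (x : G)).Normal := by
      refine ⟨fun y hy g => ?_⟩
      obtain ⟨n, rfl⟩ := mem_zpowers_iff.1 hy
      have h2 := hcen ((x : G) ^ n) (X.zpow_mem x.2.1 n) (Y.zpow_mem x.2.2 n) g
      rw [h2, mul_inv_cancel_right]
      exact hy
    have h2 : IsPGroup p (zpowers (x : G)) := by
      refine IsPGroup.of_card (n := 1) ?_
      rw [Nat.card_zpowers, hxo, pow_one]
    have h3 := hOp _ h1 h2
    rw [zpowers_eq_bot] at h3
    rw [h3, orderOf_one] at hxo
    exact hp.out.one_lt.ne hxo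
  have hcard : ∀ X : Subgroup G, X ≠ ⊤ → Nat.card X < Nat.card G := by
    intro X hX
    refine lt_of_le_of_ne (Nat.card_le_card_of_injective _ X.subtype_injective) fun h => hX ?_
    exact Subgroup.eq_top_of_card_eq X h
  obtain ⟨e, he, hne⟩ := exists_block_inc_mul (p := p) X hB.2.2.1
  obtain ⟨f, hf, hnf⟩ := exists_block_inc_mul (p := p) Y hB.2.2.1
  have heB : inc X e * B = B := (hcov X hXn e he).resolve_left hne
  have hfB : inc Y f * B = B := (hcov Y hYn f hf).resolve_left hnf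
  obtain ⟨P, hP⟩ := P179H725.exists_defect he
  obtain ⟨Q, hQ⟩ := P179H725.exists_defect hf
  have hPp : IsPGroup p P := (exists_BP_of_block (p := p) e he P hP).1
  have hM := central_product_defect (p := p) hc hg hZ he hf hB heB hfB hP hQ
  obtain ⟨g, hgD⟩ := defect_conj' (p := p) hB hD hM hab
  have habM : ∀ a ∈ P.map X.subtype ⊔ Q.map Y.subtype,
      ∀ b ∈ P.map X.subtype ⊔ Q.map Y.subtype, a * b = b * a := by
    intro a ha c hc
    have h7 := hab _ ((hgD a).1 ha) _ ((hgD c).1 hc)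
    have h8 : g⁻¹ * a * g * (g⁻¹ * c * g) = g⁻¹ * (a * c) * g := by group
    have h9 : g⁻¹ * c * g * (g⁻¹ * a * g) = g⁻¹ * (c * a) * g := by group
    rw [h8, h9] at h7
    exact mul_left_cancel (mul_right_cancel h7)
  obtain ⟨hl, hw⟩ := central_product_num red hc hg hZ he hf hB heB hfB hP hQ habM
  have habP : ∀ a ∈ P, ∀ b ∈ P, a * b = b * a := fun a ha b hb => Subtype.ext
    (habM _ (mem_sup_left ⟨a, ha, rfl⟩) _ (mem_sup_left ⟨b, hb, rfl⟩))
  have habQ : ∀ a ∈ Q, ∀ b ∈ Q, a * b = b * a := fun a ha b hb => Subtype.ext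
    (habM _ (mem_sup_right ⟨a, ha, rfl⟩) _ (mem_sup_right ⟨b, hb, rfl⟩))
  -- the defect group is a direct product
  have hiso : Nonempty (D ≃* P × Q) := by
    have hmem : ∀ q : P × Q, g⁻¹ * ((q.1 : X) : G) * ((q.2 : Y) : G) * g ∈ D := by
      intro q
      rw [mul_assoc g⁻¹]
      exact (hgD _).1 (mul_mem (mem_sup_left ⟨q.1, q.1.2, rfl⟩) (mem_sup_right ⟨q.2, q.2.2, rfl⟩))
    let φ : P × Q →* D :=
      { toFun := fun q => ⟨g⁻¹ * ((q.1 : X) : G) * ((q.2 : Y) : G) * g, hmem q⟩
        map_one' := Subtype.ext (by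
          change g⁻¹ * (1 : G) * 1 * g = 1
          group)
        map_mul' := fun q r => Subtype.ext (by
          change g⁻¹ * (((q.1 : X) : G) * ((r.1 : X) : G)) * (((q.2 : Y) : G) * ((r.2 : Y) : G)) * g =
            g⁻¹ * ((q.1 : X) : G) * ((q.2 : Y) : G) * g *
              (g⁻¹ * ((r.1 : X) : G) * ((r.2 : Y) : G) * g)
          have h1 := hc (r.1 : X) (r.1 : X).2 (q.2 : Y) (q.2 : Y).2
          calc g⁻¹ * (((q.1 : X) : G) * ((r.1 : X) : G)) * (((q.2 : Y) : G) * ((r.2 : Y) : G)) * g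
              = g⁻¹ * ((q.1 : X) : G) * (((r.1 : X) : G) * ((q.2 : Y) : G)) * ((r.2 : Y) : G) * g := by
                group
            _ = _ := by rw [h1]; group) }
    refine ⟨(MulEquiv.ofBijective φ ⟨?_, ?_⟩).symm⟩
    · rw [injective_iff_map_eq_one]
      rintro ⟨a, b⟩ h
      have h1 : g⁻¹ * ((a : X) : G) * ((b : Y) : G) * g = 1 := congrArg Subtype.val h
      have h2 : ((a : X) : G) * ((b : Y) : G) = 1 := by
        have h3 : g * (g⁻¹ * ((a : X) : G) * ((b : Y) : G) * g) * g⁻¹ = g * 1 * g⁻¹ := by rw [h1]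
        have e1 : g * (g⁻¹ * ((a : X) : G) * ((b : Y) : G) * g) * g⁻¹ =
            ((a : X) : G) * ((b : Y) : G) := by group
        rw [← e1, h3]
        group
      have h3 : ((a : X) : G) = ((b : Y) : G)⁻¹ := eq_inv_of_mul_eq_one_left h2
      have h4 : ((a : X) : G) = 1 := eq_one_of_inf (D := P.map X.subtype) hZ (hPp.map _)
        ⟨(a : X).2, h3 ▸ Y.inv_mem (b : Y).2⟩ ⟨a, a.2, rfl⟩
      rw [h4, one_mul] at h2
      exact Prod.ext (Subtype.ext (Subtype.ext h4)) (Subtype.ext (Subtype.ext h2))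
    · rintro ⟨d, hd⟩
      have h1 : g * d * g⁻¹ ∈ P.map X.subtype ⊔ Q.map Y.subtype := by
        rw [hgD]
        have e1 : g⁻¹ * (g * d * g⁻¹) * g = d := by group
        rwa [e1]
      obtain ⟨a, ha, b, hb, h2⟩ := fp_mem hc h1
      refine ⟨(⟨a, ha⟩, ⟨b, hb⟩), Subtype.ext ?_⟩
      change g⁻¹ * (a : G) * (b : G) * g = d
      rw [mul_assoc g⁻¹, ← h2]
      group
  obtain ⟨φ⟩ := hiso
  -- the two factors
  have h1 : P179B.numSimpleIn e = P179B.numWeightsIn p red e := by
    by_cases hQ1 : Nontrivial Q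
    · exact hprop X e P he hP habP ⟨Q, inferInstance, hQ1, ⟨φ⟩⟩
    · rw [not_nontrivial_iff_subsingleton] at hQ1
      have hu : Unique Q := ⟨⟨1⟩, fun _ => Subsingleton.elim _ _⟩
      exact hbelow X e P (hcard X hX) he hP ⟨φ.trans MulEquiv.prodUnique⟩
  have h2 : P179B.numSimpleIn f = P179B.numWeightsIn p red f := by
    by_cases hP1 : Nontrivial P
    · exact hprop Y f Q hf hQ habQ ⟨P, inferInstance, hP1, ⟨φ.trans MulEquiv.prodComm⟩⟩
    · rw [not_nontrivial_iff_subsingleton] at hP1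
      have hu : Unique P := ⟨⟨1⟩, fun _ => Subsingleton.elim _ _⟩
      exact hbelow Y f Q (hcard Y hY) hf hQ ⟨φ.trans MulEquiv.uniqueProd⟩
  rw [P179B.numSimpleIn_eq, P179B.numWeightsIn_eq] at h1 h2 ⊢
  rw [hl, hw, h1, h2]

/-- **the dichotomy**: if the blocks of the smaller groups with defect groups isomorphic to `D`
and the proper direct factors of `D` are solved, then `B` is solved, or special and primitive, and
`G` is not a central product -/
theorem special_prim_central_or (hE : EqwStmt p k) {G : Type} [Group G] [Finite G]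
    {B : MonoidAlgebra k G} (hB : P179B.IsBlock B) {D : Subgroup G}
    (hD : P179B.IsDefectGroup B D) (hab : ∀ x ∈ D, ∀ y ∈ D, x * y = y * x)
    {β : MonoidAlgebra k (centralizer (D : Set G))} (hβ : P179B.IsBlock β)
    (hβB : P179B.InducesTo β B)
    (hprop : WeightConjAb p red (fun (K : Type) [Group K] => ProperFactor D K))
    (hbelow : SolvedBelow p red D) :
    P179B.numSimpleIn B = P179B.numWeightsIn p red B ∨
      (SpecialBlock p red B D β ∧ PrimitiveBlock p B ∧ NotCentralProduct G) := by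
  rcases special_prim_or red hE hB hD hab hβ hβB hprop hbelow with h1 | ⟨h1, h2⟩
  · exact Or.inl h1
  · by_cases h3 : NotCentralProduct G
    · exact Or.inr ⟨h1, h2, h3⟩
    · unfold NotCentralProduct at h3
      push Not at h3
      obtain ⟨X, Y, hc, hg, hX, hY⟩ := h3
      exact Or.inl (central_product_step red hB hD hab h1.1 h2.1 hprop hbelow hc hg hX hY)

end Main

end P179H452
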