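import Vale.Agent.P179.R2.H443.Rd5
import Vale.Agent.P179.R2.H452.Fi1
import Vale.Agent.P179.R2.H452.CovDef4

/-!
# The reduction for abelian defect groups: the remaining blocks
-/

namespace P179H452

open Subgroup P179H524 P179R P179Y P179H292 P179H351 P179H443 P179H872

open P179B (inertialIndex inertialGroup hyperfocal FactorClosed WeightConjAb ProperFactor
  SpecialBlock CoversOne SolvedBelow SolvedBlock ReducedBlock PrimitiveBlock NotCentralProduct
  WeightConjAbReduced WeightConjAbMinimal)

open scoped Classical

universe u

section Main

variable {p : ℕ} [hp : Fact p.Prime] {k : Type u} [Field k] [IsAlgClosed k] [hk : CharP k p]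
  (red : integralClosure ℤ ℂ →+* k)

/-- **a block is reduced or satisfies the conjecture**, if the proper direct factors of its defect
group are solved; if the groups of smaller order with the same defect group are solved also, it is
primitive and `G` is not a central product -/
theorem minimal_or (hE : EqwStmt p k) {G : Type} [Group G] [Finite G] {B : MonoidAlgebra k G}
    (hB : P179B.IsBlock B) {D : Subgroup G} (hD : P179B.IsDefectGroup B D)
    (hab : ∀ x ∈ D, ∀ y ∈ D, x * y = y * x) {β : MonoidAlgebra k (centralizer (D : Set G))}
    (hβ : P179B.IsBlock β) (hβB : P179B.InducesTo β B)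
    (hprop : WeightConjAb p red (fun (K : Type) [Group K] => ProperFactor D K)) :
    P179B.numSimpleIn B = P179B.numWeightsIn p red B ∨
      (ReducedBlock p red B D β ∧
        (SolvedBelow p red D → PrimitiveBlock p B ∧ NotCentralProduct G)) := by
  rcases reduced_or red hE hB hD hab hβ hβB hprop with h1 | ⟨h1, -⟩
  · exact Or.inl h1
  by_cases heq : P179B.numSimpleIn B = P179B.numWeightsIn p red B
  · exact Or.inl heq
  refine Or.inr ⟨h1, fun hbelow => ?_⟩
  rcases special_prim_central_or red hE hB hD hab hβ hβB hprop hbelow with h2 | h2
  · exact absurd h2 heq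
  · exact h2.2

/-- **the reduction** for a class of groups closed under direct factors -/
theorem weightConjAb_iff_minimal (hE : EqwStmt p k) {Cl : ∀ (K : Type) [Group K], Prop}
    (hCl : FactorClosed Cl) :
    WeightConjAb p red Cl ↔ WeightConjAbMinimal p red Cl := by
  constructor
  · intro h G _ _ B D b hB hD hab hDCl _ _ _ _ _ _ _
    exact h G B D hB hD hab hDCl
  · intro h
    refine (weightConjAb_iff_reduced red hE hCl).2 ?_
    intro G _ _ B D b hB hD hab hDCl hb hbB hprop hbelow hred hprim
    rcases special_prim_central_or red hE hB hD hab hb hbB hprop hbelow with h2 | h2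
    · exact h2
    · exact h G B D b hB hD hab hDCl hb hbB hprop hbelow hred hprim h2.2.2

end Main

end P179H452
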