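import Vale.Agent.P179.R2.H452.Fg8

/-!
# The number of simple modules of central products
-/

namespace P179H452

open Subgroup Finset P179H524 P179A P179P P179Y P179H872

open P179C hiding lin lin_single

open scoped Classical

universe u

section Prod

variable (p : ℕ) [hp : Fact p.Prime] {k : Type u} [Field k] {G : Type} [Group G] [Fintype G]
  {X Y : Subgroup G}

omit [Fintype G] in
theorem fp_shift {X : Type} [Group X] [Fintype X] {e : MonoidAlgebra k X}
    (he : e ∈ Subalgebra.center k (MonoidAlgebra k X)) {u : X → k} (hu : u ∈ FB p e) {z : X}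
    {r : k} (hz : MonoidAlgebra.single z (1 : k) * e = r • e) (x : X) : u (z * x) = r * u x := by
  have h1 := lin_mul_of hu.2.2 (MonoidAlgebra.single z (1 : k) * MonoidAlgebra.single x 1)
  rw [← mul_assoc, ← Subalgebra.mem_center_iff.1 he, hz, smul_mul_assoc, map_smul,
    lin_mul_of hu.2.2, lin_single, one_mul, MonoidAlgebra.single_mul_single, lin_single,
    one_mul, one_mul, smul_eq_mul] at h1
  exact h1.symm

include p in
theorem fp_pr {x y : G} (hxy : x * y = y * x) : pr p (x * y) = pr p x * pr p y := by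
  obtain ⟨m, -, hm⟩ := C3.exists_pow_eq_pr p G
  rw [← hm, ← hm, ← hm]
  exact (show Commute x y from hxy).mul_pow _

include p in
theorem fp_pr_coe {X : Subgroup G} (x : X) : ((pr p x : X) : G) = pr p (x : G) :=
  Q7.map_pr p X.subtype x (C2.ord_ne _)

theorem fp_pr_pr {X : Type} [Group X] [Finite X] (x : X) : pr p (pr p x) = pr p x :=
  Q7.pr_of_regular p _ (C2.ord_ne _) (Q7.pr_regular p x (C2.ord_ne x))

variable [IsAlgClosed k] [CharP k p]

include p in
/-- **central products**: the number of simple modules is multiplicative -/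
theorem numSimple_mul (hc : ∀ x ∈ X, ∀ y ∈ Y, x * y = y * x)
    (hg : ∀ g : G, ∃ x ∈ X, ∃ y ∈ Y, g = x * y)
    {e : MonoidAlgebra k X} {f : MonoidAlgebra k Y}
    (he : e ∈ Subalgebra.center k (MonoidAlgebra k X)) (hee : e * e = e)
    (hf : f ∈ Subalgebra.center k (MonoidAlgebra k Y)) (hff : f * f = f) (lam : G → k)
    (hle : ∀ z (hz : z ∈ X), z ∈ Y → MonoidAlgebra.single (⟨z, hz⟩ : X) (1 : k) * e = lam z • e)
    (hlf : ∀ z (hz : z ∈ Y), z ∈ X → MonoidAlgebra.single (⟨z, hz⟩ : Y) (1 : k) * f = lam z • f)
    {B : MonoidAlgebra k G} (hB : B = inc X e * inc Y f)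
    (hBc : B ∈ Subalgebra.center k (MonoidAlgebra k G)) :
    numSimpleIn B = numSimpleIn e * numSimpleIn f := by
  -- `B` is idempotent
  have hcomm : inc X e * inc Y f = inc Y f * inc X e := by
    rw [fg_inc_eq, fg_inc_eq]
    have h1 : ∀ x : X, MonoidAlgebra.single (x : G) (1 : k) * inc Y f =
        inc Y f * MonoidAlgebra.single (x : G) (1 : k) := by
      intro x
      have h2 : f = ∑ y, f.coeff y • MonoidAlgebra.single y (1 : k) := sum_single f
      rw [h2, map_sum, Finset.mul_sum, Finset.sum_mul]
      refine Finset.sum_congr rfl fun y _ => ?_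
      rw [map_smul, inc_single, mul_smul_comm, smul_mul_assoc, MonoidAlgebra.single_mul_single,
        MonoidAlgebra.single_mul_single, hc x x.2 y y.2]
    rw [← fg_inc_eq, ← fg_inc_eq]
    conv_lhs => rw [sum_single e, map_sum, Finset.sum_mul]
    conv_rhs => rw [sum_single e, map_sum, Finset.mul_sum]
    refine Finset.sum_congr rfl fun x _ => ?_
    rw [map_smul, inc_single, smul_mul_assoc, mul_smul_comm, h1]
  have hieie : inc X e * inc X e = inc X e := by rw [← map_mul, hee]
  have hifif : inc Y f * inc Y f = inc Y f := by rw [← map_mul, hff]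
  have heB : inc X e * B = B := by rw [hB, ← mul_assoc, hieie]
  have hfB : inc Y f * B = B := by rw [hB, hcomm, ← mul_assoc, hifif]
  have hBB : B * B = B := by
    nth_rewrite 1 [hB]
    rw [mul_assoc, hfB, heB]
  have hBe : B * inc X e = B := by rw [← Subalgebra.mem_center_iff.1 hBc, heB]
  have hBf : B * inc Y f = B := by rw [← Subalgebra.mem_center_iff.1 hBc, hfB]
  rw [← finrank_FB p hBc hBB, ← finrank_FB p he hee, ← finrank_FB p hf hff]
  choose a ha b hb hab using hg
  have hfin : FiniteDimensional k (FB p e) := inferInstance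
  let bs := Module.finBasis k (FB p e)
  set n := Module.finrank k (FB p e) with hn
  let u : Fin n → X → k := fun i => (bs i).1
  have hu : ∀ i, u i ∈ FB p e := fun i => (bs i).2
  -- the product function
  have hwell : ∀ (i : Fin n) (c : Y → k), c ∈ FB p f → ∀ (x : X) (y : Y),
      u i ⟨a (x * y), ha _⟩ * c ⟨b (x * y), hb _⟩ = u i x * c y := by
    intro i c hcf x y
    have h1 := hab ((x : G) * y)
    set x' : G := a ((x : G) * y) with hx'
    set y' : G := b ((x : G) * y) with hy'
    have hx'X : x' ∈ X := ha _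
    have hy'Y : y' ∈ Y := hb _
    have hz : (x : G)⁻¹ * x' = y * y'⁻¹ := by
      have h2 : (y : G) = (x : G)⁻¹ * (x' * y') := by rw [← h1, inv_mul_cancel_left]
      rw [h2]
      group
    set z : G := (x : G)⁻¹ * x' with hzdef
    have hzX : z ∈ X := mul_mem (inv_mem x.2) hx'X
    have hzY : z ∈ Y := by
      rw [hz]
      exact mul_mem y.2 (inv_mem hy'Y)
    have h3 : (⟨x', hx'X⟩ : X) = ⟨z, hzX⟩ * x := by
      apply Subtype.ext
      change x' = z * x
      rw [← hc x x.2 z hzY, hzdef, mul_inv_cancel_left]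
    have h4 : y = ⟨z, hzY⟩ * ⟨y', hy'Y⟩ := by
      apply Subtype.ext
      change (y : G) = z * y'
      rw [hz, inv_mul_cancel_right]
    have h5 : u i ⟨x', hx'X⟩ = lam z * u i x := by
      rw [h3]
      exact fp_shift p he (hu i) (hle z hzX hzY) x
    have h6 : c y = lam z * c ⟨y', hy'Y⟩ := by
      conv_lhs => rw [h4]
      exact fp_shift p hf hcf (hlf z hzY hzX) _
    change u i ⟨x', hx'X⟩ * c ⟨y', hy'Y⟩ = _
    rw [h5, h6]
    ring
  let Ψ : (Fin n → FB p f) → G → k := fun c g =>
    ∑ i, u i ⟨a g, ha g⟩ * (c i).1 ⟨b g, hb g⟩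
  have hΨ : ∀ (c : Fin n → FB p f) (x : X) (y : Y), Ψ c ((x : G) * y) =
      ∑ i, u i x * (c i).1 y := fun c x y =>
    Finset.sum_congr rfl fun i _ => hwell i (c i).1 (c i).2 x y
  have hdec : ∀ g : G, ∃ (x : X) (y : Y), g = (x : G) * y := fun g =>
    ⟨⟨a g, ha g⟩, ⟨b g, hb g⟩, hab g⟩
  have hΨmem : ∀ c, Ψ c ∈ FB p B := by
    intro c
    refine ⟨fun g h => ?_, fun g => ?_, fun g => ?_⟩
    · obtain ⟨x, y, rfl⟩ := hdec g
      obtain ⟨x', y', rfl⟩ := hdec h
      have h1 : (x : G) * y * ((x' : G) * y') * ((x : G) * y)⁻¹ =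
          ((x * x' * x⁻¹ : X) : G) * ((y * y' * y⁻¹ : Y) : G) := by
        change _ = (x : G) * x' * (x : G)⁻¹ * ((y : G) * y' * (y : G)⁻¹)
        have e1 := hc x' x'.2 y y.2
        have e2 := hc (x : G)⁻¹ (inv_mem x.2) ((y : G) * y' * (y : G)⁻¹)
          (mul_mem (mul_mem y.2 y'.2) (inv_mem y.2))
        calc (x : G) * y * ((x' : G) * y') * ((x : G) * y)⁻¹
            = x * (y * x') * y' * (y : G)⁻¹ * (x : G)⁻¹ := by group
          _ = x * x' * ((y : G) * y' * (y : G)⁻¹ * (x : G)⁻¹) := by rw [← e1]; group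
          _ = _ := by rw [← e2]; group
      rw [h1, hΨ, hΨ]
      exact Finset.sum_congr rfl fun i _ => by rw [(hu i).1, (c i).2.1]
    · obtain ⟨x, y, rfl⟩ := hdec g
      rw [fp_pr p (hc x x.2 y y.2), ← fp_pr_coe, ← fp_pr_coe, hΨ, hΨ]
      exact Finset.sum_congr rfl fun i _ => by rw [(hu i).2.1, (c i).2.2.1]
    · obtain ⟨x, y, rfl⟩ := hdec g
      rw [← P179H872.lin_mul_single (Ψ c) B, hB, mul_assoc]
      have h1 : ∀ w : MonoidAlgebra k G, lin (Ψ c) (inc X e * w) =
          ∑ x' : X, e.coeff x' * lin (Ψ c) (MonoidAlgebra.single (x' : G) 1 * w) := by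
        intro w
        conv_lhs => rw [sum_single e, map_sum, Finset.sum_mul, map_sum]
        exact Finset.sum_congr rfl fun x' _ => by
          rw [map_smul, inc_single, smul_mul_assoc, map_smul, smul_eq_mul]
      have h2 : ∀ x' : X, lin (Ψ c) (MonoidAlgebra.single (x' : G) 1 *
          (inc Y f * MonoidAlgebra.single ((x : G) * y) 1)) =
          ∑ y' : Y, f.coeff y' * ∑ i, u i (x' * x) * (c i).1 (y' * y) := by
        intro x'
        conv_lhs => rw [sum_single f, map_sum, Finset.sum_mul, Finset.mul_sum, map_sum]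
        refine Finset.sum_congr rfl fun y' _ => ?_
        rw [map_smul, inc_single, smul_mul_assoc, mul_smul_comm, map_smul, smul_eq_mul,
          MonoidAlgebra.single_mul_single, MonoidAlgebra.single_mul_single, lin_single]
        have h3 : (x' : G) * ((y' : G) * ((x : G) * y)) = ((x' * x : X) : G) * ((y' * y : Y) : G) := by
          change _ = (x' : G) * x * ((y' : G) * y)
          have e1 := hc x x.2 y' y'.2
          calc (x' : G) * ((y' : G) * ((x : G) * y)) = x' * (y' * x) * y := by group
            _ = _ := by rw [← e1]; group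
        rw [h3, hΨ]
        ring
      rw [h1, Finset.sum_congr rfl fun x' _ => by rw [h2 x'], hΨ]
      calc ∑ x' : X, e.coeff x' * ∑ y' : Y, f.coeff y' * ∑ i, u i (x' * x) * (c i).1 (y' * y)
          = ∑ i, (∑ x' : X, e.coeff x' * u i (x' * x)) *
              ∑ y' : Y, f.coeff y' * (c i).1 (y' * y) := by
            simp only [Finset.mul_sum, Finset.sum_mul]
            rw [Finset.sum_comm]
            rw [Finset.sum_congr rfl fun y' _ => Finset.sum_comm, Finset.sum_comm]
            refine Finset.sum_congr rfl fun i _ => Finset.sum_congr rfl fun y' _ =>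
              Finset.sum_congr rfl fun x' _ => by ring
        _ = _ := Finset.sum_congr rfl fun i _ => by rw [(hu i).2.2, (c i).2.2.2]
  -- the linear map
  let F : (Fin n → FB p f) →ₗ[k] FB p B :=
    { toFun := fun c => ⟨Ψ c, hΨmem c⟩
      map_add' := fun c c' => by
        apply Subtype.ext
        funext g
        change ∑ i, u i _ * ((c i).1 _ + (c' i).1 _) = Ψ c g + Ψ c' g
        simp only [mul_add, Finset.sum_add_distrib]
        rfl
      map_smul' := fun r c => by
        apply Subtype.ext
        funext g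
        change ∑ i, u i _ * (r * (c i).1 _) = r * Ψ c g
        change _ = r * ∑ i, u i _ * (c i).1 _
        rw [Finset.mul_sum]
        exact Finset.sum_congr rfl fun i _ => by ring }
  have hinj : Function.Injective F := by
    rw [← LinearMap.ker_eq_bot, LinearMap.ker_eq_bot']
    intro c h0
    have h1 : ∀ (x : X) (y : Y), ∑ i, u i x * (c i).1 y = 0 := by
      intro x y
      rw [← hΨ]
      exact congrFun (congrArg Subtype.val h0) _
    have h2 : ∀ y : Y, ∑ i, (c i).1 y • bs i = 0 := by
      intro y
      apply Subtype.ext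
      funext x
      have h3 := h1 x y
      rw [Submodule.coe_sum, Finset.sum_apply]
      refine Eq.trans (Finset.sum_congr rfl fun i _ => ?_) h3
      change (c i).1 y * u i x = _
      ring
    funext i
    apply Subtype.ext
    funext y
    exact Fintype.linearIndependent_iff.1 bs.linearIndependent (fun i => (c i).1 y) (h2 y) i
  have hsurj : Function.Surjective F := by
    rintro ⟨ψ, hψ⟩
    have hψl : ∀ w : MonoidAlgebra k G, lin ψ (B * w) = lin ψ w := lin_mul_of hψ.2.2
    have hψe : ∀ w : MonoidAlgebra k G, lin ψ (inc X e * w) = lin ψ w := by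
      intro w
      rw [← hψl, ← mul_assoc, hBe, hψl]
    have hψf : ∀ w : MonoidAlgebra k G, lin ψ (inc Y f * w) = lin ψ w := by
      intro w
      rw [← hψl, ← mul_assoc, hBf, hψl]
    have hmem : ∀ y : Y, (fun x : X => ψ ((x : G) * y)) ∈ FB p e := by
      intro y
      refine ⟨fun g x => ?_, fun x => ?_, fun x => ?_⟩
      · have h1 : ((g * x * g⁻¹ : X) : G) * y = (g : G) * ((x : G) * y) * (g : G)⁻¹ := by
          change (g : G) * x * (g : G)⁻¹ * y = _
          have e1 := hc (g : G)⁻¹ (inv_mem g.2) y y.2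
          rw [mul_assoc, e1]
          group
        change ψ (((g * x * g⁻¹ : X) : G) * y) = ψ ((x : G) * y)
        rw [h1, hψ.1]
      · change ψ (((pr p x : X) : G) * y) = ψ ((x : G) * y)
        rw [fp_pr_coe, ← hψ.2.1, ← hψ.2.1 ((x : G) * y)]
        congr 1
        have h1 : pr p (x : G) ∈ X := by
          rw [← fp_pr_coe]
          exact (pr p x : X).2
        rw [fp_pr p (hc _ h1 y y.2), fp_pr p (hc x x.2 y y.2), fp_pr_pr]
      · have h1 := hψe (MonoidAlgebra.single ((x : G) * y) 1)
        rw [lin_single, one_mul] at h1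
        refine Eq.trans ?_ h1
        conv_rhs => rw [sum_single e, map_sum, Finset.sum_mul, map_sum]
        refine Finset.sum_congr rfl fun x' _ => ?_
        rw [map_smul, inc_single, smul_mul_assoc, map_smul, smul_eq_mul,
          MonoidAlgebra.single_mul_single, lin_single, one_mul, one_mul]
        change _ * ψ (((x' * x : X) : G) * y) = _
        congr 2
        change (x' : G) * x * y = _
        group
    -- the coordinates
    have hθ : ∀ i : Fin n, ∃ θ : (X → k) →ₗ[k] k, ∀ v : FB p e, θ v.1 = bs.coord i v := by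
      intro i
      obtain ⟨θ, hθ⟩ := LinearMap.exists_extend (p := FB p e) (bs.coord i)
      exact ⟨θ, fun v => LinearMap.congr_fun hθ v⟩
    choose θ hθ using hθ
    have hcmem : ∀ i, (fun y : Y => θ i fun x : X => ψ ((x : G) * y)) ∈ FB p f := by
      intro i
      refine ⟨fun g y => ?_, fun y => ?_, fun y => ?_⟩
      · change θ i _ = θ i _
        congr 1
        funext x
        have h1 : (x : G) * ((g * y * g⁻¹ : Y) : G) = (g : G) * ((x : G) * y) * (g : G)⁻¹ := by
          change (x : G) * ((g : G) * y * (g : G)⁻¹) = _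
          have e1 := hc x x.2 g g.2
          calc (x : G) * ((g : G) * y * (g : G)⁻¹) = (x * g) * y * (g : G)⁻¹ := by group
            _ = _ := by rw [e1]; group
        rw [h1, hψ.1]
      · change θ i _ = θ i _
        congr 1
        funext x
        rw [fp_pr_coe, ← hψ.2.1, ← hψ.2.1 ((x : G) * y)]
        congr 1
        have h1 : pr p (y : G) ∈ Y := by
          rw [← fp_pr_coe]
          exact (pr p y : Y).2
        rw [fp_pr p (hc _ x.2 _ h1), fp_pr p (hc x x.2 y y.2), fp_pr_pr]
      · change ∑ g : Y, f.coeff g * θ i _ = θ i _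
        have h1 : ∀ g : Y, f.coeff g * θ i (fun x : X => ψ ((x : G) * ((g * y : Y) : G))) =
            θ i (f.coeff g • fun x : X => ψ ((x : G) * ((g * y : Y) : G))) := by
          intro g
          rw [map_smul, smul_eq_mul]
        rw [Finset.sum_congr rfl fun g _ => h1 g, ← map_sum]
        congr 1
        funext x
        rw [Finset.sum_apply]
        have h2 := hψf (MonoidAlgebra.single ((x : G) * y) 1)
        rw [lin_single, one_mul] at h2
        refine Eq.trans ?_ h2
        conv_rhs => rw [sum_single f, map_sum, Finset.sum_mul, map_sum]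
        refine Finset.sum_congr rfl fun y' _ => ?_
        rw [map_smul, inc_single, smul_mul_assoc, map_smul, smul_eq_mul,
          MonoidAlgebra.single_mul_single, lin_single, one_mul, one_mul]
        change _ * ψ ((x : G) * ((y' * y : Y) : G)) = _
        congr 2
        change (x : G) * ((y' : G) * y) = (y' : G) * ((x : G) * y)
        have e1 := hc x x.2 y' y'.2
        calc (x : G) * ((y' : G) * y) = (x * y') * y := by group
          _ = _ := by rw [e1]; group
    refine ⟨fun i => ⟨_, hcmem i⟩, ?_⟩
    apply Subtype.ext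
    funext g
    obtain ⟨x, y, rfl⟩ := hdec g
    change Ψ _ ((x : G) * y) = ψ ((x : G) * y)
    rw [hΨ]
    have h1 := congrArg Subtype.val (bs.sum_repr ⟨_, hmem y⟩)
    have h2 := congrFun h1 x
    change _ = ψ ((x : G) * y) at h2
    rw [← h2, Submodule.coe_sum, Finset.sum_apply]
    refine Finset.sum_congr rfl fun i _ => ?_
    change u i x * θ i (fun x : X => ψ ((x : G) * y)) = bs.repr ⟨_, hmem y⟩ i * u i x
    rw [hθ i ⟨_, hmem y⟩, mul_comm]
    rfl
  have h1 := (LinearEquiv.ofBijective F ⟨hinj, hsurj⟩).finrank_eq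
  rw [← h1, Module.finrank_pi_fintype, Finset.sum_const, Finset.card_univ, Fintype.card_fin,
    smul_eq_mul]

end Prod

end P179H452
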