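import Vale.Agent.P179.R2.H452.Fp1

/-!
# The blocks of central products
-/

namespace P179H452

open Subgroup Finset P179H524 P179A P179P P179Y P179H872 P179H12 P179H967

open P179C hiding lin lin_single

open scoped Classical

universe u

section Blk

variable {p : ℕ} [hp : Fact p.Prime] {k : Type u} [Field k] [IsAlgClosed k] [CharP k p]
  {G : Type} [Group G] [Fintype G] {X Y : Subgroup G}

omit [Fintype G] [IsAlgClosed k] [CharP k p] hp in
theorem fp_isCF_ext (hc : ∀ x ∈ X, ∀ y ∈ Y, x * y = y * x)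
    (hg : ∀ g : G, ∃ x ∈ X, ∃ y ∈ Y, g = x * y) {a : X → k} (ha : IsCF a) :
    IsCF (ext X a) := by
  intro g h
  obtain ⟨x, hx, y, hy, rfl⟩ := hg g
  by_cases hh : h ∈ X
  · have e1 : x * y * h * (x * y)⁻¹ = x * h * x⁻¹ := by
      have := hc h hh y hy
      calc x * y * h * (x * y)⁻¹ = x * (y * h) * y⁻¹ * x⁻¹ := by group
        _ = x * h * x⁻¹ := by rw [← this]; group
    rw [e1, ext_of_mem X _ hh, ext_of_mem X _ (mul_mem (mul_mem hx hh) (inv_mem hx))]
    exact ha ⟨x, hx⟩ ⟨h, hh⟩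
  · rw [ext_of_not_mem X _ hh, ext_of_not_mem X _]
    intro h1
    apply hh
    have h2 := mul_mem (mul_mem (inv_mem hx) h1) hx
    have e1 : x⁻¹ * (x * y * h * (x * y)⁻¹) * x = y * h * y⁻¹ := by group
    rw [e1] at h2
    have h3 := hc _ h2 y hy
    have e2 : h = y * h * y⁻¹ := by
      have h4 : y * h = y * (y * h * y⁻¹) := by rw [← h3]; group
      exact mul_left_cancel h4
    rw [e2]
    exact h2

omit [IsAlgClosed k] [CharP k p] hp in
theorem fp_inc_mem (hc : ∀ x ∈ X, ∀ y ∈ Y, x * y = y * x)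
    (hg : ∀ g : G, ∃ x ∈ X, ∃ y ∈ Y, g = x * y) {a : MonoidAlgebra k X}
    (ha : a ∈ Subalgebra.center k (MonoidAlgebra k X)) :
    inc X a ∈ Subalgebra.center k (MonoidAlgebra k G) := by
  rw [fg_inc_eq]
  exact mkF_mem (fp_isCF_ext hc hg ((P179C.mem_center_iff _).1 ha))

omit [CharP k p] hp in
/-- the central character of a block of `G` on the centre of `kX` -/
theorem fp_centralChar (hc : ∀ x ∈ X, ∀ y ∈ Y, x * y = y * x)
    (hg : ∀ g : G, ∃ x ∈ X, ∃ y ∈ Y, g = x * y) {e : MonoidAlgebra k X} (he : IsBlock e)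
    {B : MonoidAlgebra k G} (hB : IsBlock B) (heB : inc X e * B = B) {a : X → k}
    (ha : IsCF a) : centralChar B (inc X (mkF a)) = centralChar e (mkF a) := by
  have hmkF : ∀ w : X → k, inc X (mkF w) = mkF (ext X w) := by
    intro w
    rw [fg_inc_eq]
    congr 1
    unfold bF
    congr 1
    funext x
    exact coeff_mkF w x
  obtain ⟨L, hL⟩ := blockHomStmt B hB
  obtain ⟨μ, hμ, hμz⟩ := exists_hom_of_block hB
  have hm : IsHomCF (fun w : X → k => μ (ext X w)) :=
    { add := fun a b => by rw [P179Y.ext_add, hμ.add]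
      smul := fun r a => by rw [P179Y.ext_smul, hμ.smul]
      one := by
        refine (congrArg μ ?_).trans hμ.one
        exact ext_one _ _ (if_pos rfl) fun g hg => if_neg hg
      mul := fun a b ha hb => by
        rw [P179Y.ext_conv, hμ.mul _ _ (fp_isCF_ext hc hg ha) (fp_isCF_ext hc hg hb)] }
  obtain ⟨e', he', hle'⟩ := homBlockStmt (k := k) (G := X) hm.toAlgHom
  have hl' : ∀ w : X → k, IsCF w → μ (ext X w) = centralChar e' (mkF w) := by
    intro w hw
    have h1 := hle' ⟨mkF w, mkF_mem hw⟩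
    rw [hm.toAlgHom_mkF hw] at h1
    exact h1
  have hecf : IsCF (fun x => e.coeff x) := (P179C.mem_center_iff _).1 he.1
  have hee : e' = e := by
    by_contra hcon
    have h1 := hl' _ hecf
    rw [mkF_coeff, charBlockStmt e' e he' he, if_neg hcon,
      hμz _ (fp_isCF_ext hc hg hecf), ← hmkF, mkF_coeff] at h1
    have h2 : (⟨inc X e, fp_inc_mem hc hg he.1⟩ : Subalgebra.center k (MonoidAlgebra k G)) *
        ⟨B, hB.1⟩ = ⟨B, hB.1⟩ := Subtype.ext heB
    have h3 := congrArg L h2
    have h4 : L ⟨B, hB.1⟩ = 1 := by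
      rw [hL]
      exact centralChar_self B hB
    rw [map_mul, h4, mul_one, hL] at h3
    rw [h3] at h1
    exact one_ne_zero h1
  rw [hmkF, ← hμz _ (fp_isCF_ext hc hg ha), hl' a ha, hee]

omit [IsAlgClosed k] [CharP k p] hp in
theorem fp_inc_mkF (X : Subgroup G) (w : X → k) : inc X (mkF w) = mkF (ext X w) := by
  rw [fg_inc_eq]
  congr 1
  unfold bF
  congr 1
  funext x
  exact coeff_mkF w x

omit [Fintype G] [IsAlgClosed k] [CharP k p] hp in
theorem coeff_sum_apply' {ι : Type*} (s : Finset ι) (F : ι → MonoidAlgebra k G) (g : G) :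
    (∑ i ∈ s, F i).coeff g = ∑ i ∈ s, (F i).coeff g := by
  rw [MonoidAlgebra.coeff_sum, Finsupp.finsetSum_apply]

omit [IsAlgClosed k] [CharP k p] hp in
theorem eq_sum_cls' {Y : Type} [Group Y] [Fintype (ConjClasses Y)] {b : Y → k} (hb : IsCF b)
    (y : Y) : b y = ∑ C : ConjClasses Y, b C.out * cls k C.out y := by
  rw [Finset.sum_eq_single (ConjClasses.mk y)]
  · have h1 : IsConj (ConjClasses.mk y).out y := by
      rw [← ConjClasses.mk_eq_mk_iff_isConj]
      exact Quotient.out_eq' _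
    rw [cls, if_pos h1, mul_one]
    exact (hb.isConj h1).symm
  · intro C _ hC
    rw [cls, if_neg, mul_zero]
    intro h1
    apply hC
    rw [← ConjClasses.mk_eq_mk_iff_isConj] at h1
    rw [← h1]
    exact (Quotient.out_eq' C).symm
  · intro h
    exact absurd (Finset.mem_univ _) h

omit [IsAlgClosed k] [CharP k p] hp in
/-- class functions are sums of products -/
theorem fp_sum_cls [Fintype (ConjClasses Y)] (hc : ∀ x ∈ X, ∀ y ∈ Y, x * y = y * x)
    (hg : ∀ g : G, ∃ x ∈ X, ∃ y ∈ Y, g = x * y) {z : G → k} (hz : IsCF z) :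
    (Nat.card (X ⊓ Y : Subgroup G) : k) • mkF z =
      ∑ C : ConjClasses Y, inc X (mkF fun x : X => z ((x : G) * (C.out : G))) *
        inc Y (mkF (cls k C.out)) := by
  have hfc : ∀ x : X, IsCF (fun y : Y => z ((x : G) * y)) := by
    intro x t y
    have e1 : (x : G) * ((t * y * t⁻¹ : Y) : G) = (t : G) * (x * y) * (t : G)⁻¹ := by
      change (x : G) * ((t : G) * y * (t : G)⁻¹) = _
      have := hc x x.2 t t.2
      calc (x : G) * ((t : G) * y * (t : G)⁻¹) = (x * t) * y * (t : G)⁻¹ := by group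
        _ = _ := by rw [this]; group
    change z _ = z _
    rw [e1, hz]
  ext g
  have h0 : ∀ (A : X → k) (w : Y → k), (inc X (mkF A) * inc Y (mkF w)).coeff g =
      ∑ x : X, A x * ext Y w ((x : G)⁻¹ * g) := by
    intro A w
    rw [fp_inc_mkF, fp_inc_mkF, ← mkF_conv, coeff_mkF]
    unfold conv
    rw [sum_sub X _ fun x hx => by rw [ext_of_not_mem X _ hx, zero_mul]]
    exact Finset.sum_congr rfl fun x _ => by rw [ext_coe X]
  have h00 : ∀ C : ConjClasses Y,
      (inc X (mkF fun x : X => z ((x : G) * (C.out : G))) * inc Y (mkF (cls k C.out))).coeff g =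
      ∑ x : X, z ((x : G) * (C.out : G)) * ext Y (cls k C.out) ((x : G)⁻¹ * g) :=
    fun C => h0 (fun x : X => z ((x : G) * (C.out : G))) (cls k C.out)
  refine Eq.trans ?_ (coeff_sum_apply' _ _ g).symm
  rw [Finset.sum_congr rfl fun C _ => h00 C, Finset.sum_comm]
  have h1 : ∀ x : X, ∑ C : ConjClasses Y, z ((x : G) * (C.out : G)) *
        ext Y (cls k C.out) ((x : G)⁻¹ * g) =
      if (x : G)⁻¹ * g ∈ Y then z g else 0 := by
    intro x
    by_cases h : (x : G)⁻¹ * g ∈ Y
    · rw [if_pos h]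
      have h2 := eq_sum_cls' (hfc x) ⟨(x : G)⁻¹ * g, h⟩
      have h3 : z ((x : G) * ((x : G)⁻¹ * g)) = z g := by rw [mul_inv_cancel_left]
      rw [← h3]
      refine Eq.trans (Finset.sum_congr rfl fun C _ => ?_) h2.symm
      rw [ext_of_mem Y _ h]
    · rw [if_neg h]
      exact Finset.sum_eq_zero fun C _ => by rw [ext_of_not_mem Y _ h, mul_zero]
  rw [Finset.sum_congr rfl fun x _ => h1 x, ← Finset.sum_filter, Finset.sum_const,
    nsmul_eq_mul]
  change (Nat.card (X ⊓ Y : Subgroup G) : k) * (mkF z).coeff g = _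
  rw [coeff_mkF]
  congr 2
  rw [← Fintype.card_coe, ← Nat.card_eq_fintype_card]
  obtain ⟨x0, hx0, y0, hy0, hg0⟩ := hg g
  have hg1 : g * y0⁻¹ = x0 := by rw [hg0, mul_inv_cancel_right]
  let E : (X ⊓ Y : Subgroup G) ≃
      {x : X // x ∈ Finset.univ.filter fun x : X => (x : G)⁻¹ * g ∈ Y} :=
    { toFun := fun t => ⟨⟨x0 * t, mul_mem hx0 t.2.1⟩, by
        rw [Finset.mem_filter]
        refine ⟨Finset.mem_univ _, ?_⟩
        have e1 : (x0 * (t : G))⁻¹ * g = (t : G)⁻¹ * y0 := by
          rw [hg0]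
          group
        change (x0 * (t : G))⁻¹ * g ∈ Y
        rw [e1]
        exact Y.mul_mem (Y.inv_mem t.2.2) hy0⟩
      invFun := fun x => ⟨x0⁻¹ * (x : X), X.mul_mem (X.inv_mem hx0) (x : X).2, by
        have h3 : ((x : X) : G)⁻¹ * g ∈ Y := (Finset.mem_filter.1 x.2).2
        have h4 := Y.mul_mem h3 (Y.inv_mem hy0)
        rw [mul_assoc, hg1] at h4
        have h6 := Y.inv_mem h4
        rwa [mul_inv_rev, inv_inv] at h6⟩
      left_inv := fun t => Subtype.ext (inv_mul_cancel_left x0 (t : G))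
      right_inv := fun x => Subtype.ext (Subtype.ext (mul_inv_cancel_left x0 ((x : X) : G))) }
  exact Nat.card_congr E

include hp in
/-- **the blocks of central products** -/
theorem block_eq_mul (hc : ∀ x ∈ X, ∀ y ∈ Y, x * y = y * x)
    (hg : ∀ g : G, ∃ x ∈ X, ∃ y ∈ Y, g = x * y)
    (h0 : (Nat.card (X ⊓ Y : Subgroup G) : k) ≠ 0) {e : MonoidAlgebra k X} (he : IsBlock e)
    {f : MonoidAlgebra k Y} (hf : IsBlock f) {B : MonoidAlgebra k G} (hB : IsBlock B)
    (heB : inc X e * B = B) (hfB : inc Y f * B = B) : B = inc X e * inc Y f := by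
  have hc' : ∀ y ∈ Y, ∀ x ∈ X, y * x = x * y := fun y hy x hx => (hc x hx y hy).symm
  have hg' : ∀ g : G, ∃ y ∈ Y, ∃ x ∈ X, g = y * x := by
    intro g
    obtain ⟨x, hx, y, hy, rfl⟩ := hg g
    exact ⟨y, hy, x, hx, hc x hx y hy⟩
  have hec := fp_inc_mem hc hg he.1
  have hfc := fp_inc_mem hc' hg' hf.1
  have hcomm : inc X e * inc Y f = inc Y f * inc X e :=
    (Subalgebra.mem_center_iff.1 hec _).symm
  obtain ⟨P, hP⟩ : ∃ P : MonoidAlgebra k G, P = inc X e * inc Y f := ⟨_, rfl⟩
  have hPc : P ∈ Subalgebra.center k (MonoidAlgebra k G) := hP ▸ mul_mem hec hfc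
  have hieie : inc X e * inc X e = inc X e := by rw [← map_mul, he.2.1]
  have hifif : inc Y f * inc Y f = inc Y f := by rw [← map_mul, hf.2.1]
  have hPP : P * P = P := by
    rw [hP]
    nth_rewrite 2 [hcomm]
    rw [mul_assoc, ← mul_assoc (inc Y f) (inc Y f), hifif, ← hcomm, ← mul_assoc, hieie]
  have hBP : B * P = B := by
    rw [hP, Subalgebra.mem_center_iff.1 (mul_mem hec hfc), mul_assoc, hfB, heB]
  have hfin := Fintype.ofFinite (ConjClasses Y)
  have key : ∀ B' : MonoidAlgebra k G, IsBlock B' → B' * P ≠ 0 → B' = B := by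
    intro B' hB' hne
    obtain ⟨-, h1⟩ := centralChar_of_mul_ne hB' hPc hPP hne
    have h2 : P * B' = B' := by rw [← Subalgebra.mem_center_iff.1 hPc, h1]
    have heB' : inc X e * B' = B' := by
      calc inc X e * B' = inc X e * (P * B') := by rw [h2]
        _ = inc X e * P * B' := (mul_assoc _ _ _).symm
        _ = P * B' := by rw [hP, ← mul_assoc, hieie]
        _ = B' := h2
    have hfB' : inc Y f * B' = B' := by
      calc inc Y f * B' = inc Y f * (P * B') := by rw [h2]
        _ = inc Y f * P * B' := (mul_assoc _ _ _).symm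
        _ = P * B' := by rw [hP, hcomm, ← mul_assoc, hifif]
        _ = B' := h2
    refine P179H450.block_ext hB' hB fun z hz => ?_
    obtain ⟨L1, hL1⟩ := blockHomStmt B' hB'
    obtain ⟨L2, hL2⟩ := blockHomStmt B hB
    have h3 := fp_sum_cls hc hg hz
    have hAcf : ∀ C : ConjClasses Y, IsCF (fun x : X => z ((x : G) * (C.out : G))) := by
      intro C t x
      have e1 : ((t * x * t⁻¹ : X) : G) * (C.out : G) =
          (t : G) * ((x : G) * (C.out : G)) * (t : G)⁻¹ := by
        change (t : G) * x * (t : G)⁻¹ * (C.out : G) = _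
        have := hc (t : G)⁻¹ (inv_mem t.2) (C.out : G) C.out.2
        rw [mul_assoc, this]
        group
      change z _ = z _
      rw [e1, hz]
    have h4 : ∀ (L : Subalgebra.center k (MonoidAlgebra k G) →ₐ[k] k),
        (Nat.card (X ⊓ Y : Subgroup G) : k) * L ⟨mkF z, mkF_mem hz⟩ =
        ∑ C : ConjClasses Y, L ⟨_, fp_inc_mem hc hg (mkF_mem (hAcf C))⟩ *
          L ⟨_, fp_inc_mem hc' hg' (mkF_mem (isCF_cls (k := k) C.out))⟩ := by
      intro L
      rw [← smul_eq_mul, ← map_smul]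
      simp only [← map_mul]
      rw [← map_sum]
      congr 1
      apply Subtype.ext
      rw [AddSubmonoidClass.coe_finsetSum]
      exact h3
    have h5 := h4 L1
    have h6 := h4 L2
    have h7 : ∀ C : ConjClasses Y, L1 ⟨_, fp_inc_mem hc hg (mkF_mem (hAcf C))⟩ *
          L1 ⟨_, fp_inc_mem hc' hg' (mkF_mem (isCF_cls (k := k) C.out))⟩ =
        L2 ⟨_, fp_inc_mem hc hg (mkF_mem (hAcf C))⟩ *
          L2 ⟨_, fp_inc_mem hc' hg' (mkF_mem (isCF_cls (k := k) C.out))⟩ := by
      intro C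
      rw [hL1, hL1, hL2, hL2]
      change centralChar B' (inc X _) * centralChar B' (inc Y _) =
        centralChar B (inc X _) * centralChar B (inc Y _)
      rw [fp_centralChar hc hg he hB' heB' (hAcf C), fp_centralChar hc hg he hB heB (hAcf C),
        fp_centralChar hc' hg' hf hB' hfB' (isCF_cls _),
        fp_centralChar hc' hg' hf hB hfB (isCF_cls _)]
    rw [Finset.sum_congr rfl fun C _ => h7 C, ← h6] at h5
    have h8 := mul_left_cancel₀ h0 h5
    rw [hL1, hL2] at h8
    exact h8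
  by_contra hcon
  have hne : P - B ≠ 0 := sub_ne_zero.2 fun h => hcon (h.symm.trans hP)
  obtain ⟨e', he', hne'⟩ := exists_block_mul (p := p) hne
  have h1 : e' ≠ B := by
    rintro rfl
    apply hne'
    rw [mul_sub, hBP, he'.2.1, sub_self]
  apply h1
  refine key e' he' ?_
  have h2 : e' * B = 0 := by
    by_contra h3
    obtain ⟨-, h4⟩ := centralChar_of_mul_ne he' hB.1 hB.2.1 h3
    have h5 : B * e' ≠ 0 := by
      rwa [← Subalgebra.mem_center_iff.1 hB.1]
    obtain ⟨-, h6⟩ := centralChar_of_mul_ne hB he'.1 he'.2.1 h5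
    apply h1
    rw [← h4, Subalgebra.mem_center_iff.1 hB.1, h6]
  rw [mul_sub, h2, sub_zero] at hne'
  exact hne'

end Blk

end P179H452
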