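import Vale.Agent.P179.R2.H452.Fp2

/-!
# Central products: defect groups
-/

namespace P179H452

open Subgroup Finset P179H524 P179A P179P P179Y P179H872 P179H12 P179H967

open P179C hiding lin lin_single

open scoped Classical

universe u

section Def

variable {p : ℕ} [hp : Fact p.Prime] {k : Type u} [Field k] [IsAlgClosed k] [CharP k p]
  {G : Type} [Group G] [Fintype G] {X Y : Subgroup G}

omit [IsAlgClosed k] [CharP k p] hp [Fintype G] in
theorem fp_conj_inc {X : Subgroup G} (s : X) (a : MonoidAlgebra k X) :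
    conjBy (s : G) (inc X a) = inc X (conjBy s a) := by
  unfold conjBy
  rw [map_mul, map_mul, inc_single, inc_single]
  rfl

omit [IsAlgClosed k] [CharP k p] hp [Fintype G] in
theorem fp_single_comm [Finite G] (hc : ∀ x ∈ X, ∀ y ∈ Y, x * y = y * x) {g : G} (hg : g ∈ Y)
    (a : MonoidAlgebra k X) : conjBy g (inc X a) = inc X a := by
  have := Fintype.ofFinite G
  have h1 : MonoidAlgebra.single g (1 : k) * inc X a = inc X a * MonoidAlgebra.single g 1 := by
    have h2 : a = ∑ x, a.coeff x • MonoidAlgebra.single x (1 : k) := sum_single a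
    rw [h2, map_sum, Finset.mul_sum, Finset.sum_mul]
    refine Finset.sum_congr rfl fun x _ => ?_
    rw [map_smul, inc_single, mul_smul_comm, smul_mul_assoc, MonoidAlgebra.single_mul_single,
      MonoidAlgebra.single_mul_single, hc x x.2 g hg]
  unfold conjBy
  rw [h1, mul_assoc, MonoidAlgebra.single_mul_single, mul_inv_cancel, one_mul,
    ← MonoidAlgebra.one_def, mul_one]

/-- the relative trace of a product -/
theorem fp_isRelTrace (hc : ∀ x ∈ X, ∀ y ∈ Y, x * y = y * x)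
    (hg : ∀ g : G, ∃ x ∈ X, ∃ y ∈ Y, g = x * y)
    {e : MonoidAlgebra k X} {f : MonoidAlgebra k Y} {D : Subgroup X} {E : Subgroup Y}
    (he : IsRelTrace e D) (hf : IsRelTrace f E)
    (hD : ∀ x : X, x ∈ D → (x : G) ∈ Y → x = 1) :
    IsRelTrace (inc X e * inc Y f) (D.map X.subtype ⊔ E.map Y.subtype) := by
  obtain ⟨a, ha, hea⟩ := he
  obtain ⟨b, hb, hfb⟩ := hf
  have hc' : ∀ y ∈ Y, ∀ x ∈ X, y * x = x * y := fun y hy x hx => (hc x hx y hy).symm
  have hf1 := Fintype.ofFinite (X ⧸ D)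
  have hf2 := Fintype.ofFinite (Y ⧸ E)
  have hf3 := Fintype.ofFinite (G ⧸ (D.map X.subtype ⊔ E.map Y.subtype))
  set M : Subgroup G := D.map X.subtype ⊔ E.map Y.subtype with hM
  have hDM : ∀ d : X, d ∈ D → (d : G) ∈ M := fun d hd => mem_sup_left ⟨d, hd, rfl⟩
  have hEM : ∀ d : Y, d ∈ E → (d : G) ∈ M := fun d hd => mem_sup_right ⟨d, hd, rfl⟩
  have hMmem : ∀ m ∈ M, ∃ d ∈ D, ∃ d' ∈ E, m = (d : G) * (d' : G) := by
    intro m hm
    rw [hM, sup_eq_closure_mul] at hm
    induction hm using closure_induction with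
    | mem x hx =>
      obtain ⟨_, ⟨d, hd, rfl⟩, _, ⟨d', hd', rfl⟩, rfl⟩ := hx
      exact ⟨d, hd, d', hd', rfl⟩
    | one => exact ⟨1, one_mem _, 1, one_mem _, by simp⟩
    | mul x y _ _ hx hy =>
      obtain ⟨d, hd, d', hd', rfl⟩ := hx
      obtain ⟨c, hc1, c', hc2, rfl⟩ := hy
      refine ⟨d * c, mul_mem hd hc1, d' * c', mul_mem hd' hc2, ?_⟩
      have h1 := hc c c.2 d' d'.2
      change (d : G) * d' * ((c : G) * c') = (d : G) * c * ((d' : G) * c')
      calc (d : G) * d' * ((c : G) * c') = d * (d' * c) * c' := by group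
        _ = _ := by rw [← h1]; group
    | inv x _ hx =>
      obtain ⟨d, hd, d', hd', rfl⟩ := hx
      refine ⟨d⁻¹, inv_mem hd, d'⁻¹, inv_mem hd', ?_⟩
      have h1 := hc _ (inv_mem d.2) _ (inv_mem d'.2)
      rw [mul_inv_rev]
      exact h1.symm
  set w : MonoidAlgebra k G := inc X a * inc Y b with hw
  have hwx : ∀ (x : X) (y : Y), conjBy ((x : G) * y) w =
      inc X (conjBy x a) * inc Y (conjBy y b) := by
    intro x y
    rw [hw, P179Y.conjBy_mul, P179H450.conjBy_comp, P179H450.conjBy_comp,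
      fp_single_comm hc y.2, fp_conj_inc, fp_conj_inc, fp_single_comm hc' x.2]
  have hwM : ∀ m ∈ M, conjBy m w = w := by
    intro m hm
    obtain ⟨d, hd, d', hd', rfl⟩ := hMmem m hm
    rw [hwx, ha d hd, hb d' hd']
  have h1 : inc X e * inc Y f =
      ∑ q : (X ⧸ D) × (Y ⧸ E), conjBy (((q.1.out : X) : G) * ((q.2.out : Y) : G)) w := by
    rw [Fintype.sum_prod_type, hea, hfb, finsum_eq_sum_of_fintype, finsum_eq_sum_of_fintype,
      map_sum, map_sum, Finset.sum_mul_sum]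
    exact Finset.sum_congr rfl fun s _ => Finset.sum_congr rfl fun t _ => (hwx _ _).symm
  choose A hA C hC hAC using hg
  have h2 : ∑ q : (X ⧸ D) × (Y ⧸ E), conjBy (((q.1.out : X) : G) * ((q.2.out : Y) : G)) w =
      ∑ q : (X ⊓ Y : Subgroup G) × (G ⧸ M), conjBy q.2.out w := by
    symm
    refine Fintype.sum_bijective
      (fun q : (X ⊓ Y : Subgroup G) × (G ⧸ M) =>
        (((⟨A q.2.out, hA _⟩ * ⟨q.1, q.1.2.1⟩ : X) : X ⧸ D),
          ((⟨(q.1 : G)⁻¹, Y.inv_mem q.1.2.2⟩ * ⟨C q.2.out, hC _⟩ : Y) : Y ⧸ E)))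
      ⟨?_, ?_⟩ _ _ ?_
    · rintro ⟨z, r⟩ ⟨z', r'⟩ h
      obtain ⟨h3, h4⟩ := Prod.ext_iff.1 h
      have h5 := QuotientGroup.eq.1 h3
      have h6 := QuotientGroup.eq.1 h4
      have h7 : r = r' := by
        rw [← QuotientGroup.out_eq' r, ← QuotientGroup.out_eq' r']
        refine QuotientGroup.eq.2 ?_
        have h8 := M.mul_mem (hDM _ h5) (hEM _ h6)
        have e1 : (((⟨A r.out, hA _⟩ * ⟨z, z.2.1⟩ : X)⁻¹ * (⟨A r'.out, hA _⟩ * ⟨z', z'.2.1⟩) : X) : G) *
            (((⟨(z : G)⁻¹, Y.inv_mem z.2.2⟩ * ⟨C r.out, hC _⟩ : Y)⁻¹ *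
              (⟨(z' : G)⁻¹, Y.inv_mem z'.2.2⟩ * ⟨C r'.out, hC _⟩) : Y) : G) =
            (r.out)⁻¹ * r'.out := by
          change (A r.out * z)⁻¹ * (A r'.out * z') * (((z : G)⁻¹ * C r.out)⁻¹ *
            ((z' : G)⁻¹ * C r'.out)) = _
          have e2 := hc' (((z : G)⁻¹ * C r.out)⁻¹)
            (Y.inv_mem (Y.mul_mem (Y.inv_mem z.2.2) (hC _)))
            ((A r.out * z)⁻¹ * (A r'.out * z'))
            (X.mul_mem (X.inv_mem (X.mul_mem (hA _) z.2.1)) (X.mul_mem (hA _) z'.2.1))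
          rw [← mul_assoc, ← e2]
          conv_rhs => rw [hAC r.out, hAC r'.out]
          have e3 := hc _ (X.inv_mem (hA r.out)) _ (Y.inv_mem (hC r.out))
          have e4 := hc' (C r.out)⁻¹ (Y.inv_mem (hC _)) (z : G) z.2.1
          calc ((z : G)⁻¹ * C r.out)⁻¹ * ((A r.out * z)⁻¹ * (A r'.out * z')) *
                ((z' : G)⁻¹ * C r'.out)
              = (C r.out)⁻¹ * (z : G) * (z : G)⁻¹ * (A r.out)⁻¹ * A r'.out * C r'.out := by group
            _ = _ := by group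
        rwa [e1] at h8
      subst h7
      have h9 : (⟨A r.out, hA _⟩ * ⟨z, z.2.1⟩ : X)⁻¹ * (⟨A r.out, hA _⟩ * ⟨z', z'.2.1⟩) = 1 := by
        refine hD _ h5 ?_
        have e1 : (((⟨A r.out, hA _⟩ * ⟨z, z.2.1⟩ : X)⁻¹ * (⟨A r.out, hA _⟩ * ⟨z', z'.2.1⟩) : X) : G)
            = (z : G)⁻¹ * z' := by
          change (A r.out * z)⁻¹ * (A r.out * z') = _
          group
        rw [e1]
        exact Y.mul_mem (Y.inv_mem z.2.2) z'.2.2
      have h10 : (z : G) = z' := by
        have h11 := congrArg Subtype.val (mul_left_cancel (inv_mul_eq_one.1 h9))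
        exact h11
      exact Prod.ext (Subtype.ext h10) rfl
    · rintro ⟨s, t⟩
      obtain ⟨s, rfl⟩ := QuotientGroup.mk_surjective s
      obtain ⟨t, rfl⟩ := QuotientGroup.mk_surjective t
      obtain ⟨m, hm⟩ := QuotientGroup.mk_out_eq_mul M ((s : G) * t)
      obtain ⟨d, hd, d', hd', hmd⟩ := hMmem m m.2
      set r : G ⧸ M := (((s : G) * t : G) : G ⧸ M) with hr
      have h3 : A r.out * C r.out = (s : G) * t * (d * d') := by
        rw [← hAC, hm, hmd]
      -- the central element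
      have h4 : (A r.out)⁻¹ * (s * d) = C r.out * (t * d' : G)⁻¹ := by
        have e1 := hc' t t.2 d d.2
        have h5 : A r.out * C r.out = (s * d : G) * (t * d') := by
          rw [h3]
          calc (s : G) * t * (d * d') = s * (t * d) * d' := by group
            _ = _ := by rw [e1]; group
        have h6 : C r.out = (A r.out)⁻¹ * ((s * d : G) * (t * d')) := by
          rw [← h5, inv_mul_cancel_left]
        rw [h6]
        group
      have hzX : (A r.out)⁻¹ * ((s : G) * d) ∈ X :=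
        X.mul_mem (X.inv_mem (hA _)) (X.mul_mem s.2 d.2)
      have hzY : (A r.out)⁻¹ * ((s : G) * d) ∈ Y := by
        rw [h4]
        exact Y.mul_mem (hC _) (Y.inv_mem (Y.mul_mem t.2 d'.2))
      refine ⟨(⟨(A r.out)⁻¹ * ((s : G) * d), hzX, hzY⟩, r), ?_⟩
      refine Prod.ext ?_ ?_
      · refine QuotientGroup.eq.2 ?_
        have e1 : (⟨A r.out, hA _⟩ * ⟨(A r.out)⁻¹ * ((s : G) * d), hzX⟩ : X)⁻¹ * s = d⁻¹ := by
          apply Subtype.ext
          change (A r.out * ((A r.out)⁻¹ * ((s : G) * d)))⁻¹ * s = (d : G)⁻¹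
          group
        change (⟨A r.out, hA _⟩ * ⟨(A r.out)⁻¹ * ((s : G) * d), hzX⟩ : X)⁻¹ * s ∈ D
        rw [e1]
        exact inv_mem hd
      · refine QuotientGroup.eq.2 ?_
        have e1 : (⟨((A r.out)⁻¹ * ((s : G) * d))⁻¹, Y.inv_mem hzY⟩ * ⟨C r.out, hC _⟩ : Y)⁻¹ * t =
            d'⁻¹ := by
          apply Subtype.ext
          change (((A r.out)⁻¹ * ((s : G) * d))⁻¹ * C r.out)⁻¹ * t = (d' : G)⁻¹
          have h5 : ((A r.out)⁻¹ * ((s : G) * d))⁻¹ * C r.out = (t : G) * d' := by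
            rw [h4, mul_inv_rev, inv_inv, inv_mul_cancel_right]
          rw [h5]
          group
        change (⟨((A r.out)⁻¹ * ((s : G) * d))⁻¹, Y.inv_mem hzY⟩ * ⟨C r.out, hC _⟩ : Y)⁻¹ * t ∈ E
        rw [e1]
        exact inv_mem hd'
    · rintro ⟨z, r⟩
      obtain ⟨d, hd⟩ := QuotientGroup.mk_out_eq_mul D (⟨A r.out, hA _⟩ * ⟨z, z.2.1⟩ : X)
      obtain ⟨d', hd'⟩ := QuotientGroup.mk_out_eq_mul E
        (⟨(z : G)⁻¹, Y.inv_mem z.2.2⟩ * ⟨C r.out, hC _⟩ : Y)
      change conjBy r.out w = conjBy ((((_ : X ⧸ D).out : X) : G) * (((_ : Y ⧸ E).out : Y) : G)) w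
      rw [hd, hd', hwx, P179H450.conjBy_comp _ (d : X), P179H450.conjBy_comp _ (d' : Y),
        ha _ d.2, hb _ d'.2, ← hwx]
      congr 1
      change r.out = A r.out * z * ((z : G)⁻¹ * C r.out)
      conv_lhs => rw [hAC r.out]
      group
  rw [h1, h2, Fintype.sum_prod_type]
  simp only
  rw [Finset.sum_const, Finset.card_univ]
  refine ⟨(Fintype.card (X ⊓ Y : Subgroup G)) • w, fun m hm => ?_, ?_⟩
  · unfold conjBy
    rw [mul_smul_comm, smul_mul_assoc]
    change _ • conjBy m w = _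
    rw [hwM m hm]
  · rw [finsum_eq_sum_of_fintype, Finset.smul_sum]
    refine Finset.sum_congr rfl fun r _ => ?_
    unfold conjBy
    rw [mul_smul_comm, smul_mul_assoc]

end Def

end P179H452
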