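import Vale.Agent.P179.R2.H452.Fp3
import Vale.Agent.P179.R2.H452.Fh5

/-!
# Central products: the Brauer homomorphism
-/

namespace P179H452

open Subgroup Finset P179H524 P179A P179P P179Y P179H872 P179H12 P179H967

open P179C hiding lin lin_single

open scoped Classical

universe u

section Grp

variable {p : ℕ} [hp : Fact p.Prime] {G : Type} [Group G] [Finite G] {X Y : Subgroup G}
  {D : Subgroup X} {E : Subgroup Y}

omit [Finite G] in
theorem fp_mem (hc : ∀ x ∈ X, ∀ y ∈ Y, x * y = y * x) {m : G}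
    (hm : m ∈ D.map X.subtype ⊔ E.map Y.subtype) : ∃ d ∈ D, ∃ d' ∈ E, m = (d : G) * (d' : G) := by
  rw [sup_eq_closure_mul] at hm
  induction hm using closure_induction with
  | mem x hx =>
    obtain ⟨_, ⟨d, hd, rfl⟩, _, ⟨d', hd', rfl⟩, rfl⟩ := hx
    exact ⟨d, hd, d', hd', rfl⟩
  | one => exact ⟨1, one_mem _, 1, one_mem _, by simp⟩
  | mul x y _ _ hx hy =>
    obtain ⟨d, hd, d', hd', rfl⟩ := hx
    obtain ⟨c, hc1, c', hc2, rfl⟩ := hy
    refine ⟨d * c, mul_mem hd hc1, d' * c', mul_mem hd' hc2, ?_⟩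
    have h1 := hc c c.2 d' d'.2
    change (d : G) * d' * ((c : G) * c') = (d : G) * c * ((d' : G) * c')
    calc (d : G) * d' * ((c : G) * c') = d * (d' * c) * c' := by group
      _ = _ := by rw [← h1]; group
  | inv x _ hx =>
    obtain ⟨d, hd, d', hd', rfl⟩ := hx
    refine ⟨d⁻¹, inv_mem hd, d'⁻¹, inv_mem hd', ?_⟩
    have h1 := hc _ (inv_mem d.2) _ (inv_mem d'.2)
    rw [mul_inv_rev]
    exact h1.symm

include hp in
theorem fp_isPGroup (hc : ∀ x ∈ X, ∀ y ∈ Y, x * y = y * x) (hD : IsPGroup p D)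
    (hE : IsPGroup p E) : IsPGroup p (D.map X.subtype ⊔ E.map Y.subtype : Subgroup G) := by
  refine (hD.map X.subtype).to_sup_of_normal_right' (hE.map Y.subtype) ?_
  intro x hx
  obtain ⟨d, hd, rfl⟩ := hx
  apply mem_norm_of_conj_le
  rintro _ ⟨y, hy, rfl⟩
  have h1 := hc d d.2 y y.2
  have e1 : (X.subtype d)⁻¹ * Y.subtype y * X.subtype d = Y.subtype y := by
    change (d : G)⁻¹ * y * d = y
    rw [mul_assoc, ← h1, inv_mul_cancel_left]
  rw [e1]
  exact ⟨y, hy, rfl⟩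

/-- the elements of `D E` in `X` -/
theorem fp_mem_of_mem (hc : ∀ x ∈ X, ∀ y ∈ Y, x * y = y * x)
    (hZ : ¬ p ∣ Nat.card (X ⊓ Y : Subgroup G)) (hE : IsPGroup p E) {x : X}
    (hx : (x : G) ∈ D.map X.subtype ⊔ E.map Y.subtype) : x ∈ D := by
  obtain ⟨d, hd, d', hd', h1⟩ := fp_mem hc hx
  have h2 : (d' : G) = (d : G)⁻¹ * x := by rw [h1, inv_mul_cancel_left]
  have h3 : (d' : G) ∈ X ⊓ Y := ⟨by rw [h2]; exact X.mul_mem (X.inv_mem d.2) x.2, d'.2⟩
  have h4 : (d' : G) = 1 := eq_one_of_inf (D := E.map Y.subtype) hZ (hE.map _) h3 ⟨d', hd', rfl⟩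
  rw [h4, mul_one] at h1
  have h5 : x = d := Subtype.ext h1
  rw [h5]
  exact hd

theorem fp_cent (hc : ∀ x ∈ X, ∀ y ∈ Y, x * y = y * x) (x : X) :
    (x : G) ∈ centralizer ((D.map X.subtype ⊔ E.map Y.subtype : Subgroup G) : Set G) ↔
      x ∈ centralizer (D : Set X) := by
  constructor
  · intro h
    rw [mem_centralizer_iff] at h ⊢
    intro d hd
    exact Subtype.ext (h d (mem_sup_left ⟨d, hd, rfl⟩))
  · intro h
    rw [mem_centralizer_iff] at h ⊢
    intro m hm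
    obtain ⟨d, hd, d', hd', rfl⟩ := fp_mem hc hm
    have h1 : (d : G) * x = x * d := congrArg Subtype.val (h d hd)
    have h2 := hc x x.2 d' d'.2
    rw [mul_assoc, ← h2, ← mul_assoc, h1, mul_assoc]

theorem fp_norm (hc : ∀ x ∈ X, ∀ y ∈ Y, x * y = y * x)
    (hZ : ¬ p ∣ Nat.card (X ⊓ Y : Subgroup G)) (hE : IsPGroup p E) (x : X) :
    (x : G) ∈ normalizer ((D.map X.subtype ⊔ E.map Y.subtype : Subgroup G) : Set G) ↔
      x ∈ normalizer (D : Set X) := by
  constructor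
  · intro h
    apply mem_norm_of_conj_le
    intro d hd
    have h1 := (mem_normalizer_iff.1 (inv_mem h) (d : G)).1 (mem_sup_left ⟨d, hd, rfl⟩)
    rw [inv_inv] at h1
    exact fp_mem_of_mem (p := p) (E := E) hc hZ hE (x := x⁻¹ * d * x) h1
  · intro h
    apply mem_norm_of_conj_le
    intro m hm
    obtain ⟨d, hd, d', hd', rfl⟩ := fp_mem hc hm
    have h1 := (mem_normalizer_iff.1 (inv_mem h) d).1 hd
    rw [inv_inv] at h1
    have h2 := hc x x.2 d' d'.2
    have e1 : (x : G)⁻¹ * ((d : G) * d') * x = ((x⁻¹ * d * x : X) : G) * (d' : G) := by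
      change _ = (x : G)⁻¹ * d * x * (d' : G)
      rw [mul_assoc ((x : G)⁻¹ * d), h2]
      group
    rw [e1]
    exact mul_mem (mem_sup_left ⟨_, h1, rfl⟩) (mem_sup_right ⟨_, hd', rfl⟩)

/-- the normaliser is a central product -/
theorem fp_norm_prod (hc : ∀ x ∈ X, ∀ y ∈ Y, x * y = y * x)
    (hg : ∀ g : G, ∃ x ∈ X, ∃ y ∈ Y, g = x * y) {n : G}
    (hn : n ∈ normalizer ((D.map X.subtype ⊔ E.map Y.subtype : Subgroup G) : Set G)) :
    ∃ x ∈ X, ∃ y ∈ Y, n = x * y ∧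
      x ∈ normalizer ((D.map X.subtype ⊔ E.map Y.subtype : Subgroup G) : Set G) ∧
      y ∈ normalizer ((D.map X.subtype ⊔ E.map Y.subtype : Subgroup G) : Set G) := by
  obtain ⟨x, hx, y, hy, rfl⟩ := hg n
  have h0 : x ∈ normalizer ((D.map X.subtype ⊔ E.map Y.subtype : Subgroup G) : Set G) := by
    apply mem_norm_of_conj_le
    intro m hm
    obtain ⟨d, hd, d', hd', rfl⟩ := fp_mem hc hm
    have h1 := (mem_normalizer_iff.1 (inv_mem hn) (d : G)).1 (mem_sup_left ⟨d, hd, rfl⟩)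
    rw [inv_inv] at h1
    have h2 := hc x hx d' d'.2
    have h3 := hc (x⁻¹ * d * x) (mul_mem (mul_mem (inv_mem hx) d.2) hx) y hy
    have e1 : x⁻¹ * ((d : G) * d') * x = (x * y)⁻¹ * d * (x * y) * (d' : G) := by
      have e2 : (x * y)⁻¹ * (d : G) * (x * y) = x⁻¹ * d * x := by
        calc (x * y)⁻¹ * (d : G) * (x * y) = y⁻¹ * (x⁻¹ * d * x * y) := by group
          _ = x⁻¹ * d * x := by rw [h3, inv_mul_cancel_left]
      rw [e2, mul_assoc (x⁻¹ * (d : G)), h2]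
      group
    rw [e1]
    exact mul_mem h1 (mem_sup_right ⟨_, hd', rfl⟩)
  refine ⟨x, hx, y, hy, rfl, h0, ?_⟩
  have h1 := mul_mem (inv_mem h0) hn
  rwa [inv_mul_cancel_left] at h1

end Grp

section Lin

variable {p : ℕ} [hp : Fact p.Prime] {k : Type u} [Field k] [IsAlgClosed k] [CharP k p]

include hp in
/-- central `p'`-elements act by scalars on blocks -/
theorem fp_lin {X : Type} [Group X] [Finite X] {e : MonoidAlgebra k X} (he : IsBlock e)
    {Z : Subgroup X} (hZ : Z ≤ center X) (hpZ : ¬ p ∣ Nat.card Z) {z : X} (hz : z ∈ Z) :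
    ∃ r : k, MonoidAlgebra.single z (1 : k) * e = r • e := by
  have := Fintype.ofFinite X
  obtain ⟨ε, hε, hne⟩ := exists_block_inc_mul (p := p) Z he.2.2.1
  have hcen : inc Z ε ∈ Subalgebra.center k (MonoidAlgebra k X) := by
    refine fp_inc_mem (X := Z) (Y := ⊤) (fun x hx y _ => ?_) (fun g => ⟨1, one_mem _, g,
      mem_top g, (one_mul g).symm⟩) hε.1
    exact (Subgroup.mem_center_iff.1 (hZ hx) y).symm
  have h4 : inc Z ε * inc Z ε = inc Z ε := by rw [← map_mul, hε.2.1]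
  have h5 := Subalgebra.mem_center_iff.1 he.1 (inc Z ε)
  have h6 : inc Z ε * e = e := by
    rcases he.2.2.2 (inc Z ε * e) (mul_mem hcen he.1)
      (by rw [mul_assoc, ← mul_assoc e, ← h5, mul_assoc (inc Z ε) e e, he.2.1, ← mul_assoc, h4])
      (by rw [mul_assoc, he.2.1]) with h | h
    · exact absurd h hne
    · exact h
  obtain ⟨r, hr⟩ := exists_lin (p := p) (A := Z)
    (fun x y => Subtype.ext (Subgroup.mem_center_iff.1 (hZ y.2) x)) hpZ hε ⟨z, hz⟩
  refine ⟨r, ?_⟩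
  have h1 := congrArg (inc Z) hr
  rw [map_mul, inc_single, map_smul] at h1
  conv_lhs => rw [← h6]
  rw [← mul_assoc, h1, smul_mul_assoc, h6]

end Lin

end P179H452
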