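import Vale.Agent.P179.R2.H452.Fp4

/-!
# Central products: the Brauer homomorphism, defect groups and weights
-/

namespace P179H452

open Subgroup Finset P179H524 P179A P179P P179Y P179H872 P179H12 P179H967

open P179C hiding lin lin_single

open scoped Classical

universe u

section Cut

variable {p : ℕ} [hp : Fact p.Prime] {k : Type u} [Field k] [IsAlgClosed k] [CharP k p]
  {G : Type} [Group G] [Fintype G] {X Y : Subgroup G}

/-- the image of `b` in `k N_G(M)`, on `X` -/
noncomputable def cutX (X M : Subgroup G) (b : MonoidAlgebra k X) :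
    MonoidAlgebra k (X.subgroupOf (normalizer (M : Set G))) :=
  mkF fun x => cutC M (bF X b) ((x : normalizer (M : Set G)) : G)

omit [IsAlgClosed k] [CharP k p] hp in
theorem inc_cutX (X M : Subgroup G) (b : MonoidAlgebra k X) :
    inc (X.subgroupOf (normalizer (M : Set G))) (cutX X M b) =
      mkF fun n : normalizer (M : Set G) => cutC M (bF X b) (n : G) := by
  refine P179H12.inc_mkF (X.subgroupOf (normalizer (M : Set G)))
    (fun n : normalizer (M : Set G) => cutC M (bF X b) (n : G)) fun x hx => ?_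
  change cutC M (bF X b) (x : G) = 0
  unfold cutC
  by_cases h : (x : G) ∈ centralizer (M : Set G)
  · rw [if_pos h]
    exact ext_of_not_mem X _ fun h' => hx (mem_subgroupOf.2 h')
  · rw [if_neg h]

/-- convolutions and the Brauer homomorphism -/
theorem cut_conv {M : Subgroup G} (hM : IsPGroup p M) {a b : G → k} (ha : IsCF a)
    (hb : IsCF b) : (mkF fun n : normalizer (M : Set G) => cutC M (conv a b) (n : G)) =
      (mkF fun n : normalizer (M : Set G) => cutC M a (n : G)) *
        mkF fun n : normalizer (M : Set G) => cutC M b (n : G) := by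
  rw [← mkF_conv]
  congr 1
  rw [cutC_conv p hM (fun d _ => ha d) (fun d _ => hb d)]
  refine fg_restr _ fun x hx => if_neg fun h => hx (cent_le_norm M h)

omit [IsAlgClosed k] [CharP k p] hp in
theorem cut_mem {M : Subgroup G} {a : G → k} (ha : IsCF a) :
    (mkF fun n : normalizer (M : Set G) => cutC M a (n : G)) ∈
      Subalgebra.center k (MonoidAlgebra k (normalizer (M : Set G))) :=
  mkF_mem fun t x => fg_cutC_norm t.2 (ha t) x

include hp in
theorem cutX_mem {M : Subgroup G} (hM : IsPGroup p M) (hc : ∀ x ∈ X, ∀ y ∈ Y, x * y = y * x)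
    (hg : ∀ g : G, ∃ x ∈ X, ∃ y ∈ Y, g = x * y) {e : MonoidAlgebra k X} (he : IsBlock e) :
    cutX X M e ∈ Subalgebra.center k (MonoidAlgebra k (X.subgroupOf (normalizer (M : Set G)))) ∧
      cutX X M e * cutX X M e = cutX X M e := by
  have hF : IsCF (bF X e) := fp_isCF_ext hc hg ((P179C.mem_center_iff _).1 he.1)
  refine ⟨mkF_mem fun t x => fg_cutC_norm (t : normalizer (M : Set G)).2
    (hF ((t : normalizer (M : Set G)) : G)) _, ?_⟩
  apply inc_injective
  rw [map_mul, inc_cutX, ← cut_conv hM hF hF, conv_bF_self he]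

/-- the number of simple modules of the image -/
theorem numSimple_cutX {D : Subgroup X} {E : Subgroup Y}
    (hc : ∀ x ∈ X, ∀ y ∈ Y, x * y = y * x)
    (hZ : ¬ p ∣ Nat.card (X ⊓ Y : Subgroup G)) (hE : IsPGroup p E) (e : MonoidAlgebra k X) :
    numSimpleIn (cutX X (D.map X.subtype ⊔ E.map Y.subtype) e) =
      numSimpleIn (mkF fun n : normalizer (D : Set X) => cutC D (fun x => e.coeff x) (n : X)) := by
  have hnor := fp_norm (p := p) (D := D) (E := E) hc hZ hE
  have hcen := fp_cent (D := D) (E := E) hc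
  set M : Subgroup G := D.map X.subtype ⊔ E.map Y.subtype with hM
  let φ : normalizer (D : Set X) ≃* X.subgroupOf (normalizer (M : Set G)) :=
    { toFun := fun x => ⟨⟨(x : X), (hnor _).2 x.2⟩, (x : X).2⟩
      invFun := fun x => ⟨⟨((x : normalizer (M : Set G)) : G), x.2⟩,
        (hnor _).1 (x : normalizer (M : Set G)).2⟩
      left_inv := fun x => rfl
      right_inv := fun x => rfl
      map_mul' := fun x y => rfl }
  symm
  refine P179H443.numSimpleIn_equiv (p := p) φ _ _ fun x => ?_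
  unfold cutX
  rw [coeff_mkF, coeff_mkF]
  change cutC M (bF X e) ((x : X) : G) = cutC D (fun x => e.coeff x) (x : X)
  unfold cutC
  by_cases h : (x : X) ∈ centralizer (D : Set X)
  · rw [if_pos h, if_pos ((hcen _).2 h)]
    exact ext_coe X _ (x : X)
  · rw [if_neg h, if_neg fun h' => h ((hcen _).1 h')]

omit [IsAlgClosed k] [CharP k p] hp in
/-- central elements and the image -/
theorem single_cutX {M : Subgroup G} {e : MonoidAlgebra k X} {r : k} {z : G} (hz : z ∈ X)
    (hzG : ∀ g : G, z * g = g * z) (hze : MonoidAlgebra.single (⟨z, hz⟩ : X) (1 : k) * e = r • e)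
    (hzN : z ∈ normalizer (M : Set G)) (hzX : (⟨z, hzN⟩ : normalizer (M : Set G)) ∈
      X.subgroupOf (normalizer (M : Set G))) :
    MonoidAlgebra.single (⟨⟨z, hzN⟩, hzX⟩ : X.subgroupOf (normalizer (M : Set G))) (1 : k) *
      cutX X M e = r • cutX X M e := by
  ext x
  rw [MonoidAlgebra.coeff_single_mul_apply, one_mul]
  change (cutX X M e).coeff _ = r * (cutX X M e).coeff x
  unfold cutX
  rw [coeff_mkF, coeff_mkF]
  change cutC M (bF X e) (z⁻¹ * ((x : normalizer (M : Set G)) : G)) =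
    r * cutC M (bF X e) ((x : normalizer (M : Set G)) : G)
  have hxX : ((x : normalizer (M : Set G)) : G) ∈ X := x.2
  have hzC : z ∈ centralizer (M : Set G) := by
    rw [mem_centralizer_iff]
    exact fun g _ => (hzG g).symm
  unfold cutC
  by_cases h : ((x : normalizer (M : Set G)) : G) ∈ centralizer (M : Set G)
  · rw [if_pos h, if_pos (mul_mem (inv_mem hzC) h)]
    unfold bF
    rw [ext_of_mem X _ hxX, ext_of_mem X _ (X.mul_mem (X.inv_mem hz) hxX)]
    have h1 := congrArg (fun w : MonoidAlgebra k X =>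
      w.coeff ⟨((x : normalizer (M : Set G)) : G), hxX⟩) hze
    simp only [MonoidAlgebra.coeff_single_mul_apply, one_mul] at h1
    exact h1
  · rw [if_neg h, if_neg, mul_zero]
    intro h1
    apply h
    have h2 := mul_mem hzC h1
    rwa [mul_inv_cancel_left] at h2

/-- the scalars of the central elements -/
theorem fp_scalars (hc : ∀ x ∈ X, ∀ y ∈ Y, x * y = y * x)
    (hg : ∀ g : G, ∃ x ∈ X, ∃ y ∈ Y, g = x * y)
    (hZ : ¬ p ∣ Nat.card (X ⊓ Y : Subgroup G))
    {e : MonoidAlgebra k X} (he : IsBlock e) {f : MonoidAlgebra k Y} (hf : IsBlock f)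
    (hne : inc X e * inc Y f ≠ 0) : ∀ z : G, ∃ r : k, ∀ (hz : z ∈ X) (hz' : z ∈ Y),
      MonoidAlgebra.single (⟨z, hz⟩ : X) (1 : k) * e = r • e ∧
      MonoidAlgebra.single (⟨z, hz'⟩ : Y) (1 : k) * f = r • f := by
  have hc' : ∀ y ∈ Y, ∀ x ∈ X, y * x = x * y := fun y hy x hx => (hc x hx y hy).symm
  have hg' : ∀ g : G, ∃ y ∈ Y, ∃ x ∈ X, g = y * x := by
    intro g
    obtain ⟨x, hx, y, hy, rfl⟩ := hg g
    exact ⟨y, hy, x, hx, hc x hx y hy⟩
  intro z
  by_cases hz : z ∈ X ⊓ Y
  · have h1 : (X ⊓ Y).subgroupOf X ≤ center X := by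
      intro x hx
      rw [Subgroup.mem_center_iff]
      intro y
      exact Subtype.ext (hc y y.2 x (mem_subgroupOf.1 hx).2)
    have h2 : (X ⊓ Y).subgroupOf Y ≤ center Y := by
      intro x hx
      rw [Subgroup.mem_center_iff]
      intro y
      exact Subtype.ext (hc x (mem_subgroupOf.1 hx).1 y y.2).symm
    have h3 : ¬ p ∣ Nat.card ((X ⊓ Y).subgroupOf X) := by
      rwa [Nat.card_congr (subgroupOfEquivOfLe (inf_le_left : X ⊓ Y ≤ X)).toEquiv]
    have h4 : ¬ p ∣ Nat.card ((X ⊓ Y).subgroupOf Y) := by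
      rwa [Nat.card_congr (subgroupOfEquivOfLe (inf_le_right : X ⊓ Y ≤ Y)).toEquiv]
    obtain ⟨r, hr⟩ := fp_lin (p := p) he h1 h3 (z := ⟨z, hz.1⟩) (mem_subgroupOf.2 hz)
    obtain ⟨s, hs⟩ := fp_lin (p := p) hf h2 h4 (z := ⟨z, hz.2⟩) (mem_subgroupOf.2 hz)
    have h5 := congrArg (inc X) hr
    have h6 := congrArg (inc Y) hs
    rw [map_mul, inc_single, map_smul] at h5 h6
    have hfc := fp_inc_mem hc' hg' hf.1
    have h7 : r • (inc X e * inc Y f) = s • (inc X e * inc Y f) := by
      rw [← smul_mul_assoc, ← h5, Subalgebra.mem_center_iff.1 hfc (inc X e), ← smul_mul_assoc,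
        ← h6, Subalgebra.mem_center_iff.1 hfc, ← mul_assoc]
      change inc Y f * MonoidAlgebra.single z 1 * inc X e =
        MonoidAlgebra.single z 1 * inc Y f * inc X e
      rw [Subalgebra.mem_center_iff.1 hfc (MonoidAlgebra.single z 1)]
    have h8 : r = s := by
      by_contra hcon
      have h9 : (r - s) • (inc X e * inc Y f) = 0 := by rw [sub_smul, h7, sub_self]
      exact hne ((smul_eq_zero.1 h9).resolve_left (sub_ne_zero.2 hcon))
    exact ⟨r, fun _ _ => ⟨hr, h8 ▸ hs⟩⟩
  · exact ⟨0, fun h h' => absurd ⟨h, h'⟩ hz⟩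

/-- **the Brauer homomorphism and central products** -/
theorem numSimple_cut_mul {D : Subgroup X} {E : Subgroup Y}
    (hc : ∀ x ∈ X, ∀ y ∈ Y, x * y = y * x) (hg : ∀ g : G, ∃ x ∈ X, ∃ y ∈ Y, g = x * y)
    (hZ : ¬ p ∣ Nat.card (X ⊓ Y : Subgroup G)) (hD : IsPGroup p D) (hE : IsPGroup p E)
    {e : MonoidAlgebra k X} (he : IsBlock e) {f : MonoidAlgebra k Y} (hf : IsBlock f)
    (hne : inc X e * inc Y f ≠ 0) :
    numSimpleIn (mkF fun n : normalizer
        ((D.map X.subtype ⊔ E.map Y.subtype : Subgroup G) : Set G) =>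
          cutC (D.map X.subtype ⊔ E.map Y.subtype) (fun g => (inc X e * inc Y f).coeff g)
            (n : G)) =
      numSimpleIn (mkF fun n : normalizer (D : Set X) => cutC D (fun x => e.coeff x) (n : X)) *
      numSimpleIn (mkF fun n : normalizer (E : Set Y) =>
        cutC E (fun y => f.coeff y) (n : Y)) := by
  have hc' : ∀ y ∈ Y, ∀ x ∈ X, y * x = x * y := fun y hy x hx => (hc x hx y hy).symm
  have hg' : ∀ g : G, ∃ y ∈ Y, ∃ x ∈ X, g = y * x := by
    intro g
    obtain ⟨x, hx, y, hy, rfl⟩ := hg g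
    exact ⟨y, hy, x, hx, hc x hx y hy⟩
  have hZ' : ¬ p ∣ Nat.card (Y ⊓ X : Subgroup G) := by rwa [inf_comm]
  have hMp := fp_isPGroup (p := p) hc hD hE
  have hprod := fun n => fp_norm_prod (D := D) (E := E) (n := n) hc hg
  rw [← numSimple_cutX (p := p) (D := D) (E := E) hc hZ hE e,
    ← numSimple_cutX (p := p) (D := E) (E := D) hc' hZ' hD f, sup_comm (E.map Y.subtype)]
  set M : Subgroup G := D.map X.subtype ⊔ E.map Y.subtype with hM
  have hF : IsCF (bF X e) := fp_isCF_ext hc hg ((P179C.mem_center_iff _).1 he.1)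
  have hK : IsCF (bF Y f) := fp_isCF_ext hc' hg' ((P179C.mem_center_iff _).1 hf.1)
  have hcoe : (fun g => (inc X e * inc Y f).coeff g) = conv (bF X e) (bF Y f) := by
    funext g
    rw [fg_inc_eq, fg_inc_eq, ← mkF_conv, coeff_mkF]
  have hcf : IsCF (conv (bF X e) (bF Y f)) := fg_isCF_conv hF hK
  have hlam := fp_scalars (p := p) hc hg hZ he hf hne
  choose lam hlam using hlam
  have hcenG : ∀ z : G, z ∈ X → z ∈ Y → ∀ g : G, z * g = g * z := by
    intro z hz hz' g
    obtain ⟨x, hx, y, hy, rfl⟩ := hg g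
    rw [← mul_assoc, ← hc x hx z hz', mul_assoc, hc z hz y hy, mul_assoc]
  refine numSimple_mul p (G := normalizer (M : Set G))
    (X := X.subgroupOf (normalizer (M : Set G))) (Y := Y.subgroupOf (normalizer (M : Set G)))
    (fun x hx y hy => Subtype.ext (hc x hx y hy)) (fun n => ?_)
    (cutX_mem hMp hc hg he).1 (cutX_mem hMp hc hg he).2
    (cutX_mem hMp hc' hg' hf).1 (cutX_mem hMp hc' hg' hf).2 (fun n => lam (n : G))
    (fun z hz hz' => ?_) (fun z hz hz' => ?_) ?_ ?_
  · obtain ⟨x, hx, y, hy, h1, h2, h3⟩ := hprod n n.2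
    exact ⟨⟨x, h2⟩, mem_subgroupOf.2 hx, ⟨y, h3⟩, mem_subgroupOf.2 hy, Subtype.ext h1⟩
  · have h1 := mem_subgroupOf.1 hz
    have h2 := mem_subgroupOf.1 hz'
    exact single_cutX (X := X) (M := M) (z := (z : G)) h1 (hcenG _ h1 h2) (hlam _ h1 h2).1 z.2 hz
  · have h1 := mem_subgroupOf.1 hz
    have h2 := mem_subgroupOf.1 hz'
    exact single_cutX (X := Y) (M := M) (z := (z : G)) h1 (hcenG _ h2 h1) (hlam _ h2 h1).2 z.2 hz
  · rw [inc_cutX, inc_cutX, ← cut_conv hMp hF hK, hcoe]
  · rw [hcoe]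
    exact cut_mem hcf

end Cut

end P179H452
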