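import Vale.Agent.P179.R2.H452.Fp5

/-!
# Central products: defect groups and weights
-/

namespace P179H452

open Subgroup Finset P179H524 P179A P179P P179Y P179H872 P179H12 P179H967

open P179C hiding lin lin_single

open scoped Classical

universe u

section Fin

variable {p : ℕ} [hp : Fact p.Prime] {k : Type u} [Field k] [IsAlgClosed k] [CharP k p]
  (red : integralClosure ℤ ℂ →+* k) {G : Type} [Group G] [Finite G] {X Y : Subgroup G}

variable (p) in
include hp in
theorem fp_numSimple_zero {H : Type} [Group H] [Finite H] :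
    numSimpleIn (0 : MonoidAlgebra k H) = 0 := by
  have := Fintype.ofFinite H
  rw [← finrank_FB p (Subalgebra.zero_mem _) (mul_zero (0 : MonoidAlgebra k H))]
  have h1 : FB p (0 : MonoidAlgebra k H) = ⊥ := by
    rw [eq_bot_iff]
    intro ψ hψ
    rw [Submodule.mem_bot]
    funext y
    have h2 := hψ.2.2 y
    rw [← h2]
    refine Finset.sum_eq_zero fun g _ => ?_
    change (0 : k) * _ = 0
    rw [zero_mul]
  rw [h1, finrank_bot]

variable (p) in
include hp in
/-- nonzero central idempotents have simple modules -/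
theorem fp_numSimple_pos {H : Type} [Group H] [Fintype H] {z : MonoidAlgebra k H}
    (hz : z ∈ Subalgebra.center k (MonoidAlgebra k H)) (hzz : z * z = z) (hne : z ≠ 0) :
    0 < numSimpleIn z := by
  obtain ⟨c, hc, hcz⟩ := exists_block_mul (p := p) hne
  obtain ⟨-, h1⟩ := centralChar_of_mul_ne hc hz hzz hcz
  have h2 := P179C.numSimpleIn_pos c hc
  rw [← finrank_FB p hc.1 hc.2.1] at h2
  rw [← finrank_FB p hz hzz]
  refine lt_of_lt_of_le h2 (Submodule.finrank_mono ?_)
  intro ψ hψ
  refine ⟨hψ.1, hψ.2.1, fun y => ?_⟩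
  have h3 := lin_mul_of hψ.2.2
  rw [← P179H872.lin_mul_single ψ z, ← h3, ← mul_assoc, h1, h3, lin_single, one_mul]

include hp in
/-- the image of a block under the Brauer homomorphism of the defect group -/
theorem fp_cut_pos {H : Type} [Group H] [Fintype H] {e : MonoidAlgebra k H} (he : IsBlock e)
    {D : Subgroup H} (hD : IsDefectGroup e D) : 0 < numSimpleIn
      (mkF fun n : normalizer (D : Set H) => cutC D (fun x => e.coeff x) (n : H)) := by
  obtain ⟨hDp, l, hl, hlz⟩ := exists_BP_of_block (p := p) e he D hD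
  have hcf : IsCF (fun g => e.coeff g) := (P179C.mem_center_iff _).1 he.1
  have hee : conv (fun g => e.coeff g) (fun g => e.coeff g) = fun g => e.coeff g := by
    funext g
    rw [← coeff_mul_eq_conv, he.2.1]
  refine fp_numSimple_pos p (cut_mem hcf) (by rw [← cut_conv hDp hcf hcf, hee]) fun h => ?_
  have h1 : l (fun g => e.coeff g) = 0 := by
    refine hl.supp _ fun x hx => ?_
    have h2 := congrArg (fun w : MonoidAlgebra k (normalizer (D : Set H)) =>
      w.coeff ⟨x, cent_le_norm D hx⟩) h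
    simp only [coeff_mkF] at h2
    unfold cutC at h2
    rw [if_pos hx] at h2
    exact h2
  rw [hlz _ hcf, mkF_coeff, centralChar_self e he] at h1
  exact one_ne_zero h1

/-- **central products**: the defect groups -/
theorem central_product_defect {D : Subgroup X} {E : Subgroup Y}
    (hc : ∀ x ∈ X, ∀ y ∈ Y, x * y = y * x) (hg : ∀ g : G, ∃ x ∈ X, ∃ y ∈ Y, g = x * y)
    (hZ : ¬ p ∣ Nat.card (X ⊓ Y : Subgroup G))
    {e : MonoidAlgebra k X} (he : IsBlock e) {f : MonoidAlgebra k Y} (hf : IsBlock f)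
    {B : MonoidAlgebra k G} (hB : IsBlock B) (heB : inc X e * B = B) (hfB : inc Y f * B = B)
    (hD : IsDefectGroup e D) (hE : IsDefectGroup f E) :
    IsDefectGroup B (D.map X.subtype ⊔ E.map Y.subtype) := by
  have := Fintype.ofFinite G
  have h0 : (Nat.card (X ⊓ Y : Subgroup G) : k) ≠ 0 := by
    rw [Ne, CharP.cast_eq_zero_iff k p]
    exact hZ
  have hBef := block_eq_mul (p := p) hc hg h0 he hf hB heB hfB
  have hne : inc X e * inc Y f ≠ 0 := by
    rw [← hBef]
    exact hB.2.2.1
  have hDp : IsPGroup p D := (exists_BP_of_block (p := p) e he D hD).1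
  have hEp : IsPGroup p E := (exists_BP_of_block (p := p) f hf E hE).1
  have hMp := fp_isPGroup (p := p) hc hDp hEp
  have hcut := numSimple_cut_mul (p := p) hc hg hZ hDp hEp he hf hne
  rw [← hBef] at hcut
  have hrel := fp_isRelTrace hc hg hD.1 hE.1 (fun x hx hxY =>
    Subtype.ext (eq_one_of_inf (D := D.map X.subtype) hZ (hDp.map _) (⟨x.2, hxY⟩ :
      (x : G) ∈ X ⊓ Y) ⟨x, hx, rfl⟩))
  rw [← hBef] at hrel
  obtain ⟨M, hM⟩ : ∃ M : Subgroup G, M = D.map X.subtype ⊔ E.map Y.subtype := ⟨_, rfl⟩
  rw [← hM] at hMp hcut hrel ⊢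
  have hpos : 0 < numSimpleIn
      (mkF fun n : normalizer (M : Set G) => cutC M (fun g => B.coeff g) (n : G)) := by
    rw [hcut]
    exact Nat.mul_pos (fp_cut_pos (p := p) he hD) (fp_cut_pos (p := p) hf hE)
  obtain ⟨D2, hD2, hD2m⟩ := exists_minimal_le_of_wellFoundedLT (IsRelTrace B) _ hrel
  obtain ⟨x, hx, hxB⟩ : ∃ x ∈ centralizer (M : Set G), B.coeff x ≠ 0 := by
    by_contra hcon
    push Not at hcon
    have h1 : (mkF fun n : normalizer (M : Set G) => cutC M (fun g => B.coeff g) (n : G)) =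
        0 := by
      ext n
      rw [coeff_mkF]
      change cutC M (fun g => B.coeff g) (n : G) = 0
      unfold cutC
      by_cases h : (n : G) ∈ centralizer (M : Set G)
      · rw [if_pos h]
        exact hcon _ h
      · rw [if_neg h]
    rw [h1, fp_numSimple_zero p] at hpos
    exact lt_irrefl _ hpos
  obtain ⟨g, hg⟩ := suppIn_of_isDefectGroup (p := p) hD2m x hxB M hMp (by
    intro y hy
    rw [mem_centralizer_singleton_iff]
    exact mem_centralizer_iff.1 hx y hy)
  have hcard : Nat.card M ≤ Nat.card D2 := by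
    refine Nat.card_le_card_of_injective (fun y : M => (⟨_, hg y y.2⟩ : D2)) fun y y' h => ?_
    have h3 := congrArg Subtype.val h
    exact Subtype.ext (mul_left_cancel (mul_right_cancel h3))
  have h4 : D2 = M := Subgroup.eq_of_le_of_card_ge hD2 hcard
  rw [← h4]
  exact hD2m

/-- **central products**: the numbers of simple modules and weights -/
theorem central_product_num {D : Subgroup X} {E : Subgroup Y}
    (hc : ∀ x ∈ X, ∀ y ∈ Y, x * y = y * x) (hg : ∀ g : G, ∃ x ∈ X, ∃ y ∈ Y, g = x * y)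
    (hZ : ¬ p ∣ Nat.card (X ⊓ Y : Subgroup G))
    {e : MonoidAlgebra k X} (he : IsBlock e) {f : MonoidAlgebra k Y} (hf : IsBlock f)
    {B : MonoidAlgebra k G} (hB : IsBlock B) (heB : inc X e * B = B) (hfB : inc Y f * B = B)
    (hD : IsDefectGroup e D) (hE : IsDefectGroup f E)
    (hab : ∀ a ∈ D.map X.subtype ⊔ E.map Y.subtype,
      ∀ b ∈ D.map X.subtype ⊔ E.map Y.subtype, a * b = b * a) :
      numSimpleIn B = numSimpleIn e * numSimpleIn f ∧
      numWeightsIn p red B = numWeightsIn p red e * numWeightsIn p red f := by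
  have := Fintype.ofFinite G
  have h0 : (Nat.card (X ⊓ Y : Subgroup G) : k) ≠ 0 := by
    rw [Ne, CharP.cast_eq_zero_iff k p]
    exact hZ
  have hBef := block_eq_mul (p := p) hc hg h0 he hf hB heB hfB
  have hne : inc X e * inc Y f ≠ 0 := by
    rw [← hBef]
    exact hB.2.2.1
  have hDp : IsPGroup p D := (exists_BP_of_block (p := p) e he D hD).1
  have hEp : IsPGroup p E := (exists_BP_of_block (p := p) f hf E hE).1
  obtain ⟨hb1, hw1⟩ := exists_corr_cut red he hD fun a ha b hb => Subtype.ext
    (hab _ (mem_sup_left ⟨a, ha, rfl⟩) _ (mem_sup_left ⟨b, hb, rfl⟩))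
  obtain ⟨hb2, hw2⟩ := exists_corr_cut red hf hE fun a ha b hb => Subtype.ext
    (hab _ (mem_sup_right ⟨a, ha, rfl⟩) _ (mem_sup_right ⟨b, hb, rfl⟩))
  have hcut := numSimple_cut_mul (p := p) hc hg hZ hDp hEp he hf hne
  rw [← hBef] at hcut
  have hdef := central_product_defect (p := p) hc hg hZ he hf hB heB hfB hD hE
  refine ⟨?_, ?_⟩
  · have hlam := fp_scalars (p := p) hc hg hZ he hf hne
    choose lam hlam using hlam
    exact numSimple_mul p hc hg he.1 he.2.1 hf.1 hf.2.1 lam
      (fun z hz hz' => (hlam z hz hz').1) (fun z hz hz' => (hlam z hz' hz).2) hBef hB.1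
  · rw [(exists_corr_cut red hB hdef hab).2, hcut, hw1, hw2]

end Fin

end P179H452
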