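import Vale.Agent.P179.R2.H452.Inj
import Vale.Agent.P179.R2.H46.Core

/-!
# The injectivity half of Watanabe's theorem
-/

namespace P179H452

open Subgroup Finset P179H524 P179C P179A P179P P179Y P179H12

open scoped Classical

universe u

variable {p : ℕ} [hp : Fact p.Prime] {k : Type u} [Field k] [IsAlgClosed k] [CharP k p]

variable (p k) in
/-- the core lemma -/
theorem coreE : CoreE p k := fun _ _ _ _ _ _ del _ _ hl hD hab hT hB hlB hdel hdT hx hxT hdx
    hw hw0 => P179H46.core hl hD hab hT hB hlB del hdel hdT hx hxT hdx hw hw0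

variable {G : Type} [Group G] [Fintype G] {D : Subgroup G} {l : (G → k) → k}

/-- **injectivity** -/
theorem inj (hl : BP p D l) (hD : IsPGroup p D)
    (hab : D ≤ centralizer (D : Set G))
    (hT : ¬ p ∣ (centralizer (D : Set G)).relIndex (stabT D l)) {B : MonoidAlgebra k G}
    (hB : IsBlock B) (hlB : ∀ z : G → k, IsCF z → l z = centralChar B (mkF z)) {x : G}
    (hx : x ∈ D) (hxT : ∀ t ∈ stabT D l, t * x * t⁻¹ = x) {z : G → k} (hz : IsCF z)
    (hBz : conv (fun g => B.coeff g) z = z)
    (h0 : ∀ g, g * x = x * g → conv z (eH (centralizer {x}) l) g = 0) : z = 0 :=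
  inj_of (coreE p k) hl hD hab hT hB hlB hx hxT hz hBz h0

end P179H452
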