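import Vale.Agent.P179.R2.H854.EqD
import Vale.Agent.P179.R2.H452.InjF

/-!
# Graded Watanabe theorem: definitions
-/

namespace P179H452

open Subgroup Finset P179H524 P179C P179A P179P P179Y P179H12 P179R

open scoped Classical

universe u

section

variable {k : Type u} [Field k] {G : Type} [Group G] [Fintype G]

/-- the functions on the coset `c C_G(P)`, invariant under `C_G(P)`, depending only on the regular
parts, and in the block `e` of `C_G(P)` -/
noncomputable def VO (p : ℕ) (N : Subgroup G) (e : G → k) (c : G) : Submodule k (G → k) where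
  carrier := {f | (∀ h, c⁻¹ * h ∉ N → f h = 0) ∧ (∀ m ∈ N, ∀ h, f (m * h * m⁻¹) = f h) ∧
    (∀ h, c⁻¹ * h ∈ N → f (pr p h) = f h) ∧ conv e f = f}
  add_mem' := by
    rintro a b ⟨ha, ha', ha'', ha'''⟩ ⟨hb, hb', hb'', hb'''⟩
    refine ⟨fun g hg => ?_, fun m hm g => ?_, fun x hx => ?_, ?_⟩
    · rw [Pi.add_apply, ha g hg, hb g hg, add_zero]
    · simp only [Pi.add_apply, ha' m hm, hb' m hm]
    · simp only [Pi.add_apply, ha'' x hx, hb'' x hx]
    · funext y
      have h1 := congrFun ha''' y
      have h2 := congrFun hb''' y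
      unfold conv at h1 h2 ⊢
      simp only [Pi.add_apply, mul_add, Finset.sum_add_distrib]
      rw [h1, h2]
  zero_mem' := ⟨fun _ _ => rfl, fun _ _ _ => rfl, fun _ _ => rfl, by
    funext y
    unfold conv
    simp⟩
  smul_mem' := by
    rintro t a ⟨ha, ha', ha'', ha'''⟩
    refine ⟨fun g hg => ?_, fun m hm g => ?_, fun x hx => ?_, ?_⟩
    · rw [Pi.smul_apply, ha g hg, smul_zero]
    · simp only [Pi.smul_apply, ha' m hm]
    · simp only [Pi.smul_apply, ha'' x hx]
    · funext y
      have h1 := congrFun ha''' y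
      unfold conv at h1 ⊢
      simp only [Pi.smul_apply, smul_eq_mul]
      conv_rhs => rw [← h1, Finset.mul_sum]
      exact Finset.sum_congr rfl fun g _ => by ring

theorem mem_VO {p : ℕ} {N : Subgroup G} {e : G → k} {c : G} {f : G → k} : f ∈ VO p N e c ↔
    (∀ h, c⁻¹ * h ∉ N → f h = 0) ∧ (∀ m ∈ N, ∀ h, f (m * h * m⁻¹) = f h) ∧
    (∀ h, c⁻¹ * h ∈ N → f (pr p h) = f h) ∧ conv e f = f := Iff.rfl

/-- the restriction to the coset `c N'`, in the block `e'` of `N'` -/
noncomputable def rs (c : G) (N' : Subgroup G) (e' f : G → k) : G → k :=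
  fun g => if c⁻¹ * g ∈ N' then conv f e' g else 0

theorem rs_pos {c : G} {N' : Subgroup G} {e' f : G → k} {g : G} (h : c⁻¹ * g ∈ N') :
    rs c N' e' f g = conv f e' g := if_pos h

theorem rs_neg {c : G} {N' : Subgroup G} {e' f : G → k} {g : G} (h : c⁻¹ * g ∉ N') :
    rs c N' e' f g = 0 := if_neg h

end

section stmts

/-- **one step of the graded Watanabe theorem** -/
def StepBij (p : ℕ) (k : Type u) [Field k] : Prop :=
  ∀ (G : Type) [Group G] [Fintype G] (D P : Subgroup G) (l : (G → k) → k), BP p D l →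
    IsPGroup p D → D ≤ centralizer (D : Set G) →
    ¬ p ∣ (centralizer (D : Set G)).relIndex (stabT D l) → P ≤ D →
    ∀ c ∈ stabT D l, c ∈ normalizer (P : Set G) → ∀ x ∈ D,
    (∀ t ∈ stabT D l, t ∈ centralizer (P : Set G) → t * x * t⁻¹ = x) → c * x * c⁻¹ = x →
    Set.BijOn (rs c (centralizer ((P ⊔ zpowers x : Subgroup G) : Set G))
        (eH (centralizer ((P ⊔ zpowers x : Subgroup G) : Set G)) l))
      (VO p (centralizer (P : Set G)) (eH (centralizer (P : Set G)) l) c)
      (VO p (centralizer ((P ⊔ zpowers x : Subgroup G) : Set G))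
        (eH (centralizer ((P ⊔ zpowers x : Subgroup G) : Set G)) l) c)

end stmts

end P179H452
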