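import Vale.Agent.P179.R2.H452.G0
import Vale.Agent.P179.R2.H12.Nor

/-!
# Graded Watanabe theorem: the group `H = ⟨N, c⟩`
-/

namespace P179H452

open Subgroup Finset P179H524 P179C P179A P179P P179Y P179H12

open scoped Classical

universe u

section Gen

variable {G : Type} [Group G]

/-- the group generated by `N` and an element normalising `N` -/
def HN (N : Subgroup G) {c : G} (hc : c ∈ normalizer (N : Set G)) : Subgroup G where
  carrier := {g | ∃ i : ℤ, (c ^ i)⁻¹ * g ∈ N}
  one_mem' := ⟨0, by rw [zpow_zero, inv_one, mul_one]; exact one_mem _⟩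
  mul_mem' := by
    rintro a b ⟨i, hi⟩ ⟨j, hj⟩
    refine ⟨i + j, ?_⟩
    have h1 : c ^ j ∈ normalizer (N : Set G) := zpow_mem hc j
    have h2 : (c ^ j)⁻¹ * ((c ^ i)⁻¹ * a) * (c ^ j)⁻¹⁻¹ ∈ N :=
      (mem_normalizer_iff.1 (inv_mem h1) _).1 hi
    have h3 := mul_mem h2 hj
    have e1 : (c ^ j)⁻¹ * ((c ^ i)⁻¹ * a) * (c ^ j)⁻¹⁻¹ * ((c ^ j)⁻¹ * b) =
        (c ^ (i + j))⁻¹ * (a * b) := by
      rw [zpow_add]
      group
    rwa [e1] at h3
  inv_mem' := by
    rintro a ⟨i, hi⟩
    refine ⟨-i, ?_⟩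
    have h1 : c ^ i ∈ normalizer (N : Set G) := zpow_mem hc i
    have h2 : c ^ i * ((c ^ i)⁻¹ * a)⁻¹ * (c ^ i)⁻¹ ∈ N :=
      (mem_normalizer_iff.1 h1 _).1 (inv_mem hi)
    have e1 : c ^ i * ((c ^ i)⁻¹ * a)⁻¹ * (c ^ i)⁻¹ = (c ^ (-i))⁻¹ * a⁻¹ := by
      rw [zpow_neg]
      group
    rwa [e1] at h2

theorem mem_HN {N : Subgroup G} {c : G} {hc : c ∈ normalizer (N : Set G)} {g : G} :
    g ∈ HN N hc ↔ ∃ i : ℤ, (c ^ i)⁻¹ * g ∈ N := Iff.rfl

theorem le_HN {N : Subgroup G} {c : G} (hc : c ∈ normalizer (N : Set G)) : N ≤ HN N hc :=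
  fun g hg => ⟨0, by rwa [zpow_zero, inv_one, one_mul]⟩

theorem self_mem_HN {N : Subgroup G} {c : G} (hc : c ∈ normalizer (N : Set G)) : c ∈ HN N hc :=
  ⟨1, by rw [zpow_one, inv_mul_cancel]; exact one_mem _⟩

theorem coset_mem_HN {N : Subgroup G} {c : G} (hc : c ∈ normalizer (N : Set G)) {g : G}
    (hg : c⁻¹ * g ∈ N) : g ∈ HN N hc := ⟨1, by rwa [zpow_one]⟩

/-- the elements of `⟨N, c⟩` have the properties shared by `N` and `c` -/
theorem HN_le {N : Subgroup G} {c : G} (hc : c ∈ normalizer (N : Set G)) {K : Subgroup G}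
    (hNK : N ≤ K) (hcK : c ∈ K) : HN N hc ≤ K := by
  rintro g ⟨i, hi⟩
  have h1 := mul_mem (zpow_mem hcK i) (hNK hi)
  rwa [mul_inv_cancel_left] at h1

/-- the centraliser is normalised -/
theorem norm_cent {P : Subgroup G} {t : G} (ht : t ∈ normalizer (P : Set G)) :
    t ∈ normalizer ((centralizer (P : Set G) : Subgroup G) : Set G) := by
  have key : ∀ s ∈ normalizer (P : Set G), ∀ x ∈ centralizer (P : Set G),
      s * x * s⁻¹ ∈ centralizer (P : Set G) := by
    intro s hs x hx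
    rw [mem_centralizer_iff]
    intro q hq
    have h1 : s⁻¹ * q * s ∈ P := by
      have := (mem_normalizer_iff.1 (inv_mem hs) q).1 hq
      rwa [inv_inv] at this
    have h2 := mem_centralizer_iff.1 hx _ h1
    calc q * (s * x * s⁻¹) = s * (s⁻¹ * q * s * x) * s⁻¹ := by group
      _ = s * (x * (s⁻¹ * q * s)) * s⁻¹ := by rw [h2]
      _ = s * x * s⁻¹ * q := by group
  rw [mem_normalizer_iff]
  intro x
  refine ⟨key t ht x, fun h => ?_⟩
  have h1 := key t⁻¹ (inv_mem ht) _ h
  have e1 : t⁻¹ * (t * x * t⁻¹) * t⁻¹⁻¹ = x := by group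
  rwa [e1] at h1

end Gen

section Blk

variable {p : ℕ} [hp : Fact p.Prime] {k : Type u} [Field k] [IsAlgClosed k] [CharP k p]
  {G : Type} [Group G] [Fintype G] {D : Subgroup G} {l : (G → k) → k}

/-- the block of `C_G(P)` below `l` is stable under the inertial group -/
theorem cj_eH (hl : BP p D l) (hD : IsPGroup p D) (hab : D ≤ centralizer (D : Set G))
    {P : Subgroup G} (hPD : P ≤ D) {t : G} (ht : t ∈ stabT D l)
    (htP : t ∈ normalizer (P : Set G)) :
    P179Y.cj t (eH (centralizer (P : Set G)) l) = eH (centralizer (P : Set G)) l := by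
  have hm := mulHQ hl hD hab hPD
  obtain ⟨b, hb, hlb, he⟩ := eH_spec hm
  rw [he]
  exact (mem_stH_iff hm hb hlb (norm_cent htP)).1
    (stabT_le_stH hl (cent_le_cent hPD) ht (norm_cent htP))

/-- the block of a group `H` between `C_G(P)` and `N_G(P)` -/
theorem eH_up (hl : BP p D l) (hD : IsPGroup p D) (hab : D ≤ centralizer (D : Set G))
    {P H : Subgroup G} (hPD : P ≤ D) (hNH : centralizer (P : Set G) ≤ H)
    (hHP : H ≤ normalizer (P : Set G))
    (hHe : ∀ h ∈ H, P179Y.cj h (eH (centralizer (P : Set G)) l) =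
      eH (centralizer (P : Set G)) l) :
    eH H l = eH (centralizer (P : Set G)) l := by
  set N := centralizer (P : Set G) with hN
  have hmN : MulH N l := mulHQ hl hD hab hPD
  have hmH : MulH H l := BP.mulH hl hD hab ((cent_le_cent hPD).trans hNH)
  have hPH : P ≤ H := ((hPD.trans hab).trans (cent_le_cent hPD)).trans hNH
  have heN : InvOn N (eH N l) := invOn_eH hmN
  have hEH : InvOn H (eH H l) := invOn_eH hmH
  have heinv : ∀ h ∈ H, ∀ x, eH N l (h * x * h⁻¹) = eH N l x := by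
    intro h hh x
    have h1 := congrFun (hHe h⁻¹ (inv_mem hh)) x
    unfold P179Y.cj at h1
    rwa [inv_inv] at h1
  have h1 : conv (eH N l) (eH H l) = eH H l := by
    refine conv_eH hmH ⟨heinv, fun x hx => heN.2 x fun h => hx (hNH h)⟩ (eH_idem hmN) ?_
    rw [l_eH hmN]
    exact one_ne_zero
  -- the support
  have hsupp : ∀ x, x ∉ N → eH H l x = 0 := by
    intro x hx
    by_cases hxH : x ∈ H
    · have hPn : (P.subgroupOf H).Normal := by
        refine ⟨fun y hy g => ?_⟩
        rw [mem_subgroupOf] at hy ⊢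
        exact (mem_normalizer_iff.1 (hHP g.2) _).1 hy
      have hcf : IsCF (fun h : H => eH H l h) := fun t y => hEH.1 t t.2 y
      have hidem : conv (fun h : H => eH H l h) (fun h : H => eH H l h) =
          fun h : H => eH H l h := by
        funext y
        have h2 := P179Y.ext_conv H (fun h : H => eH H l h) (fun h : H => eH H l h)
        rw [ext_restr' hEH.2, eH_idem hmH] at h2
        rw [← P179Y.ext_coe H (conv _ _) y, h2]
      refine P179H12.idem_supp (p := p) (P.subgroupOf H) (hD.to_le hPD).comap_subtype hcf hidem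
        (g := ⟨x, hxH⟩) ?_
      rw [mem_cent_subgroupOf hPH]
      exact hx
    · exact hEH.2 x hxH
  have h2 : conv (eH H l) (eH N l) = eH N l := by
    refine conv_eH hmN ⟨fun h hh x => hEH.1 h (hNH hh) x, hsupp⟩ (eH_idem hmH) ?_
    rw [l_eH hmH]
    exact one_ne_zero
  rw [← h1, conv_comm_inv (H := H) heinv hEH.2, h2]

theorem norm_sup {P : Subgroup G} {x c : G} (hc : c ∈ normalizer (P : Set G))
    (hxc : c * x * c⁻¹ = x) : c ∈ normalizer ((P ⊔ zpowers x : Subgroup G) : Set G) := by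
  have key : ∀ s ∈ normalizer (P : Set G), s * x * s⁻¹ = x →
      ∀ y ∈ P ⊔ zpowers x, s * y * s⁻¹ ∈ P ⊔ zpowers x := by
    intro s hs hsx y hy
    have h1 : P ⊔ zpowers x ≤ (P ⊔ zpowers x).comap (MulAut.conj s).toMonoidHom := by
      refine sup_le (fun q hq => ?_) ?_
      · rw [mem_comap]
        exact mem_sup_left ((mem_normalizer_iff.1 hs q).1 hq)
      · rw [zpowers_le, mem_comap]
        change s * x * s⁻¹ ∈ _
        rw [hsx]
        exact mem_sup_right (mem_zpowers x)
    exact h1 hy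
  have hinv : c⁻¹ * x * c⁻¹⁻¹ = x := by
    conv_lhs => rw [← hxc]
    group
  rw [mem_normalizer_iff]
  intro y
  refine ⟨key c hc hxc y, fun h => ?_⟩
  have h1 := key c⁻¹ (inv_mem hc) hinv _ h
  have e1 : c⁻¹ * (c * y * c⁻¹) * c⁻¹⁻¹ = y := by group
  rwa [e1] at h1

/-- elements commuting with `x` and normalising `P` -/
theorem cent_sup_eq {P : Subgroup G} {x : G} :
    centralizer ((P ⊔ zpowers x : Subgroup G) : Set G) =
      centralizer (P : Set G) ⊓ centralizer {x} := by
  apply le_antisymm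
  · refine le_inf (cent_le_cent le_sup_left) fun g hg => ?_
    rw [mem_centralizer_singleton_iff]
    exact (mem_centralizer_iff.1 hg x (mem_sup_right (mem_zpowers x))).symm
  · rintro g ⟨hg, hgx⟩
    exact mem_cent_sup hg (mem_centralizer_singleton_iff.1 hgx)

end Blk

end P179H452
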