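import Vale.Agent.P179.R2.H872.Line2

/-!
# Comparison of the regular classes of two quotients
-/

namespace P179H452

open P179H872 Subgroup

universe u

section Iso

variable {G1 G2 : Type} [Group G1] [Group G2] {N1 : Subgroup G1} [N1.Normal] {N2 : Subgroup G2}
  [N2.Normal] (i : G2 →* G1)

/-- the isomorphism of the quotients -/
noncomputable def quoEquiv (hN : ∀ x, i x ∈ N1 ↔ x ∈ N2) (hs : ∀ g, ∃ x, (i x)⁻¹ * g ∈ N1) :
    G2 ⧸ N2 ≃* G1 ⧸ N1 :=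
  have hle : N2 ≤ N1.comap i := fun x hx => (hN x).2 hx
  MulEquiv.ofBijective (QuotientGroup.map N2 N1 i hle) (by
    constructor
    · rw [injective_iff_map_eq_one]
      intro y hy
      obtain ⟨x, rfl⟩ := QuotientGroup.mk_surjective y
      have h1 : ((i x : G1) : G1 ⧸ N1) = 1 := hy
      rw [QuotientGroup.eq_one_iff] at h1
      exact (QuotientGroup.eq_one_iff _).2 ((hN x).1 h1)
    · intro y
      obtain ⟨g, rfl⟩ := QuotientGroup.mk_surjective y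
      obtain ⟨x, hx⟩ := hs g
      refine ⟨(x : G2 ⧸ N2), ?_⟩
      change ((i x : G1) : G1 ⧸ N1) = (g : G1 ⧸ N1)
      rw [QuotientGroup.eq]
      exact hx)

theorem quoEquiv_mk (hN : ∀ x, i x ∈ N1 ↔ x ∈ N2) (hs : ∀ g, ∃ x, (i x)⁻¹ * g ∈ N1) (x : G2) :
    quoEquiv i hN hs (x : G2 ⧸ N2) = (i x : G1) := rfl

/-- the bijection of the conjugacy classes of the quotients -/
noncomputable def ccEquiv (hN : ∀ x, i x ∈ N1 ↔ x ∈ N2) (hs : ∀ g, ∃ x, (i x)⁻¹ * g ∈ N1) :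
    ConjClasses (G2 ⧸ N2) ≃ ConjClasses (G1 ⧸ N1) where
  toFun := ConjClasses.map (quoEquiv i hN hs).toMonoidHom
  invFun := ConjClasses.map (quoEquiv i hN hs).symm.toMonoidHom
  left_inv K := by
    obtain ⟨y, rfl⟩ := ConjClasses.exists_rep K
    change ConjClasses.mk ((quoEquiv i hN hs).symm (quoEquiv i hN hs y)) = _
    rw [MulEquiv.symm_apply_apply]
  right_inv K := by
    obtain ⟨y, rfl⟩ := ConjClasses.exists_rep K
    change ConjClasses.mk (quoEquiv i hN hs ((quoEquiv i hN hs).symm y)) = _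
    rw [MulEquiv.apply_symm_apply]

theorem ccEquiv_mk (hN : ∀ x, i x ∈ N1 ↔ x ∈ N2) (hs : ∀ g, ∃ x, (i x)⁻¹ * g ∈ N1)
    (y : G2 ⧸ N2) :
    ccEquiv i hN hs (ConjClasses.mk y) = ConjClasses.mk (quoEquiv i hN hs y) := rfl

end Iso

section Pair

variable {k : Type u} [Field k] {G1 G2 : Type} [Group G1] [Group G2] {N1 : Subgroup G1}
  [hN1 : N1.Normal] {N2 : Subgroup G2} [hN2 : N2.Normal] (i : G2 →* G1)

omit hN1 in
/-- a pairing trivial on `N` only depends on the cosets (first argument fixed) -/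
theorem pair_right {α : G1 → G1 → k}
    (hmul : ∀ y x x', y * x * y⁻¹ * x⁻¹ ∈ N1 → y * x' * y⁻¹ * x'⁻¹ ∈ N1 →
        α y (x * x') = α y x * α y x')
    (hone : ∀ y x, x ∈ N1 → α y x = 1) [hN1 : N1.Normal] {y x m : G1}
    (h : y * x * y⁻¹ * x⁻¹ ∈ N1) (hm : m ∈ N1) : α y (x * m) = α y x := by
  rw [hmul y x m h (mul_mem (hN1.conj_mem m hm y) (inv_mem hm)), hone y m hm, mul_one]

theorem pair_left {α : G1 → G1 → k}
    (hsymm : ∀ y x, y * x * y⁻¹ * x⁻¹ ∈ N1 → α y x * α x y = 1)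
    (hmul : ∀ y x x', y * x * y⁻¹ * x⁻¹ ∈ N1 → y * x' * y⁻¹ * x'⁻¹ ∈ N1 →
        α y (x * x') = α y x * α y x')
    (hone : ∀ y x, x ∈ N1 → α y x = 1) {y x m : G1}
    (h : y * x * y⁻¹ * x⁻¹ ∈ N1) (hm : m ∈ N1) : α (y * m) x = α y x := by
  have hinv : ∀ u v : G1, u * v * u⁻¹ * v⁻¹ ∈ N1 → v * u * v⁻¹ * u⁻¹ ∈ N1 := by
    intro u v huv
    have h1 := inv_mem huv
    have h2 : (u * v * u⁻¹ * v⁻¹)⁻¹ = v * u * v⁻¹ * u⁻¹ := by group
    rwa [h2] at h1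
  have h1 := hinv _ _ h
  have h2 : x * (y * m) * x⁻¹ * (y * m)⁻¹ ∈ N1 := by
    have h3 : x * (y * m) * x⁻¹ * (y * m)⁻¹ = (x * y * x⁻¹ * y⁻¹) *
        (y * (x * m * x⁻¹ * m⁻¹) * y⁻¹) := by group
    rw [h3]
    exact mul_mem h1 (hN1.conj_mem _ (mul_mem (hN1.conj_mem m hm x) (inv_mem hm)) y)
  have h4 := hsymm _ _ (hinv _ _ h2)
  rw [pair_right hmul hone h1 hm] at h4
  have h5 := hsymm _ _ h
  have h6 : α x y ≠ 0 := right_ne_zero_of_mul_eq_one h5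
  exact mul_right_cancel₀ h6 (h4.trans h5.symm)

/-- the good classes of the two quotients correspond -/
theorem card_good_eq (hN : ∀ x, i x ∈ N1 ↔ x ∈ N2) (hs : ∀ g, ∃ x, (i x)⁻¹ * g ∈ N1)
    {α1 : G1 → G1 → k} {α2 : G2 → G2 → k}
    (hsymm : ∀ y x, y * x * y⁻¹ * x⁻¹ ∈ N1 → α1 y x * α1 x y = 1)
    (hmul : ∀ y x x', y * x * y⁻¹ * x⁻¹ ∈ N1 → y * x' * y⁻¹ * x'⁻¹ ∈ N1 →
        α1 y (x * x') = α1 y x * α1 y x')
    (hone : ∀ y x, x ∈ N1 → α1 y x = 1)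
    (heq : ∀ y x, y * x * y⁻¹ * x⁻¹ ∈ N2 → α1 (i y) (i x) = α2 y x) :
    Nat.card {K : ConjClasses (G1 ⧸ N1) // ∀ x : G1, ConjClasses.mk (x : G1 ⧸ N1) = K →
      ∀ y, y * x * y⁻¹ * x⁻¹ ∈ N1 → α1 y x = 1} =
    Nat.card {K : ConjClasses (G2 ⧸ N2) // ∀ x : G2, ConjClasses.mk (x : G2 ⧸ N2) = K →
      ∀ y, y * x * y⁻¹ * x⁻¹ ∈ N2 → α2 y x = 1} := by
  symm
  have hcomm : ∀ y x : G2, y * x * y⁻¹ * x⁻¹ ∈ N2 ↔ i y * i x * (i y)⁻¹ * (i x)⁻¹ ∈ N1 := by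
    intro y x
    rw [← hN]
    simp only [map_mul, map_inv]
  -- representatives in `G2`
  have hrep : ∀ g : G1, ∃ x : G2, ∃ m ∈ N1, g = i x * m := by
    intro g
    obtain ⟨x, hx⟩ := hs g
    exact ⟨x, _, hx, by group⟩
  refine Nat.card_congr ((ccEquiv i hN hs).subtypeEquiv fun K => ?_)
  constructor
  · intro h g hg y hy
    obtain ⟨x, m, hm, rfl⟩ := hrep g
    obtain ⟨y, m', hm', rfl⟩ := hrep y
    have hcos : ∀ (u v m m' : G1), m ∈ N1 → m' ∈ N1 →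
        u * m' * (v * m) * (u * m')⁻¹ * (v * m)⁻¹ ∈ N1 → u * v * u⁻¹ * v⁻¹ ∈ N1 := by
      intro u v m m' hm hm' h
      rw [← QuotientGroup.eq_one_iff] at h ⊢
      have h1 : ((m : G1) : G1 ⧸ N1) = 1 := (QuotientGroup.eq_one_iff m).2 hm
      have h2 : ((m' : G1) : G1 ⧸ N1) = 1 := (QuotientGroup.eq_one_iff m').2 hm'
      simpa only [QuotientGroup.mk_mul, QuotientGroup.mk_inv, h1, h2, mul_one] using h
    have hxy := hcos _ _ _ _ hm hm' hy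
    have h1 : α1 (i y * m') (i x * m) = α1 (i y) (i x) := by
      have h3 : i y * m' * i x * (i y * m')⁻¹ * (i x)⁻¹ ∈ N1 := by
        rw [← QuotientGroup.eq_one_iff] at hxy ⊢
        have h2 : ((m' : G1) : G1 ⧸ N1) = 1 := (QuotientGroup.eq_one_iff m').2 hm'
        simpa only [QuotientGroup.mk_mul, QuotientGroup.mk_inv, h2, mul_one] using hxy
      rw [pair_right hmul hone h3 hm, pair_left hsymm hmul hone hxy hm']
    rw [h1, heq y x ((hcomm y x).2 hxy)]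
    refine h x ?_ y ((hcomm y x).2 hxy)
    apply (ccEquiv i hN hs).injective
    rw [ccEquiv_mk, quoEquiv_mk, ← hg]
    congr 1
    rw [QuotientGroup.mk_mul, (QuotientGroup.eq_one_iff m).2 hm, mul_one]
  · intro h x hx y hy
    rw [← heq y x hy]
    refine h (i x) ?_ (i y) ((hcomm y x).1 hy)
    rw [← hx, ccEquiv_mk, quoEquiv_mk]

end Pair

section Count

open P179C MonoidAlgebra

variable {k : Type u} [Field k] {G1 G2 : Type} [Group G1] [Group G2] [Fintype G1] [Fintype G2]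
  {N1 : Subgroup G1} [hN1 : N1.Normal] {N2 : Subgroup G2} [hN2 : N2.Normal] (i : G2 →* G1)

/-- **the numbers of simple modules agree** if, for `x`, `y` commuting modulo `N2`, the element `y`
acts by the same scalar on the two lines of functions over `x` -/
theorem glue (p : ℕ) [hp : Fact p.Prime] [IsAlgClosed k] [CharP k p]
    (hidx1 : ¬ p ∣ N1.index) (hidx2 : ¬ p ∣ N2.index)
    {c1 : MonoidAlgebra k N1} {c2 : MonoidAlgebra k N2}
    (hN : ∀ x, i x ∈ N1 ↔ x ∈ N2) (hs : ∀ g, ∃ x, (i x)⁻¹ * g ∈ N1)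
    (hz1 : c1 ∈ Subalgebra.center k (MonoidAlgebra k N1)) (hs1 : c1 * c1 = c1)
    (hz2 : c2 ∈ Subalgebra.center k (MonoidAlgebra k N2)) (hs2 : c2 * c2 = c2)
    (hc1 : inc N1 c1 ∈ Subalgebra.center k (MonoidAlgebra k G1))
    (hc2 : inc N2 c2 ∈ Subalgebra.center k (MonoidAlgebra k G2))
    (h1 : numSimpleIn c1 = 1) (h2 : numSimpleIn c2 = 1)
    (hline : ∀ y x : G2, y * x * y⁻¹ * x⁻¹ ∈ N2 → ∃ a : k,
      (∃ ψ ∈ LX p c1 (i x), ψ ≠ 0 ∧ ∀ g, ψ ((i y)⁻¹ * g * i y) = a * ψ g) ∧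
      ∃ ψ ∈ LX p c2 x, ψ ≠ 0 ∧ ∀ g, ψ (y⁻¹ * g * y) = a * ψ g) :
    numSimpleIn (inc N1 c1) = numSimpleIn (inc N2 c2) := by
  obtain ⟨α1, t1, -, hact1, hsymm1, -, hmul1, hone1, -, hcard1⟩ :=
    exists_pairing p hidx1 hz1 hs1 hc1 h1
  obtain ⟨α2, t2, -, hact2, -, -, -, -, -, hcard2⟩ := exists_pairing p hidx2 hz2 hs2 hc2 h2
  rw [hcard1, hcard2]
  refine card_good_eq i hN hs hsymm1 hmul1 hone1 fun y x hyx => ?_
  obtain ⟨a, ⟨ψ1, hψ1, hne1, ha1⟩, ψ2, hψ2, hne2, ha2⟩ := hline y x hyx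
  have hcomm : i y * i x * (i y)⁻¹ * (i x)⁻¹ ∈ N1 := by
    have := (hN _).2 hyx
    simpa only [map_mul, map_inv] using this
  have e1 : α1 (i y) (i x) = a := by
    obtain ⟨g, hg⟩ : ∃ g, ψ1 g ≠ 0 := by
      by_contra hcon
      push Not at hcon
      exact hne1 (funext hcon)
    have h3 := hact1 (i y) (i x) hcomm ψ1 hψ1 g
    rw [ha1 g] at h3
    exact (mul_right_cancel₀ hg h3).symm
  have e2 : α2 y x = a := by
    obtain ⟨g, hg⟩ : ∃ g, ψ2 g ≠ 0 := by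
      by_contra hcon
      push Not at hcon
      exact hne2 (funext hcon)
    have h3 := hact2 y x hyx ψ2 hψ2 g
    rw [ha2 g] at h3
    exact (mul_right_cancel₀ hg h3).symm
  rw [e1, e2]

end Count

end P179H452
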