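import Vale.Agent.P179.R2.H452.Qmx
import Vale.Agent.P179.R2.H452.Del
import Vale.Agent.P179.R2.H12.Wat4

/-!
# The injectivity half of Watanabe's theorem, from the core lemma
-/

namespace P179H452

open Subgroup Finset P179H524 P179C P179A P179P P179Y P179H12

open scoped Classical

universe u

/-- **the core lemma**, in terms of the blocks of the centralisers below `l` -/
def CoreE (p : ℕ) (k : Type u) [Field k] : Prop :=
  ∀ (G : Type) [Group G] [Fintype G] (D : Subgroup G) (l : (G → k) → k) (B : MonoidAlgebra k G)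
    (del : G → k) (x : G) (w : G → k), BP p D l → IsPGroup p D → D ≤ centralizer (D : Set G) →
    ¬ p ∣ (centralizer (D : Set G)).relIndex (stabT D l) → IsBlock B →
    (∀ z : G → k, IsCF z → l z = centralChar B (mkF z)) →
    (∀ u ∈ D, ∀ v ∈ D, del (u * v) = del u + del v) →
    (∀ t ∈ stabT D l, ∀ u ∈ D, del (t * u * t⁻¹) = del u) → x ∈ D →
    (∀ t ∈ stabT D l, t * x * t⁻¹ = x) → del x ≠ 0 → IsCF w →
    (∀ u ∈ D, del u ≠ 0 → ∀ g, g * u = u * g → conv w (eH (centralizer {u}) l) g = 0) →
    conv (fun g => B.coeff g) w = 0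

section Gen

variable {k : Type u} [Field k] {G : Type} [Group G]

/-- functions on a subgroup, as functions on the group -/
theorem conv_zero_left [Fintype G] (b : G → k) : conv (0 : G → k) b = 0 := by
  funext x
  unfold conv
  exact Finset.sum_eq_zero fun y _ => by rw [Pi.zero_apply, zero_mul]

theorem mem_cent_sup {Q : Subgroup G} {u g : G} (hg : g ∈ centralizer (Q : Set G))
    (hu : g * u = u * g) : g ∈ centralizer ((Q ⊔ zpowers u : Subgroup G) : Set G) := by
  have h1 : Q ⊔ zpowers u ≤ centralizer ({g} : Set G) := by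
    refine sup_le (fun q hq => ?_) ?_
    · rw [mem_centralizer_singleton_iff]
      exact mem_centralizer_iff.1 hg q hq
    · rw [zpowers_le, mem_centralizer_singleton_iff]
      exact hu.symm
  rw [mem_centralizer_iff]
  intro q hq
  exact mem_centralizer_singleton_iff.1 (h1 hq)

end Gen

section Main

variable {p : ℕ} [hp : Fact p.Prime] {k : Type u} [Field k] [IsAlgClosed k] [CharP k p]
  {G : Type} [Group G] [Fintype G] {D : Subgroup G} {l : (G → k) → k}

/-- the Brauer homomorphism for `Q ≤ P`, after multiplication with the blocks below `l` -/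
theorem conv_cut_step (hl : BP p D l) (hD : IsPGroup p D) (hab : D ≤ centralizer (D : Set G))
    {H P : Subgroup G} (hPD : P ≤ D) (hPH : P ≤ H)
    (hCH : centralizer (P : Set G) ≤ H) {z : G → k} (hz : ∀ d ∈ P, ∀ x, z (d * x * d⁻¹) = z x) :
    conv (cutC P (conv z (eH H l))) (eH (centralizer (P : Set G)) l) =
      conv (cutC P z) (eH (centralizer (P : Set G)) l) := by
  have hmH : MulH H l := BP.mulH hl hD hab ((cent_le_cent hPD).trans hCH)
  have hinv := invOn_eH hmH
  rw [cutC_conv p (hD.to_le hPD) hz (fun d hd x => hinv.1 d (hPH hd) x), conv_assoc',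
    cut_eH hl hD hab hPD hPH hCH]

/-- the case `x ∈ Q` -/
theorem conv_cut_eq_zero_mem (hl : BP p D l) (hD : IsPGroup p D)
    (hab : D ≤ centralizer (D : Set G)) {x : G} {z : G → k} (hz : IsCF z)
    (h0 : ∀ g, g * x = x * g → conv z (eH (centralizer {x}) l) g = 0)
    {Q : Subgroup G} (hQD : Q ≤ D) (hxQ : x ∈ Q) :
    conv (cutC Q z) (eH (centralizer (Q : Set G)) l) = 0 := by
  have hCx : centralizer (Q : Set G) ≤ centralizer ({x} : Set G) := centralizer_le (by
    rw [Set.singleton_subset_iff]
    exact hxQ)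
  have hQC : Q ≤ centralizer (Q : Set G) := (hQD.trans hab).trans (cent_le_cent hQD)
  rw [← conv_cut_step hl hD hab hQD (hQC.trans hCx) hCx fun d _ x => hz d x]
  have h1 : cutC Q (conv z (eH (centralizer {x}) l)) = 0 := by
    funext g
    unfold cutC
    by_cases hg : g ∈ centralizer (Q : Set G)
    · rw [if_pos hg, h0 g (mem_centralizer_iff.1 hg x hxQ).symm]
      rfl
    · rw [if_neg hg]
      rfl
  rw [h1, conv_zero_left]

/-- the centraliser of an element in the centraliser of `Q` -/
theorem map_cent {Q : Subgroup G} {u : centralizer (Q : Set G)} :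
    (centralizer ({u} : Set (centralizer (Q : Set G)))).map (centralizer (Q : Set G)).subtype =
      centralizer ((Q ⊔ zpowers (u : G) : Subgroup G) : Set G) := by
  ext g
  constructor
  · rintro ⟨h, hh, rfl⟩
    refine mem_cent_sup h.2 ?_
    have h1 := mem_centralizer_singleton_iff.1 hh
    exact congrArg Subtype.val h1
  · intro hg
    have h1 : g ∈ centralizer (Q : Set G) := cent_le_cent le_sup_left hg
    refine ⟨⟨g, h1⟩, ?_, rfl⟩
    refine mem_centralizer_singleton_iff.2 (Subtype.ext ?_)
    exact (mem_centralizer_iff.1 hg (u : G) (mem_sup_right (mem_zpowers _))).symm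

/-- **the core lemma in the centraliser of a maximal `Q`** -/
theorem conv_cut_eq_zero (hcore : CoreE p k) (hl : BP p D l) (hD : IsPGroup p D)
    (hab : D ≤ centralizer (D : Set G))
    (hT : ¬ p ∣ (centralizer (D : Set G)).relIndex (stabT D l)) {x : G} (hx : x ∈ D)
    (hxT : ∀ t ∈ stabT D l, t * x * t⁻¹ = x) {z : G → k} (hz : IsCF z)
    {Q : Subgroup G} (hQD : Q ≤ D) (hxQ : x ∉ Q)
    (hQ : ∀ P : Subgroup G, P ≤ D → Q < P →
      conv (cutC P z) (eH (centralizer (P : Set G)) l) = 0) :
    conv (cutC Q z) (eH (centralizer (Q : Set G)) l) = 0 := by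
  set C := centralizer (Q : Set G) with hC
  have hCH : centralizer (D : Set G) ≤ C := cent_le_cent hQD
  have hDH : D ≤ C := hab.trans hCH
  have hmC : MulH C l := BP.mulH hl hD hab hCH
  obtain ⟨e, he, hle, hee⟩ := eH_spec hmC
  set w : G → k := conv (cutC Q z) (eH C l) with hw
  have hzI : InvOn C (cutC Q z) := invOn_cutC' fun h _ x => hz h x
  have heI : InvOn C (eH C l) := invOn_eH hmC
  have hwI : InvOn C w := InvOn.conv C hzI heI
  have hT' : ¬ p ∣ (centralizer ((D.subgroupOf C : Subgroup C) : Set C)).relIndex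
      (stabT (D.subgroupOf C) (lres C l)) := fun h => hT (h.trans (relIndex_stabT_lres_dvd hDH hCH))
  have hab' : D.subgroupOf C ≤ centralizer ((D.subgroupOf C : Subgroup C) : Set C) := by
    intro d hd
    rw [mem_cent_subgroupOf hDH]
    exact hab (mem_subgroupOf.1 hd)
  have hD' : IsPGroup p (D.subgroupOf C) := hD.comap_subtype
  obtain ⟨del, hd1, hd2, hd3, y, hy, hyT, hyd⟩ := exists_delta' (k := k) (Q := Q.subgroupOf C)
    hD' hab' (stabT_le_norm (D.subgroupOf C) (lres C l)) hT'
    (cent_le_stabT (D.subgroupOf C) (lres C l))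
    (fun t _ => by
      rw [mem_centralizer_iff]
      intro q hq
      exact Subtype.ext (mem_centralizer_iff.1 t.2 (q : G) (mem_subgroupOf.1 hq)))
    (x := ⟨x, hDH hx⟩) (mem_subgroupOf.2 hx)
    (fun t ht => Subtype.ext (hxT t ((mem_stabT_lres hDH hCH t).1 ht)))
    (fun h => hxQ (mem_subgroupOf.1 h))
  have hmain := hcore C (D.subgroupOf C) (lres C l) e del y (fun h => w h)
    (hl.restrict hDH hCH) hD' hab' hT' he (fun z hz => ?_) hd1 hd2 hy hyT hyd
    (isCF_of_invOn hwI) ?_
  · -- conclusion
    have h1 := congrArg (P179Y.ext C) hmain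
    rw [P179Y.ext_conv, ext_restr' hwI.2] at h1
    have h2 : P179Y.ext C (0 : C → k) = 0 := by
      funext g
      by_cases hg : g ∈ C
      · rw [P179Y.ext_of_mem C _ hg]
        rfl
      · rw [P179Y.ext_of_not_mem C _ hg]
        rfl
    have h3 : P179Y.ext C (fun g => e.coeff g) = eH C l := hee.symm
    rw [h2, h3, conv_comm_inv (H := C) heI.1 hwI.2, hw, conv_assoc', eH_idem hmC] at h1
    exact h1
  · -- the central character
    have h1 : InvOn C (P179Y.ext C z) := by
      constructor
      · intro c hc g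
        by_cases hg : g ∈ C
        · rw [P179Y.ext_of_mem C z hg, P179Y.ext_of_mem C z (mul_mem (mul_mem hc hg) (inv_mem hc))]
          exact hz ⟨c, hc⟩ ⟨g, hg⟩
        · rw [P179Y.ext_of_not_mem C z hg, P179Y.ext_of_not_mem C z]
          intro h
          apply hg
          have h2 := mul_mem (mul_mem (inv_mem hc) h) hc
          have e1 : c⁻¹ * (c * g * c⁻¹) * c = g := by group
          rwa [e1] at h2
      · intro g hg
        exact P179Y.ext_of_not_mem C z hg
    have h2 := hle _ h1
    have h3 : (fun h : C => P179Y.ext C z h) = z := by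
      funext h
      rw [P179Y.ext_coe]
    rw [h3] at h2
    exact h2
  · -- vanishing
    intro u hu hdu g hgu
    have huD : (u : G) ∈ D := mem_subgroupOf.1 hu
    have huQ : (u : G) ∉ Q := fun h => hdu (hd3 u (mem_subgroupOf.2 h) hu)
    have hgu' : (g : G) * u = u * g := congrArg Subtype.val hgu
    set P : Subgroup G := Q ⊔ zpowers (u : G) with hPdef
    have hPD : P ≤ D := sup_le hQD ((zpowers_le).2 huD)
    have hlt : Q < P := by
      refine lt_of_le_of_ne le_sup_left fun h => huQ ?_
      rw [h]
      exact mem_sup_right (mem_zpowers _)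
    have hPC : P ≤ C := hPD.trans hDH
    have hCP : centralizer (P : Set G) ≤ C := cent_le_cent hlt.le
    have hmP : MulH (centralizer (P : Set G)) l := mulHQ hl hD hab hPD
    have hgP : (g : G) ∈ centralizer (P : Set G) := mem_cent_sup g.2 hgu'
    have h1 : P179Y.ext C (eH (centralizer ({u} : Set C)) (lres C l)) =
        eH (centralizer (P : Set G)) l := by
      have h2 : (centralizer ({u} : Set C)).map C.subtype = centralizer (P : Set G) := map_cent
      have h3 := ext_eH (K := C) (H' := centralizer ({u} : Set C)) (l := l) (by rw [h2]; exact hmP)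
      rw [h3, h2]
    have h4 : conv (fun h : C => w h) (eH (centralizer ({u} : Set C)) (lres C l)) g =
        conv w (eH (centralizer (P : Set G)) l) g := by
      rw [← P179Y.ext_coe C (conv (fun h : C => w h) (eH (centralizer ({u} : Set C)) (lres C l))) g,
        P179Y.ext_conv, ext_restr' hwI.2, h1]
    have hePI := invOn_eH hmP
    have hPP : P ≤ centralizer (P : Set G) := (hPD.trans hab).trans (cent_le_cent hPD)
    have h5 : cutC P (conv w (eH (centralizer (P : Set G)) l)) =
        conv (cutC P z) (eH (centralizer (P : Set G)) l) := by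
      rw [cutC_conv p (hD.to_le hPD) (fun d hd x => hwI.1 d (hPC hd) x)
        (fun d hd x => hePI.1 d (hPP hd) x), cutC_of_supp hePI.2, hw,
        conv_cut_step hl hD hab hPD hPC hCP fun d hd x => hzI.1 d (hPC hd) x]
      congr 1
      funext y
      unfold cutC
      by_cases hy : y ∈ centralizer (P : Set G)
      · rw [if_pos hy, if_pos hy, if_pos (hCP hy)]
      · rw [if_neg hy, if_neg hy]
    have h6 := congrFun h5 (g : G)
    rw [hQ P hPD hlt] at h6
    rw [h4]
    have h7 : cutC P (conv w (eH (centralizer (P : Set G)) l)) g =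
        conv w (eH (centralizer (P : Set G)) l) g := if_pos hgP
    rw [← h7, h6]
    rfl

/-- **injectivity** -/
theorem inj_of (hcore : CoreE p k) (hl : BP p D l) (hD : IsPGroup p D)
    (hab : D ≤ centralizer (D : Set G))
    (hT : ¬ p ∣ (centralizer (D : Set G)).relIndex (stabT D l)) {B : MonoidAlgebra k G}
    (hB : IsBlock B) (hlB : ∀ z : G → k, IsCF z → l z = centralChar B (mkF z)) {x : G}
    (hx : x ∈ D) (hxT : ∀ t ∈ stabT D l, t * x * t⁻¹ = x) {z : G → k} (hz : IsCF z)
    (hBz : conv (fun g => B.coeff g) z = z)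
    (h0 : ∀ g, g * x = x * g → conv z (eH (centralizer {x}) l) g = 0) : z = 0 := by
  by_contra hz0
  obtain ⟨Q, hQD, hne, hmax⟩ := exists_Qmax' hl hD hab hB hlB hz hBz hz0
  apply hne
  by_cases hxQ : x ∈ Q
  · exact conv_cut_eq_zero_mem hl hD hab hz h0 hQD hxQ
  · exact conv_cut_eq_zero hcore hl hD hab hT hx hxT hz hQD hxQ hmax

end Main

end P179H452
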