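import Vale.Agent.P179.R2.H452.Final6
import Vale.Agent.P179.R2.H292.Gen

/-!
# The statement (M6)
-/

namespace P179H452

open Subgroup P179C

universe u

theorem m6Stmt {p : ℕ} [hp : Fact p.Prime] {k : Type u} [Field k] [IsAlgClosed k] [CharP k p]
    (hp2 : p ≠ 2) (red : integralClosure ℤ ℂ →+* k) : P179H292.M6Stmt p k := by
  intro G _ _ B D β a J hB hD hab hβ hβB hstar h8 hDa hJ
  rw [P179B.numSimpleIn_eq]
  exact numSimpleIn_le red hB hD hab hβ ((P179B.inducesTo_iff β B).1 hβB) hp2 hstar h8 hDa hJ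

end P179H452
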