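import Vale.Agent.P179.R2.H452.N1

/-!
# Blocks with several simple modules at elements which are not regular: 2. long words
-/

namespace P179H452

open Finset P179P P179C P179Y Subgroup P179H524 P179I

open P179X (pp SameSec)

open scoped Classical IsMulCommutative

universe v

set_option linter.unusedSectionVars false

section

variable {p : ℕ} [hp : Fact p.Prime] {k : Type v} [Field k] [CharP k p] {red : AA →+* k}
  {G : Type} [Group G] [Fintype G] {D : Subgroup G} {l : (G → k) → k}

/-- fusion, for elements which need not be regular -/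
theorem fusionT' (hl : BP p D l) (hD : IsPGroup p D)
    (hab : D ≤ centralizer (D : Set G))
    (hT : ¬ p ∣ (centralizer (D : Set G)).relIndex (stabT D l)) {w g : G} (hw : w ∈ D)
    (hw' : g * w * g⁻¹ ∈ D)
    (heq : ∀ z, InvOn (centralizer {g * w * g⁻¹}) z → l (cj g⁻¹ z) = l z) :
    ∃ n ∈ stabT D l, n * w * n⁻¹ = g * w * g⁻¹ := by
  have hDH := le_cent_of_mem hw' hab
  have hCH := cent_le_of_mem (D := D) hw'
  obtain ⟨c, hc, hn⟩ := fusionH hl hD hab hDH hCH
    (fun h => hT (h.trans (relIndex_stabT_lres_dvd hDH hCH))) (g := g) (by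
      intro d hd
      rw [mem_centralizer_singleton_iff]
      have h2 := mem_centralizer_iff.1 (hab hw) d hd
      calc g * d * g⁻¹ * (g * w * g⁻¹) = g * (d * w) * g⁻¹ := by group
        _ = g * w * g⁻¹ * (g * d * g⁻¹) := by rw [h2]; group) heq
  refine ⟨_, hn, ?_⟩
  have h5 := mem_centralizer_singleton_iff.1 hc
  calc c⁻¹ * g * w * (c⁻¹ * g)⁻¹ = c⁻¹ * ((g * w * g⁻¹) * c) := by group
    _ = g * w * g⁻¹ := by rw [← h5]; group

/-- transport of the local functional -/
theorem lres_conj (hl : BP p D l) {u t : G} (hu : u ∈ D) (ht : t ∈ stabT D l)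
    {z : (centralizer {u} : Subgroup G) → k} (hz : IsCF z) :
    lres (centralizer {t * u * t⁻¹}) l (fun x => z ((cEquiv t u).symm x)) =
      lres (centralizer {u}) l z := by
  have hCH := cent_le_of_mem (D := D) hu
  unfold lres
  have h3 : P179Y.ext (centralizer {t * u * t⁻¹}) (fun x => z ((cEquiv t u).symm x)) =
      cj t (P179Y.ext (centralizer {u}) z) := by
    funext g
    unfold cj
    by_cases hg : t⁻¹ * g * t ∈ (centralizer {u} : Subgroup G)
    · rw [ext_of_mem _ _ hg]
      have hg' : g ∈ (centralizer {t * u * t⁻¹} : Subgroup G) := by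
        have := (cEquiv t u ⟨_, hg⟩).2
        rw [cEquiv_coe] at this
        have e : t * (t⁻¹ * g * t) * t⁻¹ = g := by group
        change t * (t⁻¹ * g * t) * t⁻¹ ∈ _ at this
        rwa [e] at this
      rw [ext_of_mem _ _ hg']
      rfl
    · rw [ext_of_not_mem _ _ hg, ext_of_not_mem]
      intro hg'
      exact hg ((cEquiv t u).symm ⟨g, hg'⟩).2
  rw [h3]
  refine l_cj_stab hl ht ?_
  intro c hc x
  have hcH := hCH hc
  by_cases hx : x ∈ (centralizer {u} : Subgroup G)
  · rw [ext_of_mem _ _ hx, ext_of_mem _ _ (mul_mem (mul_mem hcH hx) (inv_mem hcH))]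
    exact hz ⟨c, hcH⟩ ⟨x, hx⟩
  · rw [ext_of_not_mem _ _ hx, ext_of_not_mem]
    intro h1
    apply hx
    have := mul_mem (mul_mem (inv_mem hcH) h1) hcH
    have e : c⁻¹ * (c * x * c⁻¹) * c = x := by group
    rwa [e] at this

theorem TT_equiv {K K' R : Type*} [Group K] [Group K'] [Fintype K] [Fintype K'] [CommRing R]
    (e : K' ≃* K) (z F : K → R) (n : ℕ) :
    TT (fun x => z (e x)) n (fun x => F (e x)) = TT z n F := by
  unfold TT
  refine Fintype.sum_equiv (Equiv.piCongrRight fun _ : Fin n => e.toEquiv) _ _ fun w => ?_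
  have h1 : (Equiv.piCongrRight fun _ : Fin n => e.toEquiv) w = fun i => e (w i) := rfl
  rw [h1]
  have h2 : wprod (fun i => e (w i)) = e (wprod w) := by
    unfold wprod
    have := map_list_prod e.toMonoidHom (List.ofFn w)
    rw [List.map_ofFn] at this
    exact this.symm
  rw [h2]

/-- the killing property, conjugate form -/
theorem kill_conj (hl : BP p D l) (j : G → AA)
    (hkill : ∀ v ∈ D, ∀ φ' : Irr (centralizer {v} : Subgroup G),
        ¬ InL red (lres (centralizer {v}) l) φ'.1 → ∀ N : ℕ, ∃ M : ℕ, ∀ n ≥ M,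
          TT (fun h : (centralizer {v} : Subgroup G) => j h) n (chA φ') ∈ QN p red N)
    {u t : G} (hu : u ∈ D) (ht : t ∈ stabT D l) (θ : Irr (centralizer {u} : Subgroup G))
    (hθ : ¬ InL red (lres (centralizer {u}) l) θ.1) (N : ℕ) :
    ∃ M : ℕ, ∀ n ≥ M,
      TT (fun h : (centralizer {u} : Subgroup G) => j (t * h * t⁻¹)) n (chA θ) ∈ QN p red N := by
  have hu' : t * u * t⁻¹ ∈ D := (mem_normalizer_iff.1 (stabT_le_norm D l ht) u).1 hu
  let φ' : Irr (centralizer {t * u * t⁻¹} : Subgroup G) :=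
    ⟨fun x => θ.1 ((cEquiv t u).symm x),
      θ.2.comp (cEquiv t u).symm.toMonoidHom (cEquiv t u).symm.surjective⟩
  have hφ' : ¬ InL red (lres (centralizer {t * u * t⁻¹}) l) φ'.1 := by
    intro h
    apply hθ
    intro z hz
    have h1 : IsCF (fun x => z ((cEquiv t u).symm x)) := by
      intro a x
      simp only [map_mul, map_inv]
      exact hz _ _
    have h2 := h _ h1
    rw [lres_conj hl hu ht hz] at h2
    rw [← h2]
    exact (lam_comp red (cEquiv t u).symm θ.2 hz).symm
  obtain ⟨M, hM⟩ := hkill _ hu' φ' hφ' N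
  refine ⟨M, fun n hn => ?_⟩
  have h1 := hM n hn
  rw [← TT_equiv (cEquiv t u)] at h1
  have h2 : (fun x : (centralizer {u} : Subgroup G) => chA φ' (cEquiv t u x)) = chA θ := by
    funext x
    apply Subtype.ext
    change θ.1 ((cEquiv t u).symm (cEquiv t u x)) = θ.1 x
    rw [MulEquiv.symm_apply_apply]
  rw [h2] at h1
  exact h1

variable {H : Subgroup G} {s : ℕ} {ψ : Fin s → Irr H} {σ : Fin s → ℤ} {m a1 a2 : ℕ}

/-- **the values of the long words at an element which is not regular** -/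
theorem NDat.psi (h : NDat p red D l H ψ σ m a1 a2) {u : G} (hH : ∀ x, x ∈ H ↔ x * u = u * x)
    {a : ℕ} (hu : u ^ p ^ a = 1) (j : G → AA) (hj : ∀ x, j (u * x * u⁻¹) = j x)
    (hkill : ∀ θ : Irr H, ¬ InL red (lres H l) θ.1 → ∀ N : ℕ, ∃ M : ℕ, ∀ n ≥ M,
      TT (fun h : H => j h) n (chA θ) ∈ QN p red N) (N : ℕ) :
    ∃ M : ℕ, ∀ n ≥ M, ∀ χ : Irr G, Psi j (p ^ n) χ u -
      ∑ i, XA p ψ σ m a1 i u χ * ((σ i : AA) * TT (fun h : H => j h) (p ^ n) (chA (ψ i))) ∈
        QN p red N := by
  have huH : u ∈ H := (hH u).2 rfl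
  obtain ⟨c, hc⟩ := exists_scalars H huH fun x hx => (hH x).1 hx
  obtain ⟨A, hA⟩ := h.exists_N
  have hM : ∀ θ : Irr H, ∃ M : ℕ, ¬ InL red (lres H l) θ.1 → ∀ n ≥ M,
      TT (fun h : H => j h) n (chA θ) ∈ QN p red N := by
    intro θ
    by_cases hθ : InL red (lres H l) θ.1
    · exact ⟨0, fun h => absurd hθ h⟩
    · obtain ⟨M, hM⟩ := hkill θ hθ N
      exact ⟨M, fun _ => hM⟩
  choose M hM using hM
  set c₀ : ℕ := (Nat.card H).factorization p with hs
  refine ⟨(∑ θ, M θ) + N + c₀, fun r hr χ => ?_⟩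
  obtain ⟨n, hn⟩ := restr_decomp χ H
  have hMr : ∀ θ, M θ ≤ p ^ r := by
    intro θ
    have h1 : M θ ≤ ∑ θ, M θ := Finset.single_le_sum (fun _ _ => Nat.zero_le _) (mem_univ θ)
    have := Nat.lt_pow_self (n := r) hp.out.one_lt
    omega
  -- cut
  have h1 := cut_mem p red u hu j (chA χ) hj (chA_isCF χ) H hH r
  have h1' := QN_mono (show N ≤ r + 1 by omega) h1
  have h2 : ∑ w : Fin (p ^ r) → G, (∏ i, j (w i)) * chA χ (wprod w * u) =
      Psi j (p ^ r) χ u := by
    unfold Psi
    refine Finset.sum_congr rfl fun w _ => ?_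
    congr 1
    exact Subtype.ext (χ.mul_comm _ _)
  rw [h2] at h1'
  -- decomposition
  have h3 : (fun h : H => chA χ ((h : G) * u)) = fun h : H => ∑ θ : Irr H, ((n θ : AA) * c θ) * chA θ h := by
    funext h
    apply Subtype.ext
    push_cast
    have h4 : (chA χ ((h : G) * u) : ℂ) = χ.1 (((⟨u, huH⟩ : H) * h : H) : G) := by
      change χ.1 ((h : G) * u) = χ.1 (u * (h : G))
      rw [(hH h).1 h.2]
    rw [h4, hn]
    refine Finset.sum_congr rfl fun θ _ => ?_
    rw [hc]
    change _ = _ * (θ.1 h)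
    ring
  rw [h3, TT_sum] at h1'
  have h5 : ∀ i, XA p ψ σ m a1 i u χ =
      ∑ θ : Irr H, if InL red (lres H l) θ.1 then (n θ : AA) * c θ * (A θ i : AA) else 0 :=
    fun i => h.XA_eq A hA hH i χ n hn c hc
  have h6 : ∑ i, XA p ψ σ m a1 i u χ * ((σ i : AA) * TT (fun h : H => j h) (p ^ r) (chA (ψ i))) =
      ∑ θ : Irr H, if InL red (lres H l) θ.1 then (n θ : AA) * c θ *
        ∑ i, (A θ i : AA) * ((σ i : AA) * TT (fun h : H => j h) (p ^ r) (chA (ψ i))) else 0 := by
    simp only [h5, Finset.sum_mul]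
    rw [Finset.sum_comm]
    refine Finset.sum_congr rfl fun θ _ => ?_
    split_ifs
    · rw [Finset.mul_sum]
      exact Finset.sum_congr rfl fun i _ => by ring
    · simp
  have h7 : ∑ θ : Irr H, ((n θ : AA) * c θ) * TT (fun h : H => j h) (p ^ r) (chA θ) -
      ∑ i, XA p ψ σ m a1 i u χ * ((σ i : AA) * TT (fun h : H => j h) (p ^ r) (chA (ψ i))) ∈
        QN p red N := by
    rw [h6, ← Finset.sum_sub_distrib]
    refine Ideal.sum_mem _ fun θ _ => ?_
    by_cases hθ : InL red (lres H l) θ.1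
    · rw [if_pos hθ, ← mul_sub]
      refine Ideal.mul_mem_left _ _ ?_
      have hcf : IsCF (fun x : H => chA θ x - ∑ i, ((A θ i : AA) * (σ i : AA)) * chA (ψ i) x) := by
        intro t x
        beta_reduce
        rw [chA_isCF]
        congr 1
        exact Finset.sum_congr rfl fun i _ => by rw [chA_isCF]
      have h8 := TT_reg (p := p) (red := red) hcf (fun x hx => by
        rw [sub_eq_zero]
        apply Subtype.ext
        push_cast
        refine (hA θ hθ x hx).trans (Finset.sum_congr rfl fun i _ => ?_)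
        change _ = _ * _ * (ψ i).1 x
        ring) (fun h : H => j h) c₀ (fun x => not_dvd_orderOf_pow p x) (r - c₀)
      rw [Nat.sub_add_cancel (by omega)] at h8
      have h9 : TT (fun h : H => j h) (p ^ r) (fun x : H => chA θ x -
          ∑ i, ((A θ i : AA) * (σ i : AA)) * chA (ψ i) x) =
          TT (fun h : H => j h) (p ^ r) (chA θ) -
            ∑ i, (A θ i : AA) * ((σ i : AA) * TT (fun h : H => j h) (p ^ r) (chA (ψ i))) := by
        have h10 := TT_sum (univ : Finset (Fin s)) (fun h : H => j h) (p ^ r)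
          (fun i => (A θ i : AA) * (σ i : AA)) (fun i => chA (ψ i))
        have h11 : ∑ i, (A θ i : AA) * ((σ i : AA) * TT (fun h : H => j h) (p ^ r) (chA (ψ i))) =
            ∑ i, ((A θ i : AA) * (σ i : AA)) * TT (fun h : H => j h) (p ^ r) (chA (ψ i)) :=
          Finset.sum_congr rfl fun i _ => by ring
        rw [h11, ← h10]
        unfold TT
        rw [← Finset.sum_sub_distrib]
        exact Finset.sum_congr rfl fun w _ => by ring
      rw [h9] at h8
      exact QN_mono (by omega) h8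
    · rw [if_neg hθ, sub_zero]
      exact Ideal.mul_mem_left _ _ (hM θ hθ _ (hMr θ))
  have h9 := Ideal.add_mem _ h1' h7
  rwa [sub_add_sub_cancel] at h9

end

end P179H452
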