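import Vale.Agent.P179.R2.H452.N2

/-!
# Blocks with several simple modules at elements which are not regular: 3. sums over the characters
-/

namespace P179H452

open Finset P179P P179C P179Y Subgroup P179H524 P179I

open P179X (pp SameSec)

open scoped Classical IsMulCommutative

universe v

set_option linter.unusedSectionVars false

section

variable {p : ℕ} [hp : Fact p.Prime] {k : Type v} [Field k] [CharP k p] {red : AA →+* k}
  {G : Type} [Group G] [Fintype G] {D : Subgroup G} {l : (G → k) → k}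
  {H : Subgroup G} {s : ℕ} {ψ : Fin s → Irr H} {σ : Fin s → ℤ} {m a1 a2 : ℕ}

/-- the sum of the numbers against the values -/
theorem NDat.F_cf (i : Fin s) (u v : G) (K : Subgroup G) (hK : ∀ x ∈ K, x * v = v * x) :
    IsCF (fun x : K => ∑ χ : Irr G, XA p ψ σ m a1 i u χ * chA χ ((x : G) * v)) := by
  intro t x
  refine Finset.sum_congr rfl fun χ _ => ?_
  congr 1
  have h1 := hK t t.2
  have h2 : ((t * x * t⁻¹ : K) : G) * v = (t : G) * (x * v) * (t : G)⁻¹ := by
    push_cast
    have h3 : (t : G)⁻¹ * v = v * (t : G)⁻¹ := by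
      calc (t : G)⁻¹ * v = (t : G)⁻¹ * (v * t) * (t : G)⁻¹ := by group
        _ = (t : G)⁻¹ * (t * v) * (t : G)⁻¹ := by rw [h1]
        _ = v * (t : G)⁻¹ := by group
    rw [mul_assoc, h3]; group
  rw [h2, chA_isCF χ]

/-- the cut -/
theorem NDat.cut (i : Fin s) (u v : G) {a : ℕ} (hv : v ^ p ^ a = 1) (K : Subgroup G)
    (hK : ∀ x, x ∈ K ↔ x * v = v * x) (j : G → AA) (hj : ∀ x, j (v * x * v⁻¹) = j x) (n : ℕ) :
    (∑ χ : Irr G, XA p ψ σ m a1 i u χ * Psi j (p ^ n) χ v) -
      TT (fun h : K => j h) (p ^ n)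
        (fun x : K => ∑ χ : Irr G, XA p ψ σ m a1 i u χ * chA χ ((x : G) * v)) ∈ QN p red (n + 1) := by
  rw [TT_sum, ← Finset.sum_sub_distrib]
  refine Ideal.sum_mem _ fun χ _ => ?_
  rw [← mul_sub]
  refine Ideal.mul_mem_left _ _ ?_
  have h1 := cut_mem p red v hv j (chA χ) hj (chA_isCF χ) K hK n
  have h2 : ∑ w : Fin (p ^ n) → G, (∏ i, j (w i)) * chA χ (wprod w * v) = Psi j (p ^ n) χ v := by
    unfold Psi
    refine Finset.sum_congr rfl fun w _ => ?_
    congr 1
    exact Subtype.ext (χ.mul_comm _ _)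
  rwa [h2] at h1

theorem NDat.F_val (h : NDat p red D l H ψ σ m a1 a2) {u : G} (hH : ∀ x, x ∈ H ↔ x * u = u * x)
    (i : Fin s) (x v : G) :
    ((∑ χ : Irr G, XA p ψ σ m a1 i u χ * chA χ (x * v) : AA) : ℂ) =
      ∑ χ : Irr G, dn p H (p ^ a1) (Pk ψ σ m i) u χ.1 * χ.1 (x * v) := by
  push_cast
  refine Finset.sum_congr rfl fun χ _ => ?_
  rw [h.XA_coe hH i χ]
  rfl

/-- **the sum at the inverse** -/
theorem NDat.col_in (h : NDat p red D l H ψ σ m a1 a2) {u : G} (hH : ∀ x, x ∈ H ↔ x * u = u * x)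
    {a : ℕ} (hu : u ^ p ^ a = 1) (j : G → AA) (hj : ∀ x, j (u * x * u⁻¹) = j x) (i : Fin s)
    (N : ℕ) : ∃ M : ℕ, ∀ n ≥ M, (∑ χ : Irr G, XA p ψ σ m a1 i u χ * Psi j (p ^ n) χ u⁻¹) -
      (p : AA) ^ a1 * ((σ i : AA) * TT (fun h : H => j h) (p ^ n) (chA (ψ i)) +
        (m : AA) * ∑ r, (σ r : AA) * TT (fun h : H => j h) (p ^ n) (chA (ψ r))) ∈ QN p red N := by
  set c₀ : ℕ := (Nat.card H).factorization p with hs
  have hui : (u⁻¹) ^ p ^ a = 1 := by rw [inv_pow, hu, inv_one]
  have hHi : ∀ x, x ∈ H ↔ x * u⁻¹ = u⁻¹ * x := by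
    intro x
    rw [hH]
    constructor
    · intro h
      calc x * u⁻¹ = u⁻¹ * (u * x) * u⁻¹ := by group
        _ = u⁻¹ * (x * u) * u⁻¹ := by rw [h]
        _ = u⁻¹ * x := by group
    · intro h
      calc x * u = u * (u⁻¹ * x) * u := by group
        _ = u * (x * u⁻¹) * u := by rw [h]
        _ = u * x := by group
  have hji : ∀ x, j (u⁻¹ * x * u⁻¹⁻¹) = j x := by
    intro x
    rw [← hj (u⁻¹ * x * u⁻¹⁻¹)]
    congr 1
    group
  refine ⟨N + c₀, fun n hn => ?_⟩
  have hcut := NDat.cut (red := red) (p := p) (ψ := ψ) (σ := σ) (m := m) (a1 := a1) i u u⁻¹ hui H hHi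
    j hji n
  set F : H → AA := fun x : H => ∑ χ : Irr G, XA p ψ σ m a1 i u χ * chA χ ((x : G) * u⁻¹) with hF
  have hFcf : IsCF F := NDat.F_cf i u u⁻¹ H fun x hx => (hHi x).1 hx
  have hcf : IsCF (fun x : H => F x - (p : AA) ^ a1 * PkA ψ σ m i x) := by
    intro t x
    beta_reduce
    rw [hFcf t x, PkA_cf]
  have h1 := TT_reg (p := p) (red := red) hcf (fun x hx => by
      rw [sub_eq_zero]
      apply Subtype.ext
      simp only [hF]
      rw [h.F_val hH i x u⁻¹]
      push_cast
      have hx' : ¬ p ∣ orderOf (x : G) := by rwa [Subgroup.orderOf_coe]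
      rw [sum_dn_char_conj (g := 1) H (p ^ a1) (Pk_cf ψ σ m i) ⟨a, hu⟩ ⟨a, hui⟩ hH
        ((hHi x).1 x.2) hx' (by group), PkA_coe]
      have h2 : P179Y.ext H (Pk ψ σ m i) (1⁻¹ * (x : G) * 1) = Pk ψ σ m i x := by
        have h3 : (1 : G)⁻¹ * (x : G) * 1 = x := by group
        rw [h3, ext_of_mem H _ x.2]
      rw [h2]
      push_cast
      rfl) (fun h : H => j h) c₀ (fun x => not_dvd_orderOf_pow p x) (n - c₀)
  rw [Nat.sub_add_cancel (by omega)] at h1
  have h2 : TT (fun h : H => j h) (p ^ n) (fun x : H => F x - (p : AA) ^ a1 * PkA ψ σ m i x) =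
      TT (fun h : H => j h) (p ^ n) F - (p : AA) ^ a1 *
        ((σ i : AA) * TT (fun h : H => j h) (p ^ n) (chA (ψ i)) +
        (m : AA) * ∑ r, (σ r : AA) * TT (fun h : H => j h) (p ^ n) (chA (ψ r))) := by
    have h3 := TT_sum (univ : Finset (Fin s)) (fun h : H => j h) (p ^ n)
      (fun r => (σ r : AA)) (fun r => chA (ψ r))
    rw [← h3]
    unfold TT
    rw [Finset.mul_sum, Finset.mul_sum, ← Finset.sum_add_distrib, Finset.mul_sum,
      ← Finset.sum_sub_distrib]
    refine Finset.sum_congr rfl fun w _ => ?_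
    unfold PkA
    ring
  rw [h2] at h1
  have h5 := Ideal.add_mem _ (QN_mono (show N ≤ n + 1 by omega) hcut)
    (QN_mono (show N ≤ n - c₀ + 1 by omega) h1)
  rwa [sub_add_sub_cancel] at h5

/-- the conjugate character -/
noncomputable def eCi {g u v : G} (hg : g * u * g⁻¹ = v⁻¹) (θ : Irr (centralizer {u} : Subgroup G)) :
    Irr (centralizer {v} : Subgroup G) :=
  ⟨fun x => θ.1 (eCo hg x), θ.2.comp (eCo hg).toMonoidHom (eCo hg).surjective⟩

/-- it does not belong to the block -/
theorem eCi_not (hl : BP p D l) (hD : IsPGroup p D) (hab : D ≤ centralizer (D : Set G))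
    (hT : ¬ p ∣ (centralizer (D : Set G)).relIndex (stabT D l)) {g u v : G}
    (θ : Irr (centralizer {u} : Subgroup G)) (hθ : InL red (lres (centralizer {u}) l) θ.1)
    (hu : u ∈ D) (hv : v ∈ D) (hg : g * u * g⁻¹ = v⁻¹)
    (hne : ¬ ∃ t ∈ stabT D l, t * u * t⁻¹ = v⁻¹) :
    ¬ InL red (lres (centralizer {v}) l) (eCi hg θ).1 := by
  intro hIn
  have hu' : g⁻¹ * v⁻¹ * g⁻¹⁻¹ = u := by rw [← hg]; group
  obtain ⟨n, hn, hn2⟩ := fusionT' hl hD hab hT (w := v⁻¹) (g := g⁻¹) (inv_mem hv)
    (by rw [hu']; exact hu) (by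
      rw [hu', inv_inv]
      intro z hz
      have hz' : IsCF fun x : (centralizer {u} : Subgroup G) => z x := fun t x => hz.1 t t.2 x
      have hzc : IsCF fun x : (centralizer {v} : Subgroup G) =>
          (fun x : (centralizer {u} : Subgroup G) => z x) (eCo hg x) := by
        intro t x
        simp only [map_mul, map_inv]
        exact hz' _ _
      have h1 := hIn _ hzc
      have h2 := lam_comp red (eCo hg) θ.2 hz'
      have h3 := hθ _ hz'
      have h4 : l (cj g z) = lres (centralizer {v}) l (fun x : (centralizer {v} : Subgroup G) =>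
          (fun x : (centralizer {u} : Subgroup G) => z x) (eCo hg x)) := by
        unfold lres
        congr 1
        funext x
        unfold cj P179Y.ext
        split_ifs with hx
        · rfl
        · apply hz.2
          intro hx'
          apply hx
          have h5 := ((eCo hg).symm ⟨_, hx'⟩).2
          have h6 : (((eCo hg).symm ⟨_, hx'⟩ : (centralizer {v} : Subgroup G)) : G) =
              g * (g⁻¹ * x * g) * g⁻¹ := rfl
          rw [h6] at h5
          have h7 : g * (g⁻¹ * x * g) * g⁻¹ = x := by group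
          rwa [h7] at h5
      have h5 : l z = lres (centralizer {u}) l (fun x : (centralizer {u} : Subgroup G) => z x) := by
        unfold lres
        congr 1
        funext x
        unfold P179Y.ext
        split_ifs with hx
        · rfl
        · exact hz.2 x hx
      rw [h4, h5, ← h3, ← h1, ← h2]
      rfl)
  rw [hu'] at hn2
  apply hne
  exact ⟨n⁻¹, inv_mem hn, by rw [← hn2]; group⟩

theorem chA_eCi {g u v : G} (hg : g * u * g⁻¹ = v⁻¹) (θ : Irr (centralizer {u} : Subgroup G))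
    (x : (centralizer {v} : Subgroup G)) : chA (eCi hg θ) x = chA θ (eCo hg x) := rfl

/-- **the sum outside the orbit of the inverse** -/
theorem NDat.col_out {ψ : Fin s → Irr H} (h : NDat p red D l H ψ σ m a1 a2) (hl : BP p D l)
    (hD : IsPGroup p D) (hab : D ≤ centralizer (D : Set G))
    (hT : ¬ p ∣ (centralizer (D : Set G)).relIndex (stabT D l)) {u v : G} (hu : u ∈ D)
    (hH : ∀ x, x ∈ H ↔ x * u = u * x) (hv : v ∈ D) (j : G → AA)
    (hj : ∀ d ∈ D, ∀ g, j (d * g * d⁻¹) = j g)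
    (hkill : ∀ v ∈ D, ∀ φ' : Irr (centralizer {v} : Subgroup G),
        ¬ InL red (lres (centralizer {v}) l) φ'.1 → ∀ N : ℕ, ∃ M : ℕ, ∀ n ≥ M,
          TT (fun h : (centralizer {v} : Subgroup G) => j h) n (chA φ') ∈ QN p red N)
    (hne : ¬ ∃ t ∈ stabT D l, t * u * t⁻¹ = v⁻¹) (i : Fin s) (N : ℕ) :
    ∃ M : ℕ, ∀ n ≥ M, ∑ χ : Irr G, XA p ψ σ m a1 i u χ * Psi j (p ^ n) χ v ∈ QN p red N := by
  have hHu : H = centralizer {u} := by
    ext x
    rw [hH, mem_centralizer_singleton_iff]
  subst hHu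
  have hpel : ∀ w ∈ D, ∃ a : ℕ, w ^ p ^ a = 1 := by
    intro w hw
    obtain ⟨n, hn⟩ := hD ⟨w, hw⟩
    exact ⟨n, by simpa using congrArg Subtype.val hn⟩
  obtain ⟨a, ha⟩ := hpel v hv
  set c₀ : ℕ := (Nat.card (centralizer {v} : Subgroup G)).factorization p with hs
  set F : (centralizer {v} : Subgroup G) → AA := fun x =>
    ∑ χ : Irr G, XA p ψ σ m a1 i u χ * chA χ ((x : G) * v) with hF
  have hFcf : IsCF F := NDat.F_cf i u v _ fun x hx => mem_centralizer_singleton_iff.1 hx
  have hcut : ∀ n : ℕ, (∑ χ : Irr G, XA p ψ σ m a1 i u χ * Psi j (p ^ n) χ v) -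
      TT (fun h : (centralizer {v} : Subgroup G) => j h) (p ^ n) F ∈ QN p red (n + 1) := fun n =>
    NDat.cut i u v ha (centralizer {v}) (mem_cz v) j (hj v hv) n
  by_cases hex : ∃ g : G, g * u * g⁻¹ = v⁻¹
  · obtain ⟨g, hg⟩ := hex
    have hM : ∀ r, ∃ M : ℕ, ∀ n ≥ M,
        TT (fun h : (centralizer {v} : Subgroup G) => j h) n (chA (eCi hg (ψ r))) ∈ QN p red N :=
      fun r => hkill v hv _ (eCi_not hl hD hab hT (ψ r) (h.inl r) hu hv hg hne) N
    choose M hM using hM
    refine ⟨(∑ r, M r) + N + c₀, fun n hn => ?_⟩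
    have hMr : ∀ r, M r ≤ p ^ n := by
      intro r
      have h1 : M r ≤ ∑ r, M r := Finset.single_le_sum (fun _ _ => Nat.zero_le _) (mem_univ r)
      have := Nat.lt_pow_self (n := n) hp.out.one_lt
      omega
    have hcf : IsCF (fun x : (centralizer {v} : Subgroup G) =>
        F x - (p : AA) ^ a1 * PkA ψ σ m i (eCo hg x)) := by
      intro t x
      beta_reduce
      rw [hFcf t x, map_mul, map_mul, map_inv, PkA_cf]
    have h1 := TT_reg (p := p) (red := red) hcf (fun x hx => by
        rw [sub_eq_zero]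
        apply Subtype.ext
        simp only [hF]
        rw [h.F_val hH i x v]
        have hx' : ¬ p ∣ orderOf (x : G) := by rwa [Subgroup.orderOf_coe]
        rw [sum_dn_char_conj (centralizer {u}) (p ^ a1) (Pk_cf ψ σ m i) (hpel u hu) ⟨a, ha⟩ hH
          (mem_centralizer_singleton_iff.1 x.2) hx' hg]
        push_cast
        rw [PkA_coe]
        have h2 : P179Y.ext (centralizer {u}) (Pk ψ σ m i) (g⁻¹ * (x : G) * g) =
            Pk ψ σ m i (eCo hg x) := by
          have hmem : g⁻¹ * (x : G) * g ∈ centralizer {u} := (eCo hg x).2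
          rw [ext_of_mem _ _ hmem]
          rfl
        rw [h2]) (fun h : (centralizer {v} : Subgroup G) => j h) c₀
      (fun x => not_dvd_orderOf_pow p x) (n - c₀)
    rw [Nat.sub_add_cancel (by omega)] at h1
    have h2 : TT (fun h : (centralizer {v} : Subgroup G) => j h) (p ^ n)
        (fun x => F x - (p : AA) ^ a1 * PkA ψ σ m i (eCo hg x)) =
        TT (fun h : (centralizer {v} : Subgroup G) => j h) (p ^ n) F - (p : AA) ^ a1 *
          ((σ i : AA) * TT (fun h : (centralizer {v} : Subgroup G) => j h) (p ^ n)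
            (chA (eCi hg (ψ i))) +
          (m : AA) * ∑ r, (σ r : AA) * TT (fun h : (centralizer {v} : Subgroup G) => j h) (p ^ n)
            (chA (eCi hg (ψ r)))) := by
      have h3 := TT_sum (univ : Finset (Fin s)) (fun h : (centralizer {v} : Subgroup G) => j h)
        (p ^ n) (fun r => (σ r : AA)) (fun r => chA (eCi hg (ψ r)))
      rw [← h3]
      unfold TT
      rw [Finset.mul_sum, Finset.mul_sum, ← Finset.sum_add_distrib, Finset.mul_sum,
        ← Finset.sum_sub_distrib]
      refine Finset.sum_congr rfl fun w _ => ?_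
      unfold PkA
      simp only [chA_eCi]
      ring
    rw [h2] at h1
    have h3 : (p : AA) ^ a1 * ((σ i : AA) * TT (fun h : (centralizer {v} : Subgroup G) => j h)
          (p ^ n) (chA (eCi hg (ψ i))) +
          (m : AA) * ∑ r, (σ r : AA) * TT (fun h : (centralizer {v} : Subgroup G) => j h) (p ^ n)
            (chA (eCi hg (ψ r)))) ∈ QN p red N := by
      refine Ideal.mul_mem_left _ _ (Ideal.add_mem _ (Ideal.mul_mem_left _ _ (hM i _ (hMr i)))
        (Ideal.mul_mem_left _ _ (Ideal.sum_mem _ fun r _ => Ideal.mul_mem_left _ _ (hM r _ (hMr r)))))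
    have h4 : TT (fun h : (centralizer {v} : Subgroup G) => j h) (p ^ n) F ∈ QN p red N := by
      have h5 := Ideal.add_mem _ (QN_mono (show N ≤ n - c₀ + 1 by omega) h1) h3
      rwa [sub_add_cancel] at h5
    have h5 := Ideal.add_mem _ (QN_mono (show N ≤ n + 1 by omega) (hcut n)) h4
    rwa [sub_add_cancel] at h5
  · refine ⟨N + c₀, fun n hn => ?_⟩
    have h1 := TT_reg (p := p) (red := red) hFcf (fun x hx => by
        apply Subtype.ext
        simp only [hF]
        rw [h.F_val hH i x v]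
        have hx' : ¬ p ∣ orderOf (x : G) := by rwa [Subgroup.orderOf_coe]
        rw [sum_dn_char (centralizer {u}) (p ^ a1) _ (hpel u hu) ⟨a, ha⟩ hH
          (mem_centralizer_singleton_iff.1 x.2) hx', Finset.sum_eq_zero, mul_zero]
        · rfl
        · intro g _
          rw [if_neg (fun h => hex ⟨g, h⟩)])
      (fun h : (centralizer {v} : Subgroup G) => j h) c₀
      (fun x => not_dvd_orderOf_pow p x) (n - c₀)
    rw [Nat.sub_add_cancel (by omega)] at h1
    have h5 := Ideal.add_mem _ (QN_mono (show N ≤ n + 1 by omega) (hcut n))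
      (QN_mono (show N ≤ n - c₀ + 1 by omega) h1)
    rwa [sub_add_cancel] at h5

end

end P179H452
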