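import Vale.Agent.P179.R2.H452.Ext2

/-!
# Blocks with several simple modules at elements which are not regular: 4. algebra
-/

namespace P179H452

open Finset P179P P179I P179C

open scoped Classical

set_option linter.unusedSectionVars false

section Abs

variable {k : Type*} [Field k] {p : ℕ} [hp : Fact p.Prime] [CharP k p] {red : AA →+* k}
  {A : Type*} [AddCommGroup A] [Fintype A] {X : Type*} [Fintype X]

/-- a combination of characters of a `p`-group is constant modulo `p` -/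
theorem red_RI {a : ℕ} (hA : Fintype.card A = p ^ a) {P : A → AA} (hP : RI P) (b c : A) :
    red (P b) = red (P c) := by
  obtain ⟨d, hd⟩ := hP
  have h1 : ∀ (ψ : AddChar A ℂ) (b : A), red (lamA ψ b) = 1 := by
    intro ψ b
    have h2 : lamA ψ b ^ p ^ a = 1 := by
      rw [← lamA_nsmul, ← hA, card_nsmul_eq_zero, lamA_zero']
    have h3 : red (lamA ψ b) ^ p ^ a = 1 := by rw [← map_pow, h2, map_one]
    have h4 : (red (lamA ψ b) - 1) ^ p ^ a = 0 := by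
      rw [sub_pow_char_pow, h3, one_pow, sub_self]
    exact sub_eq_zero.1 (pow_eq_zero_iff (pow_ne_zero _ hp.out.ne_zero) |>.1 h4)
  rw [hd, hd, map_sum, map_sum]
  exact Finset.sum_congr rfl fun ψ _ => by rw [map_mul, map_mul, h1, h1]

theorem ext_absN (hp2 : p ≠ 2) {N N2 a : ℕ} (hA : Fintype.card A = p ^ a) (hNN : N2 ≤ N)
    (W U : A → Prop)
    (F Aχ Sχ : X → A → AA) (C : A → AA) (E : AA) (mm : X → AA) (hF : ∀ χ, RI (F χ))
    (h1 : ∀ χ, ∀ b, W b → F χ b - C b * Aχ χ b ∈ QN p red N)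
    (h1' : ∀ χ, ∀ b, U b → F χ b - E * Sχ χ b ∈ QN p red N2)
    (h2 : ∀ b, W b → (∑ χ, F χ b * mm χ) - C b ^ 2 ∈ QN p red N)
    (h2' : ∀ b, U b → (∑ χ, F χ b * mm χ) - E ^ 2 ∈ QN p red N2)
    (hN2 : 1 ≤ N2)
    (γ : k) (hγ : γ ≠ 0) (h3 : ∀ b, W b → red (C b) = γ)
    (hP : ∀ i : ℕ, i ≡ 1 [MOD p] → ∀ b, (∑ χ, F χ (i • b) * mm χ) - (∑ χ, F χ b * mm χ) ∈
      QN p red N) (hne : ∃ b₀, W b₀) :
    ∃ (κ : AA) (τ : ℤ), red κ ≠ 0 ∧ (τ = 1 ∨ τ = -1) ∧ ∀ χ,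
      (∀ i : ℕ, i ≡ 1 [MOD p] → ∀ b, F χ (i • b) - F χ b ∈ QN p red N) →
      ∃ f : A → AA, RI f ∧ (∀ b, W b → f b - κ * Aχ χ b ∈ QN p red N) ∧
      (∀ b, U b → f b - κ * ((τ : AA) * Sχ χ b) ∈ QN p red N2) ∧
      ∀ i : ℕ, i ≡ 1 [MOD p] → ∀ b, f (i • b) - f b ∈ QN p red N := by
  obtain ⟨b₀, hb₀⟩ := hne
  set P : A → AA := fun b => ∑ χ, F χ b * mm χ with hPdef
  have hPRI : RI P := by
    refine RI.sum univ fun χ _ => ?_
    exact (hF χ).mul (RI.const _)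
  -- membership in `QN 1` kills the reduction
  have hredQ : ∀ {x : AA} {n : ℕ}, 1 ≤ n → x ∈ QN p red n → red x = 0 := by
    intro x n hn hx
    obtain ⟨y, hy, z, hz⟩ := QN_mono hn hx
    have h4 : red (y * x) = 0 := by
      rw [hz, map_mul, pow_one, map_natCast, CharP.cast_eq_zero, zero_mul]
    rw [map_mul] at h4
    exact (mul_eq_zero.1 h4).resolve_left hy
  -- the sign
  obtain ⟨τ, hτ, hτE⟩ : ∃ τ : ℤ, (τ = 1 ∨ τ = -1) ∧ ((∃ b, U b) → red E = (τ : k) * γ) := by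
    by_cases hU : ∃ b, U b
    · obtain ⟨b₁, hb₁⟩ := hU
      have h4 : red E ^ 2 = γ ^ 2 := by
        have e1 := hredQ hN2 (h2' b₁ hb₁)
        have e2 := hredQ (hN2.trans hNN) (h2 b₀ hb₀)
        have e3 : red (P b₁) = red (P b₀) := red_RI hA hPRI b₁ b₀
        rw [map_sub, sub_eq_zero, map_pow] at e1 e2
        rw [← e1, ← h3 b₀ hb₀, ← e2]
        exact e3
      rcases sq_eq_sq_iff_eq_or_eq_neg.1 h4 with h5 | h5
      · exact ⟨1, Or.inl rfl, fun _ => by rw [h5]; simp⟩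
      · exact ⟨-1, Or.inr rfl, fun _ => by rw [h5]; simp⟩
    · exact ⟨1, Or.inl rfl, fun h => absurd h hU⟩
  -- the exponent
  have hM : ∀ b : A, ∃ M : ℕ, W b → ∀ m ≥ M, C b ^ p ^ m - C b₀ ^ p ^ m ∈ QN p red N := by
    intro b
    by_cases hb : W b
    · obtain ⟨M, hM⟩ := exists_pow_sub_mem (p := p) (red := red) (C b) (C b₀)
        (by rw [h3 b hb, h3 b₀ hb₀]) N
      exact ⟨M, fun _ => hM⟩
    · exact ⟨0, fun h => absurd h hb⟩
  choose M hM using hM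
  obtain ⟨M₁, hM₁⟩ : ∃ M₁ : ℕ, (∃ b, U b) → ∀ m ≥ M₁,
      E ^ p ^ m - ((τ : AA) * C b₀) ^ p ^ m ∈ QN p red N := by
    by_cases hU : ∃ b, U b
    · obtain ⟨M, hM⟩ := exists_pow_sub_mem (p := p) (red := red) E ((τ : AA) * C b₀)
        (by rw [map_mul, map_intCast, h3 b₀ hb₀, hτE hU]) N
      exact ⟨M, fun _ => hM⟩
    · exact ⟨0, fun h => absurd h hU⟩
  set M₀ := (∑ b, M b) + M₁ with hM₀
  set κ := C b₀ ^ p ^ M₀ with hκ
  have hκ' : ∀ b, W b → C b ^ p ^ M₀ - κ ∈ QN p red N := fun b hb =>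
    hM b hb M₀ ((Finset.single_le_sum (fun _ _ => Nat.zero_le _) (mem_univ b)).trans
      (Nat.le_add_right _ _))
  have hodd : Odd (p ^ M₀) := (hp.out.odd_of_ne_two hp2).pow
  have hκE : (∃ b, U b) → E ^ p ^ M₀ - (τ : AA) * κ ∈ QN p red N := by
    intro hU
    have h4 := hM₁ hU M₀ (Nat.le_add_left _ _)
    rw [mul_pow] at h4
    have h5 : ((τ : AA)) ^ p ^ M₀ = τ := by
      rcases hτ with h | h
      · rw [h]; simp
      · rw [h]
        push_cast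
        exact hodd.neg_one_pow
    rwa [h5] at h4
  obtain ⟨h, hh⟩ := hodd
  refine ⟨κ, τ, ?_, hτ, fun χ hχ => ?_⟩
  · rw [hκ, map_pow, h3 b₀ hb₀]
    exact pow_ne_zero _ hγ
  set f : A → AA := fun b => F χ b * P b ^ h with hf
  have hfRI : RI f := (hF χ).mul (hPRI.pow h)
  refine ⟨f, hfRI, ?_, ?_, ?_⟩
  · intro b hb
    rw [← Ideal.Quotient.eq]
    have e1 := Ideal.Quotient.eq.2 (h1 χ b hb)
    have e2 := Ideal.Quotient.eq.2 (h2 b hb)
    have e3 := Ideal.Quotient.eq.2 (hκ' b hb)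
    have e4 : Ideal.Quotient.mk (QN p red N) (P b) = Ideal.Quotient.mk (QN p red N) (C b ^ 2) := e2
    simp only [hf, map_mul, map_pow] at e1 e3 e4 ⊢
    rw [e1, e4, ← e3, hh]
    ring
  · intro b hb
    rw [← Ideal.Quotient.eq]
    have e1 := Ideal.Quotient.eq.2 (h1' χ b hb)
    have e2 := Ideal.Quotient.eq.2 (h2' b hb)
    have e3 := Ideal.Quotient.eq.2 (QN_mono hNN (hκE ⟨b, hb⟩))
    have e4 : Ideal.Quotient.mk (QN p red N2) (P b) = Ideal.Quotient.mk (QN p red N2) (E ^ 2) := e2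
    have e5 : κ * ((τ : AA) * Sχ χ b) = ((τ : AA) * κ) * Sχ χ b := by ring
    rw [e5]
    simp only [hf, map_mul, map_pow] at e1 e3 e4 ⊢
    rw [e1, e4, ← e3, hh]
    ring
  · intro i hi b
    have e1 := hχ i hi b
    have e2 := sub_mem_pow (hP i hi b) h
    have e3 : f (i • b) - f b = (F χ (i • b) - F χ b) * P (i • b) ^ h +
        F χ b * (P (i • b) ^ h - P b ^ h) := by
      simp only [hf]
      ring
    rw [e3]
    exact add_mem (Ideal.mul_mem_right _ _ e1) (Ideal.mul_mem_left _ _ e2)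

/-- the argument with the square -/
theorem E_alg {s m a1 a2 : ℕ} (hsm : s * m + 1 = p ^ a2) (hs : (s : k) ≠ 0) (CC : Fin s → AA)
    (P : AA) (hδ : ∀ i, CC i + (m : AA) * ∑ j, CC j ∈ QN p red a2)
    (hP : (s : AA) * ((p : AA) ^ (a1 + a2) * P) -
      (p : AA) ^ a1 * ∑ i, CC i * (CC i + (m : AA) * ∑ j, CC j) ∈ QN p red (a1 + (a2 + a2))) :
    P - (-((m : AA) * ∑ j, CC j)) ^ 2 ∈ QN p red a2 := by
  set S := ∑ j, CC j with hS
  have hsm' : (s : AA) * m + 1 = (p : AA) ^ a2 := by exact_mod_cast hsm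
  have h1 : ∑ i, CC i * (CC i + (m : AA) * S) = (∑ i, (CC i + (m : AA) * S) ^ 2) -
      (m : AA) * (p : AA) ^ a2 * S ^ 2 := by
    have h2 : ∀ i, CC i * (CC i + (m : AA) * S) = (CC i + (m : AA) * S) ^ 2 -
        (m : AA) * S * CC i - ((m : AA) * S) ^ 2 := fun i => by ring
    rw [Finset.sum_congr rfl fun i _ => h2 i, Finset.sum_sub_distrib, Finset.sum_sub_distrib,
      ← Finset.mul_sum, ← hS, Finset.sum_const, Finset.card_univ, Fintype.card_fin, nsmul_eq_mul,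
      ← hsm']
    ring
  have h2 : ∑ i, (CC i + (m : AA) * S) ^ 2 ∈ QN p red (a2 + a2) := by
    refine Ideal.sum_mem _ fun i _ => ?_
    rw [sq]
    exact mul_mem_QN (hδ i) (hδ i)
  have h3 : (p : AA) ^ a2 * ((s : AA) * P + m * S ^ 2) - ∑ i, (CC i + (m : AA) * S) ^ 2 ∈
      QN p red (a2 + a2) := by
    refine mem_QN_of_mul (a := a1) ?_
    rw [h1] at hP
    have h4 : (p : AA) ^ a1 * ((p : AA) ^ a2 * ((s : AA) * P + m * S ^ 2) -
        ∑ i, (CC i + (m : AA) * S) ^ 2) = (s : AA) * ((p : AA) ^ (a1 + a2) * P) -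
      (p : AA) ^ a1 * ((∑ i, (CC i + (m : AA) * S) ^ 2) - (m : AA) * (p : AA) ^ a2 * S ^ 2) := by
      rw [pow_add]
      ring
    rw [h4, add_comm (a2 + a2) a1]
    exact hP
  have h4 : (s : AA) * P + m * S ^ 2 ∈ QN p red a2 := by
    refine mem_QN_of_mul (a := a2) ?_
    have h5 := add_mem h3 h2
    rwa [sub_add_cancel] at h5
  refine mem_of_unit_mul (v := (s : AA)) (by rwa [map_natCast]) ?_
  have h5 : (s : AA) * (P - (-((m : AA) * S)) ^ 2) = ((s : AA) * P + m * S ^ 2) -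
      (p : AA) ^ a2 * (m * S ^ 2) := by
    rw [← hsm']
    ring
  rw [h5]
  exact sub_mem h4 (mem_QN_of_dvd (dvd_mul_right _ _))

end Abs

end P179H452
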