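import Vale.Agent.P179.R2.H452.N3

/-!
# Blocks with several simple modules at elements which are not regular: 5. averages
-/

namespace P179H452

open Finset P179P P179C P179Y Subgroup P179H524 P179I

open P179X (pp SameSec)

open scoped Classical IsMulCommutative

universe v

set_option linter.unusedSectionVars false

section

variable {p : ℕ} [hp : Fact p.Prime] {k : Type v} [Field k] [CharP k p] {red : AA →+* k}
  {G : Type} [Group G] [Fintype G] {D : Subgroup G} {l : (G → k) → k}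

/-- conjugation of the long words -/
theorem Psi_conj (j : G → AA) (n : ℕ) (χ : Irr G) (t v : G) :
    Psi j n χ (t * v * t⁻¹) = Psi (fun x => j (t * x * t⁻¹)) n χ v := by
  unfold Psi
  symm
  refine Fintype.sum_equiv (Equiv.piCongrRight fun _ : Fin n => (MulAut.conj t).toEquiv) _ _
    fun w => ?_
  have h3 : (Equiv.piCongrRight fun _ : Fin n => (MulAut.conj t).toEquiv) w =
      fun i => t * w i * t⁻¹ := rfl
  rw [h3, wprod_conj]
  congr 1
  have h4 : t * v * t⁻¹ * (t * wprod w * t⁻¹) = t * (v * wprod w) * t⁻¹ := by group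
  rw [h4, chA_isCF χ]

theorem out_mem {C T : Subgroup G} (hCT : C ≤ T) (c : G) : (c : G ⧸ C).out ∈ T ↔ c ∈ T := by
  obtain ⟨h, hh⟩ := QuotientGroup.mk_out_eq_mul C c
  rw [hh]
  exact ⟨fun h1 => by simpa using mul_mem h1 (inv_mem (hCT h.2)),
    fun h1 => mul_mem h1 (hCT h.2)⟩

/-- the number of cosets in a fibre -/
theorem card_fib {u b t₀ : G} (hu : u ∈ D) (hb : b ∈ D) (ht₀ : t₀ ∈ stabT D l)
    (h : t₀ * u * t₀⁻¹ = b⁻¹) :
    (univ.filter fun c : G ⧸ centralizer (D : Set G) =>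
      c.out ∈ stabT D l ∧ c.out⁻¹ * u⁻¹ * c.out = b).card =
      (centralizer (D : Set G)).relIndex (stabT D l ⊓ centralizer {u}) := by
  have hCT := cent_le_stabT D l
  have hTN := stabT_le_norm D l
  have hCu := cent_le_of_mem (D := D) hu
  have hb' : t₀ * u⁻¹ * t₀⁻¹ = b := by
    have := congrArg (fun x => x⁻¹) h
    simpa [mul_assoc] using this
  rw [← card_cosets _ _ (le_inf hCT hCu)]
  symm
  refine Finset.card_bij (fun c _ => ((c.out * t₀⁻¹ : G) : G ⧸ centralizer (D : Set G))) ?_ ?_ ?_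
  · intro c hc
    obtain ⟨hc1, hc2⟩ := Subgroup.mem_inf.1 (mem_filter.1 hc).2
    rw [mem_centralizer_singleton_iff] at hc2
    rw [mem_filter]
    refine ⟨mem_univ _, (out_mem hCT _).2 (mul_mem hc1 (inv_mem ht₀)), ?_⟩
    obtain ⟨x, hx⟩ := QuotientGroup.mk_out_eq_mul (centralizer (D : Set G)) (c.out * t₀⁻¹)
    rw [hx]
    have h1 : c.out⁻¹ * u⁻¹ * c.out = u⁻¹ := by
      have h2 : c.out⁻¹ * u⁻¹ * c.out = (c.out⁻¹ * (u * c.out))⁻¹ * c.out⁻¹ * c.out⁻¹⁻¹ := by group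
      rw [h2, ← hc2]; group
    have h2 : b * (x : G) = x * b := mem_centralizer_iff.1 x.2 b hb
    calc (c.out * t₀⁻¹ * (x : G))⁻¹ * u⁻¹ * (c.out * t₀⁻¹ * x) =
        (x : G)⁻¹ * (t₀ * (c.out⁻¹ * u⁻¹ * c.out) * t₀⁻¹) * x := by group
      _ = (x : G)⁻¹ * (b * x) := by rw [h1, hb', mul_assoc]
      _ = b := by rw [h2]; group
  · intro c hc c' hc' he
    rw [QuotientGroup.eq] at he
    have h1 : (c.out * t₀⁻¹)⁻¹ * (c'.out * t₀⁻¹) = t₀ * (c.out⁻¹ * c'.out) * t₀⁻¹ := by group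
    rw [h1] at he
    have h2 := (conj_mem_cent (hTN ht₀) (c.out⁻¹ * c'.out)).1 he
    rw [← QuotientGroup.out_eq' c, ← QuotientGroup.out_eq' c', QuotientGroup.eq]
    exact h2
  · intro c hc
    obtain ⟨-, hc1, hc2⟩ := mem_filter.1 hc
    obtain ⟨x, hx⟩ := QuotientGroup.mk_out_eq_mul (centralizer (D : Set G)) (c.out * t₀)
    refine ⟨((c.out * t₀ : G) : G ⧸ centralizer (D : Set G)), ?_, ?_⟩
    · rw [mem_filter]
      refine ⟨mem_univ _, (out_mem (le_inf hCT hCu) _).2 (Subgroup.mem_inf.2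
        ⟨mul_mem hc1 ht₀, ?_⟩)⟩
      rw [mem_centralizer_singleton_iff]
      have h1 : c.out * (t₀ * u⁻¹ * t₀⁻¹) = u⁻¹ * c.out := by
        rw [hb', ← hc2]; group
      calc c.out * t₀ * u = u * (u⁻¹ * c.out) * t₀ * u := by group
        _ = u * (c.out * (t₀ * u⁻¹ * t₀⁻¹)) * t₀ * u := by rw [h1]
        _ = u * (c.out * t₀) := by group
    · rw [hx]
      conv_rhs => rw [← QuotientGroup.out_eq' c]
      rw [QuotientGroup.eq]
      have h1 : (c.out * t₀ * (x : G) * t₀⁻¹)⁻¹ * c.out = t₀ * (x : G)⁻¹ * t₀⁻¹ := by group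
      rw [h1]
      exact (conj_mem_cent (hTN ht₀) _).2 (inv_mem x.2)

/-- summation over an orbit -/
theorem orb_sumN {u : G} (hu : u ∈ D) (W : G → AA) :
    AvT D (stabT D l) W u⁻¹ =
      ((centralizer (D : Set G)).relIndex (stabT D l ⊓ centralizer {u}) : AA) *
        ∑ b : Additive D, if ∃ t ∈ stabT D l, t * u * t⁻¹ = (b.toMul : G)⁻¹
          then W (b.toMul : G) else 0 := by
  have hTN := stabT_le_norm D l
  unfold AvT
  have h1 : ∀ c : G ⧸ centralizer (D : Set G),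
      (if c.out ∈ stabT D l then W (c.out⁻¹ * u⁻¹ * c.out) else 0) =
      ∑ b : Additive D, if c.out ∈ stabT D l ∧ c.out⁻¹ * u⁻¹ * c.out = (b.toMul : G)
        then W (b.toMul : G) else 0 := by
    intro c
    by_cases hc : c.out ∈ stabT D l
    · rw [if_pos hc]
      have hmem : c.out⁻¹ * u⁻¹ * c.out ∈ D := by
        have h2 := (mem_normalizer_iff.1 (inv_mem (hTN hc)) u⁻¹).1 (inv_mem hu)
        rwa [inv_inv] at h2
      rw [Finset.sum_eq_single (Additive.ofMul (⟨_, hmem⟩ : D))]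
      · rw [if_pos ⟨hc, rfl⟩]
        rfl
      · intro b _ hb
        rw [if_neg]
        rintro ⟨-, h3⟩
        apply hb
        apply Additive.toMul.injective
        exact Subtype.ext h3.symm
      · intro h3; exact absurd (mem_univ _) h3
    · rw [if_neg hc, Finset.sum_eq_zero]
      intro b _
      rw [if_neg fun h => hc h.1]
  rw [Finset.sum_congr rfl fun c _ => h1 c, Finset.sum_comm, Finset.mul_sum]
  refine Finset.sum_congr rfl fun b _ => ?_
  rw [← Finset.sum_filter, Finset.sum_const, nsmul_eq_mul]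
  by_cases hb : ∃ t ∈ stabT D l, t * u * t⁻¹ = (b.toMul : G)⁻¹
  · rw [if_pos hb]
    obtain ⟨t, ht, htu⟩ := hb
    rw [card_fib hu b.toMul.2 ht htu]
  · rw [if_neg hb, mul_zero]
    have h2 : (univ.filter fun c : G ⧸ centralizer (D : Set G) =>
      c.out ∈ stabT D l ∧ c.out⁻¹ * u⁻¹ * c.out = (b.toMul : G)) = ∅ := by
      rw [Finset.filter_eq_empty_iff]
      rintro c - ⟨hc1, hc2⟩
      apply hb
      refine ⟨c.out⁻¹, inv_mem hc1, ?_⟩
      rw [← hc2]
      group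
    rw [h2, Finset.card_empty, Nat.cast_zero, zero_mul]

variable {H : Subgroup G} {s : ℕ} {ψ : Fin s → Irr H} {σ : Fin s → ℤ} {m a1 a2 : ℕ}

/-- the constants -/
noncomputable def CCi (p : ℕ) (D T : Subgroup G) (ψ : Fin s → Irr H) (σ : Fin s → ℤ) (j : G → AA)
    (n : ℕ) (i : Fin s) : AA :=
  ∑ c : G ⧸ centralizer (D : Set G), if c.out ∈ T then
    (σ i : AA) * TT (fun h : H => j (c.out⁻¹ * h * c.out⁻¹⁻¹)) (p ^ n) (chA (ψ i)) else 0

omit hp in
theorem jt_inv {j : G → AA} (hj : ∀ d ∈ D, ∀ g, j (d * g * d⁻¹) = j g) {t : G}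
    (ht : t ∈ stabT D l) {d : G} (hd : d ∈ D) (g : G) :
    j (t * (d * g * d⁻¹) * t⁻¹) = j (t * g * t⁻¹) := by
  have h1 : t * d * t⁻¹ ∈ D := (mem_normalizer_iff.1 (stabT_le_norm D l ht) d).1 hd
  rw [← hj _ h1 (t * g * t⁻¹)]
  congr 1
  group

/-- the killing property on `H` -/
theorem kill_H (hl : BP p D l) (j : G → AA)
    (hkill : ∀ v ∈ D, ∀ φ' : Irr (centralizer {v} : Subgroup G),
        ¬ InL red (lres (centralizer {v}) l) φ'.1 → ∀ N : ℕ, ∃ M : ℕ, ∀ n ≥ M,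
          TT (fun h : (centralizer {v} : Subgroup G) => j h) n (chA φ') ∈ QN p red N)
    {u t : G} (hu : u ∈ D) (hH : ∀ x, x ∈ H ↔ x * u = u * x) (ht : t ∈ stabT D l) (θ : Irr H)
    (hθ : ¬ InL red (lres H l) θ.1) (N : ℕ) :
    ∃ M : ℕ, ∀ n ≥ M, TT (fun h : H => j (t * h * t⁻¹)) n (chA θ) ∈ QN p red N := by
  have hHu : H = centralizer {u} := by
    ext x
    rw [hH, mem_centralizer_singleton_iff]
  subst hHu
  exact kill_conj hl j hkill hu ht θ hθ N

/-- **the averaged values** -/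
theorem NDat.avF (h : NDat p red D l H ψ σ m a1 a2) (hl : BP p D l) (hD : IsPGroup p D) {u : G}
    (hu : u ∈ D)
    (hH : ∀ x, x ∈ H ↔ x * u = u * x) (j : G → AA) (hj : ∀ d ∈ D, ∀ g, j (d * g * d⁻¹) = j g)
    (hkill : ∀ v ∈ D, ∀ φ' : Irr (centralizer {v} : Subgroup G),
        ¬ InL red (lres (centralizer {v}) l) φ'.1 → ∀ N : ℕ, ∃ M : ℕ, ∀ n ≥ M,
          TT (fun h : (centralizer {v} : Subgroup G) => j h) n (chA φ') ∈ QN p red N) (N : ℕ) :
    ∃ M : ℕ, ∀ n ≥ M, ∀ χ : Irr G, AvT D (stabT D l) (Psi j (p ^ n) χ) u -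
      ∑ i, XA p ψ σ m a1 i u χ * CCi p D (stabT D l) ψ σ j n i ∈ QN p red N := by
  obtain ⟨a, ha⟩ := hD ⟨u, hu⟩
  have hua : u ^ p ^ a = 1 := by simpa using congrArg Subtype.val ha
  have hM : ∀ c : G ⧸ centralizer (D : Set G), ∃ M : ℕ, c.out ∈ stabT D l → ∀ n ≥ M,
      ∀ χ : Irr G, Psi j (p ^ n) χ (c.out⁻¹ * u * c.out⁻¹⁻¹) -
        ∑ i, XA p ψ σ m a1 i u χ * ((σ i : AA) *
          TT (fun h : H => j (c.out⁻¹ * h * c.out⁻¹⁻¹)) (p ^ n) (chA (ψ i))) ∈ QN p red N := by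
    intro c
    by_cases hc : c.out ∈ stabT D l
    · have hci := inv_mem hc
      obtain ⟨M, hM⟩ := h.psi hH hua (fun x => j (c.out⁻¹ * x * c.out⁻¹⁻¹))
        (fun x => jt_inv hj hci hu x) (fun θ hθ N => kill_H hl j hkill hu hH hci θ hθ N) N
      refine ⟨M, fun _ n hn χ => ?_⟩
      rw [Psi_conj]
      exact hM n hn χ
    · exact ⟨0, fun h => absurd h hc⟩
  choose M hM using hM
  refine ⟨∑ c, M c, fun n hn χ => ?_⟩
  have h1 : ∑ i, XA p ψ σ m a1 i u χ * CCi p D (stabT D l) ψ σ j n i =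
      ∑ c : G ⧸ centralizer (D : Set G), if c.out ∈ stabT D l then
        ∑ i, XA p ψ σ m a1 i u χ * ((σ i : AA) *
          TT (fun h : H => j (c.out⁻¹ * h * c.out⁻¹⁻¹)) (p ^ n) (chA (ψ i))) else 0 := by
    unfold CCi
    simp only [Finset.mul_sum]
    rw [Finset.sum_comm]
    refine Finset.sum_congr rfl fun c _ => ?_
    split_ifs
    · rfl
    · simp
  rw [h1]
  unfold AvT
  rw [← Finset.sum_sub_distrib]
  refine Ideal.sum_mem _ fun c _ => ?_
  by_cases hc : c.out ∈ stabT D l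
  · rw [if_pos hc, if_pos hc]
    have e : c.out⁻¹ * u * c.out = c.out⁻¹ * u * c.out⁻¹⁻¹ := by rw [inv_inv]
    rw [e]
    exact hM c hc n ((Finset.single_le_sum (fun _ _ => Nat.zero_le _) (mem_univ c)).trans hn) χ
  · rw [if_neg hc, if_neg hc, sub_self]
    exact zero_mem _

/-- the sum against the values -/
noncomputable def RR (p : ℕ) (ψ : Fin s → Irr H) (σ : Fin s → ℤ) (m a1 : ℕ) (j : G → AA) (n : ℕ)
    (i : Fin s) (u v : G) : AA :=
  ∑ χ : Irr G, XA p ψ σ m a1 i u χ * Psi j (p ^ n) χ v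

theorem NDat.avR (h : NDat p red D l H ψ σ m a1 a2) (hD : IsPGroup p D) {u : G} (hu : u ∈ D)
    (hH : ∀ x, x ∈ H ↔ x * u = u * x) (j : G → AA) (hj : ∀ d ∈ D, ∀ g, j (d * g * d⁻¹) = j g)
    (i : Fin s) (N : ℕ) :
    ∃ M : ℕ, ∀ n ≥ M, AvT D (stabT D l) (RR p ψ σ m a1 j n i u) u⁻¹ -
      (p : AA) ^ a1 * (CCi p D (stabT D l) ψ σ j n i +
        (m : AA) * ∑ r, CCi p D (stabT D l) ψ σ j n r) ∈ QN p red N := by
  obtain ⟨a, ha⟩ := hD ⟨u, hu⟩
  have hua : u ^ p ^ a = 1 := by simpa using congrArg Subtype.val ha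
  have hM : ∀ c : G ⧸ centralizer (D : Set G), ∃ M : ℕ, c.out ∈ stabT D l → ∀ n ≥ M,
      RR p ψ σ m a1 j n i u (c.out⁻¹ * u⁻¹ * c.out⁻¹⁻¹) -
        (p : AA) ^ a1 * ((σ i : AA) * TT (fun h : H => j (c.out⁻¹ * h * c.out⁻¹⁻¹)) (p ^ n)
          (chA (ψ i)) + (m : AA) * ∑ r, (σ r : AA) *
            TT (fun h : H => j (c.out⁻¹ * h * c.out⁻¹⁻¹)) (p ^ n) (chA (ψ r))) ∈ QN p red N := by
    intro c
    by_cases hc : c.out ∈ stabT D l
    · have hci := inv_mem hc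
      obtain ⟨M, hM⟩ := h.col_in hH hua (fun x => j (c.out⁻¹ * x * c.out⁻¹⁻¹))
        (fun x => jt_inv hj hci hu x) i N
      refine ⟨M, fun _ n hn => ?_⟩
      have h2 := hM n hn
      unfold RR
      simp only [Psi_conj]
      exact h2
    · exact ⟨0, fun h => absurd h hc⟩
  choose M hM using hM
  refine ⟨∑ c, M c, fun n hn => ?_⟩
  have h1 : (p : AA) ^ a1 * (CCi p D (stabT D l) ψ σ j n i +
        (m : AA) * ∑ r, CCi p D (stabT D l) ψ σ j n r) =
      ∑ c : G ⧸ centralizer (D : Set G), if c.out ∈ stabT D l then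
        (p : AA) ^ a1 * ((σ i : AA) * TT (fun h : H => j (c.out⁻¹ * h * c.out⁻¹⁻¹)) (p ^ n)
          (chA (ψ i)) + (m : AA) * ∑ r, (σ r : AA) *
            TT (fun h : H => j (c.out⁻¹ * h * c.out⁻¹⁻¹)) (p ^ n) (chA (ψ r))) else 0 := by
    unfold CCi
    rw [Finset.sum_comm, Finset.mul_sum, ← Finset.sum_add_distrib, Finset.mul_sum]
    refine Finset.sum_congr rfl fun c _ => ?_
    split_ifs
    · rfl
    · simp
  rw [h1]
  unfold AvT
  rw [← Finset.sum_sub_distrib]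
  refine Ideal.sum_mem _ fun c _ => ?_
  by_cases hc : c.out ∈ stabT D l
  · rw [if_pos hc, if_pos hc]
    have e : c.out⁻¹ * u⁻¹ * c.out = c.out⁻¹ * u⁻¹ * c.out⁻¹⁻¹ := by rw [inv_inv]
    rw [e]
    exact hM c hc n ((Finset.single_le_sum (fun _ _ => Nat.zero_le _) (mem_univ c)).trans hn)
  · rw [if_neg hc, if_neg hc, sub_self]
    exact zero_mem _

/-- **the sum over the defect group** -/
theorem NDat.sumR (h : NDat p red D l H ψ σ m a1 a2) (hl : BP p D l) (hD : IsPGroup p D)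
    (hab : D ≤ centralizer (D : Set G))
    (hT : ¬ p ∣ (centralizer (D : Set G)).relIndex (stabT D l)) {u : G}
    (hu : u ∈ D) (hH : ∀ x, x ∈ H ↔ x * u = u * x)
    (hs : (centralizer (D : Set G)).relIndex (stabT D l ⊓ H) = s) (j : G → AA)
    (hj : ∀ d ∈ D, ∀ g, j (d * g * d⁻¹) = j g)
    (hkill : ∀ v ∈ D, ∀ φ' : Irr (centralizer {v} : Subgroup G),
        ¬ InL red (lres (centralizer {v}) l) φ'.1 → ∀ N : ℕ, ∃ M : ℕ, ∀ n ≥ M,
          TT (fun h : (centralizer {v} : Subgroup G) => j h) n (chA φ') ∈ QN p red N)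
    (i : Fin s) (N : ℕ) :
    ∃ M : ℕ, ∀ n ≥ M, (s : AA) * (∑ b : Additive D, RR p ψ σ m a1 j n i u (b.toMul : G)) -
      (p : AA) ^ a1 * (CCi p D (stabT D l) ψ σ j n i +
        (m : AA) * ∑ r, CCi p D (stabT D l) ψ σ j n r) ∈ QN p red N := by
  have hHu : H = centralizer {u} := by
    ext x
    rw [hH, mem_centralizer_singleton_iff]
  obtain ⟨M₁, hM₁⟩ := h.avR hD hu hH j hj i N
  have hM : ∀ b : Additive D, ∃ M : ℕ, (¬ ∃ t ∈ stabT D l, t * u * t⁻¹ = (b.toMul : G)⁻¹) →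
      ∀ n ≥ M, RR p ψ σ m a1 j n i u (b.toMul : G) ∈ QN p red N := by
    intro b
    by_cases hb : ∃ t ∈ stabT D l, t * u * t⁻¹ = (b.toMul : G)⁻¹
    · exact ⟨0, fun h => absurd hb h⟩
    · obtain ⟨M, hM⟩ := h.col_out hl hD hab hT hu hH b.toMul.2 j hj hkill hb i N
      exact ⟨M, fun _ => hM⟩
  choose M hM using hM
  refine ⟨M₁ + ∑ b, M b, fun n hn => ?_⟩
  have hMn : ∀ b, M b ≤ n := by
    intro b
    have h1 : M b ≤ ∑ b, M b := Finset.single_le_sum (fun _ _ => Nat.zero_le _) (mem_univ b)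
    omega
  have h1 := hM₁ n (by omega)
  rw [orb_sumN hu, ← hHu, hs] at h1
  have h2 : (s : AA) * (∑ b : Additive D, RR p ψ σ m a1 j n i u (b.toMul : G)) -
      (s : AA) * (∑ b : Additive D, if ∃ t ∈ stabT D l, t * u * t⁻¹ = (b.toMul : G)⁻¹
          then RR p ψ σ m a1 j n i u (b.toMul : G) else 0) ∈ QN p red N := by
    rw [← mul_sub, ← Finset.sum_sub_distrib]
    refine Ideal.mul_mem_left _ _ (Ideal.sum_mem _ fun b _ => ?_)
    by_cases hb : ∃ t ∈ stabT D l, t * u * t⁻¹ = (b.toMul : G)⁻¹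
    · rw [if_pos hb, sub_self]
      exact zero_mem _
    · rw [if_neg hb, sub_zero]
      exact hM b hb n (hMn b)
  have h3 := add_mem h2 h1
  rwa [sub_add_sub_cancel] at h3

end

end P179H452
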