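import Vale.Agent.P179.R2.H452.N4
import Vale.Agent.P179.R2.H452.N5

/-!
# Blocks with several simple modules at elements which are not regular: 6. the extension
-/

namespace P179H452

open Finset P179P P179C P179Y Subgroup P179H524 P179I

open P179X (pp SameSec)

open scoped Classical IsMulCommutative

universe v

set_option linter.unusedSectionVars false

section

variable {p : ℕ} [hp : Fact p.Prime] {k : Type v} [Field k] [CharP k p] {red : AA →+* k}
  {G : Type} [Group G] [Fintype G] {D : Subgroup G} {l : (G → k) → k}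
  {Φ : ∀ H : Subgroup G, Irr H} {aH bH : Subgroup G → ℕ} {ε : Subgroup G → ℤ} {κ₀ : k}
  {H : Subgroup G} {s : ℕ} {ψ : Fin s → Irr H} {σ : Fin s → ℤ} {m a1 a2 : ℕ}

include hp in
/-- **the extension, with its values at the elements which are not regular** -/
theorem exists_extN [IsAlgClosed k] [IsMulCommutative D] (h : LocR p red D l Φ aH bH ε κ₀)
    (hl : BP p D l) (hD : IsPGroup p D) (hab : D ≤ centralizer (D : Set G)) (hp2 : p ≠ 2)
    (hT : ¬ p ∣ (centralizer (D : Set G)).relIndex (stabT D l)) {m₁ : ℕ}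
    (hmc : m₁.Coprime (Nat.card G))
    (hm1 : m₁ ≡ 1 [MOD ordCompl[p] (Nat.card G)])
    (hgen : ∀ i : ℕ, i ≡ 1 [MOD p] → ∃ t : ℕ, m₁ ^ t ≡ i [MOD ordProj[p] (Nat.card G)])
    (hN : NDat p red D l H ψ σ m a1 a2)
    (hs : (centralizer (D : Set G)).relIndex (stabT D l ⊓ H) = s) (ha2 : 1 ≤ a2)
    (L : ℕ) (hL : a2 ≤ L)
    (hne : ∃ b₀ : Additive D, RegT D l (b₀.toMul : G) ∧ (b₀.toMul : G) ≠ 1) :
    ∃ (κ : AA) (τ : ℤ), red κ ≠ 0 ∧ (τ = 1 ∨ τ = -1) ∧ ∀ χ : Irr G,
      (∀ g, χ.1 (g ^ m₁) = χ.1 g) →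
      ∃ f : Additive D → AA, RI f ∧
      (∀ b : Additive D, (RegT D l (b.toMul : G) ∧ (b.toMul : G) ≠ 1) →
        f b - κ * Ad p D Φ ε (b.toMul : G) χ ∈ QN p red L) ∧
      (∀ b : Additive D, (∀ x, x ∈ H ↔ x * (b.toMul : G) = (b.toMul : G) * x) →
        f b - κ * ((τ : AA) * ∑ i, XA p ψ σ m a1 i (b.toMul : G) χ) ∈ QN p red a2) ∧
      ∀ i : ℕ, i ≡ 1 [MOD p] → ∀ b, f (i • b) - f b ∈ QN p red L := by
  have he : ((centralizer (D : Set G)).relIndex (stabT D l) : k) ≠ 0 := by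
    rwa [Ne, CharP.cast_eq_zero_iff k p]
  set a := a1 + a2 with hadef
  have ha : Nat.card D = p ^ a := by rw [hN.card, ← pow_add]
  set K := L + a + (a1 + (a2 + a2)) with hK
  obtain ⟨j, hj1, hj2, hj3, hj4, hj5⟩ := h.exists_jj hl hD hab
  obtain ⟨M, hM⟩ := hj4 (L + a)
  -- the elements which are not regular
  have hM' : ∀ u v : D, ∃ M : ℕ, (RegT D l (u : G) ∧ (u : G) ≠ 1) →
      ¬ (RegT D l (v : G) ∧ (v : G) ≠ 1) → ∀ m ≥ M,
        ∑ χ : Irr G, Ad p D Φ ε (u : G) χ * Psi j (p ^ m) χ (v : G) ∈ QN p red (L + a) := by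
    intro u v
    by_cases hu : RegT D l (u : G) ∧ (u : G) ≠ 1
    · by_cases hv : ¬ (RegT D l (v : G) ∧ (v : G) ≠ 1)
      · obtain ⟨M, hM⟩ := h.orth hl hD hab j hj1 hj5 hu.1 hu.2 v.2 hv (L + a)
        exact ⟨M, fun _ _ => hM⟩
      · exact ⟨0, fun _ h => absurd h hv⟩
    · exact ⟨0, fun h => absurd h hu⟩
  choose M' hM' using hM'
  -- the elements with centraliser `H`
  have hM2 : ∀ b : Additive D, ∃ M : ℕ,
      (∀ x, x ∈ H ↔ x * (b.toMul : G) = (b.toMul : G) * x) → ∀ n ≥ M,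
        (∀ χ : Irr G, AvT D (stabT D l) (Psi j (p ^ n) χ) (b.toMul : G) -
          ∑ i, XA p ψ σ m a1 i (b.toMul : G) χ * CCi p D (stabT D l) ψ σ j n i ∈ QN p red K) ∧
        ∀ i, (s : AA) * (∑ b' : Additive D, RR p ψ σ m a1 j n i (b.toMul : G) (b'.toMul : G)) -
          (p : AA) ^ a1 * (CCi p D (stabT D l) ψ σ j n i +
            (m : AA) * ∑ r, CCi p D (stabT D l) ψ σ j n r) ∈ QN p red K := by
    intro b
    by_cases hb : ∀ x, x ∈ H ↔ x * (b.toMul : G) = (b.toMul : G) * x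
    · obtain ⟨M₁, hM₁⟩ := hN.avF hl hD b.toMul.2 hb j hj1 hj5 K
      have h2 : ∀ i, ∃ M : ℕ, ∀ n ≥ M, (s : AA) * (∑ b' : Additive D,
          RR p ψ σ m a1 j n i (b.toMul : G) (b'.toMul : G)) -
          (p : AA) ^ a1 * (CCi p D (stabT D l) ψ σ j n i +
            (m : AA) * ∑ r, CCi p D (stabT D l) ψ σ j n r) ∈ QN p red K := fun i =>
        hN.sumR hl hD hab hT b.toMul.2 hb hs j hj1 hj5 i K
      choose M₂ hM₂ using h2
      refine ⟨M₁ + ∑ i, M₂ i, fun _ n hn => ⟨hM₁ n (by omega), fun i => hM₂ i n ?_⟩⟩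
      have h3 : M₂ i ≤ ∑ i, M₂ i := Finset.single_le_sum (fun _ _ => Nat.zero_le _) (mem_univ i)
      omega
    · exact ⟨0, fun h => absurd h hb⟩
  choose M2 hM2 using hM2
  set n := M + ∑ u, ∑ v, M' u v + (∑ b, M2 b) + (L + a + (Nat.card G).factorization p) with hn
  have hmM' : ∀ u v, M' u v ≤ n := by
    intro u v
    have h1 : M' u v ≤ ∑ v, M' u v := Finset.single_le_sum (fun _ _ => Nat.zero_le _) (mem_univ v)
    have h2 : ∑ v, M' u v ≤ ∑ u, ∑ v, M' u v :=
      Finset.single_le_sum (f := fun u => ∑ v, M' u v) (fun _ _ => Nat.zero_le _) (mem_univ u)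
    omega
  have hmM2 : ∀ b, M2 b ≤ n := by
    intro b
    have h1 : M2 b ≤ ∑ b, M2 b := Finset.single_le_sum (fun _ _ => Nat.zero_le _) (mem_univ b)
    omega
  have hjm := hM n (by omega)
  have hcardA : Fintype.card (Additive D) = p ^ a := by
    rw [← ha, Nat.card_eq_fintype_card, Fintype.card_congr (Additive.toMul (α := D))]
  -- the coefficients
  have hpair : ∀ χ : Irr G, ∃ c : AA, (p : AA) ^ a * c =
      ∑ b : Additive D, Psi j (p ^ n) χ (b.toMul : G) := by
    intro χ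
    obtain ⟨c, hc⟩ := (RI_Psi j hj1 (p ^ n) χ).pair 0
    refine ⟨c, ?_⟩
    rw [hcardA] at hc
    push_cast at hc
    rw [hc]
    exact Finset.sum_congr rfl fun b _ => by rw [lamA_zero, mul_one]
  choose mχ hmχ using hpair
  -- the twists
  have hexp : ∀ i : ℕ, i ≡ 1 [MOD p] → ∃ t : ℕ, (m₁ ^ t).Coprime (Nat.card G) ∧
      m₁ ^ t ≡ 1 [MOD ordCompl[p] (Nat.card G)] ∧ m₁ ^ t ≡ i [MOD ordProj[p] (Nat.card G)] := by
    intro i hi
    obtain ⟨t, ht⟩ := hgen i hi
    refine ⟨t, Nat.Coprime.pow_left t hmc, ?_, ht⟩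
    have := hm1.pow t
    rwa [one_pow] at this
  have hTN : stabT D l ≤ normalizer (D : Set G) := stabT_le_norm D l
  -- the constants at `H`
  set CC : Fin s → AA := fun i => CCi p D (stabT D l) ψ σ j n i with hCC
  have hδ : ∀ b : Additive D, (∀ x, x ∈ H ↔ x * (b.toMul : G) = (b.toMul : G) * x) →
      ∀ i, CC i + (m : AA) * ∑ r, CC r ∈ QN p red a2 := by
    intro b hb i
    have h1 := ((hM2 b hb) n (hmM2 b)).2 i
    have hRI : RI (fun b' : Additive D => RR p ψ σ m a1 j n i (b.toMul : G) (b'.toMul : G)) := by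
      refine RI.sum univ fun χ _ => ?_
      exact (RI_Psi j hj1 (p ^ n) χ).const_mul _
    obtain ⟨c, hc⟩ := hRI.pair 0
    rw [hcardA] at hc
    push_cast at hc
    have h2 : ∑ b' : Additive D, RR p ψ σ m a1 j n i (b.toMul : G) (b'.toMul : G) =
        (p : AA) ^ a * c := by
      rw [hc]
      exact Finset.sum_congr rfl fun b _ => by rw [lamA_zero, mul_one]
    rw [h2] at h1
    refine mem_QN_of_mul (a := a1) ?_
    have h3 : (p : AA) ^ a1 * (CC i + (m : AA) * ∑ r, CC r) =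
        (s : AA) * ((p : AA) ^ a * c) - ((s : AA) * ((p : AA) ^ a * c) -
          (p : AA) ^ a1 * (CC i + (m : AA) * ∑ r, CC r)) := by ring
    rw [h3]
    refine sub_mem (Ideal.mul_mem_left _ _ (mem_QN_of_dvd ?_)) (QN_mono (by omega) h1)
    rw [hadef, add_comm a1 a2]
    exact dvd_mul_right _ _
  refine ext_absN (p := p) (red := red) hp2 (N := L) (N2 := a2) hcardA hL
    (fun b : Additive D => RegT D l (b.toMul : G) ∧ (b.toMul : G) ≠ 1)
    (fun b : Additive D => ∀ x, x ∈ H ↔ x * (b.toMul : G) = (b.toMul : G) * x)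
    (fun (χ : Irr G) (b : Additive D) => AvT D (stabT D l) (Psi j (p ^ n) χ) (b.toMul : G))
    (fun χ b => Ad p D Φ ε (b.toMul : G) χ)
    (fun χ b => ∑ i, XA p ψ σ m a1 i (b.toMul : G) χ)
    (fun b => CU p D (stabT D l) Φ ε j n (b.toMul : G)) (-((m : AA) * ∑ r, CC r)) mχ
    (fun χ => RI_AvT hTN (RI_Psi j hj1 (p ^ n) χ)) ?_ ?_ ?_ ?_ ha2
    (((centralizer (D : Set G)).relIndex (stabT D l) : k) *
      (κ₀ * l (WW D (fun g => red (j g)))) ^ p ^ n) ?_ ?_ ?_ hne |>.imp
        fun κ => Exists.imp fun τ hh => ⟨hh.1, hh.2.1, fun χ hχ => hh.2.2 χ ?_⟩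
  · intro χ b hb
    exact QN_mono (by omega) (h.avT_sub hl j hjm hb.1 hb.2 χ)
  · -- the values at the elements with centraliser `H`
    intro χ b hb
    have h1 := ((hM2 b hb) n (hmM2 b)).1 χ
    have h2 : AvT D (stabT D l) (Psi j (p ^ n) χ) (b.toMul : G) -
        -((m : AA) * ∑ r, CC r) * ∑ i, XA p ψ σ m a1 i (b.toMul : G) χ =
        (AvT D (stabT D l) (Psi j (p ^ n) χ) (b.toMul : G) -
          ∑ i, XA p ψ σ m a1 i (b.toMul : G) χ * CC i) +
        ∑ i, XA p ψ σ m a1 i (b.toMul : G) χ * (CC i + (m : AA) * ∑ r, CC r) := by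
      have h3 : ∑ i, XA p ψ σ m a1 i (b.toMul : G) χ * (CC i + (m : AA) * ∑ r, CC r) =
          ∑ i, XA p ψ σ m a1 i (b.toMul : G) χ * CC i +
            (m : AA) * (∑ r, CC r) * ∑ i, XA p ψ σ m a1 i (b.toMul : G) χ := by
        rw [Finset.mul_sum (a := (m : AA) * ∑ r, CC r), ← Finset.sum_add_distrib]
        exact Finset.sum_congr rfl fun i _ => by ring
      rw [h3]
      ring
    rw [h2]
    exact add_mem (QN_mono (by omega) h1)
      (Ideal.sum_mem _ fun i _ => Ideal.mul_mem_left _ _ (hδ b hb i))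
  · intro b₀ hb₀
    set u : G := (b₀.toMul : G) with hu
    have huR : RegT D l u := hb₀.1
    have hu1 : u ≠ 1 := hb₀.2
    set Cu := CU p D (stabT D l) Φ ε j n u with hCu
    set F : Irr G → AA := fun χ => AvT D (stabT D l) (Psi j (p ^ n) χ) u with hF
    have hFu : ∀ χ, F χ - Cu * Ad p D Φ ε u χ ∈ QN p red (L + a) := fun χ =>
      h.avT_sub hl j hjm huR hu1 χ
    set w : G → AA := fun v => (ε (centralizer {v}) : AA) * cc p Φ j n (centralizer {v}) with hw
    have hwinv : ∀ v, w v⁻¹ = w v := by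
      intro v
      simp only [hw, cz_inv]
    have horb := orb_sum' huR hu1 w (Nat.card D : AA)
    simp only [hwinv] at horb
    refine mem_QN_of_mul (a := a) ?_
    -- the difference
    have key : (p : AA) ^ a * ((∑ χ, F χ * mχ χ) - Cu ^ 2) =
        ∑ b : Additive D, ((∑ χ, F χ * Psi j (p ^ n) χ (b.toMul : G)) -
          Cu * (if b = 0 then 0 else w (b.toMul : G) *
            (if ∃ t ∈ stabT D l, t * u * t⁻¹ = (b.toMul : G)⁻¹ then (Nat.card D : AA) else 0))) := by
      rw [Finset.sum_sub_distrib, ← Finset.mul_sum, horb, ha]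
      have h1 : AvT D (stabT D l) w u = Cu := rfl
      rw [h1, mul_sub, Finset.mul_sum, Finset.sum_comm]
      congr 1
      · refine Finset.sum_congr rfl fun χ _ => ?_
        rw [← Finset.mul_sum, ← hmχ]
        ring
      · push_cast; ring
    rw [key]
    refine Ideal.sum_mem _ fun b _ => ?_
    by_cases hb : RegT D l (b.toMul : G) ∧ (b.toMul : G) ≠ 1
    · have hb0 : b ≠ 0 := by
        rintro rfl
        exact hb.2 rfl
      rw [if_neg hb0]
      have hgram := h.gram hl hD hab huR hu1 hb.1 hb.2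
      rw [← hgram]
      have h1 : (∑ χ, F χ * Psi j (p ^ n) χ (b.toMul : G)) - Cu * (w (b.toMul : G) *
          ∑ χ, Ad p D Φ ε u χ * Ad p D Φ ε (b.toMul : G) χ) =
          ∑ χ, ((F χ - Cu * Ad p D Φ ε u χ) * Psi j (p ^ n) χ (b.toMul : G) +
            Cu * Ad p D Φ ε u χ * (Psi j (p ^ n) χ (b.toMul : G) -
              w (b.toMul : G) * Ad p D Φ ε (b.toMul : G) χ)) := by
        rw [Finset.mul_sum, Finset.mul_sum, ← Finset.sum_sub_distrib]
        exact Finset.sum_congr rfl fun χ _ => by ring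
      rw [h1]
      refine Ideal.sum_mem _ fun χ _ => Ideal.add_mem _ (Ideal.mul_mem_right _ _ (hFu χ))
        (Ideal.mul_mem_left _ _ ?_)
      have h2 := hjm _ hb.1 hb.2 χ
      have h3 : w (b.toMul : G) * Ad p D Φ ε (b.toMul : G) χ = cc p Φ j n (centralizer {(b.toMul : G)}) *
          dnA p (centralizer {(b.toMul : G)}) (Nat.card D) (Φ (centralizer {(b.toMul : G)})).1
            (b.toMul : G) χ.1 := by
        simp only [hw]
        unfold Ad
        have h4 := congrArg (fun n : ℤ => (n : AA)) (h.sq hb.1 hb.2)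
        push_cast at h4
        linear_combination (cc p Φ j n (centralizer {(b.toMul : G)}) *
          dnA p (centralizer {(b.toMul : G)}) (Nat.card D) (Φ (centralizer {(b.toMul : G)})).1
            (b.toMul : G) χ.1) * h4
      rw [h3]
      exact h2
    · have h0 : (if b = 0 then 0 else w (b.toMul : G) *
            (if ∃ t ∈ stabT D l, t * u * t⁻¹ = (b.toMul : G)⁻¹ then (Nat.card D : AA) else 0)) = 0 := by
        by_cases hb0 : b = 0
        · rw [if_pos hb0]
        · rw [if_neg hb0, if_neg, mul_zero]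
          rintro ⟨t, ht, htu⟩
          apply hb
          have h1 := RegT.inv' (RegT.conj' huR ht)
          rw [htu, inv_inv] at h1
          refine ⟨h1, fun h2 => hb0 ?_⟩
          apply Additive.toMul.injective
          exact Subtype.ext h2
      rw [h0, mul_zero, sub_zero]
      have h1 : ∑ χ, F χ * Psi j (p ^ n) χ (b.toMul : G) =
          ∑ χ, (F χ - Cu * Ad p D Φ ε u χ) * Psi j (p ^ n) χ (b.toMul : G) +
            Cu * ∑ χ, Ad p D Φ ε u χ * Psi j (p ^ n) χ (b.toMul : G) := by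
        rw [Finset.mul_sum, ← Finset.sum_add_distrib]
        refine Finset.sum_congr rfl fun χ _ => ?_
        ring
      rw [h1]
      refine Ideal.add_mem _ (Ideal.sum_mem _ fun χ _ => Ideal.mul_mem_right _ _ (hFu χ)) ?_
      exact Ideal.mul_mem_left _ _ (hM' b₀.toMul b.toMul hb₀ hb n (hmM' _ _))
  · -- the sum over the characters, at the elements with centraliser `H`
    intro b hb
    have hHb : H = centralizer {(b.toMul : G)} := by
      ext x
      rw [hb, mem_centralizer_singleton_iff]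
    have hsk : (s : k) ≠ 0 := by
      rw [Ne, CharP.cast_eq_zero_iff k p]
      intro h1
      apply hT
      refine h1.trans ?_
      rw [← hs]
      refine Dvd.intro _ (Subgroup.relIndex_mul_relIndex _ _ _ (le_inf (cent_le_stabT D l) ?_)
        inf_le_left)
      rw [hHb]
      exact cent_le_of_mem b.toMul.2
    refine E_alg (k := k) (s := s) (m := m) (a1 := a1) (a2 := a2) hN.smq hsk CC _ (hδ b hb) ?_
    set F : Irr G → AA := fun χ => AvT D (stabT D l) (Psi j (p ^ n) χ) (b.toMul : G) with hF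
    have h1 := (hM2 b hb) n (hmM2 b)
    -- first step
    have h2 : (p : AA) ^ (a1 + a2) * (∑ χ, F χ * mχ χ) -
        ∑ i, CC i * ∑ b' : Additive D, RR p ψ σ m a1 j n i (b.toMul : G) (b'.toMul : G) ∈
          QN p red K := by
      have h3 : ∑ i, CC i * ∑ b' : Additive D, RR p ψ σ m a1 j n i (b.toMul : G) (b'.toMul : G) =
          ∑ χ, (∑ i, XA p ψ σ m a1 i (b.toMul : G) χ * CC i) * ((p : AA) ^ a * mχ χ) := by
        simp only [hmχ]
        unfold RR
        have h4 : ∀ i, CC i * ∑ b' : Additive D, ∑ χ : Irr G, XA p ψ σ m a1 i (b.toMul : G) χ *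
            Psi j (p ^ n) χ (b'.toMul : G) = ∑ χ : Irr G, (XA p ψ σ m a1 i (b.toMul : G) χ *
              CC i) * ∑ b' : Additive D, Psi j (p ^ n) χ (b'.toMul : G) := by
          intro i
          rw [Finset.sum_comm, Finset.mul_sum]
          refine Finset.sum_congr rfl fun χ _ => ?_
          rw [← Finset.mul_sum]
          ring
        rw [Finset.sum_congr rfl fun i _ => h4 i, Finset.sum_comm]
        exact Finset.sum_congr rfl fun χ _ => by rw [Finset.sum_mul]
      rw [h3, Finset.mul_sum, ← Finset.sum_sub_distrib]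
      refine Ideal.sum_mem _ fun χ _ => ?_
      have h4 : (p : AA) ^ (a1 + a2) * (F χ * mχ χ) -
          (∑ i, XA p ψ σ m a1 i (b.toMul : G) χ * CC i) * ((p : AA) ^ a * mχ χ) =
          (F χ - ∑ i, XA p ψ σ m a1 i (b.toMul : G) χ * CC i) * ((p : AA) ^ a * mχ χ) := by
        rw [hadef]
        ring
      rw [h4]
      exact Ideal.mul_mem_right _ _ (h1.1 χ)
    -- second step
    have h3 : (s : AA) * (∑ i, CC i *
        ∑ b' : Additive D, RR p ψ σ m a1 j n i (b.toMul : G) (b'.toMul : G)) -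
        (p : AA) ^ a1 * ∑ i, CC i * (CC i + (m : AA) * ∑ r, CC r) ∈ QN p red K := by
      rw [Finset.mul_sum, Finset.mul_sum, ← Finset.sum_sub_distrib]
      refine Ideal.sum_mem _ fun i _ => ?_
      have h4 : (s : AA) * (CC i *
          ∑ b' : Additive D, RR p ψ σ m a1 j n i (b.toMul : G) (b'.toMul : G)) -
          (p : AA) ^ a1 * (CC i * (CC i + (m : AA) * ∑ r, CC r)) =
          CC i * ((s : AA) * (∑ b' : Additive D,
            RR p ψ σ m a1 j n i (b.toMul : G) (b'.toMul : G)) -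
            (p : AA) ^ a1 * (CC i + (m : AA) * ∑ r, CC r)) := by ring
      rw [h4]
      exact Ideal.mul_mem_left _ _ (h1.2 i)
    have h4 := add_mem (Ideal.mul_mem_left _ (s : AA) h2) h3
    have h5 : (s : AA) * ((p : AA) ^ (a1 + a2) * (∑ χ, F χ * mχ χ) -
        ∑ i, CC i * ∑ b' : Additive D, RR p ψ σ m a1 j n i (b.toMul : G) (b'.toMul : G)) +
        ((s : AA) * (∑ i, CC i *
          ∑ b' : Additive D, RR p ψ σ m a1 j n i (b.toMul : G) (b'.toMul : G)) -
        (p : AA) ^ a1 * ∑ i, CC i * (CC i + (m : AA) * ∑ r, CC r)) =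
        (s : AA) * ((p : AA) ^ (a1 + a2) * (∑ χ, F χ * mχ χ)) -
        (p : AA) ^ a1 * ∑ i, CC i * (CC i + (m : AA) * ∑ r, CC r) := by ring
    rw [h5] at h4
    exact QN_mono (by omega) h4
  · exact mul_ne_zero he (pow_ne_zero _ (mul_ne_zero h.ne hj2))
  · intro b hb
    exact h.red_CU hl hD hab hp2 j hj1 hj3 n hb.1 hb.2
  · -- the invariance of the sum over the characters
    intro i hi b
    obtain ⟨t, hc1, hc2, hc3⟩ := hexp i hi
    have hF : ∀ χ : Irr G, AvT D (stabT D l) (Psi j (p ^ n) χ) ((i • b).toMul : G) -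
        AvT D (stabT D l) (Psi j (p ^ n) (tw hc1 χ)) (b.toMul : G) ∈ QN p red (L + a) := by
      intro χ
      exact AvT_tw hTN hD hc1 hc2 hi hc3 j hj1 χ b.toMul.2 (L + a) n (by omega)
    have hm' : ∀ χ : Irr G, mχ (tw hc1 χ) - mχ χ ∈ QN p red L := by
      intro χ
      refine mem_QN_of_mul (a := a) ?_
      rw [mul_sub, hmχ, hmχ]
      rw [← Equiv.sum_comp (nsmulCoprime (coprime_card hcardA hi))
        (fun b : Additive D => Psi j (p ^ n) χ (b.toMul : G)), ← Finset.sum_sub_distrib]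
      refine Ideal.sum_mem _ fun b _ => ?_
      rw [← neg_sub]
      exact neg_mem (Psi_tw hD hc1 hc2 hi hc3 j hj1 χ b.toMul.2 (L + a) n (by omega))
    have h1 : ∑ χ : Irr G, AvT D (stabT D l) (Psi j (p ^ n) χ) (b.toMul : G) * mχ χ =
        ∑ χ : Irr G, AvT D (stabT D l) (Psi j (p ^ n) (tw hc1 χ)) (b.toMul : G) *
          mχ (tw hc1 χ) :=
      (Equiv.sum_comp (Equiv.ofBijective _ (tw_bijective hc1)) _).symm
    rw [h1, ← Finset.sum_sub_distrib]
    refine Ideal.sum_mem _ fun χ _ => ?_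
    have h2 : AvT D (stabT D l) (Psi j (p ^ n) χ) ((i • b).toMul : G) * mχ χ -
        AvT D (stabT D l) (Psi j (p ^ n) (tw hc1 χ)) (b.toMul : G) * mχ (tw hc1 χ) =
        (AvT D (stabT D l) (Psi j (p ^ n) χ) ((i • b).toMul : G) -
          AvT D (stabT D l) (Psi j (p ^ n) (tw hc1 χ)) (b.toMul : G)) * mχ χ -
        AvT D (stabT D l) (Psi j (p ^ n) (tw hc1 χ)) (b.toMul : G) *
          (mχ (tw hc1 χ) - mχ χ) := by ring
    rw [h2]
    exact sub_mem (Ideal.mul_mem_right _ _ (QN_mono (by omega) (hF χ)))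
      (Ideal.mul_mem_left _ _ (hm' χ))
  · intro i hi b
    obtain ⟨t, hc1, hc2, hc3⟩ := hexp i hi
    have h1 := AvT_tw (red := red) hTN hD hc1 hc2 hi hc3 j hj1 χ b.toMul.2 L n (by omega)
    have h2 : tw hc1 χ = χ := by
      apply Subtype.ext
      funext g
      have hpow : ∀ t : ℕ, χ.1 (g ^ m₁ ^ t) = χ.1 g := by
        intro t
        induction t with
        | zero => simp
        | succ t ih => rw [pow_succ, pow_mul, hχ, ih]
      exact hpow t
    rw [h2] at h1
    exact h1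

end

end P179H452
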