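import Vale.Agent.P179.R2.H12.Wat2

/-!
# A maximal subgroup of the defect group at which a central element does not vanish
-/

namespace P179H452

open Subgroup Finset P179H524 P179C P179A P179P P179Y P179H12

open scoped Classical

universe u

section Gen

variable {k : Type u} [Field k] {G : Type} [Group G]

theorem cent_bot : centralizer ((⊥ : Subgroup G) : Set G) = ⊤ := by
  rw [eq_top_iff]
  intro x _
  rw [mem_centralizer_iff]
  intro h hh
  rw [Subgroup.mem_bot.1 hh, one_mul, mul_one]

theorem isCF_of_top {z : G → k} (hz : InvOn (centralizer ((⊥ : Subgroup G) : Set G)) z) :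
    IsCF z := fun t x => hz.1 t (by rw [cent_bot]; trivial) x

theorem invOn_top {z : G → k} (hz : IsCF z) : InvOn (centralizer ((⊥ : Subgroup G) : Set G)) z :=
  ⟨fun c _ x => hz c x, fun x hx => absurd (by rw [cent_bot]; trivial) hx⟩

theorem cutC_bot (z : G → k) : cutC (⊥ : Subgroup G) z = z := by
  funext x
  unfold cutC
  rw [if_pos (by rw [cent_bot]; trivial)]

theorem isCF_blk [Finite G] {B : MonoidAlgebra k G} (hB : IsBlock B) :
    IsCF (fun g => B.coeff g) := (P179C.mem_center_iff _).1 hB.1

theorem conv_blk_self [Fintype G] {B : MonoidAlgebra k G} (hB : IsBlock B) :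
    conv (fun g => B.coeff g) (fun g => B.coeff g) = fun g => B.coeff g := by
  have h1 : mkF (conv (fun g => B.coeff g) (fun g => B.coeff g)) = B := by
    rw [mkF_conv, mkF_coeff, hB.2.1]
  funext x
  rw [← coeff_mkF (conv _ _), h1]

theorem conv_comm_cf [Fintype G] {a b : G → k} (ha : IsCF a) : conv a b = conv b a :=
  conv_comm_inv (H := ⊤) (fun h _ x => ha h x) fun _ hx => absurd trivial hx

end Gen

section Blk

variable {k : Type u} [Field k] [IsAlgClosed k] {G : Type} [Group G] [Fintype G]

/-- central idempotents on which the central character does not vanish -/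
theorem conv_blk {B : MonoidAlgebra k G} (hB : IsBlock B) {z : G → k} (hz : IsCF z)
    (hzz : conv z z = z) (h1 : centralChar B (mkF z) ≠ 0) :
    conv z (fun g => B.coeff g) = fun g => B.coeff g := by
  obtain ⟨ν, hν⟩ := blockHomStmt (k := k) (G := G) B hB
  have hEm : mkF z ∈ Subalgebra.center k (MonoidAlgebra k G) := mkF_mem hz
  have hEE : mkF z * mkF z = mkF z := by rw [← mkF_conv, hzz]
  have hc : mkF z * B = B * mkF z := (Subalgebra.mem_center_iff.1 hEm B).symm
  have hid : mkF z * B * (mkF z * B) = mkF z * B := by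
    rw [mul_assoc, ← mul_assoc B (mkF z) B, ← hc, mul_assoc (mkF z) B B, hB.2.1, ← mul_assoc,
      hEE]
  have key : mkF z * B = B := by
    rcases hB.2.2.2 _ (mul_mem hEm hB.1) hid (by rw [mul_assoc, hB.2.1]) with h0 | h0
    · exfalso
      apply h1
      have h2 : ν (⟨mkF z, hEm⟩ * ⟨B, hB.1⟩) = 0 := by
        have : (⟨mkF z, hEm⟩ * ⟨B, hB.1⟩ : Subalgebra.center k (MonoidAlgebra k G)) = 0 :=
          Subtype.ext h0
        rw [this, map_zero]
      rw [map_mul, hν, hν] at h2
      change centralChar B (mkF z) * centralChar B B = 0 at h2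
      rwa [centralChar_self B hB, mul_one] at h2
    · exact h0
  have h3 : mkF (conv z fun g => B.coeff g) = B := by
    rw [mkF_conv, mkF_coeff, key]
  funext x
  rw [← coeff_mkF (conv _ _), h3]

end Blk

section Max

variable {p : ℕ} [hp : Fact p.Prime] {k : Type u} [Field k] [IsAlgClosed k] [CharP k p]
  {G : Type} [Group G] [Fintype G] {D : Subgroup G} {l : (G → k) → k}

omit [IsAlgClosed k] [CharP k p] [Fintype G] [Field k] hp in
theorem cent_le_cent {Q P : Subgroup G} (h : Q ≤ P) :
    centralizer (P : Set G) ≤ centralizer (Q : Set G) :=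
  centralizer_le (SetLike.coe_subset_coe.2 h)

theorem mulHQ (hl : BP p D l) (hD : IsPGroup p D) (hab : D ≤ centralizer (D : Set G))
    {Q : Subgroup G} (hQD : Q ≤ D) : MulH (centralizer (Q : Set G)) l :=
  BP.mulH hl hD hab (cent_le_cent hQD)

/-- the block of `G`, as a block of the centraliser of the trivial group -/
theorem eH_bot (hl : BP p D l) (hD : IsPGroup p D) (hab : D ≤ centralizer (D : Set G))
    {B : MonoidAlgebra k G} (hB : IsBlock B)
    (hlB : ∀ z : G → k, IsCF z → l z = centralChar B (mkF z)) :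
    eH (centralizer ((⊥ : Subgroup G) : Set G)) l = fun g => B.coeff g := by
  have hm := mulHQ hl hD hab (bot_le : (⊥ : Subgroup G) ≤ D)
  have hBCF : IsCF (fun g => B.coeff g) := isCF_blk hB
  have hlB1 : l (fun g => B.coeff g) ≠ 0 := by
    rw [hlB _ hBCF, mkF_coeff, centralChar_self B hB]
    exact one_ne_zero
  have h1 := conv_eH hm (invOn_top hBCF) (conv_blk_self hB) hlB1
  have hbCF : IsCF (eH (centralizer ((⊥ : Subgroup G) : Set G)) l) := isCF_of_top (invOn_eH hm)
  have h2 := conv_blk hB hbCF (eH_idem hm) (by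
    rw [← hlB _ hbCF, l_eH hm]
    exact one_ne_zero)
  rw [← h1, conv_comm_cf hBCF, h2]

/-- **a maximal subgroup of the defect group at which a central element does not vanish** -/
theorem exists_Qmax' (hl : BP p D l) (hD : IsPGroup p D) (hab : D ≤ centralizer (D : Set G))
    {B : MonoidAlgebra k G} (hB : IsBlock B)
    (hlB : ∀ z : G → k, IsCF z → l z = centralChar B (mkF z)) {z : G → k} (hz : IsCF z)
    (hBz : conv (fun g => B.coeff g) z = z) (hz0 : z ≠ 0) :
    ∃ Q : Subgroup G, Q ≤ D ∧ conv (cutC Q z) (eH (centralizer (Q : Set G)) l) ≠ 0 ∧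
      ∀ P : Subgroup G, P ≤ D → Q < P →
        conv (cutC P z) (eH (centralizer (P : Set G)) l) = 0 := by
  -- the subgroups
  let S : Set (Subgroup G) := {Q | Q ≤ D ∧ conv (cutC Q z) (eH (centralizer (Q : Set G)) l) ≠ 0}
  have hbot : (⊥ : Subgroup G) ∈ S := by
    refine ⟨bot_le, ?_⟩
    rw [cutC_bot, eH_bot hl hD hab hB hlB, conv_comm_cf hz, hBz]
    exact hz0
  have hfin : S.Finite := Set.toFinite S
  obtain ⟨Q, hQ, hmax⟩ := hfin.exists_maximal ⟨⊥, hbot⟩
  obtain ⟨hQD, hne⟩ := hQ
  refine ⟨Q, hQD, hne, fun P hPD hQP => ?_⟩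
  by_contra hcon
  have hP : P ∈ S := ⟨hPD, hcon⟩
  exact hQP.not_ge (hmax hP hQP.le)

end Max

end P179H452
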