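import Vale.Agent.P179.R2.H452.G1

/-!
# Graded Watanabe theorem: blocks of `⟨C_G(P), a⟩`, and composition of the restrictions
-/

namespace P179H452

open Subgroup Finset P179H524 P179C P179A P179P P179Y P179H12

open scoped Classical

universe u

section Gen

variable {k : Type u} [Field k] {G : Type} [Group G]

/-- the subgroup fixing a function -/
def fixS (e : G → k) : Subgroup G where
  carrier := {t | P179Y.cj t e = e}
  one_mem' := P179Y.cj_one e
  mul_mem' := by
    intro a b ha hb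
    change P179Y.cj (a * b) e = e
    rw [cj_mul]
    change P179Y.cj a e = e at ha
    change P179Y.cj b e = e at hb
    rw [hb, ha]
  inv_mem' := by
    intro a ha
    change P179Y.cj a e = e at ha
    change P179Y.cj a⁻¹ e = e
    conv_lhs => rw [← ha]
    rw [← cj_mul, inv_mul_cancel, cj_one]

theorem mem_fixS {e : G → k} {t : G} : t ∈ fixS e ↔ P179Y.cj t e = e := Iff.rfl

theorem cut_sup (Q X : Subgroup G) (z : G → k) : cutC X (cutC Q z) = cutC (Q ⊔ X) z := by
  have h : ∀ g, g ∈ centralizer ((Q ⊔ X : Subgroup G) : Set G) ↔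
      g ∈ centralizer (X : Set G) ∧ g ∈ centralizer (Q : Set G) := by
    intro g
    constructor
    · intro hg
      exact ⟨cent_le_cent le_sup_right hg, cent_le_cent le_sup_left hg⟩
    · rintro ⟨h1, h2⟩
      have h3 : Q ⊔ X ≤ centralizer ({g} : Set G) := by
        refine sup_le (fun q hq => ?_) fun q hq => ?_
        · rw [mem_centralizer_singleton_iff]
          exact mem_centralizer_iff.1 h2 q hq
        · rw [mem_centralizer_singleton_iff]
          exact mem_centralizer_iff.1 h1 q hq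
      rw [mem_centralizer_iff]
      intro q hq
      exact mem_centralizer_singleton_iff.1 (h3 hq)
  funext g
  unfold cutC
  by_cases h1 : g ∈ centralizer (X : Set G)
  · by_cases h2 : g ∈ centralizer (Q : Set G)
    · rw [if_pos h1, if_pos h2, if_pos ((h g).2 ⟨h1, h2⟩)]
    · rw [if_pos h1, if_neg h2, if_neg fun h3 => h2 ((h g).1 h3).2]
  · rw [if_neg h1, if_neg fun h3 => h1 ((h g).1 h3).1]

theorem cut_inv {Q X : Subgroup G} (hXQ : X ≤ centralizer (Q : Set G)) {z : G → k}
    (hz : ∀ d ∈ X, ∀ x, z (d * x * d⁻¹) = z x) :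
    ∀ d ∈ X, ∀ x, cutC Q z (d * x * d⁻¹) = cutC Q z x := by
  intro d hd x
  have hdQ := hXQ hd
  unfold cutC
  by_cases h1 : x ∈ centralizer (Q : Set G)
  · rw [if_pos h1, if_pos (mul_mem (mul_mem hdQ h1) (inv_mem hdQ)), hz d hd]
  · rw [if_neg h1, if_neg]
    intro h2
    apply h1
    have h3 := mul_mem (mul_mem (inv_mem hdQ) h2) hdQ
    have e1 : d⁻¹ * (d * x * d⁻¹) * d = x := by group
    rwa [e1] at h3

end Gen

section Main

variable {p : ℕ} [hp : Fact p.Prime] {k : Type u} [Field k] [IsAlgClosed k] [CharP k p]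
  {G : Type} [Group G] [Fintype G] {D : Subgroup G} {l : (G → k) → k}

/-- **(E)** the block of `⟨C_G(P), a⟩` below `l` is the block of `C_G(P)` -/
theorem eH_sup_zpowers (hl : BP p D l) (hD : IsPGroup p D) (hab : D ≤ centralizer (D : Set G))
    {P : Subgroup G} (hPD : P ≤ D) {a : G} (ha : a ∈ stabT D l)
    (haP : a ∈ normalizer (P : Set G)) :
    eH (centralizer (P : Set G) ⊔ zpowers a) l = eH (centralizer (P : Set G)) l := by
  refine eH_up hl hD hab hPD le_sup_left (sup_le (cent_le_norm P) ((zpowers_le).2 haP)) ?_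
  have hmN := mulHQ hl hD hab hPD
  have h1 : centralizer (P : Set G) ⊔ zpowers a ≤ fixS (eH (centralizer (P : Set G)) l) := by
    refine sup_le (fun n hn => ?_) ((zpowers_le).2 ?_)
    · exact cj_eq_of_inv fun x => (invOn_eH hmN).1 n hn x
    · exact cj_eH hl hD hab hPD ha haP
  exact fun h hh => h1 hh

/-- **(F)** composition -/
theorem comp_cut (hl : BP p D l) (hD : IsPGroup p D) (hab : D ≤ centralizer (D : Set G))
    {P Q X : Subgroup G} (hPD : P ≤ D) (hQD : Q ≤ D) (hXD : X ≤ D) {z : G → k}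
    (hz : ∀ m ∈ centralizer (P : Set G), ∀ x, z (m * x * m⁻¹) = z x) :
    conv (cutC X (conv (cutC Q z) (eH (centralizer ((P ⊔ Q : Subgroup G) : Set G)) l)))
        (eH (centralizer ((P ⊔ Q ⊔ X : Subgroup G) : Set G)) l) =
      conv (cutC (Q ⊔ X) z) (eH (centralizer ((P ⊔ Q ⊔ X : Subgroup G) : Set G)) l) := by
  have hPQD : P ⊔ Q ≤ D := sup_le hPD hQD
  have hPQXD : P ⊔ Q ⊔ X ≤ D := sup_le hPQD hXD
  have hXP : X ≤ centralizer (P : Set G) := (hXD.trans hab).trans (cent_le_cent hPD)
  have hXQ : X ≤ centralizer (Q : Set G) := (hXD.trans hab).trans (cent_le_cent hQD)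
  have hXPQ : X ≤ centralizer ((P ⊔ Q : Subgroup G) : Set G) :=
    (hXD.trans hab).trans (cent_le_cent hPQD)
  have hm1 := mulHQ hl hD hab hPQD
  have hinv := invOn_eH hm1
  have hzX : ∀ d ∈ X, ∀ x, z (d * x * d⁻¹) = z x := fun d hd => hz d (hXP hd)
  rw [cutC_conv p (hD.to_le hXD) (cut_inv hXQ hzX) (fun d hd x => hinv.1 d (hXPQ hd) x),
    cut_sup, conv_assoc']
  congr 1
  have h1 : cutC X (eH (centralizer ((P ⊔ Q : Subgroup G) : Set G)) l) =
      cutC (P ⊔ Q ⊔ X) (eH (centralizer ((P ⊔ Q : Subgroup G) : Set G)) l) := by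
    rw [← cut_sup (P ⊔ Q) X, cutC_of_supp hinv.2]
  rw [h1]
  exact cut_eH hl hD hab hPQXD ((hPQXD.trans hab).trans (cent_le_cent hPQD))
    (cent_le_cent le_sup_left)

end Main

end P179H452
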