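import Vale.Agent.P179.R2.H452.W1a
import Vale.Agent.P179.R2.H967.VG

/-!
# Graded Watanabe theorem: one step is injective
-/

namespace P179H452

open Subgroup Finset P179H524 P179C P179A P179P P179Y P179H12 P179H967

open scoped Classical

universe u

section Gen

variable {k : Type u} [Field k] {G : Type} [Group G]

/-- invariance on the coset `a N` -/
theorem mem_fixS_coset {N : Subgroup G} {a : G} (ha : a ∈ normalizer (N : Set G)) {z : G → k}
    (h0 : ∀ h, a⁻¹ * h ∉ N → z h = 0) (hN : ∀ m ∈ N, ∀ h, z (m * h * m⁻¹) = z h) :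
    a ∈ fixS z := by
  have key : ∀ x, z (a * x * a⁻¹) = z x := by
    intro x
    by_cases hx : a⁻¹ * x ∈ N
    · have hxN : x ∈ normalizer (N : Set G) := by
        have h1 := mul_mem ha (le_normalizer hx)
        rwa [mul_inv_cancel_left] at h1
      have h1 : x * (a⁻¹ * x)⁻¹ * x⁻¹ ∈ N := (mem_normalizer_iff.1 hxN _).1 (inv_mem hx)
      rw [← hN _ h1 x]
      congr 1
      group
    · rw [h0 x hx, h0]
      intro h1
      apply hx
      have h2 := (mem_normalizer_iff.1 (inv_mem ha) _).1 h1
      have e1 : a⁻¹ * (a⁻¹ * (a * x * a⁻¹)) * a⁻¹⁻¹ = a⁻¹ * x := by group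
      rwa [e1] at h2
  rw [mem_fixS]
  exact cj_eq_of_inv key

theorem inv_of_fixS {z : G → k} {t : G} (ht : t ∈ fixS z) (x : G) : z (t * x * t⁻¹) = z x := by
  have h1 := congrFun (inv_mem ht : t⁻¹ ∈ fixS z) x
  unfold P179Y.cj at h1
  rwa [inv_inv] at h1

theorem cent_zpowers (x : G) : centralizer ((zpowers x : Subgroup G) : Set G) =
    centralizer {x} := by
  ext g
  rw [mem_centralizer_iff, mem_centralizer_singleton_iff]
  constructor
  · intro h
    exact (h x (mem_zpowers x)).symm
  · rintro h y hy
    obtain ⟨n, rfl⟩ := mem_zpowers_iff.1 hy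
    exact ((show Commute g x from h).zpow_right n).symm.eq

end Gen

section Main

variable {p : ℕ} [hp : Fact p.Prime] {k : Type u} [Field k] [IsAlgClosed k] [CharP k p]
  {G : Type} [Group G] [Fintype G] {D : Subgroup G} {l : (G → k) → k}

/-- `H ∩ C_G(x)` is generated by `C_N(x)` and `a` -/
theorem inf_cent_le {P : Subgroup G} {a x : G} (haP : a ∈ normalizer (P : Set G))
    (hax : a * x = x * a) (haP' : a ∈ normalizer ((P ⊔ zpowers x : Subgroup G) : Set G)) :
    HN (centralizer (P : Set G)) (norm_cent haP) ⊓ centralizer {x} ≤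
      HN (centralizer ((P ⊔ zpowers x : Subgroup G) : Set G)) (norm_cent haP') := by
  rintro h ⟨⟨i, hi⟩, hx⟩
  refine ⟨i, ?_⟩
  rw [cent_sup_eq]
  have ha : a ∈ centralizer ({x} : Set G) := mem_centralizer_singleton_iff.2 hax
  exact mem_inf.2 ⟨hi, mul_mem (inv_mem (zpow_mem ha i)) hx⟩

/-- the blocks in the group `H ∩ C_G(x)` -/
theorem eH_inf (hl : BP p D l) (hD : IsPGroup p D) (hab : D ≤ centralizer (D : Set G))
    {P : Subgroup G} (hPD : P ≤ D) {a x : G} (ha : a ∈ stabT D l)
    (haP : a ∈ normalizer (P : Set G)) (hx : x ∈ D) (hax : a * x = x * a) :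
    eH (HN (centralizer (P : Set G)) (norm_cent haP) ⊓ centralizer {x}) l =
      eH (centralizer ((P ⊔ zpowers x : Subgroup G) : Set G)) l := by
  have hP'D : P ⊔ zpowers x ≤ D := sup_le hPD ((zpowers_le).2 hx)
  have haP' : a ∈ normalizer ((P ⊔ zpowers x : Subgroup G) : Set G) :=
    norm_sup haP (by rw [hax, mul_inv_cancel_right])
  have hm' := mulHQ hl hD hab hP'D
  refine eH_up hl hD hab hP'D ?_ ?_ ?_
  · rw [cent_sup_eq]
    exact inf_le_inf_right _ (le_HN _)
  · exact (inf_cent_le haP hax haP').trans (HN_le _ (cent_le_norm _) haP')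
  · have h1 : HN (centralizer ((P ⊔ zpowers x : Subgroup G) : Set G)) (norm_cent haP') ≤
        fixS (eH (centralizer ((P ⊔ zpowers x : Subgroup G) : Set G)) l) :=
      HN_le _ (fun n hn => cj_eq_of_inv fun x => (invOn_eH hm').1 n hn x)
        (cj_eH hl hD hab hP'D ha haP')
    exact fun h hh => h1 (inf_cent_le haP hax haP' hh)

/-- **one step is injective** -/
theorem step_inj (hl : BP p D l) (hD : IsPGroup p D) (hab : D ≤ centralizer (D : Set G))
    (hT : ¬ p ∣ (centralizer (D : Set G)).relIndex (stabT D l)) {P : Subgroup G}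
    (hPD : P ≤ D) {a : G} (ha : a ∈ stabT D l) (haP : a ∈ normalizer (P : Set G)) {x : G}
    (hx : x ∈ D) (hax : a * x = x * a)
    (hxT : ∀ t ∈ stabT D l, t ∈ centralizer (P : Set G) → t * x = x * t) {z : G → k}
    (hz : z ∈ VG p (centralizer (P : Set G)) (eH (centralizer (P : Set G)) l) a)
    (h0 : conv (cutC (zpowers x) z)
      (eH (centralizer ((P ⊔ zpowers x : Subgroup G) : Set G)) l) = 0) : z = 0 := by
  obtain ⟨hz1, hz2, -, hz4⟩ := mem_VG.1 hz
  set N := centralizer (P : Set G) with hN
  have haN : a ∈ normalizer (N : Set G) := norm_cent haP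
  set H : Subgroup G := HN N haN with hH
  have hNH : N ≤ H := le_HN haN
  have hDN : D ≤ N := hab.trans (cent_le_cent hPD)
  have hCN : centralizer (D : Set G) ≤ N := cent_le_cent hPD
  have hDH : D ≤ H := hDN.trans hNH
  have hCH : centralizer (D : Set G) ≤ H := hCN.trans hNH
  have hmN : MulH N l := mulHQ hl hD hab hPD
  have hmH : MulH H l := BP.mulH hl hD hab hCH
  have heN := invOn_eH hmN
  -- the block of `H`
  obtain ⟨b, hb, hlb, hbe⟩ := eH_spec hmH
  have hHe : eH H l = eH N l := by
    refine eH_up hl hD hab hPD hNH (HN_le haN (cent_le_norm P) haP) ?_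
    have h1 : H ≤ fixS (eH N l) := HN_le haN (fun n hn => cj_eq_of_inv fun y => heN.1 n hn y)
      (cj_eH hl hD hab hPD ha haP)
    exact fun h hh => h1 hh
  have hbN : bF H b = eH N l := hbe.symm.trans hHe
  -- the function
  have hfix : H ≤ fixS z := HN_le haN (fun n hn => cj_eq_of_inv fun y => hz2 n hn y)
    (mem_fixS_coset haN hz1 hz2)
  have hzH : ∀ y, y ∉ H → z y = 0 := fun y hy => hz1 y fun h => hy (coset_mem_HN haN h)
  have hzcf : IsCF (fun h : H => z h) := fun t y => inv_of_fixS (hfix t.2) y
  have hez : conv (eH N l) z = z := by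
    have h1 : conv (eH N l) z = conv z (eH N l) :=
      (conv_comm_inv (H := N) (a := z) (z := eH N l) hz2 heN.2).symm
    rw [h1, hz4]
  have hBz : conv (fun h => b.coeff h) (fun h : H => z h) = fun h : H => z h := by
    have h1 := P179Y.ext_conv H (fun h => b.coeff h) (fun h : H => z h)
    have h2 : P179Y.ext H (fun h => b.coeff h) = eH N l := hbN
    rw [ext_restr' hzH, h2, hez] at h1
    funext h
    rw [← P179Y.ext_coe H (conv (fun h => b.coeff h) (fun h : H => z h)) h, h1]
  have hT' : ¬ p ∣ (centralizer ((D.subgroupOf H : Subgroup H) : Set H)).relIndex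
      (stabT (D.subgroupOf H) (lres H l)) := fun h => hT (h.trans (relIndex_stabT_lres_dvd hDH hCH))
  have hab' : D.subgroupOf H ≤ centralizer ((D.subgroupOf H : Subgroup H) : Set H) := by
    intro d hd
    rw [mem_cent_subgroupOf hDH]
    exact hab (mem_subgroupOf.1 hd)
  have hlow : ∀ w : H → k, IsCF w → lres H l w = centralChar b (mkF w) := by
    intro w hw
    have h1 : InvOn H (P179Y.ext H w) := by
      constructor
      · intro c hc g
        by_cases hg : g ∈ H
        · rw [P179Y.ext_of_mem H w hg, P179Y.ext_of_mem H w (mul_mem (mul_mem hc hg) (inv_mem hc))]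
          exact hw ⟨c, hc⟩ ⟨g, hg⟩
        · rw [P179Y.ext_of_not_mem H w hg, P179Y.ext_of_not_mem H w]
          intro h
          apply hg
          have h2 := mul_mem (mul_mem (inv_mem hc) h) hc
          have e1 : c⁻¹ * (c * g * c⁻¹) * c = g := by group
          rwa [e1] at h2
      · intro g hg
        exact P179Y.ext_of_not_mem H w hg
    have h2 := hlb _ h1
    have h3 : (fun h : H => P179Y.ext H w h) = w := by
      funext h
      rw [P179Y.ext_coe]
    rw [h3] at h2
    exact h2
  have hxc : a * x * a⁻¹ = x := by rw [hax, mul_inv_cancel_right]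
  have hmain : (fun h : H => z h) = 0 := by
    refine inj (hl.restrict hDH hCH) hD.comap_subtype hab' hT' hb hlow
      (x := ⟨x, hDH hx⟩) (mem_subgroupOf.2 hx) ?_ hzcf hBz ?_
    · -- `x` is fixed
      intro t ht
      have ht1 := (mem_stabT_lres hDH hCH t).1 ht
      apply Subtype.ext
      change (t : G) * x * (t : G)⁻¹ = x
      obtain ⟨i, hi⟩ := t.2
      have h1 : (a ^ i)⁻¹ * (t : G) ∈ stabT D l := mul_mem (inv_mem (zpow_mem ha i)) ht1
      have h2 := hxT _ h1 hi
      have h3 : (a ^ i) * x = x * a ^ i := ((show Commute a x from hax).zpow_left i).eq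
      have h4 : (t : G) * x = x * t := by
        calc (t : G) * x = a ^ i * ((a ^ i)⁻¹ * t * x) := by group
          _ = a ^ i * (x * ((a ^ i)⁻¹ * t)) := by rw [h2]
          _ = a ^ i * x * ((a ^ i)⁻¹ * t) := by group
          _ = x * a ^ i * ((a ^ i)⁻¹ * t) := by rw [h3]
          _ = x * t := by group
      rw [h4, mul_inv_cancel_right]
    · -- vanishing
      intro g hg
      have hgx : (g : G) * x = x * g := congrArg Subtype.val hg
      have hmap : (centralizer ({⟨x, hDH hx⟩} : Set H)).map H.subtype =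
          H ⊓ centralizer {x} := by
        ext y
        constructor
        · rintro ⟨y', hy', rfl⟩
          exact mem_inf.2 ⟨y'.2, mem_centralizer_singleton_iff.2
            (congrArg Subtype.val (mem_centralizer_singleton_iff.1 hy'))⟩
        · rintro ⟨hy1, hy2⟩
          refine ⟨⟨y, hy1⟩, ?_, rfl⟩
          refine mem_centralizer_singleton_iff.2 (Subtype.ext ?_)
          exact mem_centralizer_singleton_iff.1 hy2
      have hCx : centralizer (D : Set G) ≤ H ⊓ centralizer {x} :=
        le_inf hCH (cent_le_of_mem hx)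
      have hmx : MulH (H ⊓ centralizer {x}) l := BP.mulH hl hD hab hCx
      have h3 : P179Y.ext H (eH (centralizer ({⟨x, hDH hx⟩} : Set H)) (lres H l)) =
          eH (centralizer ((P ⊔ zpowers x : Subgroup G) : Set G)) l := by
        have h4 := ext_eH (K := H) (H' := centralizer ({⟨x, hDH hx⟩} : Set H)) (l := l)
          (by rw [hmap]; exact hmx)
        rw [h4, hmap]
        exact eH_inf hl hD hab hPD ha haP hx hax
      rw [← P179Y.ext_coe H (conv (fun h : H => z h)
        (eH (centralizer ({⟨x, hDH hx⟩} : Set H)) (lres H l))) g, P179Y.ext_conv,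
        ext_restr' hzH, h3]
      have hP'D : P ⊔ zpowers x ≤ D := sup_le hPD ((zpowers_le).2 hx)
      have he' := invOn_eH (mulHQ hl hD hab hP'D)
      have h5 : conv (cutC (zpowers x) z)
          (eH (centralizer ((P ⊔ zpowers x : Subgroup G) : Set G)) l) (g : G) = 0 :=
        congrFun h0 (g : G)
      refine Eq.trans ?_ h5
      unfold conv
      refine Finset.sum_congr rfl fun y _ => ?_
      by_cases hy : y⁻¹ * (g : G) ∈ centralizer ((P ⊔ zpowers x : Subgroup G) : Set G)
      · have h6 : y ∈ centralizer ({x} : Set G) := by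
          rw [cent_sup_eq] at hy
          have h7 : (g : G) ∈ centralizer ({x} : Set G) :=
            mem_centralizer_singleton_iff.2 hgx
          have h8 := mul_mem h7 (inv_mem hy.2)
          have e1 : (g : G) * (y⁻¹ * g)⁻¹ = y := by group
          rwa [e1] at h8
        rw [← cent_zpowers] at h6
        have h9 : cutC (zpowers x) z y = z y := if_pos h6
        rw [h9]
      · rw [he'.2 _ hy, mul_zero, mul_zero]
  funext y
  by_cases hy : y ∈ H
  · exact congrFun hmain ⟨y, hy⟩
  · exact hzH y hy

end Main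

end P179H452
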